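import Vale.Agent.P028.Restricted

namespace Vale.Agent.P028

open Finset

/-- A mean value bound for products over primes. -/
lemma sum_prod_le (P : Finset ℕ) (hP : ∀ p ∈ P, p.Prime) (g : ℕ → ℝ) (hg : ∀ p ∈ P, 1 ≤ g p)
    (x : ℕ) :
    ∑ n ∈ Finset.Ioc 0 x, ∏ p ∈ P, (if p ∣ n then g p else 1) ≤
      x * ∏ p ∈ P, (1 + (g p - 1) / p) := by
  classical
  induction P using Finset.induction_on generalizing x with
  | empty => simp
  | insert p₀ P hp₀ ih =>
    have hp₀prime : p₀.Prime := hP p₀ (Finset.mem_insert_self _ _)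
    have hPprime : ∀ p ∈ P, p.Prime := fun p hp => hP p (Finset.mem_insert_of_mem hp)
    have hg₀ : 1 ≤ g p₀ := hg p₀ (Finset.mem_insert_self _ _)
    have hgP : ∀ p ∈ P, 1 ≤ g p := fun p hp => hg p (Finset.mem_insert_of_mem hp)
    have hp₀' : (0 : ℝ) < p₀ := by exact_mod_cast hp₀prime.pos
    set Pi0 : ℝ := ∏ p ∈ P, (1 + (g p - 1) / p) with hPi
    have hPi0 : 0 ≤ Pi0 := by
      apply Finset.prod_nonneg
      intro p hp
      have h1 := hgP p hp
      have h2 : (0 : ℝ) ≤ p := Nat.cast_nonneg _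
      have : 0 ≤ (g p - 1) / p := div_nonneg (by linarith) h2
      linarith
    -- splitting the summand
    have hsplit : ∀ n, ∏ p ∈ insert p₀ P, (if p ∣ n then g p else 1) =
        ∏ p ∈ P, (if p ∣ n then g p else 1) +
        (if p₀ ∣ n then (g p₀ - 1) * ∏ p ∈ P, (if p ∣ n then g p else 1) else 0) := by
      intro n
      rw [Finset.prod_insert hp₀]
      split_ifs <;> ring
    simp_rw [hsplit]
    rw [Finset.sum_add_distrib, ← Finset.sum_filter]
    have h1 := ih hPprime hgP x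
    -- the multiples
    have h2 : ∑ n ∈ (Finset.Ioc 0 x).filter (fun n => p₀ ∣ n),
        (g p₀ - 1) * ∏ p ∈ P, (if p ∣ n then g p else 1) ≤
        (g p₀ - 1) * (((x : ℝ) / p₀) * Pi0) := by
      rw [← Finset.mul_sum]
      apply mul_le_mul_of_nonneg_left _ (by linarith)
      have h3 : ∑ n ∈ (Finset.Ioc 0 x).filter (fun n => p₀ ∣ n), ∏ p ∈ P, (if p ∣ n then g p else 1) =
          ∑ m ∈ Finset.Ioc 0 (x / p₀), ∏ p ∈ P, (if p ∣ m then g p else 1) := by
        symm
        apply Finset.sum_bij (fun m _ => p₀ * m)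
        · intro m hm
          obtain ⟨h4, h5⟩ := Finset.mem_Ioc.mp hm
          rw [Finset.mem_filter, Finset.mem_Ioc]
          refine ⟨⟨Nat.mul_pos hp₀prime.pos h4, ?_⟩, Dvd.intro _ rfl⟩
          calc p₀ * m ≤ p₀ * (x / p₀) := Nat.mul_le_mul_left _ h5
            _ ≤ x := Nat.mul_div_le x p₀
        · intro a _ b _ h
          exact Nat.eq_of_mul_eq_mul_left hp₀prime.pos h
        · intro n hn
          obtain ⟨h4, m, rfl⟩ := Finset.mem_filter.mp hn
          obtain ⟨h5, h6⟩ := Finset.mem_Ioc.mp h4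
          refine ⟨m, ?_, rfl⟩
          rw [Finset.mem_Ioc]
          refine ⟨Nat.pos_of_ne_zero (by rintro rfl; simp at h5), ?_⟩
          rw [Nat.le_div_iff_mul_le hp₀prime.pos, mul_comm]
          exact h6
        · intro m _
          apply Finset.prod_congr rfl
          intro p hp
          have hpp := hPprime p hp
          have hne : p ≠ p₀ := fun h => hp₀ (h ▸ hp)
          have h4 : p ∣ p₀ * m ↔ p ∣ m := by
            constructor
            · intro h5
              rcases (Nat.Prime.dvd_mul hpp).mp h5 with h6 | h6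
              · exact absurd ((Nat.prime_dvd_prime_iff_eq hpp hp₀prime).mp h6) hne
              · exact h6
            · exact fun h5 => Dvd.dvd.mul_left h5 _
          simp only [h4]
      rw [h3]
      refine (ih hPprime hgP (x / p₀)).trans ?_
      have h4 : ((x / p₀ : ℕ) : ℝ) ≤ (x : ℝ) / p₀ := Nat.cast_div_le
      gcongr
    rw [Finset.prod_insert hp₀, ← hPi]
    have h5 : (x : ℝ) * ((1 + (g p₀ - 1) / p₀) * Pi0) = x * Pi0 + (g p₀ - 1) * (((x : ℝ) / p₀) * Pi0) := by
      field_simp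
    rw [h5]
    linarith

/-- The divisor sum bound. -/
lemma sum_card_divisors_le (x : ℕ) :
    ∑ n ∈ Finset.Ioc 0 x, ((Nat.divisors n).card : ℝ) ≤ x * (1 + Real.log x) := by
  classical
  have h1 : ∀ n ∈ Finset.Ioc 0 x, ((Nat.divisors n).card : ℝ) =
      ∑ d ∈ Finset.Ioc 0 x, if d ∣ n then (1 : ℝ) else 0 := by
    intro n hn
    obtain ⟨h2, h3⟩ := Finset.mem_Ioc.mp hn
    rw [← Finset.sum_filter, Finset.sum_const, nsmul_eq_mul, mul_one]
    congr 1
    apply congrArg
    ext d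
    simp only [Nat.mem_divisors, Finset.mem_filter, Finset.mem_Ioc]
    constructor
    · rintro ⟨h4, _⟩
      exact ⟨⟨Nat.pos_of_dvd_of_pos h4 h2, (Nat.le_of_dvd h2 h4).trans h3⟩, h4⟩
    · rintro ⟨_, h4⟩
      exact ⟨h4, h2.ne'⟩
  rw [Finset.sum_congr rfl h1, Finset.sum_comm]
  have h2 : ∀ d ∈ Finset.Ioc 0 x, (∑ n ∈ Finset.Ioc 0 x, if d ∣ n then (1 : ℝ) else 0) ≤
      (x : ℝ) * (1 / d) := by
    intro d _
    rw [← Finset.sum_filter, Finset.sum_const, nsmul_eq_mul, mul_one,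
      Nat.Ioc_filter_dvd_card_eq_div]
    have := Nat.cast_div_le (α := ℝ) (m := x) (n := d)
    rw [mul_one_div]
    exact this
  refine (Finset.sum_le_sum h2).trans ?_
  rw [← Finset.mul_sum]
  apply mul_le_mul_of_nonneg_left _ (Nat.cast_nonneg _)
  have h3 := sum_one_div_Icc_le' x
  exact h3
where
  sum_one_div_Icc_le' (S : ℕ) : ∑ n ∈ Finset.Ioc 0 S, (1 : ℝ) / n ≤ 1 + Real.log S := by
    have h := harmonic_le_one_add_log S
    rw [harmonic_eq_sum_Icc] at h
    push_cast at h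
    have h1 : Finset.Ioc 0 S = Finset.Icc 1 S := by
      ext n
      simp only [Finset.mem_Ioc, Finset.mem_Icc]
      omega
    rw [h1]
    simpa [one_div] using h

/-- Few integers have many divisors. -/
lemma card_many_divisors_le (x : ℕ) (T : ℝ) (hT : 0 < T) :
    (((Finset.Ioc 0 x).filter fun n => T < ((Nat.divisors n).card : ℝ)).card : ℝ) * T ≤
      x * (1 + Real.log x) := by
  classical
  refine le_trans ?_ (sum_card_divisors_le x)
  calc _ = ∑ _n ∈ (Finset.Ioc 0 x).filter (fun n => T < ((Nat.divisors n).card : ℝ)), T := by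
        rw [Finset.sum_const, nsmul_eq_mul]
    _ ≤ ∑ n ∈ (Finset.Ioc 0 x).filter (fun n => T < ((Nat.divisors n).card : ℝ)),
          ((Nat.divisors n).card : ℝ) :=
        Finset.sum_le_sum fun n hn => (Finset.mem_filter.mp hn).2.le
    _ ≤ _ := Finset.sum_le_sum_of_subset_of_nonneg (Finset.filter_subset _ _)
        fun _ _ _ => Nat.cast_nonneg _

/-- Few integers are divisible by many large primes: the exponential moment. -/
lemma card_large_primes_le (x z : ℕ) (hz : 1 ≤ z) :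
    (((Finset.Ioc 0 x).filter fun n : ℕ =>
        (1 / 2 : ℝ) < ∑ p ∈ n.primeFactors.filter (fun p : ℕ => z < p), (1 : ℝ) / p).card : ℝ) *
      Real.exp ((z : ℝ) / 2) ≤ x * Real.exp 2 := by
  classical
  have hz' : (0 : ℝ) < z := by exact_mod_cast hz
  set P := (Finset.Ioc z x).filter Nat.Prime with hP
  have hPprime : ∀ p ∈ P, p.Prime := fun p hp => (Finset.mem_filter.mp hp).2
  let g : ℕ → ℝ := fun p => Real.exp ((z : ℝ) / p)
  have hg1 : ∀ p ∈ P, 1 ≤ g p := fun p _ => Real.one_le_exp (by positivity)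
  have hmain := sum_prod_le P hPprime g hg1 x
  -- product bound
  have hprod : ∏ p ∈ P, (1 + (g p - 1) / p) ≤ Real.exp 2 := by
    have h1 : ∀ p ∈ P, 1 + (g p - 1) / p ≤ Real.exp (2 * (z : ℝ) * (((p : ℝ) ^ 2)⁻¹)) := by
      intro p hp
      obtain ⟨h2, h3⟩ := Finset.mem_filter.mp hp
      obtain ⟨h4, _⟩ := Finset.mem_Ioc.mp h2
      have hp0 : (0 : ℝ) < p := by exact_mod_cast h3.pos
      have hzp : (z : ℝ) / p ≤ 1 := by
        rw [div_le_one hp0]
        exact_mod_cast h4.le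
      have hzp0 : 0 ≤ (z : ℝ) / p := by positivity
      have h5 := Real.abs_exp_sub_one_le (x := (z : ℝ) / p) (by rwa [abs_of_nonneg hzp0])
      rw [abs_of_nonneg hzp0] at h5
      have h6 : g p - 1 ≤ 2 * ((z : ℝ) / p) := (le_abs_self _).trans h5
      have h7 : (g p - 1) / p ≤ 2 * (z : ℝ) * (((p : ℝ) ^ 2)⁻¹) := by
        rw [div_le_iff₀ hp0]
        calc g p - 1 ≤ 2 * ((z : ℝ) / p) := h6
          _ = _ := by field_simp
      have h8 := Real.add_one_le_exp (2 * (z : ℝ) * (((p : ℝ) ^ 2)⁻¹))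
      linarith
    have h2 : ∀ p ∈ P, 0 ≤ 1 + (g p - 1) / p := by
      intro p hp
      have h3 := hg1 p hp
      have h4 : (0 : ℝ) ≤ p := Nat.cast_nonneg _
      have : 0 ≤ (g p - 1) / p := div_nonneg (by linarith) h4
      linarith
    refine (Finset.prod_le_prod h2 h1).trans ?_
    rw [← Real.exp_sum]
    apply Real.exp_le_exp.mpr
    rw [← Finset.mul_sum]
    by_cases hzx : z ≤ x
    · have h3 : ∑ p ∈ P, (((p : ℝ) ^ 2)⁻¹) ≤ ∑ p ∈ Finset.Ioc z x, (((p : ℝ) ^ 2)⁻¹) :=
        Finset.sum_le_sum_of_subset_of_nonneg (Finset.filter_subset _ _) fun _ _ _ => by positivity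
      have h4 := sum_Ioc_inv_sq_le_sub (α := ℝ) (k := z) (n := x) (by omega) hzx
      have h5 : (0 : ℝ) ≤ ((x : ℝ))⁻¹ := by positivity
      have h6 : ∑ p ∈ P, (((p : ℝ) ^ 2)⁻¹) ≤ ((z : ℝ))⁻¹ := by linarith
      calc 2 * (z : ℝ) * _ ≤ 2 * (z : ℝ) * ((z : ℝ))⁻¹ := by gcongr
        _ = 2 := by field_simp
    · have h3 : P = ∅ := by
        rw [hP, Finset.Ioc_eq_empty_of_le (by omega)]
        simp
      rw [h3]
      simp
  -- the moment
  have hmoment : ∀ n ∈ Finset.Ioc 0 x, Real.exp ((z : ℝ) *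
      ∑ p ∈ (n.primeFactors.filter (fun p : ℕ => z < p) : Finset ℕ), (1 : ℝ) / p) =
      ∏ p ∈ P, (if p ∣ n then g p else 1) := by
    intro n hn
    obtain ⟨h1, h2⟩ := Finset.mem_Ioc.mp hn
    rw [Finset.mul_sum, Real.exp_sum]
    have h3 : n.primeFactors.filter (fun p : ℕ => z < p) = P.filter (fun p => p ∣ n) := by
      ext p
      simp only [Finset.mem_filter, Nat.mem_primeFactors, hP, Finset.mem_Ioc]
      constructor
      · rintro ⟨⟨h4, h5, _⟩, h6⟩
        exact ⟨⟨⟨h6, (Nat.le_of_dvd h1 h5).trans h2⟩, h4⟩, h5⟩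
      · rintro ⟨⟨⟨h4, _⟩, h5⟩, h6⟩
        exact ⟨⟨h5, h6, h1.ne'⟩, h4⟩
    rw [h3, Finset.prod_filter]
    apply Finset.prod_congr rfl
    intro p _
    split_ifs
    · simp only [g]
      congr 1
      ring
    · rfl
  set B := (Finset.Ioc 0 x).filter fun n : ℕ =>
        (1 / 2 : ℝ) < ∑ p ∈ n.primeFactors.filter (fun p : ℕ => z < p), (1 : ℝ) / p with hB
  calc (B.card : ℝ) * Real.exp ((z : ℝ) / 2)
      = ∑ _n ∈ B, Real.exp ((z : ℝ) / 2) := by rw [Finset.sum_const, nsmul_eq_mul]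
    _ ≤ ∑ n ∈ B, ∏ p ∈ P, (if p ∣ n then g p else 1) := by
        apply Finset.sum_le_sum
        intro n hn
        obtain ⟨h1, h2⟩ := Finset.mem_filter.mp hn
        rw [← hmoment n h1]
        apply Real.exp_le_exp.mpr
        have : (z : ℝ) * (1 / 2) ≤ (z : ℝ) * ∑ p ∈ (n.primeFactors.filter (fun p : ℕ => z < p) : Finset ℕ), (1 : ℝ) / p := by
          gcongr
        linarith
    _ ≤ ∑ n ∈ Finset.Ioc 0 x, ∏ p ∈ P, (if p ∣ n then g p else 1) := by
        apply Finset.sum_le_sum_of_subset_of_nonneg (Finset.filter_subset _ _)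
        intro n _ _
        apply Finset.prod_nonneg
        intro p _
        split_ifs
        · exact (Real.exp_pos _).le
        · exact zero_le_one
    _ ≤ x * ∏ p ∈ P, (1 + (g p - 1) / p) := hmain
    _ ≤ x * Real.exp 2 := by gcongr

/-- The totient density as a product. -/
lemma totient_div_eq_prod {n : ℕ} (hn : n ≠ 0) :
    (Nat.totient n : ℝ) / n = ∏ p ∈ n.primeFactors, (1 - (1 : ℝ) / p) := by
  have h := Nat.totient_eq_mul_prod_factors n
  have h2 : ((Nat.totient n : ℚ) : ℝ) = ((n : ℚ) * ∏ p ∈ n.primeFactors, (1 - (p : ℚ)⁻¹) : ℚ) := by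
    rw [h]
  push_cast at h2
  have hn' : (n : ℝ) ≠ 0 := by exact_mod_cast hn
  rw [h2]
  field_simp

lemma prod_Icc_one_sub (z : ℕ) (hz : 1 ≤ z) :
    ∏ n ∈ Finset.Icc 2 z, (1 - (1 : ℝ) / n) = 1 / z := by
  induction z, hz using Nat.le_induction with
  | base => simp
  | succ z hz ih =>
    rw [Finset.prod_Icc_succ_top (by omega), ih]
    have hz' : (0 : ℝ) < z := by exact_mod_cast hz
    push_cast
    field_simp
    ring

/-- Product over a set of primes at most `z`. -/
lemma one_div_le_prod {s : Finset ℕ} {z : ℕ} (hz : 1 ≤ z) (hs : ∀ p ∈ s, p.Prime ∧ p ≤ z) :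
    (1 : ℝ) / z ≤ ∏ p ∈ s, (1 - (1 : ℝ) / p) := by
  rw [← prod_Icc_one_sub z hz]
  apply Finset.prod_le_prod_of_subset_of_le_one
  · intro p hp
    obtain ⟨h1, h2⟩ := hs p hp
    exact Finset.mem_Icc.mpr ⟨h1.two_le, h2⟩
  · intro n hn
    have h1 := (Finset.mem_Icc.mp hn).1
    have h2 : (1 : ℝ) ≤ n := by
      have : 1 ≤ n := by omega
      exact_mod_cast this
    have h3 : (1 : ℝ) / n ≤ 1 := by
      rw [div_le_one (by linarith)]; exact h2
    linarith
  · intro n hn _
    have h1 := (Finset.mem_Icc.mp hn).1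
    have h2 : (0 : ℝ) ≤ (1 : ℝ) / n := by positivity
    linarith

/-- The sieve density is at least `1 / z`. -/
lemma one_div_le_Dz {q B z : ℕ} (hz : 1 ≤ z) : (1 : ℝ) / z ≤ Dz q B z := by
  unfold Dz
  rw [totient_div_eq_prod (Qz_pos q B z).ne']
  apply one_div_le_prod hz
  intro p hp
  unfold Qz at hp
  rw [Nat.primeFactors_prod (fun p hp => Nat.prime_of_mem_primeFactors (Finset.mem_of_mem_filter p hp))] at hp
  obtain ⟨h1, h2, _⟩ := Finset.mem_filter.mp hp
  exact ⟨Nat.prime_of_mem_primeFactors h1, h2⟩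

/-- The sieve density is at least the totient density. -/
lemma totient_div_le_Dz {q : ℕ} (hq : q ≠ 0) (B z : ℕ) : (Nat.totient q : ℝ) / q ≤ Dz q B z := by
  unfold Dz
  rw [totient_div_eq_prod (Qz_pos q B z).ne', totient_div_eq_prod hq]
  unfold Qz
  rw [Nat.primeFactors_prod (fun p hp => Nat.prime_of_mem_primeFactors (Finset.mem_of_mem_filter p hp))]
  apply Finset.prod_le_prod_of_subset_of_le_one (Finset.filter_subset _ _)
  · intro p hp
    have h1 := (Nat.prime_of_mem_primeFactors hp).two_le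
    have h2 : (1 : ℝ) ≤ p := by
      have : 1 ≤ p := by omega
      exact_mod_cast this
    have h3 : (1 : ℝ) / p ≤ 1 := by
      rw [div_le_one (by linarith)]; exact h2
    linarith
  · intro p _ _
    have h2 : (0 : ℝ) ≤ (1 : ℝ) / p := by positivity
    linarith

/-- Weierstrass product inequality. -/
lemma one_sub_sum_le_prod {ι : Type*} (s : Finset ι) (x : ι → ℝ) (h0 : ∀ i ∈ s, 0 ≤ x i)
    (h1 : ∀ i ∈ s, x i ≤ 1) : 1 - ∑ i ∈ s, x i ≤ ∏ i ∈ s, (1 - x i) := by
  classical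
  induction s using Finset.induction_on with
  | empty => simp
  | insert a s ha ih =>
    rw [Finset.sum_insert ha, Finset.prod_insert ha]
    have h2 := ih (fun i hi => h0 i (Finset.mem_insert_of_mem hi))
      (fun i hi => h1 i (Finset.mem_insert_of_mem hi))
    have h3 := h0 a (Finset.mem_insert_self _ _)
    have h4 := h1 a (Finset.mem_insert_self _ _)
    have h5 : 0 ≤ ∏ i ∈ s, (1 - x i) := Finset.prod_nonneg fun i hi => by
      have := h1 i (Finset.mem_insert_of_mem hi)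
      linarith
    have h6 : 0 ≤ ∑ i ∈ s, x i := Finset.sum_nonneg fun i hi => h0 i (Finset.mem_insert_of_mem hi)
    nlinarith

/-- Lower bound for the totient density from the large prime condition. -/
lemma totient_div_ge {r z : ℕ} (hr : r ≠ 0) (hz : 1 ≤ z)
    (hT : ∑ p ∈ r.primeFactors.filter (fun p : ℕ => z < p), (1 : ℝ) / p ≤ 1 / 2) :
    (1 : ℝ) / (2 * z) ≤ (Nat.totient r : ℝ) / r := by
  classical
  rw [totient_div_eq_prod hr]
  rw [← Finset.prod_filter_mul_prod_filter_not r.primeFactors (fun p : ℕ => z < p)]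
  have h1 : (1 : ℝ) / 2 ≤ ∏ p ∈ r.primeFactors.filter (fun p : ℕ => z < p), (1 - (1 : ℝ) / p) := by
    have h2 := one_sub_sum_le_prod (r.primeFactors.filter (fun p : ℕ => z < p)) (fun p => (1 : ℝ) / p)
      (fun p _ => by positivity) (fun p hp => by
        have h3 := Nat.prime_of_mem_primeFactors (Finset.mem_of_mem_filter p hp)
        have h4 : (1 : ℝ) ≤ p := by
          have : 1 ≤ p := h3.pos
          exact_mod_cast this
        rw [div_le_one (by linarith)]
        exact h4)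
    linarith
  have h3 : (1 : ℝ) / z ≤ ∏ p ∈ r.primeFactors.filter (fun p : ℕ => ¬ z < p), (1 - (1 : ℝ) / p) := by
    apply one_div_le_prod hz
    intro p hp
    obtain ⟨h4, h5⟩ := Finset.mem_filter.mp hp
    exact ⟨Nat.prime_of_mem_primeFactors h4, not_lt.mp h5⟩
  have hz' : (0 : ℝ) < z := by exact_mod_cast hz
  calc (1 : ℝ) / (2 * z) = (1 / 2) * (1 / z) := by field_simp
    _ ≤ _ := by gcongr

/-- The sum of divisors against the totient. -/
lemma sum_divisors_mul_totient_le (n : ℕ) (hn : n ≠ 0) :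
    ((∑ d ∈ n.divisors, d : ℕ) : ℝ) * Nat.totient n ≤ (n : ℝ) ^ 2 := by
  induction n using Nat.recOnPosPrimePosCoprime with
  | prime_pow p k hp hk =>
    have hp' : (1 : ℝ) ≤ p := by exact_mod_cast hp.one_lt.le
    rw [Nat.sum_divisors_prime_pow hp, Nat.totient_prime_pow hp hk]
    push_cast
    have hpp : (1 : ℝ) < p := by exact_mod_cast hp.one_lt
    have h1 : (∑ i ∈ Finset.range (k + 1), (p : ℝ) ^ i) * ((p : ℝ) - 1) = (p : ℝ) ^ (k + 1) - 1 :=
      geom_sum_mul _ _
    have h2 : ((p - 1 : ℕ) : ℝ) = (p : ℝ) - 1 := by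
      rw [Nat.cast_sub hp.one_lt.le]; simp
    rw [h2]
    have h3 : (∑ i ∈ Finset.range (k + 1), (p : ℝ) ^ i) * ((p : ℝ) ^ (k - 1) * ((p : ℝ) - 1)) =
        ((p : ℝ) ^ (k + 1) - 1) * (p : ℝ) ^ (k - 1) := by
      rw [← h1]; ring
    rw [h3]
    have h4 : (p : ℝ) ^ (k + 1) * (p : ℝ) ^ (k - 1) = ((p : ℝ) ^ k) ^ 2 := by
      rw [← pow_add, ← pow_mul]
      congr 1
      omega
    have h5 : (0 : ℝ) ≤ (p : ℝ) ^ (k - 1) := by positivity
    rw [← h4]
    nlinarith
  | zero => exact absurd rfl hn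
  | one => simp
  | coprime a b ha hb hab iha ihb =>
    rw [Nat.Coprime.sum_divisors_mul hab, Nat.totient_mul hab]
    have h1 := iha (by omega)
    have h2 := ihb (by omega)
    push_cast at h1 h2 ⊢
    have h3 : (0 : ℝ) ≤ ∑ d ∈ a.divisors, (d : ℝ) := by positivity
    have h4 : (0 : ℝ) ≤ ∑ d ∈ b.divisors, (d : ℝ) := by positivity
    calc _ = ((∑ d ∈ a.divisors, (d : ℝ)) * Nat.totient a) * ((∑ d ∈ b.divisors, (d : ℝ)) * Nat.totient b) := by
          ring
      _ ≤ (a : ℝ) ^ 2 * (b : ℝ) ^ 2 := by gcongr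
      _ = _ := by ring

/-- Sum of reciprocals of the divisors. -/
lemma sum_one_div_divisors_le {r z : ℕ} (hr : r ≠ 0) (hz : 1 ≤ z)
    (hT : ∑ p ∈ r.primeFactors.filter (fun p : ℕ => z < p), (1 : ℝ) / p ≤ 1 / 2) :
    ∑ g ∈ r.divisors, (1 : ℝ) / g ≤ 2 * z := by
  have hr' : (0 : ℝ) < r := by exact_mod_cast Nat.pos_of_ne_zero hr
  have hz' : (0 : ℝ) < z := by exact_mod_cast hz
  have h1 : ∑ g ∈ r.divisors, (1 : ℝ) / g = ((∑ d ∈ r.divisors, d : ℕ) : ℝ) / r := by
    push_cast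
    rw [← Nat.sum_div_divisors r (fun d => (d : ℝ)), Finset.sum_div]
    apply Finset.sum_congr rfl
    intro d hd
    have hdr := Nat.dvd_of_mem_divisors hd
    have hd0 : 0 < d := Nat.pos_of_mem_divisors hd
    have hd' : (0 : ℝ) < d := by exact_mod_cast hd0
    rw [Nat.cast_div hdr hd'.ne']
    field_simp
  have h2 := sum_divisors_mul_totient_le r hr
  have h3 := totient_div_ge hr hz hT
  set S : ℝ := ((∑ d ∈ r.divisors, d : ℕ) : ℝ) with hS
  have hS0 : 0 ≤ S := Nat.cast_nonneg _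
  rw [h1]
  have h4 : (1 : ℝ) / (2 * z) * (S / r) ≤ (Nat.totient r : ℝ) / r * (S / r) := by gcongr
  have h5 : (Nat.totient r : ℝ) / r * (S / r) ≤ 1 := by
    have : (Nat.totient r : ℝ) / r * (S / r) = (S * Nat.totient r) / (r : ℝ) ^ 2 := by
      field_simp
    rw [this, div_le_one (by positivity)]
    exact h2
  have h6 : (1 : ℝ) / (2 * z) * (S / r) ≤ 1 := h4.trans h5
  have h7 : (1 : ℝ) / (2 * z) * (S / r) = (S / r) / (2 * z) := by ring
  rw [h7, div_le_one (by positivity)] at h6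
  exact h6

end Vale.Agent.P028
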