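import Mathlib

open MeasureTheory Set Filter Topology
open scoped ENNReal

namespace Vale.Agent.P028

/-- Approximation set `{x | ∃ a, |q x - a - γ| < ρ}`. -/
def E (γ ρ : ℝ) (q : ℕ) : Set ℝ := {x | ∃ a : ℤ, |(q : ℝ) * x - a - γ| < ρ}

/-- One interval of the approximation set. -/
def piece (γ ρ : ℝ) (q : ℕ) (a : ℤ) : Set ℝ := {x | |(q : ℝ) * x - a - γ| < ρ}

lemma E_eq_iUnion (γ ρ : ℝ) (q : ℕ) : E γ ρ q = ⋃ a : ℤ, piece γ ρ q a := by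
  ext x; simp [E, piece]

lemma isOpen_piece (γ ρ : ℝ) (q : ℕ) (a : ℤ) : IsOpen (piece γ ρ q a) := by
  have : Continuous fun x : ℝ => |(q : ℝ) * x - a - γ| := by fun_prop
  exact isOpen_lt this continuous_const

lemma isOpen_E (γ ρ : ℝ) (q : ℕ) : IsOpen (E γ ρ q) := by
  rw [E_eq_iUnion]; exact isOpen_iUnion fun a => isOpen_piece γ ρ q a

lemma mem_piece_iff {γ ρ : ℝ} {q : ℕ} (hq : 0 < q) {a : ℤ} {x : ℝ} :
    x ∈ piece γ ρ q a ↔ |x - (a + γ) / q| < ρ / q := by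
  have hq' : (0 : ℝ) < q := by exact_mod_cast hq
  have : (q : ℝ) * x - a - γ = q * (x - (a + γ) / q) := by field_simp; ring
  show |(q : ℝ) * x - a - γ| < ρ ↔ _
  rw [this, abs_mul, abs_of_pos hq', lt_div_iff₀ hq', mul_comm]

lemma piece_eq_Ioo {γ ρ : ℝ} {q : ℕ} (hq : 0 < q) (a : ℤ) :
    piece γ ρ q a = Ioo ((a + γ) / q - ρ / q) ((a + γ) / q + ρ / q) := by
  ext x
  rw [mem_piece_iff hq, abs_lt, mem_Ioo]
  constructor
  · rintro ⟨h1, h2⟩; constructor <;> linarith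
  · rintro ⟨h1, h2⟩; constructor <;> linarith

lemma volume_piece {γ ρ : ℝ} {q : ℕ} (hq : 0 < q) (a : ℤ) :
    volume (piece γ ρ q a) = ENNReal.ofReal (2 * (ρ / q)) := by
  rw [piece_eq_Ioo hq, Real.volume_Ioo]
  congr 1; ring

/-- number of integers in a closed real interval, upper bound -/
lemma card_Icc_ceil_floor_le {x y : ℝ} (h : x ≤ y) :
    ((Finset.Icc ⌈x⌉ ⌊y⌋).card : ℝ) ≤ y - x + 1 := by
  rw [Int.card_Icc]
  have h1 : (⌊y⌋ : ℝ) ≤ y := Int.floor_le y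
  have h2 : x ≤ (⌈x⌉ : ℝ) := Int.le_ceil x
  by_cases hn : 0 ≤ ⌊y⌋ + 1 - ⌈x⌉
  · have h3 : (((⌊y⌋ + 1 - ⌈x⌉).toNat : ℕ) : ℝ) = ((⌊y⌋ + 1 - ⌈x⌉ : ℤ) : ℝ) := by
      have := Int.toNat_of_nonneg hn
      exact_mod_cast this
    rw [h3]; push_cast; linarith
  · have : (⌊y⌋ + 1 - ⌈x⌉).toNat = 0 := by omega
    rw [this]; simp; linarith

/-- number of integers in a closed real interval, lower bound -/
lemma lt_card_Icc_ceil_floor {x y : ℝ} (h : x ≤ y) :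
    y - x - 1 ≤ ((Finset.Icc ⌈x⌉ ⌊y⌋).card : ℝ) := by
  rw [Int.card_Icc]
  have h1 : y - 1 < (⌊y⌋ : ℝ) := Int.sub_one_lt_floor y
  have h2 : (⌈x⌉ : ℝ) < x + 1 := Int.ceil_lt_add_one x
  by_cases hn : 0 ≤ ⌊y⌋ + 1 - ⌈x⌉
  · have h3 : (((⌊y⌋ + 1 - ⌈x⌉).toNat : ℕ) : ℝ) = ((⌊y⌋ + 1 - ⌈x⌉ : ℤ) : ℝ) := by
      have := Int.toNat_of_nonneg hn
      exact_mod_cast this
    rw [h3]; push_cast; linarith
  · have h4 : ⌊y⌋ + 1 - ⌈x⌉ < 0 := not_le.mp hn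
    have h5 : ((⌊y⌋ + 1 - ⌈x⌉ : ℤ) : ℝ) < 0 := by exact_mod_cast h4
    push_cast at h5
    have : (0 : ℝ) ≤ (((⌊y⌋ + 1 - ⌈x⌉).toNat : ℕ) : ℝ) := Nat.cast_nonneg _
    linarith

/-- A finite set of integers in `[lo, hi]`, pairwise congruent mod `m`, has at most
`(hi - lo)/m + 1` elements. -/
lemma card_congr_le (F : Finset ℤ) (lo hi : ℤ) (m : ℕ) (hm : 0 < m) (hlh : lo ≤ hi)
    (hF : ∀ a ∈ F, lo ≤ a ∧ a ≤ hi) (hc : ∀ a ∈ F, ∀ b ∈ F, (m : ℤ) ∣ a - b) :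
    (F.card : ℝ) ≤ ((hi : ℝ) - lo) / m + 1 := by
  have hm' : (0 : ℤ) < m := by exact_mod_cast hm
  have hmR : (0 : ℝ) < m := by exact_mod_cast hm
  set Q : ℤ := (hi - lo) / m with hQ
  have hQ0 : 0 ≤ Q := Int.ediv_nonneg (by omega) hm'.le
  have hinj : Set.InjOn (fun a : ℤ => (a - lo) / (m : ℤ)) F := by
    intro a ha b hb hab
    simp only at hab
    obtain ⟨t, ht⟩ := hc a ha b hb
    have h1 : a - lo = (m : ℤ) * ((a - lo) / m) + (a - lo) % m :=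
      (Int.mul_ediv_add_emod _ _).symm
    have h2 : b - lo = (m : ℤ) * ((b - lo) / m) + (b - lo) % m :=
      (Int.mul_ediv_add_emod _ _).symm
    have h3 : (a - lo) % m = (b - lo) % m := by
      have : a - lo = b - lo + (m : ℤ) * t := by linarith
      rw [this, Int.add_mul_emod_self_left]
    have : a - lo = b - lo := by rw [h1, h2, hab, h3]
    omega
  have hmaps : ∀ a ∈ F, (fun a : ℤ => (a - lo) / (m : ℤ)) a ∈ Finset.Icc (0 : ℤ) Q := by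
    intro a ha
    obtain ⟨h1, h2⟩ := hF a ha
    simp only [Finset.mem_Icc]
    exact ⟨Int.ediv_nonneg (by omega) hm'.le, Int.ediv_le_ediv hm' (by omega)⟩
  have hcard := Finset.card_le_card_of_injOn _ hmaps hinj
  rw [Int.card_Icc] at hcard
  have h4 : (F.card : ℤ) ≤ Q + 1 := by
    have : (F.card : ℤ) ≤ ((Q + 1 - 0).toNat : ℤ) := by exact_mod_cast hcard
    rwa [Int.toNat_of_nonneg (by omega), sub_zero] at this
  have h5 : (F.card : ℝ) ≤ (Q : ℝ) + 1 := by exact_mod_cast h4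
  have h6 : (Q : ℝ) * m ≤ (hi : ℝ) - lo := by
    have : Q * (m : ℤ) ≤ hi - lo := Int.ediv_mul_le _ hm'.ne'
    exact_mod_cast this
  have h7 : (Q : ℝ) ≤ ((hi : ℝ) - lo) / m := by
    rw [le_div_iff₀ hmR]; exact h6
  linarith

end Vale.Agent.P028
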