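import Vale.Agent.P028.Basic

namespace Vale.Agent.P028

/-- `h` is a near-return of multiples of `γ` to the integers, at precision `δ`. -/
def Near (γ δ : ℝ) (h : ℤ) : Prop := ∃ n : ℤ, |(n : ℝ) + γ * h| < δ

/-- A set of `s`-separated points of `(-δ, δ)` has at most `2 δ / s + 1` elements. -/
lemma card_le_of_separated {S : Finset ℤ} {y : ℤ → ℝ} {δ s : ℝ} (hs : 0 < s) (hδ : 0 ≤ δ)
    (hy : ∀ h ∈ S, |y h| < δ) (hsep : ∀ h ∈ S, ∀ h' ∈ S, h ≠ h' → s ≤ |y h - y h'|) :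
    (S.card : ℝ) ≤ 2 * δ / s + 1 := by
  have hmaps : ∀ h ∈ S, ⌊(y h + δ) / s⌋ ∈ Finset.Icc (0 : ℤ) ⌊2 * δ / s⌋ := by
    intro h hh
    obtain ⟨h1, h2⟩ := abs_lt.mp (hy h hh)
    rw [Finset.mem_Icc]
    constructor
    · apply Int.floor_nonneg.mpr
      apply div_nonneg _ hs.le
      linarith
    · apply Int.floor_le_floor
      apply div_le_div_of_nonneg_right _ hs.le
      linarith
  have hinj : Set.InjOn (fun h => ⌊(y h + δ) / s⌋) S := by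
    intro a ha b hb hab
    by_contra hne
    have h1 := hsep a ha b hb hne
    have h2 : |(y a + δ) / s - (y b + δ) / s| < 1 :=
      Int.abs_sub_lt_one_of_floor_eq_floor hab
    have h3 : (y a + δ) / s - (y b + δ) / s = (y a - y b) / s := by ring
    rw [h3, abs_div, abs_of_pos hs, div_lt_one hs] at h2
    linarith
  have hcard := Finset.card_le_card_of_injOn _ hmaps hinj
  rw [Int.card_Icc] at hcard
  have hn : 0 ≤ ⌊2 * δ / s⌋ := Int.floor_nonneg.mpr (by positivity)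
  have h4 : (S.card : ℤ) ≤ ⌊2 * δ / s⌋ + 1 := by
    have : (S.card : ℤ) ≤ ((⌊2 * δ / s⌋ + 1 - 0).toNat : ℤ) := by exact_mod_cast hcard
    rwa [Int.toNat_of_nonneg (by omega), sub_zero] at this
  have h5 : (S.card : ℝ) ≤ (⌊2 * δ / s⌋ : ℝ) + 1 := by exact_mod_cast h4
  have h6 := Int.floor_le (2 * δ / s)
  linarith

/-- Splitting an interval into blocks. -/
lemma card_le_of_blocks (S : Finset ℤ) (c : ℤ) (len ℓ₁ : ℕ) (hℓ : 0 < ℓ₁) (κ : ℝ) (hκ : 0 ≤ κ)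
    (hS : ∀ h ∈ S, c ≤ h ∧ h < c + len)
    (hblock : ∀ T ⊆ S, (∀ h ∈ T, ∀ h' ∈ T, |h - h'| < ℓ₁) → (T.card : ℝ) ≤ κ) :
    (S.card : ℝ) ≤ ((len : ℝ) / ℓ₁ + 1) * κ := by
  classical
  have hℓ' : (0 : ℤ) < ℓ₁ := by exact_mod_cast hℓ
  have hℓR : (0 : ℝ) < ℓ₁ := by exact_mod_cast hℓ
  set Q : ℤ := (len : ℤ) / ℓ₁ with hQ
  have hQ0 : 0 ≤ Q := Int.ediv_nonneg (by positivity) hℓ'.le
  let f : ℤ → ℤ := fun h => (h - c) / ℓ₁
  have hmaps : ∀ h ∈ S, f h ∈ Finset.Icc (0 : ℤ) Q := by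
    intro h hh
    obtain ⟨h1, h2⟩ := hS h hh
    rw [Finset.mem_Icc]
    exact ⟨Int.ediv_nonneg (by omega) hℓ'.le, Int.ediv_le_ediv hℓ' (by omega)⟩
  have hfib : ∀ i ∈ Finset.Icc (0 : ℤ) Q, ((S.filter fun h => f h = i).card : ℝ) ≤ κ := by
    intro i _
    apply hblock _ (Finset.filter_subset _ _)
    intro h hh h' hh'
    have h1 : f h = i := (Finset.mem_filter.mp hh).2
    have h2 : f h' = i := (Finset.mem_filter.mp hh').2
    have h3 : h - c = (ℓ₁ : ℤ) * ((h - c) / ℓ₁) + (h - c) % ℓ₁ := (Int.mul_ediv_add_emod _ _).symm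
    have h4 : h' - c = (ℓ₁ : ℤ) * ((h' - c) / ℓ₁) + (h' - c) % ℓ₁ :=
      (Int.mul_ediv_add_emod _ _).symm
    have h5 := Int.emod_nonneg (h - c) hℓ'.ne'
    have h6 := Int.emod_lt_of_pos (h - c) hℓ'
    have h7 := Int.emod_nonneg (h' - c) hℓ'.ne'
    have h8 := Int.emod_lt_of_pos (h' - c) hℓ'
    simp only [f] at h1 h2
    rw [h1] at h3
    rw [h2] at h4
    rw [abs_lt]
    constructor <;> linarith
  have hcard : (S.card : ℝ) = ∑ i ∈ Finset.Icc (0 : ℤ) Q, ((S.filter fun h => f h = i).card : ℝ) := by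
    rw [Finset.card_eq_sum_card_fiberwise (f := f) (t := Finset.Icc (0 : ℤ) Q) (fun h hh => hmaps h hh)]
    push_cast
    rfl
  rw [hcard]
  calc ∑ i ∈ Finset.Icc (0 : ℤ) Q, ((S.filter fun h => f h = i).card : ℝ)
      ≤ ∑ _i ∈ Finset.Icc (0 : ℤ) Q, κ := Finset.sum_le_sum hfib
    _ = ((Finset.Icc (0 : ℤ) Q).card : ℝ) * κ := by rw [Finset.sum_const, nsmul_eq_mul]
    _ ≤ _ := by
      apply mul_le_mul_of_nonneg_right _ hκ
      rw [Int.card_Icc]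
      have h1 : (((Q + 1 - 0).toNat : ℕ) : ℤ) = Q + 1 := by
        rw [Int.toNat_of_nonneg (by omega)]; ring
      have h2 : (((Q + 1 - 0).toNat : ℕ) : ℝ) = (Q : ℝ) + 1 := by exact_mod_cast h1
      rw [h2]
      have h3 : (Q : ℝ) * ℓ₁ ≤ len := by
        have : Q * (ℓ₁ : ℤ) ≤ len := Int.ediv_mul_le _ hℓ'.ne'
        exact_mod_cast this
      have h4 : (Q : ℝ) ≤ (len : ℝ) / ℓ₁ := by
        rw [le_div_iff₀ hℓR]; exact h3
      linarith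

/-- Separation of multiples of `γ` from the integers. -/
lemma near_sep {γ θ : ℝ} {A : ℤ} {B : ℕ} (hB : 0 < B) (hAB : IsCoprime A (B : ℤ))
    (hθ : θ = (B : ℝ) * γ - A) {m n : ℤ} (hm : ¬ (B : ℤ) ∣ m) (hθm : |θ * m| ≤ 1 / 2) :
    1 / (2 * (B : ℝ)) ≤ |(n : ℝ) + γ * m| := by
  have hB' : (0 : ℝ) < B := by exact_mod_cast hB
  set J : ℤ := (B : ℤ) * n + A * m with hJ
  have hJ0 : J ≠ 0 := by
    intro h0
    apply hm
    have h1 : (B : ℤ) ∣ A * m := ⟨-n, by rw [hJ] at h0; linarith⟩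
    exact hAB.symm.dvd_of_dvd_mul_left h1
  have hJ1 : (1 : ℝ) ≤ |(J : ℝ)| := by
    have : (1 : ℤ) ≤ |J| := Int.one_le_abs hJ0
    exact_mod_cast this
  have h2 : (B : ℝ) * ((n : ℝ) + γ * m) = (J : ℝ) + θ * m := by
    rw [hJ, hθ]; push_cast; ring
  have h3 : (B : ℝ) * |(n : ℝ) + γ * m| = |(J : ℝ) + θ * m| := by
    rw [← h2, abs_mul, abs_of_pos hB']
  have h4 : |(J : ℝ)| - |θ * m| ≤ |(J : ℝ) + θ * m| := by
    have := abs_sub_abs_le_abs_sub (J : ℝ) (-(θ * m))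
    simpa using this
  rw [div_le_iff₀ (by positivity)]
  nlinarith

/-- A short block contains few near-returns. -/
lemma near_block {γ θ δ : ℝ} {A : ℤ} {B ℓ₁ : ℕ} (hB : 0 < B) (hAB : IsCoprime A (B : ℤ))
    (hθ : θ = (B : ℝ) * γ - A) (hδ : 0 ≤ δ) (hℓB : ℓ₁ ≤ B) (hθℓ : |θ| * ℓ₁ ≤ 1 / 2)
    {T : Finset ℤ} (hT : ∀ h ∈ T, Near γ δ h) (hT' : ∀ h ∈ T, ∀ h' ∈ T, |h - h'| < ℓ₁) :
    (T.card : ℝ) ≤ 4 * δ * B + 1 := by
  classical
  have hB' : (0 : ℝ) < B := by exact_mod_cast hB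
  choose! n hn using hT
  have hb := card_le_of_separated (S := T) (y := fun h => (n h : ℝ) + γ * h) (δ := δ)
    (s := 1 / (2 * (B : ℝ))) (by positivity) hδ hn ?_
  · have : 2 * δ / (1 / (2 * (B : ℝ))) = 4 * δ * B := by field_simp; ring
    rwa [this] at hb
  · intro h hh h' hh' hne
    have h1 : (h - h' : ℤ) ≠ 0 := sub_ne_zero.mpr hne
    have h2 := hT' h hh h' hh'
    have h3 : ¬ (B : ℤ) ∣ h - h' := by
      intro hdvd
      have h4 : (B : ℤ) ≤ |h - h'| := by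
        have := Int.le_of_dvd (abs_pos.mpr h1) ((dvd_abs _ _).mpr hdvd)
        exact this
      have h5 : (ℓ₁ : ℤ) ≤ B := by exact_mod_cast hℓB
      omega
    have h6 : |θ * ((h - h' : ℤ) : ℝ)| ≤ 1 / 2 := by
      rw [abs_mul]
      have h7 : |((h - h' : ℤ) : ℝ)| ≤ ℓ₁ := by
        have : ((|h - h'| : ℤ) : ℝ) ≤ (ℓ₁ : ℤ) := by exact_mod_cast h2.le
        simpa using this
      calc |θ| * |((h - h' : ℤ) : ℝ)| ≤ |θ| * ℓ₁ := by gcongr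
        _ ≤ 1 / 2 := hθℓ
    have h8 := near_sep (n := n h - n h') hB hAB hθ h3 h6
    have h9 : ((n h : ℝ) + γ * h) - ((n h' : ℝ) + γ * h') =
        ((n h - n h' : ℤ) : ℝ) + γ * ((h - h' : ℤ) : ℝ) := by push_cast; ring
    rw [h9]
    exact h8

/-- First counting bound for near-returns in an interval. -/
theorem near_count_one {γ θ δ : ℝ} {A : ℤ} {B X : ℕ} (hB : 0 < B) (hBX : B ≤ X)
    (hAB : IsCoprime A (B : ℤ)) (hθ : θ = (B : ℝ) * γ - A) (hθX : |θ| ≤ 1 / ((X : ℝ) + 1))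
    (hδ : 0 ≤ δ) {S : Finset ℤ} {c : ℤ} {len : ℕ} (hN : ∀ h ∈ S, Near γ δ h)
    (hS : ∀ h ∈ S, c ≤ h ∧ h < c + len) :
    (S.card : ℝ) ≤ (2 * (len : ℝ) / B + 1) * (4 * δ * B + 1) := by
  have hB' : (0 : ℝ) < B := by exact_mod_cast hB
  set ℓ₁ : ℕ := (B + 1) / 2 with hℓ₁
  have hℓ0 : 0 < ℓ₁ := by omega
  have hℓB : ℓ₁ ≤ B := by omega
  have hℓ2 : (B : ℝ) ≤ 2 * ℓ₁ := by
    have : B ≤ 2 * ℓ₁ := by omega
    exact_mod_cast this
  have hℓ3 : 2 * (ℓ₁ : ℝ) ≤ (X : ℝ) + 1 := by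
    have : 2 * ℓ₁ ≤ X + 1 := by omega
    exact_mod_cast this
  have hX1 : (0 : ℝ) < (X : ℝ) + 1 := by positivity
  have hθℓ : |θ| * ℓ₁ ≤ 1 / 2 := by
    have hℓ0' : (0 : ℝ) ≤ ℓ₁ := Nat.cast_nonneg _
    calc |θ| * ℓ₁ ≤ 1 / ((X : ℝ) + 1) * ℓ₁ := by gcongr
      _ ≤ 1 / 2 := by
        rw [div_mul_eq_mul_div, one_mul, div_le_iff₀ hX1]
        linarith
  have hκ : (0 : ℝ) ≤ 4 * δ * B + 1 := by positivity
  have h1 := card_le_of_blocks S c len ℓ₁ hℓ0 (4 * δ * B + 1) hκ hS (fun T hT hT' =>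
    near_block hB hAB hθ hδ hℓB hθℓ (fun h hh => hN h (hT hh)) hT')
  refine h1.trans ?_
  apply mul_le_mul_of_nonneg_right _ hκ
  have hℓ0' : (0 : ℝ) < ℓ₁ := by exact_mod_cast hℓ0
  have : (len : ℝ) / ℓ₁ ≤ 2 * (len : ℝ) / B := by
    rw [div_le_div_iff₀ hℓ0' hB']
    have hlen : (0 : ℝ) ≤ len := Nat.cast_nonneg _
    nlinarith
  linarith

/-- All elements congruent with small span. -/
lemma card_le_of_congr_span (T : Finset ℤ) (m : ℕ) (hm : 0 < m)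
    (hc : ∀ a ∈ T, ∀ b ∈ T, (m : ℤ) ∣ a - b) (s : ℝ) (hs0 : 0 ≤ s)
    (hs : ∀ a ∈ T, ∀ b ∈ T, |(a : ℝ) - b| ≤ s) :
    (T.card : ℝ) ≤ s / m + 1 := by
  have hm' : (0 : ℝ) < m := by exact_mod_cast hm
  rcases T.eq_empty_or_nonempty with rfl | hne
  · simp; positivity
  have h1 := card_congr_le T (T.min' hne) (T.max' hne) m hm (Finset.min'_le _ _ (Finset.max'_mem _ _))
    (fun a ha => ⟨Finset.min'_le _ _ ha, Finset.le_max' _ _ ha⟩) hc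
  refine h1.trans ?_
  have h2 := hs _ (Finset.max'_mem T hne) _ (Finset.min'_mem T hne)
  have h3 : ((T.max' hne : ℤ) : ℝ) - (T.min' hne : ℤ) ≤ s := (le_abs_self _).trans h2
  have : ((T.max' hne : ℤ) : ℝ) - (T.min' hne : ℤ) ≤ s := h3
  gcongr

/-- Structure of near-returns in a window in the well-approximable case. -/
lemma near_window_pair {γ θ δ : ℝ} {A : ℤ} {B : ℕ} (hB : 0 < B) (hAB : IsCoprime A (B : ℤ))
    (hθ : θ = (B : ℝ) * γ - A) (hδB : 4 * δ * B < 1) {h h' : ℤ} (hh : Near γ δ h)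
    (hh' : Near γ δ h') (hw : |θ| * |((h - h' : ℤ) : ℝ)| ≤ 1 / 8) :
    (B : ℤ) ∣ h - h' ∧ |θ| * |((h - h' : ℤ) : ℝ)| < 2 * δ * B := by
  obtain ⟨n, hn⟩ := hh
  obtain ⟨n', hn'⟩ := hh'
  have hB' : (0 : ℝ) < B := by exact_mod_cast hB
  set m : ℤ := h - h' with hm
  set J : ℤ := (B : ℤ) * (n - n') + A * m with hJ
  have h1 : (B : ℝ) * (((n : ℝ) + γ * h) - ((n' : ℝ) + γ * h')) = (J : ℝ) + θ * m := by
    rw [hJ, hθ, hm]; push_cast; ring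
  have h2 : |((n : ℝ) + γ * h) - ((n' : ℝ) + γ * h')| < 2 * δ := by
    calc _ ≤ |(n : ℝ) + γ * h| + |(n' : ℝ) + γ * h'| := abs_sub _ _
      _ < δ + δ := add_lt_add hn hn'
      _ = 2 * δ := by ring
  have h3 : |(J : ℝ) + θ * m| < 2 * δ * B := by
    rw [← h1, abs_mul, abs_of_pos hB']
    calc (B : ℝ) * _ < B * (2 * δ) := mul_lt_mul_of_pos_left h2 hB'
      _ = _ := by ring
  have h4 : |θ * m| ≤ 1 / 8 := by rw [abs_mul]; exact hw
  have h5 : |(J : ℝ)| < 1 := by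
    have h6 : |(J : ℝ)| ≤ |(J : ℝ) + θ * m| + |θ * m| := by
      have := abs_add_le ((J : ℝ) + θ * m) (-(θ * m))
      simpa using this
    nlinarith
  have hJ0 : J = 0 := by
    have : |J| < 1 := by exact_mod_cast h5
    exact Int.abs_lt_one_iff.mp this
  refine ⟨?_, ?_⟩
  · have h7 : (B : ℤ) ∣ A * m := ⟨-(n - n'), by rw [hJ] at hJ0; linarith⟩
    exact hAB.symm.dvd_of_dvd_mul_left h7
  · rw [hJ0] at h3
    simp only [Int.cast_zero, zero_add] at h3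
    rwa [abs_mul] at h3

/-- Window bound: many returns must be congruent and in a short span. -/
lemma near_window {γ θ δ : ℝ} {A : ℤ} {B : ℕ} (hB : 0 < B) (hAB : IsCoprime A (B : ℤ))
    (hθ : θ = (B : ℝ) * γ - A) (hδ : 0 ≤ δ) (hδB : 4 * δ * B < 1) (hθ0 : θ ≠ 0)
    {T : Finset ℤ} (hT : ∀ h ∈ T, Near γ δ h)
    (hw : ∀ h ∈ T, ∀ h' ∈ T, |θ| * |((h - h' : ℤ) : ℝ)| ≤ 1 / 8) :
    (T.card : ℝ) ≤ 2 * δ / |θ| + 1 ∧
    ∀ s : ℝ, 0 ≤ s → (∀ h ∈ T, ∀ h' ∈ T, |((h - h' : ℤ) : ℝ)| ≤ s) →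
      (T.card : ℝ) ≤ s / B + 1 := by
  have hB' : (0 : ℝ) < B := by exact_mod_cast hB
  have hε : 0 < |θ| := abs_pos.mpr hθ0
  have hpair := fun h (hh : h ∈ T) h' (hh' : h' ∈ T) =>
    near_window_pair hB hAB hθ hδB (hT h hh) (hT h' hh') (hw h hh h' hh')
  have hcong : ∀ a ∈ T, ∀ b ∈ T, (B : ℤ) ∣ a - b := fun a ha b hb => (hpair a ha b hb).1
  constructor
  · have h1 := card_le_of_congr_span T B hB hcong (2 * δ * B / |θ|) (by positivity) ?_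
    · have : 2 * δ * B / |θ| / B = 2 * δ / |θ| := by field_simp
      rwa [this] at h1
    · intro a ha b hb
      have h2 := (hpair a ha b hb).2
      rw [le_div_iff₀ hε]
      have h3 : ((a - b : ℤ) : ℝ) = (a : ℝ) - b := by push_cast; ring
      rw [h3] at h2
      nlinarith [abs_nonneg ((a : ℝ) - b)]
  · intro s hs0 hs
    apply card_le_of_congr_span T B hB hcong s hs0
    intro a ha b hb
    have := hs a ha b hb
    push_cast at this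
    exact this

/-- Second counting bound for near-returns in an interval, well-approximable case. -/
theorem near_count_two {γ θ δ : ℝ} {A : ℤ} {B : ℕ} (hB : 0 < B) (hAB : IsCoprime A (B : ℤ))
    (hθ : θ = (B : ℝ) * γ - A) (hδ : 0 ≤ δ) (hδB : 4 * δ * B < 1) (hθ0 : θ ≠ 0)
    {S : Finset ℤ} {c : ℤ} {len ℓ₂ : ℕ} (hℓ : 0 < ℓ₂) (hℓθ : |θ| * ℓ₂ ≤ 1 / 8)
    (hN : ∀ h ∈ S, Near γ δ h) (hS : ∀ h ∈ S, c ≤ h ∧ h < c + len) :
    (S.card : ℝ) ≤ ((len : ℝ) / ℓ₂ + 1) * (2 * δ / |θ| + 1) := by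
  have hε : 0 < |θ| := abs_pos.mpr hθ0
  refine card_le_of_blocks S c len ℓ₂ hℓ _ (by positivity) hS (fun T hT hT' => ?_)
  refine (near_window hB hAB hθ hδ hδB hθ0 (fun h hh => hN h (hT hh)) ?_).1
  intro h hh h' hh'
  have h2 := hT' h hh h' hh'
  have h7 : |((h - h' : ℤ) : ℝ)| ≤ ℓ₂ := by
    have : ((|h - h'| : ℤ) : ℝ) ≤ (ℓ₂ : ℤ) := by exact_mod_cast h2.le
    simpa using this
  calc |θ| * |((h - h' : ℤ) : ℝ)| ≤ |θ| * ℓ₂ := by gcongr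
    _ ≤ 1 / 8 := hℓθ

/-- The single-window case of the second counting bound. -/
theorem near_count_single {γ θ δ : ℝ} {A : ℤ} {B : ℕ} (hB : 0 < B) (hAB : IsCoprime A (B : ℤ))
    (hθ : θ = (B : ℝ) * γ - A) (hδ : 0 ≤ δ) (hδB : 4 * δ * B < 1) (hθ0 : θ ≠ 0)
    {S : Finset ℤ} {c : ℤ} {len : ℕ} (hℓθ : |θ| * len ≤ 1 / 8)
    (hN : ∀ h ∈ S, Near γ δ h) (hS : ∀ h ∈ S, c ≤ h ∧ h < c + len) :
    (S.card : ℝ) ≤ min (2 * δ / |θ|) ((len : ℝ) / B) + 1 := by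
  have hspan : ∀ h ∈ S, ∀ h' ∈ S, |((h - h' : ℤ) : ℝ)| ≤ len := by
    intro h hh h' hh'
    obtain ⟨h1, h2⟩ := hS h hh
    obtain ⟨h3, h4⟩ := hS h' hh'
    have : |h - h'| ≤ (len : ℤ) := by
      rw [abs_le]; constructor <;> omega
    have h5 : ((|h - h'| : ℤ) : ℝ) ≤ ((len : ℤ) : ℝ) := by exact_mod_cast this
    simpa using h5
  have hw : ∀ h ∈ S, ∀ h' ∈ S, |θ| * |((h - h' : ℤ) : ℝ)| ≤ 1 / 8 := by
    intro h hh h' hh'
    calc |θ| * |((h - h' : ℤ) : ℝ)| ≤ |θ| * len := by gcongr; exact hspan h hh h' hh'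
      _ ≤ 1 / 8 := hℓθ
  obtain ⟨h1, h2⟩ := near_window hB hAB hθ hδ hδB hθ0 hN hw
  have h3 := h2 len (Nat.cast_nonneg _) hspan
  rcases le_total (2 * δ / |θ|) ((len : ℝ) / B) with h | h
  · rw [min_eq_left h]; exact h1
  · rw [min_eq_right h]; exact h3

end Vale.Agent.P028
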