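import Mathlib

open MeasureTheory Set Filter Topology
open scoped ENNReal

namespace Vale.Agent.P028

/-- Chung-Erdos / Cauchy-Schwarz second moment inequality. -/
theorem sq_sum_measureReal_le {α ι : Type*} [MeasurableSpace α] (μ : Measure α)
    (s : Finset ι) (F : ι → Set α) (hF : ∀ i ∈ s, MeasurableSet (F i))
    (Z : Set α) (hFZ : ∀ i ∈ s, F i ⊆ Z) (hfin : μ Z ≠ ⊤) :
    (∑ i ∈ s, μ.real (F i)) ^ 2 ≤ μ.real Z * ∑ i ∈ s, ∑ j ∈ s, μ.real (F i ∩ F j) := by
  classical
  set ν : Measure α := μ.restrict Z with hν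
  have hνfin : IsFiniteMeasure ν := ⟨by
    rw [hν, Measure.restrict_apply_univ]; exact lt_top_iff_ne_top.mpr hfin⟩
  set f : α → ℝ := fun x => ∑ i ∈ s, (F i).indicator (fun _ => (1 : ℝ)) x with hf
  have hint1 : ∀ i ∈ s, Integrable ((F i).indicator (fun _ => (1 : ℝ))) ν := fun i hi =>
    (integrable_const (1 : ℝ)).indicator (hF i hi)
  have hfint : Integrable f ν := integrable_finsetSum _ hint1
  -- f squared as double sum
  have hsq : ∀ x, f x * f x = ∑ i ∈ s, ∑ j ∈ s, (F i ∩ F j).indicator (fun _ => (1 : ℝ)) x := by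
    intro x
    simp only [hf, Finset.sum_mul_sum]
    refine Finset.sum_congr rfl fun i _ => Finset.sum_congr rfl fun j _ => ?_
    by_cases hi : x ∈ F i <;> by_cases hj : x ∈ F j <;> simp [indicator, hi, hj]
  have hint2 : ∀ i ∈ s, ∀ j ∈ s, Integrable ((F i ∩ F j).indicator (fun _ => (1 : ℝ))) ν :=
    fun i hi j hj => (integrable_const (1 : ℝ)).indicator ((hF i hi).inter (hF j hj))
  have hf2int : Integrable (fun x => f x * f x) ν := by
    simp_rw [hsq]
    exact integrable_finsetSum _ fun i hi => integrable_finsetSum _ fun j hj => hint2 i hi j hj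
  have hvol : ∀ (A : Set α), A ⊆ Z → ν.real A = μ.real A := by
    intro A hA
    have hA' : ν A = μ A := by
      rw [hν]
      exact Measure.restrict_eq_self μ hA
    simp [Measure.real, hA']
  -- values of the integrals
  have hb : ∫ x, f x ∂ν = ∑ i ∈ s, μ.real (F i) := by
    have : ∀ x, f x = ∑ i ∈ s, (F i).indicator (fun _ => (1 : ℝ)) x := fun _ => rfl
    simp_rw [this]
    rw [integral_finsetSum _ hint1]
    refine Finset.sum_congr rfl fun i hi => ?_
    rw [integral_indicator (hF i hi), setIntegral_const, smul_eq_mul, mul_one]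
    exact hvol _ (hFZ i hi)
  have hc : ∫ x, f x * f x ∂ν = ∑ i ∈ s, ∑ j ∈ s, μ.real (F i ∩ F j) := by
    simp_rw [hsq]
    rw [integral_finsetSum _ fun i hi => integrable_finsetSum _ fun j hj => hint2 i hi j hj]
    refine Finset.sum_congr rfl fun i hi => ?_
    rw [integral_finsetSum _ fun j hj => hint2 i hi j hj]
    refine Finset.sum_congr rfl fun j hj => ?_
    rw [integral_indicator ((hF i hi).inter (hF j hj)), setIntegral_const, smul_eq_mul, mul_one]
    exact hvol _ (inter_subset_left.trans (hFZ i hi))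
  have ha : ν.real univ = μ.real Z := by
    simp [hν, Measure.real]
  -- the quadratic inequality
  set a := μ.real Z with ha_def
  set b := ∑ i ∈ s, μ.real (F i) with hb_def
  set c := ∑ i ∈ s, ∑ j ∈ s, μ.real (F i ∩ F j) with hc_def
  have hquad : ∀ t : ℝ, 0 ≤ c - 2 * t * b + t ^ 2 * a := by
    intro t
    have hexp : (fun x => (f x - t) ^ 2) = fun x => f x * f x - 2 * t * f x + t ^ 2 := by
      ext x; ring
    have hpos : 0 ≤ ∫ x, (f x - t) ^ 2 ∂ν := integral_nonneg fun x => sq_nonneg _
    rw [hexp] at hpos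
    have h1 : Integrable (fun x => f x * f x - 2 * t * f x) ν :=
      hf2int.sub (hfint.const_mul _)
    have h2 : Integrable (fun _ : α => t ^ 2) ν := integrable_const _
    rw [integral_add h1 h2, integral_sub hf2int (hfint.const_mul _), integral_const_mul,
      integral_const, hb, hc, smul_eq_mul, ha] at hpos
    linarith
  have ha0 : 0 ≤ a := measureReal_nonneg
  have hb0' : 0 ≤ b := Finset.sum_nonneg fun _ _ => measureReal_nonneg
  have hc0 : 0 ≤ c := Finset.sum_nonneg fun _ _ => Finset.sum_nonneg fun _ _ => measureReal_nonneg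
  rcases ha0.eq_or_lt with h0 | hpos
  · -- a = 0
    have hb0 : b = 0 := by
      by_contra hne
      have hbpos : 0 < b := lt_of_le_of_ne hb0' (Ne.symm hne)
      have h3 := hquad ((c + 1) / b)
      rw [← h0] at h3
      have h4 : 2 * ((c + 1) / b) * b = 2 * (c + 1) := by field_simp
      rw [h4] at h3
      nlinarith
    rw [← h0, hb0]; simp
  · have h := hquad (b / a)
    have h' : c - 2 * (b / a) * b + (b / a) ^ 2 * a = c - b ^ 2 / a := by
      field_simp; ring
    rw [h'] at h
    have : b ^ 2 / a ≤ c := by linarith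
    calc b ^ 2 = b ^ 2 / a * a := by field_simp
      _ ≤ c * a := by gcongr
      _ = a * c := mul_comm _ _

end Vale.Agent.P028
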