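import Vale.Agent.P028.Dyadic

open MeasureTheory Set Filter Topology
open scoped ENNReal

namespace Vale.Agent.P028

/-- A symmetric double sum. -/
lemma sum_symm (s : Finset ℕ) (f : ℕ → ℕ → ℝ) (hsym : ∀ q r, f q r = f r q) :
    ∑ q ∈ s, ∑ r ∈ s, f q r =
      ∑ q ∈ s, f q q + 2 * ∑ r ∈ s, ∑ q ∈ s.filter (fun q => q < r), f q r := by
  classical
  have h1 : ∀ r ∈ s, ∑ q ∈ s.filter (fun q => q < r), f q r =
      ∑ q ∈ s, if q < r then f q r else 0 := fun r _ => Finset.sum_filter _ _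
  rw [Finset.sum_congr rfl h1]
  set A := ∑ r ∈ s, ∑ q ∈ s, if q < r then f q r else 0 with hA
  have h2 : ∀ q ∈ s, ∀ r ∈ s, f q r = (if q < r then f q r else 0) +
      (if r < q then f r q else 0) + (if q = r then f q r else 0) := by
    intro q _ r _
    rcases lt_trichotomy q r with h | h | h
    · rw [if_pos h, if_neg (by omega), if_neg (by omega)]
      ring
    · subst h
      simp
    · rw [if_neg (by omega), if_pos h, if_neg (by omega), hsym]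
      ring
  calc ∑ q ∈ s, ∑ r ∈ s, f q r
      = ∑ q ∈ s, ∑ r ∈ s, ((if q < r then f q r else 0) +
          (if r < q then f r q else 0) + (if q = r then f q r else 0)) :=
        Finset.sum_congr rfl fun q hq => Finset.sum_congr rfl fun r hr => h2 q hq r hr
    _ = ∑ q ∈ s, ∑ r ∈ s, (if q < r then f q r else 0) +
        ∑ q ∈ s, ∑ r ∈ s, (if r < q then f r q else 0) +
        ∑ q ∈ s, ∑ r ∈ s, (if q = r then f q r else 0) := by
      simp only [Finset.sum_add_distrib]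
    _ = A + A + ∑ q ∈ s, f q q := by
      have h3 : ∑ q ∈ s, ∑ r ∈ s, (if q < r then f q r else 0) = A := Finset.sum_comm
      have h4 : ∑ q ∈ s, ∑ r ∈ s, (if r < q then f r q else 0) = A := rfl
      have h5 : ∑ q ∈ s, ∑ r ∈ s, (if q = r then f q r else 0) = ∑ q ∈ s, f q q := by
        apply Finset.sum_congr rfl
        intro q hq
        rw [Finset.sum_ite_eq s q (fun r => f q r), if_pos hq]
      rw [h3, h4, h5]
    _ = _ := by ring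

section

variable {γ : ℝ} {ψ : ℕ → ℝ} {C₀ : ℝ} {q₁ : ℕ}

/-- The diagonal. -/
lemma diag_le (h0 : ∀ q, 0 ≤ ψ q) (hC : 1 ≤ C₀) (hq₁ : ∀ q, q₁ ≤ q → Large ψ C₀ q)
    (hq₁0 : 0 < q₁) (R : ℕ) (q : ℕ) :
    volume.real (Sq γ ψ q₁ q ∩ Sq γ ψ q₁ q ∩ Icc (-(R : ℝ)) R) ≤
      (2 * (R : ℝ) + 3) * (2 * Mq γ ψ q₁ q) := by
  have hR : (0 : ℝ) ≤ (R : ℝ) := Nat.cast_nonneg _
  have hM := Mq_nonneg (γ := γ) (q₁ := q₁) h0 q
  rw [inter_self]
  by_cases hρ : rho ψ q₁ q = 0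
  · rw [Sq_empty hρ, empty_inter, measureReal_empty]
    positivity
  · obtain ⟨h1, _, _⟩ := rho_spec hρ
    have hq : 0 < q := lt_of_lt_of_le hq₁0 h1
    exact ENNReal.toReal_le_of_le_ofReal (by positivity)
      (volume_F_inter_Icc_le hq (rho_nonneg h0 q) (rho_le_quarter h0 hC hq₁ q) hR)

/-- The second moment bound. -/
theorem second_moment (h0 : ∀ q, 0 ≤ ψ q) (hC : 1 ≤ C₀) (hq₁ : ∀ q, q₁ ≤ q → Large ψ C₀ q)
    (hq₁0 : 0 < q₁) (R : ℕ) (s : Finset ℕ) :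
    ∑ q ∈ s, ∑ r ∈ s, volume.real (Sq γ ψ q₁ q ∩ Sq γ ψ q₁ r ∩ Icc (-(R : ℝ)) R) ≤
      (2 * (R : ℝ) + 3) * (2 * ∑ q ∈ s, Mq γ ψ q₁ q) + 2 * ((2 * (R : ℝ) + 2) *
        (16 * (∑ q ∈ s, Mq γ ψ q₁ q) ^ 2 + 8000000 * C₀ * ∑ q ∈ s, Mq γ ψ q₁ q)) := by
  have hR : (0 : ℝ) ≤ (R : ℝ) := Nat.cast_nonneg _
  rw [sum_symm s (fun q r => volume.real (Sq γ ψ q₁ q ∩ Sq γ ψ q₁ r ∩ Icc (-(R : ℝ)) R))
    (fun q r => by simp only [inter_comm (Sq γ ψ q₁ q) (Sq γ ψ q₁ r)])]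
  apply add_le_add
  · rw [Finset.mul_sum, Finset.mul_sum]
    exact Finset.sum_le_sum fun q _ => diag_le h0 hC hq₁ hq₁0 R q
  · apply mul_le_mul_of_nonneg_left _ (by norm_num)
    refine (Finset.sum_le_sum fun r _ => sum_pair h0 hC hq₁ hq₁0 R s r).trans ?_
    rw [← Finset.mul_sum]
    apply mul_le_mul_of_nonneg_left _ (by positivity)
    rw [Finset.sum_add_distrib, ← Finset.mul_sum, ← Finset.sum_mul, ← Finset.mul_sum]
    apply le_of_eq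
    ring

/-- The form of the second moment bound required by the zero-one mechanism. -/
theorem second_moment_exists (h0 : ∀ q, 0 ≤ ψ q) (hC : 1 ≤ C₀)
    (hq₁ : ∀ q, q₁ ≤ q → Large ψ C₀ q) (hq₁0 : 0 < q₁) (hdiv : ¬ Summable (Mq γ ψ q₁)) (R : ℕ) :
    ∃ C : ℝ, ∀ X₀ : ℕ, 1 ≤ X₀ → ∀ M : ℕ, ∃ X : ℕ, M ≤ X ∧
      ∑ q ∈ Finset.Icc X₀ X, ∑ r ∈ Finset.Icc X₀ X,
        volume.real (Sq γ ψ q₁ q ∩ Sq γ ψ q₁ r ∩ Icc (-(R : ℝ)) R) ≤
        C * (∑ q ∈ Finset.Icc X₀ X, Mq γ ψ q₁ q) ^ 2 := by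
  have hR : (0 : ℝ) ≤ (R : ℝ) := Nat.cast_nonneg _
  refine ⟨(2 * (R : ℝ) + 3) * 2 + 2 * ((2 * (R : ℝ) + 2) * (16 + 8000000 * C₀)), ?_⟩
  intro X₀ hX₀ M
  have hM0 := fun q => Mq_nonneg (γ := γ) (q₁ := q₁) h0 q
  have h1 := (not_summable_iff_tendsto_nat_atTop_of_nonneg hM0).mp hdiv
  have h2 : Tendsto (fun X => ∑ q ∈ Finset.range (X + 1), Mq γ ψ q₁ q -
      ∑ q ∈ Finset.range X₀, Mq γ ψ q₁ q) atTop atTop :=
    tendsto_atTop_add_const_right _ _ (h1.comp (tendsto_add_atTop_nat 1))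
  obtain ⟨M', hM'⟩ := eventually_atTop.mp (h2.eventually_ge_atTop 1)
  refine ⟨max (max M M') X₀, (le_max_left _ _).trans (le_max_left _ _), ?_⟩
  set X := max (max M M') X₀ with hX
  have hXX₀ : X₀ ≤ X := le_max_right _ _
  have hXM' : M' ≤ X := (le_max_right _ _).trans (le_max_left _ _)
  have h4 : ∑ q ∈ Finset.range (X + 1), Mq γ ψ q₁ q - ∑ q ∈ Finset.range X₀, Mq γ ψ q₁ q =
      ∑ q ∈ Finset.Icc X₀ X, Mq γ ψ q₁ q := by
    have h5 : Finset.Icc X₀ X = Finset.Ico X₀ (X + 1) := by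
      ext q
      simp only [Finset.mem_Icc, Finset.mem_Ico]
      omega
    rw [h5]
    have h6 := Finset.sum_range_add_sum_Ico (fun q => Mq γ ψ q₁ q) (show X₀ ≤ X + 1 by omega)
    linarith
  set A := ∑ q ∈ Finset.Icc X₀ X, Mq γ ψ q₁ q with hA
  have h5 : 1 ≤ A := by
    rw [← h4]
    exact hM' X hXM'
  refine (second_moment h0 hC hq₁ hq₁0 R _).trans ?_
  rw [← hA]
  have h6 : A ≤ A ^ 2 := by nlinarith
  have hC0 : 0 < C₀ := by linarith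
  have h7 : (2 * (R : ℝ) + 3) * (2 * A) ≤ (2 * (R : ℝ) + 3) * (2 * A ^ 2) := by gcongr
  have h8 : 16 * A ^ 2 + 8000000 * C₀ * A ≤ 16 * A ^ 2 + 8000000 * C₀ * A ^ 2 := by gcongr
  have h9 : 2 * ((2 * (R : ℝ) + 2) * (16 * A ^ 2 + 8000000 * C₀ * A)) ≤
      2 * ((2 * (R : ℝ) + 2) * (16 * A ^ 2 + 8000000 * C₀ * A ^ 2)) := by gcongr
  calc _ ≤ (2 * (R : ℝ) + 3) * (2 * A ^ 2) + 2 * ((2 * (R : ℝ) + 2) *
        (16 * A ^ 2 + 8000000 * C₀ * A ^ 2)) := add_le_add h7 h9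
    _ = _ := by ring

/-- Equidistribution. -/
theorem equidistribution (h0 : ∀ q, 0 ≤ ψ q) (hC : 1 ≤ C₀) (hq₁ : ∀ q, q₁ ≤ q → Large ψ C₀ q)
    (hq₁0 : 0 < q₁) (N : ℕ) (hN : 0 < N) :
    ∃ q₀ : ℕ, ∀ q, q₀ ≤ q → ∀ j : ℤ,
      ENNReal.ofReal ((1 / 4) * Mq γ ψ q₁ q * (1 / N)) ≤ volume (Sq γ ψ q₁ q ∩ gridI N j) := by
  refine ⟨max q₁ (2 ^ N), fun q hq j => ?_⟩
  have hq1 : q₁ ≤ q := (le_max_left _ _).trans hq
  have hq2 : 2 ^ N ≤ q := (le_max_right _ _).trans hq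
  by_cases hρ : rho ψ q₁ q = 0
  · have h1 : Mq γ ψ q₁ q = 0 := by unfold Mq; rw [hρ, zero_mul]
    rw [h1]
    simp
  obtain ⟨_, hG, hE⟩ := rho_spec hρ
  have hL := hq₁ q hq1
  have hqpos : 0 < q := lt_of_lt_of_le hq₁0 hq1
  have hq' : (0 : ℝ) < q := by exact_mod_cast hqpos
  have hN' : (0 : ℝ) < N := by exact_mod_cast hN
  obtain ⟨hj, hℓ4, _, _⟩ := hL
  have hNj : N ≤ jj q := Nat.le_log_of_pow_le (by norm_num) hq2
  have hNℓ : N ≤ 2 ^ ll q := (hNj.trans (jj_lt_pow q).le)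
  have hbig : N * 2 ^ (15 * ll q + 4) ≤ q := by
    calc N * 2 ^ (15 * ll q + 4) ≤ 2 ^ ll q * 2 ^ (15 * ll q + 4) := Nat.mul_le_mul_right _ hNℓ
      _ = 2 ^ (16 * ll q + 4) := by rw [← pow_add]; congr 1; ring
      _ ≤ 2 ^ jj q := Nat.pow_le_pow_right (by norm_num) (by omega)
      _ ≤ q := pow_jj_le hqpos.ne'
  have hbig' : (N : ℝ) * 2 ^ (15 * ll q + 4) ≤ q := by exact_mod_cast hbig
  have hNq : (q : ℝ) * (1 / N) = q / N := by ring
  have hdiv : (2 : ℝ) ^ (15 * ll q + 4) ≤ q / N := by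
    rw [le_div_iff₀ hN']
    linarith
  have hη : 4 ≤ (q : ℝ) * (1 / N) := by
    rw [hNq]
    refine le_trans ?_ hdiv
    have h1 : (2 : ℝ) ^ (15 * ll q + 4) = 2 ^ (15 * ll q) * 16 := by
      rw [pow_add]
      norm_num
    have h2 : (1 : ℝ) ≤ 2 ^ (15 * ll q) := one_le_pow₀ (by norm_num)
    rw [h1]
    linarith
  have hQz : (Qz q (BB γ q) (zz q) : ℝ) ≤ 2 ^ (12 * ll q) := by
    have h1 : Qz q (BB γ q) (zz q) ≤ 4 ^ zz q := Qz_le _ _ _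
    have h3 : (4 : ℕ) ^ zz q = 2 ^ (12 * ll q) := by
      rw [show (4 : ℕ) = 2 ^ 2 by norm_num, ← pow_mul]
      congr 1
      unfold zz
      ring
    rw [h3] at h1
    exact_mod_cast h1
  have hω : (q.primeFactors.card : ℝ) ≤ 2 ^ (3 * ll q) := by
    refine le_trans ?_ hG.2.1
    exact_mod_cast Finset.card_le_card
      (fun p hp => Nat.mem_divisors.mpr ⟨Nat.dvd_of_mem_primeFactors hp, hqpos.ne'⟩)
  have hbound : 4 * (Qz q (BB γ q) (zz q) : ℝ) * (1 + (q.primeFactors.card : ℝ)) ≤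
      (q : ℝ) * (1 / N) / 2 := by
    rw [hNq]
    have h1 : (1 : ℝ) ≤ 2 ^ (3 * ll q) := one_le_pow₀ (by norm_num)
    have h2 : 1 + (q.primeFactors.card : ℝ) ≤ 2 * 2 ^ (3 * ll q) := by linarith
    have h3 : (Qz q (BB γ q) (zz q) : ℝ) * (1 + (q.primeFactors.card : ℝ)) ≤
        2 ^ (12 * ll q) * (2 * 2 ^ (3 * ll q)) := by
      have h4 : (0 : ℝ) ≤ 1 + (q.primeFactors.card : ℝ) := by positivity
      have h5 : (0 : ℝ) ≤ 2 ^ (12 * ll q) := by positivity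
      exact mul_le_mul hQz h2 h4 h5
    have h6 : (2 : ℝ) ^ (12 * ll q) * (2 * 2 ^ (3 * ll q)) = 2 * 2 ^ (15 * ll q) := by
      have : (2 : ℝ) ^ (15 * ll q) = 2 ^ (12 * ll q) * 2 ^ (3 * ll q) := by
        rw [← pow_add]; congr 1; ring
      rw [this]
      ring
    have h7 : (2 : ℝ) ^ (15 * ll q + 4) = 16 * 2 ^ (15 * ll q) := by
      rw [pow_add]
      norm_num
      ring
    rw [h6] at h3
    rw [h7] at hdiv
    nlinarith
  have h1 := le_volume_F_inter_Ico (γ := γ) (ρ := rho ψ q₁ q) (A := AA γ q) (B := BB γ q) (q := q)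
    (z := zz q) (u := (j : ℝ) / N) (η := 1 / N) hqpos (rho_nonneg h0 q)
    (rho_le_quarter h0 hC hq₁ q) (AA_coprime γ q) hG.2.2 hη hbound
  have h2 : (1 / 4) * Mq γ ψ q₁ q * (1 / (N : ℝ)) =
      (1 / (N : ℝ)) * rho ψ q₁ q * Dz q (BB γ q) (zz q) / 4 := by
    unfold Mq
    ring
  rw [h2]
  exact h1

/-- The main theorem with the cap expressed through `ll`. -/
theorem core_theorem (h0 : ∀ q, 0 ≤ ψ q) (hC : 1 ≤ C₀)
    (hcap : ∀ᶠ q in atTop, ψ q ≤ C₀ / ((q : ℝ) * (ll q : ℝ) ^ 3))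
    (hdiv : ¬ Summable fun q : ℕ => (Nat.totient q : ℝ) / q * ψ q) :
    ∀ᵐ x : ℝ, ∃ᶠ q : ℕ in atTop, ∃ a : ℤ, |(q : ℝ) * x - a - γ| < ψ q := by
  obtain ⟨q₁, hq₁0, hq₁⟩ := exists_large_threshold hcap
  have hM : ¬ Summable (Mq γ ψ q₁) := not_summable_Mq h0 hC hq₁ hdiv
  have h1 := ae_frequently_of_masses (Sq γ ψ q₁) (Mq γ ψ q₁) isOpen_Sq (Mq_nonneg h0) hM (1 / 4)
    (by norm_num) (fun N hN => equidistribution h0 hC hq₁ hq₁0 N hN)
    (second_moment_exists h0 hC hq₁ hq₁0 hM)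
  filter_upwards [h1] with x hx
  apply hx.mono
  intro q hq
  obtain ⟨a, _, ha⟩ := hq
  exact ⟨a, ha.trans_le (rho_le h0 q)⟩

end

/-- Comparison of the rounded scale and the double logarithm. -/
lemma ll_le_two_loglog {q : ℕ} (hq : 2 ^ (2 ^ 7) ≤ q) : (ll q : ℝ) ≤ 2 * Real.log (Real.log q) := by
  have hq0 : q ≠ 0 := by
    have : 0 < 2 ^ (2 ^ 7) := by positivity
    omega
  set j := Nat.log 2 q with hj
  set L := Nat.log 2 j with hL
  have hj7 : 2 ^ 7 ≤ j := Nat.le_log_of_pow_le (by norm_num) hq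
  have hL7 : 7 ≤ L := Nat.le_log_of_pow_le (by norm_num) hj7
  have hjne : j ≠ 0 := by
    have : 0 < 2 ^ 7 := by positivity
    omega
  have h2j : 2 ^ j ≤ q := Nat.pow_log_le_self 2 hq0
  have h2L : 2 ^ L ≤ j := Nat.pow_log_le_self 2 hjne
  have hlog2 : (0.69 : ℝ) < Real.log 2 := by
    have := Real.log_two_gt_d9
    linarith
  have hlogq : (j : ℝ) * Real.log 2 ≤ Real.log q := by
    have h1 : ((2 : ℝ) ^ j) ≤ q := by exact_mod_cast h2j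
    have h2 := Real.log_le_log (by positivity) h1
    rwa [Real.log_pow] at h2
  have hjR : (2 : ℝ) ^ L ≤ j := by exact_mod_cast h2L
  have hlow : (2 : ℝ) ^ (L - 1) ≤ Real.log q := by
    have h1 : (2 : ℝ) ^ L = 2 * 2 ^ (L - 1) := by
      rw [← pow_succ']
      congr 1
      omega
    have h3 : (0 : ℝ) < 2 ^ (L - 1) := by positivity
    have h4 : (1 / 2 : ℝ) ≤ Real.log 2 := by linarith
    have h5 : (j : ℝ) * (1 / 2) ≤ j * Real.log 2 := by gcongr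
    rw [h1] at hjR
    linarith
  have hll : ((L - 1 : ℕ) : ℝ) * Real.log 2 ≤ Real.log (Real.log q) := by
    have h2 := Real.log_le_log (by positivity) hlow
    rwa [Real.log_pow] at h2
  have hLR : (7 : ℝ) ≤ L := by exact_mod_cast hL7
  have hcast : ((L - 1 : ℕ) : ℝ) = (L : ℝ) - 1 := by
    rw [Nat.cast_sub (by omega)]
    simp
  rw [hcast] at hll
  have hll' : (ll q : ℝ) = (L : ℝ) + 1 := by
    unfold ll
    push_cast
    rfl
  rw [hll']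
  have h3 : ((L : ℝ) - 1) * 0.69 ≤ ((L : ℝ) - 1) * Real.log 2 := by
    apply mul_le_mul_of_nonneg_left hlog2.le
    linarith
  nlinarith

/-- Removal of the non-Liouville condition at cap exponent three. -/
theorem small_psi_all_gamma (γ : ℝ) (ψ : ℕ → ℝ) (C₀ : ℝ) (h0 : ∀ q, 0 ≤ ψ q)
    (hcap : ∀ᶠ q : ℕ in atTop, ψ q ≤ C₀ / ((q : ℝ) * (Real.log (Real.log q)) ^ 3))
    (hdiv : ¬ Summable fun q : ℕ => (Nat.totient q : ℝ) / q * ψ q) :
    ∀ᵐ x : ℝ, ∃ᶠ q : ℕ in atTop, ∃ a : ℤ, |(q : ℝ) * x - a - γ| < ψ q := by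
  set C₁ := max C₀ 1 with hC₁
  have hC₁1 : 1 ≤ C₁ := le_max_right _ _
  have hC₁0 : 0 < C₁ := by linarith
  refine core_theorem (C₀ := 8 * C₁) h0 (by linarith) ?_ hdiv
  filter_upwards [hcap, eventually_ge_atTop (2 ^ (2 ^ 7))] with q hq hq2
  have hll := ll_le_two_loglog hq2
  have hq0 : (0 : ℝ) < q := by
    have : 0 < q := lt_of_lt_of_le (by positivity) hq2
    exact_mod_cast this
  have hl0 : (0 : ℝ) < ll q := by
    have : 0 < ll q := by unfold ll; omega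
    exact_mod_cast this
  have hlog : 0 < Real.log (Real.log q) := by linarith
  refine hq.trans ?_
  have h1 : C₀ / ((q : ℝ) * (Real.log (Real.log q)) ^ 3) ≤
      C₁ / ((q : ℝ) * (Real.log (Real.log q)) ^ 3) := by
    apply div_le_div_of_nonneg_right (le_max_left _ _) (by positivity)
  refine h1.trans ?_
  rw [div_le_div_iff₀ (by positivity) (by positivity)]
  have h2 : (ll q : ℝ) ^ 3 ≤ (2 * Real.log (Real.log q)) ^ 3 := by gcongr
  have h3 : (2 * Real.log (Real.log q)) ^ 3 = 8 * (Real.log (Real.log q)) ^ 3 := by ring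
  rw [h3] at h2
  calc C₁ * ((q : ℝ) * (ll q : ℝ) ^ 3) = (C₁ * q) * (ll q : ℝ) ^ 3 := by ring
    _ ≤ (C₁ * q) * (8 * (Real.log (Real.log q)) ^ 3) := by gcongr
    _ = _ := by ring

end Vale.Agent.P028
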