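import Mathlib

namespace Vale.Agent.P028

open Finset

lemma card_filter_isUnit (m : ℕ) [NeZero m] :
    ((Finset.univ : Finset (ZMod m)).filter IsUnit).card = Nat.totient m := by
  classical
  rw [← ZMod.card_units_eq_totient m]
  have h : (Finset.univ : Finset (ZMod m)).filter IsUnit =
      (Finset.univ : Finset (ZMod m)ˣ).map ⟨Units.val, Units.val_injective⟩ := by
    ext x
    simp only [Finset.mem_filter, Finset.mem_univ, true_and, Finset.mem_map,
      Function.Embedding.coeFn_mk]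
    exact Iff.rfl
  rw [h, Finset.card_map, Finset.card_univ]

/-- Exact count of the values of a linear form coprime to the modulus over a full period. -/
lemma count_coprime_linear {m B : ℕ} (hm : 0 < m) (hB : Nat.Coprime B m) (A c : ℤ) :
    ((Finset.Ico c (c + m)).filter fun a : ℤ => IsCoprime (a * B + A) (m : ℤ)).card =
      Nat.totient m := by
  have : NeZero m := ⟨hm.ne'⟩
  let e : ℤ → ZMod m := fun a => ((a * B + A : ℤ) : ZMod m)
  have hcB : IsCoprime ((B : ℕ) : ℤ) (m : ℤ) := Nat.isCoprime_iff_coprime.mpr hB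
  have hinj : Set.InjOn e (Finset.Ico c (c + m) : Finset ℤ) := by
    intro a ha a' ha' h
    have h1 := (ZMod.intCast_eq_intCast_iff_dvd_sub _ _ _).mp h
    have h2 : (m : ℤ) ∣ (a' - a) * B := by
      have : a' * B + A - (a * B + A) = (a' - a) * B := by ring
      rwa [this] at h1
    have h3 : (m : ℤ) ∣ a' - a := hcB.symm.dvd_of_dvd_mul_right h2
    simp only [Finset.coe_Ico, Set.mem_Ico] at ha ha'
    obtain ⟨d, hd⟩ := h3
    have hm' : (0 : ℤ) < m := by exact_mod_cast hm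
    have h4 : d = 0 := by
      by_contra hne
      have h5 : (1 : ℤ) ≤ |d| := Int.one_le_abs hne
      have h6 : |a' - a| < m := by
        rw [abs_lt]; constructor <;> linarith [ha.1, ha.2, ha'.1, ha'.2]
      rw [hd, abs_mul, abs_of_pos hm'] at h6
      nlinarith
    rw [h4, mul_zero] at hd
    linarith
  have himage : (Finset.Ico c (c + m)).image e = Finset.univ := by
    apply Finset.eq_univ_of_card
    rw [Finset.card_image_of_injOn hinj, ZMod.card]
    simp
  have hiff : ∀ a : ℤ, IsCoprime (a * B + A) (m : ℤ) ↔ IsUnit (e a) := by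
    intro a
    rw [ZMod.coe_int_isUnit_iff_isCoprime, isCoprime_comm]
  rw [Finset.filter_congr (fun a _ => hiff a)]
  rw [← Finset.card_image_of_injOn (f := e)
    (hinj.mono (by intro x hx; exact Finset.mem_coe.mpr (Finset.mem_of_mem_filter x (Finset.mem_coe.mp hx))))]
  have h2 : ((Finset.Ico c (c + m)).filter fun a => IsUnit (e a)).image e =
      ((Finset.Ico c (c + m)).image e).filter IsUnit := by
    rw [Finset.filter_image]
  rw [h2, himage, card_filter_isUnit]

/-- Counting a periodic predicate on many periods. -/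
lemma count_periodic (P : ℤ → Prop) [DecidablePred P] (m K : ℕ) (h : ∀ c : ℤ, ((Finset.Ico c (c + m)).filter P).card = K)
    (c : ℤ) (n : ℕ) : ((Finset.Ico c (c + (n * m : ℕ))).filter P).card = n * K := by
  induction n with
  | zero => simp
  | succ n ih =>
    have h1 : Finset.Ico c (c + ((n + 1) * m : ℕ)) =
        Finset.Ico c (c + (n * m : ℕ)) ∪ Finset.Ico (c + (n * m : ℕ)) (c + (n * m : ℕ) + m) := by
      rw [Finset.Ico_union_Ico_eq_Ico]
      · congr 1; push_cast; ring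
      · have : (0 : ℤ) ≤ ((n * m : ℕ) : ℤ) := by positivity
        omega
      · have : (0 : ℤ) ≤ (m : ℤ) := by positivity
        omega
    rw [h1, Finset.filter_union, Finset.card_union_of_disjoint, ih, h]
    · ring
    · apply Finset.disjoint_filter_filter
      rw [Finset.disjoint_left]
      intro x hx hx'
      simp only [Finset.mem_Ico] at hx hx'
      omega

lemma count_le (P : ℤ → Prop) [DecidablePred P] (m K : ℕ) (hm : 0 < m)
    (h : ∀ c : ℤ, ((Finset.Ico c (c + m)).filter P).card = K) (c : ℤ) (ℓ : ℕ) :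
    (((Finset.Ico c (c + ℓ)).filter P).card : ℝ) ≤ ((ℓ : ℝ) / m + 1) * K := by
  have hm' : (0 : ℝ) < m := by exact_mod_cast hm
  set n := ℓ / m with hn
  have hsub : (Finset.Ico c (c + ℓ)).filter P ⊆ (Finset.Ico c (c + ((n + 1) * m : ℕ))).filter P := by
    apply Finset.filter_subset_filter
    apply Finset.Ico_subset_Ico (le_refl _)
    have : ℓ < (n + 1) * m := by
      rw [hn, mul_comm]
      exact Nat.lt_mul_div_succ ℓ hm
    have h2 : (ℓ : ℤ) ≤ ((n + 1) * m : ℕ) := by exact_mod_cast this.le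
    omega
  have h1 := Finset.card_le_card hsub
  rw [count_periodic P m K h] at h1
  have h2 : (((Finset.Ico c (c + ℓ)).filter P).card : ℝ) ≤ ((n : ℝ) + 1) * K := by exact_mod_cast h1
  refine h2.trans ?_
  have h3 : (n : ℝ) ≤ (ℓ : ℝ) / m := Nat.cast_div_le
  have hK : (0 : ℝ) ≤ K := Nat.cast_nonneg _
  nlinarith

lemma le_count (P : ℤ → Prop) [DecidablePred P] (m K : ℕ) (hm : 0 < m)
    (h : ∀ c : ℤ, ((Finset.Ico c (c + m)).filter P).card = K) (c : ℤ) (ℓ : ℕ) :
    ((ℓ : ℝ) / m - 1) * K ≤ (((Finset.Ico c (c + ℓ)).filter P).card : ℝ) := by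
  have hm' : (0 : ℝ) < m := by exact_mod_cast hm
  set n := ℓ / m with hn
  have hsub : (Finset.Ico c (c + (n * m : ℕ))).filter P ⊆ (Finset.Ico c (c + ℓ)).filter P := by
    apply Finset.filter_subset_filter
    apply Finset.Ico_subset_Ico (le_refl _)
    have : n * m ≤ ℓ := Nat.div_mul_le_self ℓ m
    have h2 : ((n * m : ℕ) : ℤ) ≤ ℓ := by exact_mod_cast this
    omega
  have h1 := Finset.card_le_card hsub
  rw [count_periodic P m K h] at h1
  have h2 : (n : ℝ) * K ≤ (((Finset.Ico c (c + ℓ)).filter P).card : ℝ) := by exact_mod_cast h1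
  refine le_trans ?_ h2
  have h3 : (ℓ : ℝ) / m < (n : ℝ) + 1 := by
    rw [div_lt_iff₀ hm']
    have : ℓ < (n + 1) * m := by
      rw [hn, mul_comm]
      exact Nat.lt_mul_div_succ ℓ hm
    exact_mod_cast this
  have hK : (0 : ℝ) ≤ K := Nat.cast_nonneg _
  nlinarith

/-- The part of `q` sifted at level `z`: primes of `q` at most `z` and not dividing `B`. -/
def Qz (q B z : ℕ) : ℕ := ∏ p ∈ q.primeFactors.filter (fun p => p ≤ z ∧ ¬ p ∣ B), p

lemma Qz_pos (q B z : ℕ) : 0 < Qz q B z := by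
  apply Finset.prod_pos
  intro p hp
  exact (Nat.prime_of_mem_primeFactors (Finset.mem_of_mem_filter p hp)).pos

lemma Qz_dvd (q B z : ℕ) : Qz q B z ∣ q := by
  have hsub : Qz q B z ∣ ∏ p ∈ q.primeFactors, p :=
    Finset.prod_dvd_prod_of_subset _ _ _ (Finset.filter_subset _ _)
  exact hsub.trans (Nat.prod_primeFactors_dvd q)

lemma Qz_squarefree (q B z : ℕ) : Squarefree (Qz q B z) := by
  apply Finset.squarefree_prod_of_pairwise_isCoprime
  · intro a ha b hb hab
    have h1 := Nat.prime_of_mem_primeFactors (Finset.mem_of_mem_filter a ha)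
    have h2 := Nat.prime_of_mem_primeFactors (Finset.mem_of_mem_filter b hb)
    simp only [Function.onFun, id_eq, ← Nat.coprime_iff_isRelPrime]
    exact (Nat.coprime_primes h1 h2).mpr hab
  · intro p hp
    exact (Nat.prime_of_mem_primeFactors (Finset.mem_of_mem_filter p hp)).prime.squarefree

lemma Qz_coprime (q B z : ℕ) : Nat.Coprime B (Qz q B z) := by
  apply Nat.Coprime.prod_right
  intro p hp
  have hp1 := Nat.prime_of_mem_primeFactors (Finset.mem_of_mem_filter p hp)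
  have hp2 : ¬ p ∣ B := (Finset.mem_filter.mp hp).2.2
  exact ((Nat.Prime.coprime_iff_not_dvd hp1).mpr hp2).symm

lemma Qz_le (q B z : ℕ) : Qz q B z ≤ 4 ^ z := by
  have h1 : Qz q B z ∣ primorial z := by
    apply Finset.prod_dvd_prod_of_subset
    intro p hp
    obtain ⟨h2, h3, _⟩ := Finset.mem_filter.mp hp
    rw [Finset.mem_filter, Finset.mem_range]
    exact ⟨by omega, Nat.prime_of_mem_primeFactors h2⟩
  exact (Nat.le_of_dvd (primorial_pos z) h1).trans (primorial_le_four_pow z)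

lemma dvd_Qz {q B z p : ℕ} (hq : q ≠ 0) (hp : p.Prime) (hpq : p ∣ q) (hpz : p ≤ z) (hpB : ¬ p ∣ B) :
    p ∣ Qz q B z := by
  apply Finset.dvd_prod_of_mem (fun p => p)
  rw [Finset.mem_filter, Nat.mem_primeFactors]
  exact ⟨⟨hp, hpq, hq⟩, hpz, hpB⟩

/-- Coprimality to `Qz`, with large primes excluded, implies coprimality to `q`. -/
lemma isCoprime_of_good {q B z : ℕ} (hq : q ≠ 0) {A x : ℤ} {a : ℤ} (hAB : IsCoprime A (B : ℤ))
    (hx : x = a * B + A) (hgood : IsCoprime x (Qz q B z : ℤ))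
    (hlarge : ∀ p ∈ q.primeFactors.filter (fun p => z < p ∧ ¬ p ∣ B), ¬ (p : ℤ) ∣ x) :
    IsCoprime x (q : ℤ) := by
  rw [isCoprime_comm, Int.isCoprime_iff_gcd_eq_one]
  by_contra hne
  obtain ⟨p, hp, hpd⟩ := Nat.exists_prime_and_dvd hne
  have hpq : p ∣ q := by
    have := hpd.trans (Int.gcd_dvd_natAbs_left _ _ : Int.gcd (q : ℤ) x ∣ (q : ℤ).natAbs)
    simpa using this
  have hpx : (p : ℤ) ∣ x := by
    have h1 : ((Int.gcd (q : ℤ) x : ℕ) : ℤ) ∣ x := Int.gcd_dvd_right _ _
    exact (Int.natCast_dvd_natCast.mpr hpd).trans h1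
  have hpB : ¬ p ∣ B := by
    intro hpB
    have h1 : (p : ℤ) ∣ (B : ℤ) := Int.natCast_dvd_natCast.mpr hpB
    have h2 : (p : ℤ) ∣ A := by
      have h3 : A = x - a * B := by rw [hx]; ring
      rw [h3]
      exact dvd_sub hpx (Dvd.dvd.mul_left h1 a)
    have h4 := hAB.isUnit_of_dvd' h2 h1
    have h5 : (p : ℤ) = 1 ∨ (p : ℤ) = -1 := Int.isUnit_iff.mp h4
    have := hp.two_le
    omega
  by_cases hpz : p ≤ z
  · have h1 := dvd_Qz hq hp hpq hpz hpB
    have h2 : (p : ℤ) ∣ (Qz q B z : ℤ) := Int.natCast_dvd_natCast.mpr h1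
    have h4 := hgood.isUnit_of_dvd' hpx h2
    have h5 : (p : ℤ) = 1 ∨ (p : ℤ) = -1 := Int.isUnit_iff.mp h4
    have := hp.two_le
    omega
  · apply hlarge p _ hpx
    rw [Finset.mem_filter, Nat.mem_primeFactors]
    exact ⟨⟨hp, hpq, hq⟩, by omega, hpB⟩

/-- Exact count over the period for the class of multiples of a large prime. -/
lemma count_good_prime {Q B p : ℕ} (hQ : 0 < Q) (hp : p.Prime) (hBQ : Nat.Coprime B Q)
    (hpB : ¬ p ∣ B) (hpQ : ¬ p ∣ Q) (A c : ℤ) :
    ((Finset.Ico c (c + (p * Q : ℕ))).filter fun a : ℤ =>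
      IsCoprime (a * B + A) (Q : ℤ) ∧ (p : ℤ) ∣ a * B + A).card = Nat.totient Q := by
  have hBp : Nat.Coprime B p := ((Nat.Prime.coprime_iff_not_dvd hp).mpr hpB).symm
  have hBpQ : Nat.Coprime B (p * Q) := Nat.Coprime.mul_right hBp hBQ
  have hpQ' : Nat.Coprime p Q := (Nat.Prime.coprime_iff_not_dvd hp).mpr hpQ
  have h1 := count_coprime_linear (m := p * Q) (Nat.mul_pos hp.pos hQ) hBpQ A c
  have h2 := count_periodic (fun a : ℤ => IsCoprime (a * B + A) (Q : ℤ)) Q (Nat.totient Q)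
    (fun c => count_coprime_linear hQ hBQ A c) c p
  rw [Nat.totient_mul hpQ', Nat.totient_prime hp] at h1
  have hsplit : (Finset.Ico c (c + (p * Q : ℕ))).filter (fun a : ℤ => IsCoprime (a * B + A) (Q : ℤ)) =
      (Finset.Ico c (c + (p * Q : ℕ))).filter (fun a : ℤ =>
        IsCoprime (a * B + A) (Q : ℤ) ∧ (p : ℤ) ∣ a * B + A) ∪
      (Finset.Ico c (c + (p * Q : ℕ))).filter (fun a : ℤ => IsCoprime (a * B + A) ((p * Q : ℕ) : ℤ)) := by
    ext a
    simp only [Finset.mem_union, Finset.mem_filter]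
    have hpz : Prime (p : ℤ) := Nat.prime_iff_prime_int.mp hp
    constructor
    · rintro ⟨ha, hb⟩
      by_cases hd : (p : ℤ) ∣ a * B + A
      · left; exact ⟨ha, hb, hd⟩
      · right
        refine ⟨ha, ?_⟩
        push_cast
        have h3 : IsCoprime (a * B + A) (p : ℤ) := ((Prime.coprime_iff_not_dvd hpz).mpr hd).symm
        exact IsCoprime.mul_right h3 hb
    · rintro (⟨ha, hb, _⟩ | ⟨ha, hb⟩)
      · exact ⟨ha, hb⟩
      · refine ⟨ha, ?_⟩
        push_cast at hb
        exact hb.of_mul_right_right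
  have hdisj : Disjoint ((Finset.Ico c (c + (p * Q : ℕ))).filter (fun a : ℤ =>
        IsCoprime (a * B + A) (Q : ℤ) ∧ (p : ℤ) ∣ a * B + A))
      ((Finset.Ico c (c + (p * Q : ℕ))).filter (fun a : ℤ => IsCoprime (a * B + A) ((p * Q : ℕ) : ℤ))) := by
    rw [Finset.disjoint_left]
    intro a ha hb
    obtain ⟨_, _, h3⟩ := Finset.mem_filter.mp ha
    obtain ⟨_, h4⟩ := Finset.mem_filter.mp hb
    push_cast at h4
    have h5 := h4.of_mul_right_left
    have h6 := h5.isUnit_of_dvd' h3 (dvd_refl _)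
    have h7 : (p : ℤ) = 1 ∨ (p : ℤ) = -1 := Int.isUnit_iff.mp h6
    have := hp.two_le
    omega
  rw [hsplit, Finset.card_union_of_disjoint hdisj, h1] at h2
  have h8 : 1 ≤ p := hp.pos
  have h9 : p * Nat.totient Q = (p - 1) * Nat.totient Q + Nat.totient Q := by
    conv_lhs => rw [← Nat.sub_add_cancel h8]
    ring
  omega

/-- Lower bound for the number of admissible numerators in an interval. -/
theorem le_count_coprime {q B z : ℕ} (hq : 0 < q) {A : ℤ} (hAB : IsCoprime A (B : ℤ))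
    (hT : ∑ p ∈ q.primeFactors.filter (fun p => z < p), (1 : ℝ) / p ≤ 1 / 2) (c : ℤ) (ℓ : ℕ)
    (hℓ : 4 * Qz q B z * (1 + q.primeFactors.card) ≤ ℓ) :
    (ℓ : ℝ) * ((Nat.totient (Qz q B z) : ℝ) / Qz q B z) / 4 ≤
      (((Finset.Ico c (c + ℓ)).filter fun a : ℤ => IsCoprime (a * B + A) (q : ℤ)).card : ℝ) := by
  classical
  set Q := Qz q B z with hQ
  have hQpos : 0 < Q := Qz_pos q B z
  have hQ' : (0 : ℝ) < Q := by exact_mod_cast hQpos
  have hBQ : Nat.Coprime B Q := Qz_coprime q B z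
  set W := Finset.Ico c (c + ℓ) with hW
  set P := q.primeFactors.filter (fun p => z < p ∧ ¬ p ∣ B) with hP
  set T : ℝ := (Nat.totient Q : ℝ) with hTt
  have hT0 : 0 ≤ T := Nat.cast_nonneg _
  have hgood := le_count (fun a : ℤ => IsCoprime (a * B + A) (Q : ℤ)) Q (Nat.totient Q) hQpos
    (fun c => count_coprime_linear hQpos hBQ A c) c ℓ
  rw [← hW] at hgood
  have hprime : ∀ p ∈ P, ((W.filter fun a : ℤ =>
      IsCoprime (a * B + A) (Q : ℤ) ∧ (p : ℤ) ∣ a * B + A).card : ℝ) ≤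
      ((ℓ : ℝ) / Q * (1 / p) + 1) * T := by
    intro p hp
    obtain ⟨hp1, hp2, hp3⟩ := Finset.mem_filter.mp hp
    have hpp := Nat.prime_of_mem_primeFactors hp1
    have hpQ : ¬ p ∣ Q := by
      intro hd
      obtain ⟨p', hp', hd'⟩ := (Prime.dvd_finsetProd_iff hpp.prime _).mp hd
      have h3 := Nat.prime_of_mem_primeFactors (Finset.mem_of_mem_filter p' hp')
      have h4 : p = p' := (Nat.prime_dvd_prime_iff_eq hpp h3).mp hd'
      have h5 := (Finset.mem_filter.mp hp').2.1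
      omega
    have h1 := count_le (fun a : ℤ => IsCoprime (a * B + A) (Q : ℤ) ∧ (p : ℤ) ∣ a * B + A)
      (p * Q) (Nat.totient Q) (Nat.mul_pos hpp.pos hQpos)
      (fun c => count_good_prime hQpos hpp hBQ hp3 hpQ A c) c ℓ
    refine h1.trans (le_of_eq ?_)
    have hp' : (0 : ℝ) < p := by exact_mod_cast hpp.pos
    push_cast
    field_simp
    exact hTt.symm
  -- the union bound
  have hcover : W.filter (fun a : ℤ => IsCoprime (a * B + A) (Q : ℤ)) ⊆
      W.filter (fun a : ℤ => IsCoprime (a * B + A) (q : ℤ)) ∪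
      P.biUnion fun p => W.filter fun a : ℤ =>
        IsCoprime (a * B + A) (Q : ℤ) ∧ (p : ℤ) ∣ a * B + A := by
    intro a ha
    obtain ⟨ha1, ha2⟩ := Finset.mem_filter.mp ha
    simp only [Finset.mem_union, Finset.mem_filter, Finset.mem_biUnion]
    by_cases hall : ∀ p ∈ P, ¬ (p : ℤ) ∣ a * B + A
    · left
      exact ⟨ha1, isCoprime_of_good hq.ne' hAB rfl ha2 hall⟩
    · right
      push Not at hall
      obtain ⟨p, hp, hpd⟩ := hall
      exact ⟨p, hp, ha1, ha2, hpd⟩
  have hunion : ((W.filter (fun a : ℤ => IsCoprime (a * B + A) (Q : ℤ))).card : ℝ) ≤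
      ((W.filter (fun a : ℤ => IsCoprime (a * B + A) (q : ℤ))).card : ℝ) +
      ∑ p ∈ P, ((W.filter fun a : ℤ =>
        IsCoprime (a * B + A) (Q : ℤ) ∧ (p : ℤ) ∣ a * B + A).card : ℝ) := by
    have h1 := Finset.card_le_card hcover
    have h2 := (Finset.card_union_le _ _).trans' h1
    have h3 := Nat.add_le_add_left (Finset.card_biUnion_le (s := P)
      (t := fun p => W.filter fun a : ℤ => IsCoprime (a * B + A) (Q : ℤ) ∧ (p : ℤ) ∣ a * B + A))
      ((W.filter (fun a : ℤ => IsCoprime (a * B + A) (q : ℤ))).card)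
    exact_mod_cast h2.trans h3
  have hsum : ∑ p ∈ P, ((W.filter fun a : ℤ =>
        IsCoprime (a * B + A) (Q : ℤ) ∧ (p : ℤ) ∣ a * B + A).card : ℝ) ≤
      ((ℓ : ℝ) / Q * (1 / 2) + (q.primeFactors.card : ℝ)) * T := by
    refine (Finset.sum_le_sum hprime).trans ?_
    rw [← Finset.sum_mul]
    apply mul_le_mul_of_nonneg_right _ hT0
    rw [Finset.sum_add_distrib, ← Finset.mul_sum]
    have h1 : ∑ p ∈ P, (1 : ℝ) / p ≤ 1 / 2 := by
      refine le_trans ?_ hT
      apply Finset.sum_le_sum_of_subset_of_nonneg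
      · intro p hp
        obtain ⟨h2, h3, _⟩ := Finset.mem_filter.mp hp
        exact Finset.mem_filter.mpr ⟨h2, h3⟩
      · intro _ _ _; positivity
    have h2 : ∑ _p ∈ P, (1 : ℝ) ≤ q.primeFactors.card := by
      rw [Finset.sum_const, nsmul_eq_mul, mul_one]
      exact_mod_cast Finset.card_le_card (Finset.filter_subset _ _)
    have h3 : (ℓ : ℝ) / Q * ∑ p ∈ P, (1 : ℝ) / p ≤ (ℓ : ℝ) / Q * (1 / 2) := by gcongr
    linarith
  have hℓ' : 4 * (Q : ℝ) * (1 + (q.primeFactors.card : ℝ)) ≤ ℓ := by exact_mod_cast hℓ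
  have h4 : (1 : ℝ) + (q.primeFactors.card : ℝ) ≤ (ℓ : ℝ) / Q / 4 := by
    rw [div_div, le_div_iff₀ (by positivity)]
    linarith
  have h5 : ((ℓ : ℝ) / Q - 1) * T - ((ℓ : ℝ) / Q * (1 / 2) + (q.primeFactors.card : ℝ)) * T ≥
      (ℓ : ℝ) / Q / 4 * T := by
    have : ((ℓ : ℝ) / Q - 1) * T - ((ℓ : ℝ) / Q * (1 / 2) + (q.primeFactors.card : ℝ)) * T =
        ((ℓ : ℝ) / Q * (1 / 2) - (1 + (q.primeFactors.card : ℝ))) * T := by ring
    rw [this]
    apply mul_le_mul_of_nonneg_right _ hT0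
    linarith
  have h6 : (ℓ : ℝ) * (T / Q) / 4 = (ℓ : ℝ) / Q / 4 * T := by ring
  rw [h6]
  linarith

/-- Upper bound for the number of numerators in an interval coprime to the sifted part. -/
theorem count_coprime_le {q B z : ℕ} {A : ℤ} (c : ℤ) (ℓ : ℕ) :
    (((Finset.Ico c (c + ℓ)).filter fun a : ℤ => IsCoprime (a * B + A) (Qz q B z : ℤ)).card : ℝ) ≤
      ((ℓ : ℝ) / Qz q B z + 1) * Nat.totient (Qz q B z) :=
  count_le _ _ _ (Qz_pos q B z) (fun c => count_coprime_linear (Qz_pos q B z) (Qz_coprime q B z) A c) c ℓ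

/-- Coprimality to `q` implies coprimality to the sifted part. -/
lemma isCoprime_Qz {q B z : ℕ} {x : ℤ} (h : IsCoprime x (q : ℤ)) : IsCoprime x (Qz q B z : ℤ) :=
  h.of_isCoprime_of_dvd_right (Int.natCast_dvd_natCast.mpr (Qz_dvd q B z))

end Vale.Agent.P028
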