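import Vale.Agent.P028.SumPair

open MeasureTheory Set Filter Topology
open scoped ENNReal

namespace Vale.Agent.P028

/-- A dyadic criterion for summability. -/
lemma summable_of_dyadic {f c : ℕ → ℝ} (hf : ∀ q, 0 ≤ f q) (hc0 : ∀ j, 0 ≤ c j) (hc : Summable c)
    (j₀ : ℕ) (h : ∀ j, j₀ ≤ j → ∑ q ∈ Finset.Ico (2 ^ j) (2 ^ (j + 1)), f q ≤ c j) :
    Summable f := by
  have hc' : Summable (fun i => c (i + j₀)) := (summable_nat_add_iff j₀).mpr hc
  have key : ∀ m, ∑ q ∈ Finset.range (2 ^ (m + j₀)), f q ≤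
      ∑ q ∈ Finset.range (2 ^ j₀), f q + ∑ i ∈ Finset.range m, c (i + j₀) := by
    intro m
    induction m with
    | zero => simp
    | succ m ih =>
      have h1 : 2 ^ (m + j₀) ≤ 2 ^ (m + 1 + j₀) :=
        Nat.pow_le_pow_right (by norm_num) (by omega)
      have h2 : ∑ q ∈ Finset.range (2 ^ (m + 1 + j₀)), f q =
          ∑ q ∈ Finset.range (2 ^ (m + j₀)), f q +
            ∑ q ∈ Finset.Ico (2 ^ (m + j₀)) (2 ^ (m + 1 + j₀)), f q :=
        (Finset.sum_range_add_sum_Ico f h1).symm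
      have h3 : m + 1 + j₀ = (m + j₀) + 1 := by ring
      have h4 := h (m + j₀) (by omega)
      rw [h2, Finset.sum_range_succ, h3]
      linarith
  apply summable_of_sum_range_le (c := ∑ q ∈ Finset.range (2 ^ j₀), f q + ∑' i, c (i + j₀)) hf
  intro n
  have h1 : n ≤ 2 ^ (n + j₀) := by
    have h2 : n < 2 ^ n := Nat.lt_two_pow_self
    have h3 : 2 ^ n ≤ 2 ^ (n + j₀) := Nat.pow_le_pow_right (by norm_num) (by omega)
    omega
  have h2 : ∑ q ∈ Finset.range n, f q ≤ ∑ q ∈ Finset.range (2 ^ (n + j₀)), f q :=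
    Finset.sum_le_sum_of_subset_of_nonneg (Finset.range_subset_range.mpr h1) (fun q _ _ => hf q)
  have h3 := key n
  have h4 : ∑ i ∈ Finset.range n, c (i + j₀) ≤ ∑' i, c (i + j₀) :=
    hc'.sum_le_tsum _ (fun i _ => hc0 _)
  linarith

section

variable {γ : ℝ} {ψ : ℕ → ℝ} {C₀ : ℝ} {q₁ : ℕ}

/-- The integers discarded from the series contribute a convergent sum. -/
theorem summable_bad (h0 : ∀ q, 0 ≤ ψ q) (hC : 1 ≤ C₀) (hq₁ : ∀ q, q₁ ≤ q → Large ψ C₀ q) :
    Summable (fun q => ψ q - rho ψ q₁ q) := by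
  classical
  have hC0 : 0 < C₀ := by linarith
  have hc : Summable (fun j : ℕ => (1 + 22 * C₀) * (1 / (j : ℝ) ^ 2)) :=
    (Real.summable_one_div_nat_pow.mpr (by norm_num)).mul_left _
  refine summable_of_dyadic (c := fun j : ℕ => (1 + 22 * C₀) * (1 / (j : ℝ) ^ 2))
    (fun q => by have := rho_le (q₁ := q₁) h0 q; linarith) (fun j => by positivity) hc
    (jj q₁ + 1) ?_
  intro j hj
  have hjpos : 0 < j := by omega
  have hj' : (0 : ℝ) < j := by exact_mod_cast hjpos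
  have hj1 : (1 : ℝ) ≤ j := by exact_mod_cast hjpos
  set ℓ := Nat.log 2 j + 1 with hℓ
  have hjℓ : (j : ℝ) ≤ 2 ^ ℓ := by
    have : j < 2 ^ ℓ := Nat.lt_pow_succ_log_self (by norm_num) j
    exact_mod_cast this.le
  have hj3 : (j : ℝ) ^ 3 ≤ 2 ^ (3 * ℓ) := by
    rw [mul_comm, pow_mul]
    gcongr
  set P : ℝ := (2 : ℝ) ^ j with hP
  have hPpos : 0 < P := by positivity
  set B2 := (Finset.Ioc 0 (2 ^ (j + 1))).filter
    (fun n : ℕ => (2 : ℝ) ^ (3 * ℓ) < ((Nat.divisors n).card : ℝ)) with hB2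
  set B3 := (Finset.Ioc 0 (2 ^ (j + 1))).filter
    (fun n : ℕ => (1 / 2 : ℝ) < ∑ p ∈ n.primeFactors.filter (fun p : ℕ => 6 * ℓ < p), (1 : ℝ) / p)
    with hB3
  -- pointwise bound
  have hpoint : ∀ q ∈ Finset.Ico (2 ^ j) (2 ^ (j + 1)), ψ q - rho ψ q₁ q ≤
      1 / (P * (j : ℝ) ^ 2) + (if q ∈ B2 then C₀ / P else 0) + (if q ∈ B3 then C₀ / P else 0) := by
    intro q hq
    obtain ⟨hq1, hq2⟩ := Finset.mem_Ico.mp hq
    have hq0 : 0 < q := lt_of_lt_of_le (by positivity) hq1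
    have hq' : P ≤ q := by
      rw [hP]
      exact_mod_cast hq1
    have hqpos : (0 : ℝ) < q := by linarith
    have hjq : jj q = j := by
      unfold jj
      exact Nat.log_eq_of_pow_le_of_lt_pow hq1 hq2
    have hlq : ll q = ℓ := by
      unfold ll
      rw [show Nat.log 2 q = j from hjq]
    have hqq₁ : q₁ ≤ q := by
      have h1 : q₁ < 2 ^ (jj q₁ + 1) := lt_pow_jj q₁
      have h2 : 2 ^ (jj q₁ + 1) ≤ 2 ^ j := Nat.pow_le_pow_right (by norm_num) hj
      omega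
    have hL := hq₁ q hqq₁
    have hℓ1 : (1 : ℝ) ≤ ℓ := by
      have : 1 ≤ ℓ := by omega
      exact_mod_cast this
    have hcap : ψ q ≤ C₀ / P := by
      refine hL.2.2.2.trans ?_
      rw [hlq]
      apply div_le_div_of_nonneg_left hC0.le hPpos
      have h1 : (1 : ℝ) ≤ (ℓ : ℝ) ^ 3 := one_le_pow₀ hℓ1
      nlinarith
    have hif2 : 0 ≤ (if q ∈ B2 then C₀ / P else 0) := by
      split_ifs
      · positivity
      · exact le_refl _
    have hif3 : 0 ≤ (if q ∈ B3 then C₀ / P else 0) := by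
      split_ifs
      · positivity
      · exact le_refl _
    have hfirst : 0 < 1 / (P * (j : ℝ) ^ 2) := by positivity
    by_cases hG : Good ψ q
    · have h1 : rho ψ q₁ q = ψ q := by
        unfold rho
        rw [if_pos ⟨hqq₁, hG⟩]
      rw [h1, sub_self]
      positivity
    · have h1 : rho ψ q₁ q = 0 := by
        unfold rho
        rw [if_neg]
        exact fun h => hG h.2
      rw [h1, sub_zero]
      unfold Good at hG
      rw [hjq, hlq] at hG
      have hzq : zz q = 6 * ℓ := by unfold zz; rw [hlq]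
      rw [hzq] at hG
      by_cases hG1 : 1 / ((q : ℝ) * (j : ℝ) ^ 2) ≤ ψ q
      · by_cases hG2 : ((q.divisors.card : ℕ) : ℝ) ≤ 2 ^ (3 * ℓ)
        · have hG3 : ¬ ∑ p ∈ q.primeFactors.filter (fun p : ℕ => 6 * ℓ < p), (1 : ℝ) / p ≤ 1 / 2 :=
            fun h => hG ⟨hG1, hG2, h⟩
          have hmem : q ∈ B3 := by
            rw [hB3, Finset.mem_filter, Finset.mem_Ioc]
            exact ⟨⟨hq0, hq2.le⟩, not_le.mp hG3⟩
          rw [if_pos hmem]
          linarith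
        · have hmem : q ∈ B2 := by
            rw [hB2, Finset.mem_filter, Finset.mem_Ioc]
            exact ⟨⟨hq0, hq2.le⟩, not_le.mp hG2⟩
          rw [if_pos hmem]
          linarith
      · have h2 : ψ q < 1 / ((q : ℝ) * (j : ℝ) ^ 2) := not_le.mp hG1
        have h3 : 1 / ((q : ℝ) * (j : ℝ) ^ 2) ≤ 1 / (P * (j : ℝ) ^ 2) := by
          apply one_div_le_one_div_of_le (by positivity)
          gcongr
        linarith
  refine (Finset.sum_le_sum hpoint).trans ?_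
  rw [Finset.sum_add_distrib, Finset.sum_add_distrib, Finset.sum_const, Finset.sum_ite_mem,
    Finset.sum_ite_mem, Finset.sum_const, Finset.sum_const, nsmul_eq_mul, nsmul_eq_mul,
    nsmul_eq_mul]
  have hblock : ((Finset.Ico (2 ^ j) (2 ^ (j + 1))).card : ℝ) = P := by
    rw [Nat.card_Ico]
    have : 2 ^ (j + 1) - 2 ^ j = 2 ^ j := by
      rw [pow_succ]
      omega
    rw [this, hP]
    push_cast
    rfl
  have hs1 : ((Finset.Ico (2 ^ j) (2 ^ (j + 1))).card : ℝ) * (1 / (P * (j : ℝ) ^ 2)) =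
      1 / (j : ℝ) ^ 2 := by
    rw [hblock]
    field_simp
  -- the second family
  have hlog : Real.log ((2 ^ (j + 1) : ℕ) : ℝ) ≤ (j : ℝ) + 1 := by
    push_cast
    rw [Real.log_pow]
    have h1 : Real.log 2 ≤ 1 := by
      have := Real.log_two_lt_d9
      linarith
    have h2 : (0 : ℝ) ≤ ((j + 1 : ℕ) : ℝ) := Nat.cast_nonneg _
    push_cast at h2 ⊢
    nlinarith
  have hB2card : (B2.card : ℝ) * (j : ℝ) ^ 3 ≤ 2 * P * ((j : ℝ) + 2) := by
    have h1 := card_many_divisors_le (2 ^ (j + 1)) (2 ^ (3 * ℓ)) (by positivity)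
    have h2 : (B2.card : ℝ) * (2 : ℝ) ^ (3 * ℓ) ≤
        ((2 ^ (j + 1) : ℕ) : ℝ) * (1 + Real.log ((2 ^ (j + 1) : ℕ) : ℝ)) := h1
    have h3 : ((2 ^ (j + 1) : ℕ) : ℝ) = 2 * P := by
      rw [hP]
      push_cast
      ring
    rw [h3] at h2
    rw [h3] at hlog
    calc (B2.card : ℝ) * (j : ℝ) ^ 3 ≤ (B2.card : ℝ) * (2 : ℝ) ^ (3 * ℓ) := by gcongr
      _ ≤ _ := h2
      _ ≤ 2 * P * ((j : ℝ) + 2) := by
        have : 1 + Real.log (2 * P) ≤ (j : ℝ) + 2 := by linarith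
        gcongr
  have hB3card : (B3.card : ℝ) * (j : ℝ) ^ 3 ≤ 16 * P := by
    have h1 := card_large_primes_le (2 ^ (j + 1)) (6 * ℓ) (by omega)
    have h2 : (B3.card : ℝ) * Real.exp (((6 * ℓ : ℕ) : ℝ) / 2) ≤
        ((2 ^ (j + 1) : ℕ) : ℝ) * Real.exp 2 := h1
    have h3 : ((2 ^ (j + 1) : ℕ) : ℝ) = 2 * P := by
      rw [hP]
      push_cast
      ring
    rw [h3] at h2
    have h4 : (2 : ℝ) ^ (3 * ℓ) ≤ Real.exp (((6 * ℓ : ℕ) : ℝ) / 2) := by
      have h5 : ((6 * ℓ : ℕ) : ℝ) / 2 = ((3 * ℓ : ℕ) : ℝ) := by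
        push_cast
        ring
      rw [h5]
      have h6 : Real.exp (((3 * ℓ : ℕ) : ℝ)) = Real.exp 1 ^ (3 * ℓ) := by
        rw [← Real.exp_nat_mul]
        simp
      rw [h6]
      have h7 : (2 : ℝ) ≤ Real.exp 1 := by
        have := Real.exp_one_gt_d9
        linarith
      gcongr
    have h8 : Real.exp 2 ≤ 8 := by
      have h9 : Real.exp 2 = Real.exp 1 * Real.exp 1 := by
        rw [← Real.exp_add]
        norm_num
      have := Real.exp_one_lt_d9
      have h10 := Real.exp_pos 1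
      rw [h9]
      nlinarith
    calc (B3.card : ℝ) * (j : ℝ) ^ 3 ≤ (B3.card : ℝ) * Real.exp (((6 * ℓ : ℕ) : ℝ) / 2) := by
          gcongr
          exact hj3.trans h4
      _ ≤ 2 * P * Real.exp 2 := h2
      _ ≤ 2 * P * 8 := by gcongr
      _ = _ := by ring
  have hinter2 : (((Finset.Ico (2 ^ j) (2 ^ (j + 1))) ∩ B2).card : ℝ) ≤ B2.card := by
    exact_mod_cast Finset.card_le_card Finset.inter_subset_right
  have hinter3 : (((Finset.Ico (2 ^ j) (2 ^ (j + 1))) ∩ B3).card : ℝ) ≤ B3.card := by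
    exact_mod_cast Finset.card_le_card Finset.inter_subset_right
  have hs2 : (((Finset.Ico (2 ^ j) (2 ^ (j + 1))) ∩ B2).card : ℝ) * (C₀ / P) ≤
      6 * C₀ * (1 / (j : ℝ) ^ 2) := by
    calc _ ≤ (B2.card : ℝ) * (C₀ / P) := by gcongr
      _ ≤ (2 * P * ((j : ℝ) + 2) / (j : ℝ) ^ 3) * (C₀ / P) := by
        gcongr
        rw [le_div_iff₀ (by positivity)]
        exact hB2card
      _ = 2 * ((j : ℝ) + 2) / (j : ℝ) * C₀ * (1 / (j : ℝ) ^ 2) := by
        field_simp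
      _ ≤ 6 * C₀ * (1 / (j : ℝ) ^ 2) := by
        have h5 : 2 * ((j : ℝ) + 2) / (j : ℝ) ≤ 6 := by
          rw [div_le_iff₀ hj']
          linarith
        gcongr
  have hs3 : (((Finset.Ico (2 ^ j) (2 ^ (j + 1))) ∩ B3).card : ℝ) * (C₀ / P) ≤
      16 * C₀ * (1 / (j : ℝ) ^ 2) := by
    calc _ ≤ (B3.card : ℝ) * (C₀ / P) := by gcongr
      _ ≤ (16 * P / (j : ℝ) ^ 3) * (C₀ / P) := by
        gcongr
        rw [le_div_iff₀ (by positivity)]
        exact hB3card
      _ = 16 * (1 / (j : ℝ)) * C₀ * (1 / (j : ℝ) ^ 2) := by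
        field_simp
      _ ≤ 16 * 1 * C₀ * (1 / (j : ℝ) ^ 2) := by
        have h5 : 1 / (j : ℝ) ≤ 1 := by
          rw [div_le_one hj']
          exact hj1
        gcongr
      _ = _ := by ring
  rw [hs1]
  have h6 : (1 + 22 * C₀) * (1 / (j : ℝ) ^ 2) =
      1 / (j : ℝ) ^ 2 + 6 * C₀ * (1 / (j : ℝ) ^ 2) + 16 * C₀ * (1 / (j : ℝ) ^ 2) := by ring
  rw [h6]
  linarith

/-- The divergence survives the restriction to good integers. -/
theorem not_summable_Mq (h0 : ∀ q, 0 ≤ ψ q) (hC : 1 ≤ C₀) (hq₁ : ∀ q, q₁ ≤ q → Large ψ C₀ q)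
    (hdiv : ¬ Summable fun q : ℕ => (Nat.totient q : ℝ) / q * ψ q) :
    ¬ Summable (Mq γ ψ q₁) := by
  intro hs
  apply hdiv
  have hb := summable_bad (q₁ := q₁) h0 hC hq₁
  refine Summable.of_nonneg_of_le (fun q => ?_) (fun q => ?_) (hs.add hb)
  · have := h0 q
    positivity
  · have hρ := rho_nonneg (q₁ := q₁) h0 q
    have hρ2 := rho_le (q₁ := q₁) h0 q
    rcases Nat.eq_zero_or_pos q with rfl | hq
    · simp only [Nat.cast_zero, div_zero, zero_mul]
      have := Mq_nonneg (γ := γ) (q₁ := q₁) h0 0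
      linarith
    · have hq' : (0 : ℝ) < q := by exact_mod_cast hq
      have h1 : (Nat.totient q : ℝ) / q ≤ 1 := by
        rw [div_le_one hq']
        exact_mod_cast Nat.totient_le q
      have h2 : (Nat.totient q : ℝ) / q ≤ Dz q (BB γ q) (zz q) := totient_div_le_Dz hq.ne' _ _
      have h3 : (0 : ℝ) ≤ (Nat.totient q : ℝ) / q := by positivity
      unfold Mq
      calc (Nat.totient q : ℝ) / q * ψ q
          = (Nat.totient q : ℝ) / q * rho ψ q₁ q + (Nat.totient q : ℝ) / q * (ψ q - rho ψ q₁ q) := by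
            ring
        _ ≤ rho ψ q₁ q * Dz q (BB γ q) (zz q) + 1 * (ψ q - rho ψ q₁ q) := by
            have h4 : 0 ≤ ψ q - rho ψ q₁ q := by linarith
            have h5 : (Nat.totient q : ℝ) / q * rho ψ q₁ q ≤ Dz q (BB γ q) (zz q) * rho ψ q₁ q := by
              gcongr
            have h6 : (Nat.totient q : ℝ) / q * (ψ q - rho ψ q₁ q) ≤ 1 * (ψ q - rho ψ q₁ q) := by
              gcongr
            linarith
        _ = _ := by ring

end

end Vale.Agent.P028
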