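import Vale.Agent.P028.ZeroOne

open MeasureTheory Set Filter Topology
open scoped ENNReal

namespace Vale.Agent.P028

/-- Pillai type bound: `∑_{q ≤ r} gcd(q,r) ≤ τ(r) r`. -/
lemma sum_gcd_le (r : ℕ) :
    ∑ q ∈ Finset.Icc 1 r, Nat.gcd q r ≤ (Nat.divisors r).card * r := by
  classical
  rcases Nat.eq_zero_or_pos r with rfl | hr
  · simp
  have hmaps : ∀ q ∈ Finset.Icc 1 r, Nat.gcd q r ∈ Nat.divisors r := by
    intro q _
    exact Nat.mem_divisors.mpr ⟨Nat.gcd_dvd_right _ _, hr.ne'⟩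
  have h1 : ∑ q ∈ Finset.Icc 1 r, Nat.gcd q r =
      ∑ d ∈ Nat.divisors r, ∑ q ∈ (Finset.Icc 1 r).filter (fun q => Nat.gcd q r = d), Nat.gcd q r :=
    (Finset.sum_fiberwise_of_maps_to hmaps _).symm
  rw [h1]
  have h2 : ∀ d ∈ Nat.divisors r,
      ∑ q ∈ (Finset.Icc 1 r).filter (fun q => Nat.gcd q r = d), Nat.gcd q r ≤ r := by
    intro d hd
    have hdpos : 0 < d := Nat.pos_of_mem_divisors hd
    have h3 : ∑ q ∈ (Finset.Icc 1 r).filter (fun q => Nat.gcd q r = d), Nat.gcd q r =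
        ((Finset.Icc 1 r).filter (fun q => Nat.gcd q r = d)).card * d := by
      rw [Finset.sum_congr rfl (g := fun _ => d)
        (fun q hq => (Finset.mem_filter.mp hq).2), Finset.sum_const, smul_eq_mul]
    rw [h3]
    have h4 : ((Finset.Icc 1 r).filter (fun q => Nat.gcd q r = d)).card ≤ r / d := by
      have hsub : (Finset.Icc 1 r).filter (fun q => Nat.gcd q r = d) ⊆
          (Finset.Ioc 0 r).filter (fun q => d ∣ q) := by
        intro q hq
        obtain ⟨hq1, hq2⟩ := Finset.mem_filter.mp hq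
        obtain ⟨hq3, hq4⟩ := Finset.mem_Icc.mp hq1
        refine Finset.mem_filter.mpr ⟨Finset.mem_Ioc.mpr ⟨hq3, hq4⟩, ?_⟩
        rw [← hq2]; exact Nat.gcd_dvd_left _ _
      calc _ ≤ ((Finset.Ioc 0 r).filter (fun q => d ∣ q)).card := Finset.card_le_card hsub
        _ = r / d := Nat.Ioc_filter_dvd_card_eq_div r d
    calc _ ≤ r / d * d := Nat.mul_le_mul_right d h4
      _ ≤ r := Nat.div_mul_le_self r d
  calc _ ≤ ∑ _d ∈ Nat.divisors r, r := Finset.sum_le_sum h2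
    _ = _ := by rw [Finset.sum_const, smul_eq_mul]

/-- Sum of the gcd-overlap terms is bounded by the weighted divisor sum. -/
lemma sum_gcd_min_le (ρ : ℕ → ℝ) (h0 : ∀ q, 0 ≤ ρ q) (X₀ X : ℕ) (hX₀ : 1 ≤ X₀) :
    ∑ q ∈ Finset.Icc X₀ X, ∑ r ∈ Finset.Icc X₀ X,
      ((Nat.gcd q r : ℝ) * min (ρ q / q) (ρ r / r)) ≤
    2 * ∑ r ∈ Finset.Icc X₀ X, ((Nat.divisors r).card : ℝ) * ρ r := by
  classical
  set s := Finset.Icc X₀ X with hs
  have hpos : ∀ q ∈ s, 0 < q := fun q hq => lt_of_lt_of_le hX₀ (Finset.mem_Icc.mp hq).1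
  -- one-sided sum
  have hone : ∑ r ∈ s, ∑ q ∈ s.filter (fun q => q ≤ r), ((Nat.gcd q r : ℝ) * (ρ r / r)) ≤
      ∑ r ∈ s, ((Nat.divisors r).card : ℝ) * ρ r := by
    refine Finset.sum_le_sum fun r hr => ?_
    have hr0 : 0 < r := hpos r hr
    have hr' : (0 : ℝ) < r := by exact_mod_cast hr0
    have h1 : ∑ q ∈ s.filter (fun q => q ≤ r), (Nat.gcd q r : ℝ) ≤
        ∑ q ∈ Finset.Icc 1 r, (Nat.gcd q r : ℝ) := by
      apply Finset.sum_le_sum_of_subset_of_nonneg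
      · intro q hq
        obtain ⟨hq1, hq2⟩ := Finset.mem_filter.mp hq
        exact Finset.mem_Icc.mpr ⟨hpos q hq1, hq2⟩
      · intro _ _ _; positivity
    have h2 : ∑ q ∈ Finset.Icc 1 r, (Nat.gcd q r : ℝ) ≤ ((Nat.divisors r).card : ℝ) * r := by
      exact_mod_cast sum_gcd_le r
    rw [← Finset.sum_mul]
    calc _ ≤ (((Nat.divisors r).card : ℝ) * r) * (ρ r / r) := by
          have : 0 ≤ ρ r / r := div_nonneg (h0 r) hr'.le
          gcongr
          exact h1.trans h2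
      _ = _ := by field_simp
  -- pointwise splitting
  have hsplit : ∀ q ∈ s, ∀ r ∈ s, ((Nat.gcd q r : ℝ) * min (ρ q / q) (ρ r / r)) ≤
      (if q ≤ r then (Nat.gcd q r : ℝ) * (ρ r / r) else 0) +
      (if r ≤ q then (Nat.gcd r q : ℝ) * (ρ q / q) else 0) := by
    intro q _ r _
    have hg : (0 : ℝ) ≤ Nat.gcd q r := by positivity
    have hq0 : 0 ≤ ρ q / q := div_nonneg (h0 q) (Nat.cast_nonneg _)
    have hr0 : 0 ≤ ρ r / r := div_nonneg (h0 r) (Nat.cast_nonneg _)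
    rcases le_total q r with h | h
    · rw [if_pos h]
      have h2 : (0 : ℝ) ≤ (if r ≤ q then (Nat.gcd r q : ℝ) * (ρ q / q) else 0) := by
        split_ifs <;> positivity
      have h3 : (Nat.gcd q r : ℝ) * min (ρ q / q) (ρ r / r) ≤ (Nat.gcd q r : ℝ) * (ρ r / r) := by
        gcongr; exact min_le_right _ _
      linarith
    · rw [if_pos h]
      have h2 : (0 : ℝ) ≤ (if q ≤ r then (Nat.gcd q r : ℝ) * (ρ r / r) else 0) := by
        split_ifs <;> positivity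
      have h3 : (Nat.gcd q r : ℝ) * min (ρ q / q) (ρ r / r) ≤ (Nat.gcd r q : ℝ) * (ρ q / q) := by
        rw [Nat.gcd_comm]
        gcongr; exact min_le_left _ _
      linarith
  calc ∑ q ∈ s, ∑ r ∈ s, ((Nat.gcd q r : ℝ) * min (ρ q / q) (ρ r / r))
      ≤ ∑ q ∈ s, ∑ r ∈ s, ((if q ≤ r then (Nat.gcd q r : ℝ) * (ρ r / r) else 0) +
        (if r ≤ q then (Nat.gcd r q : ℝ) * (ρ q / q) else 0)) :=
        Finset.sum_le_sum fun q hq => Finset.sum_le_sum fun r hr => hsplit q hq r hr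
    _ = ∑ r ∈ s, ∑ q ∈ s.filter (fun q => q ≤ r), ((Nat.gcd q r : ℝ) * (ρ r / r)) +
        ∑ q ∈ s, ∑ r ∈ s.filter (fun r => r ≤ q), ((Nat.gcd r q : ℝ) * (ρ q / q)) := by
        simp_rw [Finset.sum_add_distrib]
        congr 1
        · rw [Finset.sum_comm]
          refine Finset.sum_congr rfl fun r _ => ?_
          rw [Finset.sum_filter]
        · refine Finset.sum_congr rfl fun q _ => ?_
          rw [Finset.sum_filter]
    _ ≤ ∑ r ∈ s, ((Nat.divisors r).card : ℝ) * ρ r + ∑ r ∈ s, ((Nat.divisors r).card : ℝ) * ρ r :=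
        add_le_add hone hone
    _ = _ := by ring

/-- Criterion: divergence together with the mean divisor bound gives full measure,
for arbitrary moving shifts. -/
theorem ae_of_divisor_sum (γ ψ : ℕ → ℝ) (h0 : ∀ q, 0 ≤ ψ q) (hdiv : ¬ Summable ψ) (C : ℝ)
    (hτ : ∀ M : ℕ, ∃ X : ℕ, M ≤ X ∧
      ∑ q ∈ Finset.Icc 1 X, ((Nat.divisors q).card : ℝ) * ψ q ≤
        C * (∑ q ∈ Finset.Icc 1 X, ψ q) ^ 2) :
    ∀ᵐ x : ℝ, ∃ᶠ q : ℕ in atTop, ∃ a : ℤ, |(q : ℝ) * x - a - γ q| < ψ q := by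
  classical
  by_cases hbig : ∃ᶠ q : ℕ in atTop, 1 / 2 < ψ q
  · refine Eventually.of_forall fun x => hbig.mono fun q hq => ?_
    refine ⟨round ((q : ℝ) * x - γ q), ?_⟩
    have := abs_sub_round ((q : ℝ) * x - γ q)
    have h2 : (q : ℝ) * x - (round ((q : ℝ) * x - γ q) : ℝ) - γ q =
        (q : ℝ) * x - γ q - round ((q : ℝ) * x - γ q) := by ring
    rw [h2]; linarith
  rw [not_frequently] at hbig
  obtain ⟨X₁, hX₁⟩ := eventually_atTop.mp hbig
  have hX₁' : ∀ q, X₁ ≤ q → ψ q ≤ 1 / 2 := fun q hq => not_lt.mp (hX₁ q hq)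
  set ρ : ℕ → ℝ := fun q => if q < X₁ then 0 else min (ψ q) (1 / 4) with hρ
  have hρ0 : ∀ q, 0 ≤ ρ q := by
    intro q; simp only [hρ]; split_ifs
    · exact le_rfl
    · exact le_min (h0 q) (by norm_num)
  have hρ14 : ∀ q, ρ q ≤ 1 / 4 := by
    intro q; simp only [hρ]; split_ifs
    · norm_num
    · exact min_le_right _ _
  have hρψ : ∀ q, ρ q ≤ ψ q := by
    intro q; simp only [hρ]; split_ifs
    · exact h0 q
    · exact min_le_left _ _
  have hψρ : ∀ q, X₁ ≤ q → ψ q ≤ 2 * ρ q := by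
    intro q hq
    have h1 : ρ q = min (ψ q) (1 / 4) := by simp only [hρ]; rw [if_neg (not_lt.mpr hq)]
    rw [h1]
    rcases le_total (ψ q) (1 / 4) with h | h
    · rw [min_eq_left h]; linarith [h0 q]
    · rw [min_eq_right h]; linarith [hX₁' q hq]
  have hρdiv : ¬ Summable ρ := by
    intro hs
    apply hdiv
    have hfin : Summable (fun q => if q < X₁ then ψ q else 0) :=
      summable_of_ne_finset_zero (s := Finset.range X₁) fun q hq => by
        simp only [Finset.mem_range] at hq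
        rw [if_neg hq]
    refine Summable.of_nonneg_of_le h0 ?_ ((hs.mul_left 2).add hfin)
    intro q
    by_cases hq : q < X₁
    · rw [if_pos hq]; linarith [hρ0 q]
    · rw [if_neg hq]; linarith [hψρ q (not_lt.mp hq)]
  have htend : ∀ X₀ : ℕ, Tendsto (fun X => ∑ q ∈ Finset.Icc X₀ X, ρ q) atTop atTop := by
    intro X₀
    have h1 := (not_summable_iff_tendsto_nat_atTop_of_nonneg hρ0).mp hρdiv
    have h2 : Tendsto (fun X => ∑ q ∈ Finset.range (X + 1), ρ q) atTop atTop :=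
      h1.comp (tendsto_add_atTop_nat 1)
    have h3 : Tendsto (fun X => ∑ q ∈ Finset.range (X + 1), ρ q - ∑ q ∈ Finset.range X₀, ρ q)
        atTop atTop := tendsto_atTop_add_const_right _ _ h2
    refine tendsto_atTop_mono (fun X => ?_) h3
    have hsub : Finset.range (X + 1) ⊆ Finset.range X₀ ∪ Finset.Icc X₀ X := by
      intro q hq
      simp only [Finset.mem_range, Finset.mem_union, Finset.mem_Icc] at hq ⊢
      omega
    have h4 : ∑ q ∈ Finset.range (X + 1), ρ q ≤ ∑ q ∈ Finset.range X₀ ∪ Finset.Icc X₀ X, ρ q :=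
      Finset.sum_le_sum_of_subset_of_nonneg hsub fun i _ _ => hρ0 i
    have h5 : ∑ q ∈ Finset.range X₀ ∪ Finset.Icc X₀ X, ρ q ≤
        ∑ q ∈ Finset.range X₀, ρ q + ∑ q ∈ Finset.Icc X₀ X, ρ q := by
      rw [Finset.sum_union]
      rw [Finset.disjoint_left]
      intro q hq hq'
      simp only [Finset.mem_range, Finset.mem_Icc] at hq hq'
      omega
    linarith
  have hmain := ae_frequently_of_overlap γ ρ hρ0 hρ14 hρdiv ?_
  · filter_upwards [hmain] with x hx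
    refine hx.mono fun q hq => ?_
    obtain ⟨a, ha⟩ := hq
    exact ⟨a, ha.trans_le (hρψ q)⟩
  intro R
  set Cp : ℝ := max C 0 with hCp
  have hCp0 : 0 ≤ Cp := le_max_right _ _
  refine ⟨(2 * (R : ℝ) + 2) * (16 + 36 * Cp), fun X₀ hX₀ M => ?_⟩
  set X₂ : ℕ := max X₀ X₁ with hX₂
  set B : ℝ := ∑ q ∈ Finset.Icc 1 X₂, ψ q with hB
  have hB0 : 0 ≤ B := Finset.sum_nonneg fun q _ => h0 q
  obtain ⟨M', hM'⟩ := eventually_atTop.mp ((htend X₀).eventually_ge_atTop (B + 1))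
  obtain ⟨X, hMX, hXb⟩ := hτ (max M M')
  refine ⟨X, (le_max_left _ _).trans hMX, ?_⟩
  set s := Finset.Icc X₀ X with hs
  set A : ℝ := ∑ q ∈ s, ρ q with hA
  have hA0 : B + 1 ≤ A := hM' X ((le_max_right _ _).trans hMX)
  have hspos : ∀ q ∈ s, 0 < q := fun q hq => lt_of_lt_of_le hX₀ (Finset.mem_Icc.mp hq).1
  -- compare the two partial sums
  have hcomp : ∑ q ∈ Finset.Icc 1 X, ψ q ≤ B + 2 * A := by
    have hsub : Finset.Icc 1 X ⊆ Finset.Icc 1 X₂ ∪ Finset.Icc (X₂ + 1) X := by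
      intro q hq
      simp only [Finset.mem_union, Finset.mem_Icc] at hq ⊢
      omega
    have h1 : ∑ q ∈ Finset.Icc 1 X, ψ q ≤
        ∑ q ∈ Finset.Icc 1 X₂ ∪ Finset.Icc (X₂ + 1) X, ψ q :=
      Finset.sum_le_sum_of_subset_of_nonneg hsub fun i _ _ => h0 i
    have h2 : ∑ q ∈ Finset.Icc 1 X₂ ∪ Finset.Icc (X₂ + 1) X, ψ q =
        B + ∑ q ∈ Finset.Icc (X₂ + 1) X, ψ q := by
      rw [Finset.sum_union]
      rw [Finset.disjoint_left]
      intro q hq hq'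
      simp only [Finset.mem_Icc] at hq hq'
      omega
    have h3 : ∑ q ∈ Finset.Icc (X₂ + 1) X, ψ q ≤ ∑ q ∈ Finset.Icc (X₂ + 1) X, 2 * ρ q :=
      Finset.sum_le_sum fun q hq => hψρ q (by
        have := (Finset.mem_Icc.mp hq).1
        have hle : X₁ ≤ X₂ := le_max_right _ _
        omega)
    have h4 : ∑ q ∈ Finset.Icc (X₂ + 1) X, ρ q ≤ A := by
      apply Finset.sum_le_sum_of_subset_of_nonneg
      · intro q hq
        simp only [Finset.mem_Icc] at hq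
        simp only [hs, Finset.mem_Icc]
        have hle : X₀ ≤ X₂ := le_max_left _ _
        omega
      · intro i _ _; exact hρ0 i
    rw [← Finset.mul_sum] at h3
    linarith
  have hA1 : 0 ≤ A := by linarith
  have hψA : ∑ q ∈ Finset.Icc 1 X, ψ q ≤ 3 * A := by linarith
  have hψ0 : 0 ≤ ∑ q ∈ Finset.Icc 1 X, ψ q := Finset.sum_nonneg fun q _ => h0 q
  have hτs : ∑ r ∈ s, ((Nat.divisors r).card : ℝ) * ρ r ≤ 9 * Cp * A ^ 2 := by
    have h1 : ∑ r ∈ s, ((Nat.divisors r).card : ℝ) * ρ r ≤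
        ∑ r ∈ s, ((Nat.divisors r).card : ℝ) * ψ r :=
      Finset.sum_le_sum fun r _ => by
        have := hρψ r
        gcongr
    have h2 : ∑ r ∈ s, ((Nat.divisors r).card : ℝ) * ψ r ≤
        ∑ r ∈ Finset.Icc 1 X, ((Nat.divisors r).card : ℝ) * ψ r := by
      apply Finset.sum_le_sum_of_subset_of_nonneg
      · intro q hq
        have := Finset.mem_Icc.mp hq
        exact Finset.mem_Icc.mpr ⟨hX₀.trans this.1, this.2⟩
      · intro i _ _
        have := h0 i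
        positivity
    have h3 : C * (∑ q ∈ Finset.Icc 1 X, ψ q) ^ 2 ≤ Cp * (3 * A) ^ 2 := by
      have h4 : (∑ q ∈ Finset.Icc 1 X, ψ q) ^ 2 ≤ (3 * A) ^ 2 := by gcongr
      calc C * (∑ q ∈ Finset.Icc 1 X, ψ q) ^ 2 ≤ Cp * (∑ q ∈ Finset.Icc 1 X, ψ q) ^ 2 := by
            have : C ≤ Cp := le_max_left _ _
            gcongr
        _ ≤ _ := by gcongr
    calc _ ≤ _ := h1
      _ ≤ _ := h2
      _ ≤ _ := hXb
      _ ≤ _ := h3
      _ = _ := by ring
  have hterm : ∀ q ∈ s, ∀ r ∈ s,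
      volume.real (E (γ q) (ρ q) q ∩ E (γ r) (ρ r) r ∩ Icc (-(R : ℝ)) R) ≤
        (2 * (R : ℝ) + 2) * (16 * (ρ q * ρ r) +
          2 * ((Nat.gcd q r : ℝ) * min (ρ q / q) (ρ r / r))) := by
    intro q hq r hr
    have hb := volume_overlap_le (γ₁ := γ q) (γ₂ := γ r) (ρ := ρ q) (σ := ρ r) (R := (R : ℝ))
      (hspos q hq) (hspos r hr) (hρ0 q) (hρ0 r) (hρ14 q) (hρ14 r) (Nat.cast_nonneg R)
    refine ENNReal.toReal_le_of_le_ofReal ?_ hb
    have h1 : 0 ≤ ρ q * ρ r := mul_nonneg (hρ0 q) (hρ0 r)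
    have h2 : 0 ≤ min (ρ q / q) (ρ r / r) :=
      le_min (div_nonneg (hρ0 q) (Nat.cast_nonneg _)) (div_nonneg (hρ0 r) (Nat.cast_nonneg _))
    positivity
  have hGsum := sum_gcd_min_le ρ hρ0 X₀ X hX₀
  rw [← hs] at hGsum
  have hexp : ∑ q ∈ s, ∑ r ∈ s, ((2 * (R : ℝ) + 2) * (16 * (ρ q * ρ r) +
      2 * ((Nat.gcd q r : ℝ) * min (ρ q / q) (ρ r / r)))) =
      (2 * (R : ℝ) + 2) * (16 * A ^ 2 + 2 * ∑ q ∈ s, ∑ r ∈ s,
        ((Nat.gcd q r : ℝ) * min (ρ q / q) (ρ r / r))) := by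
    have hA2 : A ^ 2 = ∑ q ∈ s, ∑ r ∈ s, ρ q * ρ r := by
      rw [sq, hA, Finset.sum_mul_sum]
    rw [hA2]
    simp only [Finset.mul_sum, mul_add, Finset.sum_add_distrib]
  calc ∑ q ∈ s, ∑ r ∈ s, volume.real (E (γ q) (ρ q) q ∩ E (γ r) (ρ r) r ∩ Icc (-(R : ℝ)) R)
      ≤ ∑ q ∈ s, ∑ r ∈ s, ((2 * (R : ℝ) + 2) * (16 * (ρ q * ρ r) +
          2 * ((Nat.gcd q r : ℝ) * min (ρ q / q) (ρ r / r)))) :=
        Finset.sum_le_sum fun q hq => Finset.sum_le_sum fun r hr => hterm q hq r hr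
    _ = _ := hexp
    _ ≤ (2 * (R : ℝ) + 2) * (16 * A ^ 2 + 2 * (2 * (9 * Cp * A ^ 2))) := by
        have hR0 : (0 : ℝ) ≤ 2 * (R : ℝ) + 2 := by positivity
        gcongr
        linarith
    _ = _ := by ring

/-- Bounded number of divisors on the support. -/
theorem ae_of_bounded_divisors (K : ℕ) (γ ψ : ℕ → ℝ) (h0 : ∀ q, 0 ≤ ψ q)
    (hsupp : ∀ q, ψ q ≠ 0 → (Nat.divisors q).card ≤ K) (hdiv : ¬ Summable ψ) :
    ∀ᵐ x : ℝ, ∃ᶠ q : ℕ in atTop, ∃ a : ℤ, |(q : ℝ) * x - a - γ q| < ψ q := by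
  refine ae_of_divisor_sum γ ψ h0 hdiv K ?_
  intro M
  have h1 := (not_summable_iff_tendsto_nat_atTop_of_nonneg h0).mp hdiv
  have h2 : Tendsto (fun X => ∑ q ∈ Finset.range (X + 1), ψ q) atTop atTop :=
    h1.comp (tendsto_add_atTop_nat 1)
  have h3 : Tendsto (fun X => ∑ q ∈ Finset.range (X + 1), ψ q - ψ 0) atTop atTop :=
    tendsto_atTop_add_const_right _ _ h2
  obtain ⟨M', hM'⟩ := eventually_atTop.mp (h3.eventually_ge_atTop 1)
  refine ⟨max M M', le_max_left _ _, ?_⟩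
  set X := max M M' with hX
  have h4 : ∑ q ∈ Finset.range (X + 1), ψ q - ψ 0 = ∑ q ∈ Finset.Icc 1 X, ψ q := by
    rw [Finset.range_eq_Ico, Finset.sum_eq_sum_Ico_succ_bot (Nat.succ_pos X)]
    simp only [Nat.zero_add, add_sub_cancel_left]
    rfl
  have h5 : 1 ≤ ∑ q ∈ Finset.Icc 1 X, ψ q := by
    rw [← h4]; exact hM' X (le_max_right _ _)
  have h6 : ∑ q ∈ Finset.Icc 1 X, ((Nat.divisors q).card : ℝ) * ψ q ≤
      ∑ q ∈ Finset.Icc 1 X, (K : ℝ) * ψ q := by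
    refine Finset.sum_le_sum fun q _ => ?_
    by_cases hq : ψ q = 0
    · simp [hq]
    · have : ((Nat.divisors q).card : ℝ) ≤ K := by exact_mod_cast hsupp q hq
      exact mul_le_mul_of_nonneg_right this (h0 q)
  rw [← Finset.mul_sum] at h6
  refine h6.trans ?_
  have hK : (0 : ℝ) ≤ K := Nat.cast_nonneg K
  have h7 : ∑ q ∈ Finset.Icc 1 X, ψ q ≤ (∑ q ∈ Finset.Icc 1 X, ψ q) ^ 2 := by nlinarith
  gcongr

/-- Passing from the weighted divergence in the conjecture to plain divergence. -/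
lemma not_summable_of_not_summable_totient (ψ : ℕ → ℝ) (h0 : ∀ q, 0 ≤ ψ q)
    (hdiv : ¬ Summable fun q : ℕ => (Nat.totient q : ℝ) / q * ψ q) : ¬ Summable ψ := by
  intro hs
  apply hdiv
  refine Summable.of_nonneg_of_le (fun q => ?_) (fun q => ?_) hs
  · have := h0 q; positivity
  · have h1 : (Nat.totient q : ℝ) / q ≤ 1 := by
      rcases Nat.eq_zero_or_pos q with rfl | hq
      · simp
      · have hq' : (0 : ℝ) < q := by exact_mod_cast hq
        rw [div_le_one hq']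
        exact_mod_cast Nat.totient_le q
    calc _ ≤ 1 * ψ q := mul_le_mul_of_nonneg_right h1 (h0 q)
      _ = ψ q := one_mul _

end Vale.Agent.P028
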