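import Vale.Agent.P028.Bohr

namespace Vale.Agent.P028

/-- Splitting a sum at an index. -/
lemma sum_range_split (f u v : ℕ → ℝ) (k₀ K : ℕ) (hf0 : ∀ k, 0 ≤ f k)
    (hu : ∀ k, k < k₀ → f k ≤ u k) (hv : ∀ k, k₀ ≤ k → f k ≤ v k) :
    ∑ k ∈ Finset.range K, f k ≤ ∑ k ∈ Finset.range k₀, u k + ∑ i ∈ Finset.range K, v (k₀ + i) := by
  have h1 : ∑ k ∈ Finset.range K, f k ≤ ∑ k ∈ Finset.range (k₀ + K), f k := by
    apply Finset.sum_le_sum_of_subset_of_nonneg
    · intro x hx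
      simp only [Finset.mem_range] at hx ⊢
      omega
    · intro i _ _; exact hf0 i
  rw [Finset.sum_range_add] at h1
  refine h1.trans (add_le_add ?_ ?_)
  · exact Finset.sum_le_sum fun k hk => hu k (Finset.mem_range.mp hk)
  · exact Finset.sum_le_sum fun i _ => hv _ (Nat.le_add_right _ _)

lemma sum_two_pow_le (k₀ : ℕ) : ∑ k ∈ Finset.range k₀, (2 : ℝ) ^ k ≤ 2 ^ k₀ := by
  induction k₀ with
  | zero => simp
  | succ n ih =>
    rw [Finset.sum_range_succ, pow_succ]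
    linarith

lemma sum_inv_two_pow_le (k₀ K : ℕ) :
    ∑ i ∈ Finset.range K, (1 : ℝ) / 2 ^ (k₀ + i) ≤ 2 / 2 ^ k₀ := by
  have h1 : ∀ i, (1 : ℝ) / 2 ^ (k₀ + i) = (1 / 2 ^ k₀) * (1 / 2) ^ i := by
    intro i
    rw [pow_add, one_div_pow]
    field_simp
  simp_rw [h1]
  rw [← Finset.mul_sum]
  have h2 := sum_geometric_two_le K
  have h3 : (0 : ℝ) ≤ 1 / 2 ^ k₀ := by positivity
  calc (1 / 2 ^ k₀) * ∑ i ∈ Finset.range K, (1 / (2 : ℝ)) ^ i ≤ (1 / 2 ^ k₀) * 2 := by gcongr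
    _ = 2 / 2 ^ k₀ := by ring

/-- Geometric sum of a minimum. -/
lemma sum_min_geom (a b : ℝ) (ha : 0 ≤ a) (hb : 0 ≤ b) (K k₀ : ℕ) :
    ∑ k ∈ Finset.range K, min (a / 2 ^ k) (b * 2 ^ k) ≤ b * 2 ^ k₀ + 2 * a / 2 ^ k₀ := by
  have h := sum_range_split (fun k => min (a / 2 ^ k) (b * 2 ^ k)) (fun k => b * 2 ^ k)
    (fun k => a / 2 ^ k) k₀ K (fun k => le_min (by positivity) (by positivity))
    (fun k _ => min_le_right _ _) (fun k _ => min_le_left _ _)
  refine h.trans (add_le_add ?_ ?_)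
  · rw [← Finset.mul_sum]
    exact mul_le_mul_of_nonneg_left (sum_two_pow_le k₀) hb
  · have h1 : ∀ i, a / 2 ^ (k₀ + i) = a * (1 / 2 ^ (k₀ + i)) := by intro i; ring
    simp_rw [h1]
    rw [← Finset.mul_sum]
    calc a * _ ≤ a * (2 / 2 ^ k₀) := mul_le_mul_of_nonneg_left (sum_inv_two_pow_le k₀ K) ha
      _ = _ := by ring

/-- Sum of a minimum of a constant and a geometric term. -/
lemma sum_min_const_geom (x y : ℝ) (hx : 0 ≤ x) (hy : 0 ≤ y) (K k₀ : ℕ) :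
    ∑ k ∈ Finset.range K, min x (y / 2 ^ k) ≤ k₀ * x + 2 * y / 2 ^ k₀ := by
  have h := sum_range_split (fun k => min x (y / 2 ^ k)) (fun _ => x)
    (fun k => y / 2 ^ k) k₀ K (fun k => le_min hx (by positivity))
    (fun k _ => min_le_left _ _) (fun k _ => min_le_right _ _)
  refine h.trans (add_le_add ?_ ?_)
  · simp
  · have h1 : ∀ i, y / 2 ^ (k₀ + i) = y * (1 / 2 ^ (k₀ + i)) := by intro i; ring
    simp_rw [h1]
    rw [← Finset.mul_sum]
    calc y * _ ≤ y * (2 / 2 ^ k₀) := mul_le_mul_of_nonneg_left (sum_inv_two_pow_le k₀ K) hy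
      _ = _ := by ring

/-- The hyperbola method count. -/
lemma hyperbola_count {Z W : ℝ} (hZ : 0 ≤ Z) (hW : 0 ≤ W) (G : Finset ℕ)
    (hG : ∀ g ∈ G, 1 ≤ g ∧ ∃ n : ℕ, 1 ≤ n ∧ |(g : ℝ) * n - Z| < W ∧ (g : ℝ) * n ≤ 2 * Z) :
    (G.card : ℝ) ≤ 2 * Real.sqrt (2 * Z) +
      2 * W * ∑ n ∈ Finset.Icc 1 ⌊Real.sqrt (2 * Z)⌋₊, (1 : ℝ) / n := by
  classical
  set s : ℝ := Real.sqrt (2 * Z) with hs
  have hs0 : 0 ≤ s := Real.sqrt_nonneg _
  set S : ℕ := ⌊s⌋₊ with hS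
  have hSs : (S : ℝ) ≤ s := Nat.floor_le hs0
  have hsS : s < (S : ℝ) + 1 := Nat.lt_floor_add_one s
  have hss : s * s = 2 * Z := Real.mul_self_sqrt (by positivity)
  -- the pieces
  let P : ℕ → Finset ℕ := fun n => G.filter fun g => |(g : ℝ) * n - Z| < W
  have hcover : G ⊆ Finset.Icc 1 S ∪ (Finset.Icc 1 S).biUnion P := by
    intro g hg
    obtain ⟨hg1, n, hn1, hn2, hn3⟩ := hG g hg
    simp only [Finset.mem_union, Finset.mem_Icc, Finset.mem_biUnion]
    by_cases hgS : g ≤ S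
    · left; exact ⟨hg1, hgS⟩
    · right
      refine ⟨n, ⟨hn1, ?_⟩, Finset.mem_filter.mpr ⟨hg, hn2⟩⟩
      by_contra hnS
      have h1 : (S : ℝ) + 1 ≤ g := by
        have : S + 1 ≤ g := by omega
        exact_mod_cast this
      have h2 : (S : ℝ) + 1 ≤ n := by
        have : S + 1 ≤ n := by omega
        exact_mod_cast this
      have h3 : s * s < (g : ℝ) * n := by
        have hs1 : (0 : ℝ) ≤ (S : ℝ) + 1 := by positivity
        nlinarith
      linarith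
  have hP : ∀ n ∈ Finset.Icc 1 S, ((P n).card : ℝ) ≤ 2 * W * (1 / (n : ℝ)) + 1 := by
    intro n hn
    have hn1 : 1 ≤ n := (Finset.mem_Icc.mp hn).1
    have hn' : (0 : ℝ) < n := by exact_mod_cast hn1
    set lo : ℝ := (Z - W) / n with hlo
    set hi : ℝ := (Z + W) / n with hhi
    have hlh : lo ≤ hi := by
      rw [hlo, hhi]; apply div_le_div_of_nonneg_right _ hn'.le; linarith
    have hmaps : ∀ g ∈ P n, (g : ℤ) ∈ Finset.Icc ⌈lo⌉ ⌊hi⌋ := by
      intro g hg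
      have h2 : |(g : ℝ) * n - Z| < W := (Finset.mem_filter.mp hg).2
      obtain ⟨h3, h4⟩ := abs_lt.mp h2
      rw [Finset.mem_Icc]
      constructor
      · apply Int.ceil_le.mpr
        rw [hlo, div_le_iff₀ hn']
        push_cast
        linarith
      · apply Int.le_floor.mpr
        rw [hhi, le_div_iff₀ hn']
        push_cast
        linarith
    have hinj : Set.InjOn (fun g : ℕ => (g : ℤ)) (P n) := fun a _ b _ h => by
      simp only at h
      exact_mod_cast h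
    have h5 := Finset.card_le_card_of_injOn _ hmaps hinj
    have h6 := card_Icc_ceil_floor_le hlh
    have h7 : ((P n).card : ℝ) ≤ hi - lo + 1 := by
      refine le_trans ?_ h6
      exact_mod_cast h5
    have h8 : hi - lo = 2 * W * (1 / (n : ℝ)) := by
      rw [hlo, hhi]; field_simp; ring
    linarith
  have h1 : (G.card : ℝ) ≤ (S : ℝ) + ∑ n ∈ Finset.Icc 1 S, ((P n).card : ℝ) := by
    have h2 : G.card ≤ (Finset.Icc 1 S).card + ∑ n ∈ Finset.Icc 1 S, (P n).card := by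
      calc G.card ≤ (Finset.Icc 1 S ∪ (Finset.Icc 1 S).biUnion P).card := Finset.card_le_card hcover
        _ ≤ (Finset.Icc 1 S).card + ((Finset.Icc 1 S).biUnion P).card := Finset.card_union_le _ _
        _ ≤ _ := Nat.add_le_add_left Finset.card_biUnion_le _
    rw [Nat.card_Icc, Nat.add_sub_cancel] at h2
    exact_mod_cast h2
  have h3 : ∑ n ∈ Finset.Icc 1 S, ((P n).card : ℝ) ≤
      ∑ n ∈ Finset.Icc 1 S, (2 * W * (1 / (n : ℝ)) + 1) := Finset.sum_le_sum hP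
  have h4 : ∑ n ∈ Finset.Icc 1 S, (2 * W * (1 / (n : ℝ)) + 1) =
      2 * W * ∑ n ∈ Finset.Icc 1 S, (1 : ℝ) / n + S := by
    rw [Finset.sum_add_distrib, ← Finset.mul_sum]
    simp
  linarith

/-- Harmonic sums are logarithmic. -/
lemma sum_one_div_Icc_le (S : ℕ) : ∑ n ∈ Finset.Icc 1 S, (1 : ℝ) / n ≤ 1 + Real.log S := by
  have h := harmonic_le_one_add_log S
  rw [harmonic_eq_sum_Icc] at h
  push_cast at h
  simpa [one_div] using h

end Vale.Agent.P028
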