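import Vale.Agent.P028.Basic

open MeasureTheory Set Filter Topology
open scoped ENNReal

namespace Vale.Agent.P028

/-- Equidistribution lower bound for the approximation sets. -/
theorem le_volume_E_inter_Ico {γ ρ : ℝ} {q : ℕ} (hq : 0 < q) (hρ0 : 0 ≤ ρ) (hρ : ρ ≤ 1 / 4)
    {u ℓ : ℝ} (hℓ : 2 ≤ (q : ℝ) * ℓ) :
    ENNReal.ofReal (ρ * ℓ / 2) ≤ volume (E γ ρ q ∩ Ico u (u + ℓ)) := by
  have hq' : (0 : ℝ) < q := by exact_mod_cast hq
  set x : ℝ := q * u - γ + ρ with hx
  set y : ℝ := q * (u + ℓ) - γ - ρ with hy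
  have hxy : x ≤ y := by
    simp only [hx, hy]; nlinarith
  set A : Finset ℤ := Finset.Icc ⌈x⌉ ⌊y⌋ with hA
  have hcard : (q : ℝ) * ℓ / 4 ≤ (A.card : ℝ) := by
    have := lt_card_Icc_ceil_floor hxy
    have h2 : y - x = q * ℓ - 2 * ρ := by simp only [hx, hy]; ring
    rw [hA]
    linarith
  have hsub : (⋃ a ∈ A, piece γ ρ q a) ⊆ E γ ρ q ∩ Ico u (u + ℓ) := by
    intro z hz
    simp only [mem_iUnion, exists_prop] at hz
    obtain ⟨a, ha, hz⟩ := hz
    refine ⟨⟨a, hz⟩, ?_⟩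
    have h1 : x ≤ a := by
      have := (Finset.mem_Icc.mp ha).1
      exact Int.ceil_le.mp this
    have h2 : (a : ℝ) ≤ y := by
      have := (Finset.mem_Icc.mp ha).2
      exact Int.le_floor.mp this
    have h3 : |(q : ℝ) * z - a - γ| < ρ := hz
    obtain ⟨h4, h5⟩ := abs_lt.mp h3
    simp only [hx] at h1
    simp only [hy] at h2
    constructor
    · have : (q : ℝ) * u ≤ q * z := by linarith
      exact le_of_mul_le_mul_left this hq'
    · have : (q : ℝ) * z < q * (u + ℓ) := by linarith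
      exact lt_of_mul_lt_mul_left this hq'.le
  have hdisj : (A : Set ℤ).PairwiseDisjoint (piece γ ρ q) := by
    intro a _ b _ hab
    refine Set.disjoint_left.mpr fun z hz hz' => hab ?_
    have h3 : |(q : ℝ) * z - a - γ| < ρ := hz
    have h4 : |(q : ℝ) * z - b - γ| < ρ := hz'
    obtain ⟨h5, h6⟩ := abs_lt.mp h3
    obtain ⟨h7, h8⟩ := abs_lt.mp h4
    have h9 : |((a - b : ℤ) : ℝ)| < 1 := by
      rw [abs_lt]; push_cast; constructor <;> linarith
    have h10 : |a - b| < 1 := by exact_mod_cast h9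
    have := Int.abs_lt_one_iff.mp h10
    omega
  calc ENNReal.ofReal (ρ * ℓ / 2)
      ≤ ENNReal.ofReal ((A.card : ℝ) * (2 * (ρ / q))) := by
        apply ENNReal.ofReal_le_ofReal
        have : ρ * ℓ / 2 = ((q : ℝ) * ℓ / 4) * (2 * (ρ / q)) := by field_simp; ring
        rw [this]
        have : 0 ≤ 2 * (ρ / q) := by positivity
        gcongr
    _ = ∑ _a ∈ A, ENNReal.ofReal (2 * (ρ / q)) := by
        rw [Finset.sum_const, nsmul_eq_mul, ENNReal.ofReal_mul (Nat.cast_nonneg _),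
          ENNReal.ofReal_natCast]
    _ = ∑ a ∈ A, volume (piece γ ρ q a) := by
        refine Finset.sum_congr rfl fun a _ => (volume_piece hq a).symm
    _ = volume (⋃ a ∈ A, piece γ ρ q a) := by
        rw [measure_biUnion_finset hdisj fun a _ => (isOpen_piece γ ρ q a).measurableSet]
    _ ≤ _ := measure_mono hsub

section overlap

variable {γ₁ γ₂ ρ σ R : ℝ} {q r : ℕ}

/-- Covering of one interval's trace by intervals of the other family. -/
lemma volume_piece_inter_E_le (hq : 0 < q) (hr : 0 < r) (hρ0 : 0 ≤ ρ) (hσ0 : 0 ≤ σ) (a : ℤ) :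
    volume (piece γ₁ ρ q a ∩ E γ₂ σ r) ≤
      ENNReal.ofReal ((2 * ((r : ℝ) * (ρ / q + σ / r)) + 1) * (2 * (σ / r))) := by
  have hq' : (0 : ℝ) < q := by exact_mod_cast hq
  have hr' : (0 : ℝ) < r := by exact_mod_cast hr
  set w := ρ / (q : ℝ) with hw
  set w' := σ / (r : ℝ) with hw'
  have hw0 : 0 ≤ w := by positivity
  have hw'0 : 0 ≤ w' := by positivity
  set η := (r : ℝ) * (w + w') with hη
  have hη0 : 0 ≤ η := by positivity
  set c : ℝ := (a + γ₁) / q with hc
  set lo : ℝ := r * c - γ₂ - η with hlo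
  set hi : ℝ := r * c - γ₂ + η with hhi
  have hlohi : lo ≤ hi := by simp only [hlo, hhi]; linarith
  set B : Finset ℤ := Finset.Icc ⌈lo⌉ ⌊hi⌋ with hB
  have hcov : piece γ₁ ρ q a ∩ E γ₂ σ r ⊆ ⋃ b ∈ B, piece γ₂ σ r b := by
    rintro z ⟨hz1, b, hz2⟩
    have hz1' := (mem_piece_iff hq).mp hz1
    have hz2' : z ∈ piece γ₂ σ r b := hz2
    have hz2'' := (mem_piece_iff hr).mp hz2'
    simp only [mem_iUnion, exists_prop]
    refine ⟨b, ?_, hz2'⟩
    have h1 : |c - (b + γ₂) / r| < w + w' := by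
      calc |c - (b + γ₂) / r| = |(z - (b + γ₂) / r) - (z - c)| := by congr 1; ring
        _ ≤ |z - (b + γ₂) / r| + |z - c| := abs_sub _ _
        _ < w' + w := add_lt_add hz2'' hz1'
        _ = w + w' := add_comm _ _
    have h2 : (b : ℝ) + γ₂ - r * c = r * ((b + γ₂) / r - c) := by field_simp
    have h3 : |(b : ℝ) + γ₂ - r * c| < η := by
      rw [h2, abs_mul, abs_of_pos hr', abs_sub_comm]
      exact mul_lt_mul_of_pos_left h1 hr'
    obtain ⟨h4, h5⟩ := abs_lt.mp h3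
    rw [hB, Finset.mem_Icc]
    constructor
    · apply Int.ceil_le.mpr; simp only [hlo]; linarith
    · apply Int.le_floor.mpr; simp only [hhi]; linarith
  have hcard := card_Icc_ceil_floor_le hlohi
  rw [← hB] at hcard
  have hcard' : (B.card : ℝ) ≤ 2 * η + 1 := by
    have : hi - lo = 2 * η := by simp only [hlo, hhi]; ring
    linarith
  calc volume (piece γ₁ ρ q a ∩ E γ₂ σ r) ≤ volume (⋃ b ∈ B, piece γ₂ σ r b) := measure_mono hcov
    _ ≤ ∑ b ∈ B, volume (piece γ₂ σ r b) := measure_biUnion_finset_le _ _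
    _ = ∑ _b ∈ B, ENNReal.ofReal (2 * w') := by
        refine Finset.sum_congr rfl fun b _ => volume_piece hr b
    _ = ENNReal.ofReal ((B.card : ℝ) * (2 * w')) := by
        rw [Finset.sum_const, nsmul_eq_mul, ENNReal.ofReal_mul (Nat.cast_nonneg _),
          ENNReal.ofReal_natCast]
    _ ≤ _ := by
        apply ENNReal.ofReal_le_ofReal
        have : 0 ≤ 2 * w' := by positivity
        gcongr

/-- When `η < 1/2`, the trace of `piece a` on the second family lies in a single interval. -/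
lemma volume_piece_inter_E_le_min (hq : 0 < q) (hr : 0 < r)
    (hη : (r : ℝ) * (ρ / q + σ / r) < 1 / 2) (a : ℤ) :
    volume (piece γ₁ ρ q a ∩ E γ₂ σ r) ≤ ENNReal.ofReal (2 * min (ρ / q) (σ / r)) ∧
    ((piece γ₁ ρ q a ∩ E γ₂ σ r).Nonempty →
      ∃ b : ℤ, |(a + γ₁) / q - (b + γ₂) / r| < ρ / q + σ / r) := by
  have hq' : (0 : ℝ) < q := by exact_mod_cast hq
  have hr' : (0 : ℝ) < r := by exact_mod_cast hr
  set w := ρ / (q : ℝ) with hw
  set w' := σ / (r : ℝ) with hw'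
  set c : ℝ := (a + γ₁) / q with hc
  have hclose : ∀ z ∈ piece γ₁ ρ q a ∩ E γ₂ σ r, ∃ b : ℤ, z ∈ piece γ₂ σ r b ∧
      |c - (b + γ₂) / r| < w + w' := by
    rintro z ⟨hz1, b, hz2⟩
    have hz1' := (mem_piece_iff hq).mp hz1
    have hz2' : z ∈ piece γ₂ σ r b := hz2
    have hz2'' := (mem_piece_iff hr).mp hz2'
    refine ⟨b, hz2', ?_⟩
    calc |c - (b + γ₂) / r| = |(z - (b + γ₂) / r) - (z - c)| := by congr 1; ring
      _ ≤ |z - (b + γ₂) / r| + |z - c| := abs_sub _ _
      _ < w' + w := add_lt_add hz2'' hz1'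
      _ = w + w' := add_comm _ _
  refine ⟨?_, ?_⟩
  · rcases (piece γ₁ ρ q a ∩ E γ₂ σ r).eq_empty_or_nonempty with he | ⟨z₀, hz₀⟩
    · rw [he]; simp
    · obtain ⟨b₀, hb₀, hb₀'⟩ := hclose z₀ hz₀
      have hsub : piece γ₁ ρ q a ∩ E γ₂ σ r ⊆ piece γ₂ σ r b₀ := by
        intro z hz
        obtain ⟨b, hb, hb'⟩ := hclose z hz
        have hbb : b = b₀ := by
          have h1 : |((b + γ₂) / r : ℝ) - (b₀ + γ₂) / r| < 2 * (w + w') := by
            calc |((b + γ₂) / r : ℝ) - (b₀ + γ₂) / r|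
                = |(c - (b₀ + γ₂) / r) - (c - (b + γ₂) / r)| := by congr 1; ring
              _ ≤ |c - (b₀ + γ₂) / r| + |c - (b + γ₂) / r| := abs_sub _ _
              _ < (w + w') + (w + w') := add_lt_add hb₀' hb'
              _ = 2 * (w + w') := by ring
          have h2 : ((b + γ₂) / r : ℝ) - (b₀ + γ₂) / r = ((b - b₀ : ℤ) : ℝ) / r := by
            push_cast; field_simp; ring
          rw [h2, abs_div, abs_of_pos hr', div_lt_iff₀ hr'] at h1
          have h3 : |((b - b₀ : ℤ) : ℝ)| < 1 := by nlinarith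
          have h4 : |b - b₀| < 1 := by exact_mod_cast h3
          have := Int.abs_lt_one_iff.mp h4
          omega
        rw [← hbb]; exact hb
      rcases le_total w w' with hle | hle
      · rw [min_eq_left hle]
        calc volume (piece γ₁ ρ q a ∩ E γ₂ σ r) ≤ volume (piece γ₁ ρ q a) :=
              measure_mono inter_subset_left
          _ = _ := volume_piece hq a
      · rw [min_eq_right hle]
        calc volume (piece γ₁ ρ q a ∩ E γ₂ σ r) ≤ volume (piece γ₂ σ r b₀) := measure_mono hsub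
          _ = _ := volume_piece hr b₀
  · rintro ⟨z, hz⟩
    obtain ⟨b, _, hb⟩ := hclose z hz
    exact ⟨b, hb⟩

open scoped Classical in
/-- The set of `a` in the list having a nearby point of the second family is small. -/
lemma card_close_le (hq : 0 < q) (hr : 0 < r) (hρ0 : 0 ≤ ρ) (hσ0 : 0 ≤ σ) (hρ : ρ ≤ 1 / 4)
    (hR : 0 ≤ R) :
    ((((Finset.Icc ⌈(q : ℝ) * (-R) - γ₁ - ρ⌉ ⌊(q : ℝ) * R - γ₁ + ρ⌋).filter
      (fun a : ℤ => ∃ b : ℤ, |(a + γ₁) / q - (b + γ₂) / r| < ρ / q + σ / r)).card : ℕ) : ℝ) ≤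
    (2 * ((r : ℝ) * (ρ / q + σ / r)) * ((q : ℝ) / (Nat.gcd q r : ℝ)) + 1) *
      ((2 * R + 2) * (Nat.gcd q r : ℝ)) := by
  classical
  have hq' : (0 : ℝ) < q := by exact_mod_cast hq
  have hr' : (0 : ℝ) < r := by exact_mod_cast hr
  set g := Nat.gcd q r with hg
  have hgpos : 0 < g := Nat.gcd_pos_of_pos_left _ hq
  have hg' : (0 : ℝ) < g := by exact_mod_cast hgpos
  have hg1 : (1 : ℝ) ≤ g := by exact_mod_cast hgpos
  obtain ⟨q1, hq1⟩ : g ∣ q := Nat.gcd_dvd_left _ _
  obtain ⟨r1, hr1⟩ : g ∣ r := Nat.gcd_dvd_right _ _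
  have hq1pos : 0 < q1 := by
    rcases Nat.eq_zero_or_pos q1 with h | h
    · rw [h, mul_zero] at hq1; omega
    · exact h
  have hr1pos : 0 < r1 := by
    rcases Nat.eq_zero_or_pos r1 with h | h
    · rw [h, mul_zero] at hr1; omega
    · exact h
  have hq1' : (0 : ℝ) < q1 := by exact_mod_cast hq1pos
  have hr1' : (0 : ℝ) < r1 := by exact_mod_cast hr1pos
  have hqR : (q : ℝ) = g * q1 := by exact_mod_cast hq1
  have hrR : (r : ℝ) = g * r1 := by exact_mod_cast hr1
  have hcop : Nat.Coprime q1 r1 := by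
    have := Nat.coprime_div_gcd_div_gcd (m := q) (n := r) hgpos
    rw [← hg] at this
    have h1 : q / g = q1 := by rw [hq1]; exact Nat.mul_div_cancel_left _ hgpos
    have h2 : r / g = r1 := by rw [hr1]; exact Nat.mul_div_cancel_left _ hgpos
    rwa [h1, h2] at this
  set w := ρ / (q : ℝ) with hw
  set w' := σ / (r : ℝ) with hw'
  have hw0 : 0 ≤ w := by positivity
  have hw'0 : 0 ≤ w' := by positivity
  set η := (r : ℝ) * (w + w') with hη
  have hη0 : 0 ≤ η := by positivity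
  set lo : ℝ := (q : ℝ) * (-R) - γ₁ - ρ with hlo
  set hi : ℝ := (q : ℝ) * R - γ₁ + ρ with hhi
  have hlohi : lo ≤ hi := by
    simp only [hlo, hhi]; nlinarith
  set N := (Finset.Icc ⌈lo⌉ ⌊hi⌋).filter
      (fun a : ℤ => ∃ b : ℤ, |(a + γ₁) / q - (b + γ₂) / r| < w + w') with hN
  have hex : ∀ a ∈ N, ∃ b : ℤ, |(a + γ₁) / q - (b + γ₂) / r| < w + w' := by
    intro a ha
    exact (Finset.mem_filter.mp ha).2
  choose! b hb using hex
  set Y : ℝ := η * q1 with hY
  have hY0 : 0 ≤ Y := by positivity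
  set v : ℝ := γ₁ * r1 - γ₂ * q1 with hv
  set K : Finset ℤ := Finset.Icc ⌈-v - Y⌉ ⌊-v + Y⌋ with hK
  let k : ℤ → ℤ := fun a => a * r1 - b a * q1
  have hk : ∀ a ∈ N, k a ∈ K := by
    intro a ha
    have h1 := hb a ha
    have h2 : ((k a : ℤ) : ℝ) + v =
        ((a + γ₁) / q - (b a + γ₂) / r) * (g * q1 * r1) := by
      simp only [k, hv]
      push_cast
      rw [hqR, hrR]
      field_simp
      ring
    have h3 : |((k a : ℤ) : ℝ) + v| < Y := by
      rw [h2, abs_mul, abs_of_pos (by positivity : (0 : ℝ) < g * q1 * r1)]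
      have h4 : Y = (w + w') * (g * q1 * r1) := by
        simp only [hY, hη]; rw [hrR]; ring
      rw [h4]
      exact mul_lt_mul_of_pos_right h1 (by positivity)
    obtain ⟨h4, h5⟩ := abs_lt.mp h3
    rw [hK, Finset.mem_Icc]
    constructor
    · apply Int.ceil_le.mpr; linarith
    · apply Int.le_floor.mpr; linarith
  have hKcard : (K.card : ℝ) ≤ 2 * Y + 1 := by
    have h : -v - Y ≤ -v + Y := by linarith
    have := card_Icc_ceil_floor_le h
    rw [← hK] at this
    linarith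
  -- fibres
  have hfib : ∀ k₀ ∈ K, (((N.filter fun a => k a = k₀).card : ℕ) : ℝ) ≤ (2 * R + 2) * g := by
    intro k₀ _
    set F := N.filter fun a => k a = k₀ with hF
    rcases F.eq_empty_or_nonempty with he | ⟨a₀, ha₀⟩
    · rw [he]; simp; positivity
    have hFin : ∀ a ∈ F, ⌈lo⌉ ≤ a ∧ a ≤ ⌊hi⌋ := by
      intro a ha
      have h1 := (Finset.mem_filter.mp ha).1
      exact Finset.mem_Icc.mp (Finset.mem_filter.mp h1).1
    have hcong : ∀ a ∈ F, ∀ a' ∈ F, ((q1 : ℕ) : ℤ) ∣ a - a' := by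
      intro a ha a' ha'
      have h1 : k a = k₀ := (Finset.mem_filter.mp ha).2
      have h2 : k a' = k₀ := (Finset.mem_filter.mp ha').2
      have h3 : (a - a') * (r1 : ℤ) = (b a - b a') * (q1 : ℤ) := by
        have h4 : k a = k a' := by rw [h1, h2]
        simp only [k] at h4
        linarith
      have h4 : ((q1 : ℕ) : ℤ) ∣ (a - a') * (r1 : ℤ) := ⟨b a - b a', by rw [h3]; ring⟩
      have hcop' : IsCoprime ((q1 : ℕ) : ℤ) ((r1 : ℕ) : ℤ) := Nat.isCoprime_iff_coprime.mpr hcop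
      exact hcop'.dvd_of_dvd_mul_right h4
    have hle : ⌈lo⌉ ≤ ⌊hi⌋ := (hFin a₀ ha₀).1.trans (hFin a₀ ha₀).2
    have h5 := card_congr_le F ⌈lo⌉ ⌊hi⌋ q1 hq1pos hle hFin hcong
    have h6 : ((⌊hi⌋ : ℝ) - (⌈lo⌉ : ℝ)) ≤ hi - lo := by
      have := Int.floor_le hi
      have := Int.le_ceil lo
      linarith
    have h7 : hi - lo = 2 * q * R + 2 * ρ := by simp only [hlo, hhi]; ring
    have h8 : ((⌊hi⌋ : ℝ) - (⌈lo⌉ : ℝ)) / q1 ≤ (2 * q * R + 2 * ρ) / q1 := by
      rw [← h7]; gcongr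
    have h9 : (2 * q * R + 2 * ρ) / (q1 : ℝ) ≤ 2 * g * R + 1 / 2 := by
      rw [div_le_iff₀ hq1', hqR]
      have h10 : (1 : ℝ) ≤ q1 := by exact_mod_cast hq1pos
      nlinarith
    have h11 : (2 : ℝ) * g * R + 1 / 2 + 1 ≤ (2 * R + 2) * g := by nlinarith
    linarith
  -- conclusion
  have hNcard : ((N.card : ℕ) : ℝ) ≤ (K.card : ℝ) * ((2 * R + 2) * g) := by
    rw [Finset.card_eq_sum_card_fiberwise (f := k) (t := K) (fun a ha => hk a ha)]
    push_cast
    calc ∑ k₀ ∈ K, (((N.filter fun a => k a = k₀).card : ℕ) : ℝ)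
        ≤ ∑ _k₀ ∈ K, ((2 * R + 2) * (g : ℝ)) := Finset.sum_le_sum hfib
      _ = _ := by rw [Finset.sum_const, nsmul_eq_mul]
  have hfinal : (q : ℝ) / g = q1 := by rw [hqR]; field_simp
  rw [hfinal]
  calc ((N.card : ℕ) : ℝ) ≤ (K.card : ℝ) * ((2 * R + 2) * g) := hNcard
    _ ≤ (2 * Y + 1) * ((2 * R + 2) * g) := by gcongr
    _ = _ := by simp only [hY]; ring

/-- Main overlap estimate. It is uniform in the shifts. -/
theorem volume_overlap_le (hq : 0 < q) (hr : 0 < r) (hρ0 : 0 ≤ ρ) (hσ0 : 0 ≤ σ) (hρ : ρ ≤ 1 / 4)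
    (hσ : σ ≤ 1 / 4) (hR : 0 ≤ R) :
    volume (E γ₁ ρ q ∩ E γ₂ σ r ∩ Icc (-R) R) ≤
      ENNReal.ofReal ((2 * R + 2) *
        (16 * (ρ * σ) + 2 * ((Nat.gcd q r : ℝ) * min (ρ / q) (σ / r)))) := by
  classical
  have hq' : (0 : ℝ) < q := by exact_mod_cast hq
  have hr' : (0 : ℝ) < r := by exact_mod_cast hr
  set w := ρ / (q : ℝ) with hw
  set w' := σ / (r : ℝ) with hw'
  have hw0 : 0 ≤ w := by positivity
  have hw'0 : 0 ≤ w' := by positivity
  set η := (r : ℝ) * (w + w') with hη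
  have hη0 : 0 ≤ η := by positivity
  set lo : ℝ := (q : ℝ) * (-R) - γ₁ - ρ with hlo
  set hi : ℝ := (q : ℝ) * R - γ₁ + ρ with hhi
  have hlohi : lo ≤ hi := by
    simp only [hlo, hhi]; nlinarith
  set A : Finset ℤ := Finset.Icc ⌈lo⌉ ⌊hi⌋ with hA
  have hcov : E γ₁ ρ q ∩ E γ₂ σ r ∩ Icc (-R) R ⊆ ⋃ a ∈ A, (piece γ₁ ρ q a ∩ E γ₂ σ r) := by
    rintro z ⟨⟨⟨a, hz1⟩, hz2⟩, hz3⟩
    simp only [mem_iUnion, exists_prop]
    refine ⟨a, ?_, hz1, hz2⟩
    obtain ⟨h4, h5⟩ := abs_lt.mp hz1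
    obtain ⟨h6, h7⟩ := hz3
    have h8 : (q : ℝ) * (-R) ≤ q * z := by gcongr
    have h9 : (q : ℝ) * z ≤ q * R := by gcongr
    rw [hA, Finset.mem_Icc]
    constructor
    · apply Int.ceil_le.mpr; simp only [hlo]; linarith
    · apply Int.le_floor.mpr; simp only [hhi]; linarith
  have hAcard : (A.card : ℝ) ≤ hi - lo + 1 := card_Icc_ceil_floor_le hlohi
  have hhl : hi - lo = 2 * q * R + 2 * ρ := by simp only [hlo, hhi]; ring
  refine (measure_mono hcov).trans ((measure_biUnion_finset_le _ _).trans ?_)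
  have hq1 : (1 : ℝ) ≤ q := by exact_mod_cast hq
  have hg : (0 : ℝ) < Nat.gcd q r := by exact_mod_cast Nat.gcd_pos_of_pos_left _ hq
  by_cases hcase : η < 1 / 2
  · -- small overlap window
    have hη' : (r : ℝ) * (ρ / q + σ / r) < 1 / 2 := hcase
    set V : ℝ := 2 * min w w' with hV
    have hV0 : 0 ≤ V := by positivity
    set N := A.filter (fun a : ℤ => ∃ b : ℤ, |(a + γ₁) / q - (b + γ₂) / r| < w + w') with hN
    have hsum : ∑ a ∈ A, volume (piece γ₁ ρ q a ∩ E γ₂ σ r) ≤ ∑ _a ∈ N, ENNReal.ofReal V := by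
      rw [← Finset.sum_filter_add_sum_filter_not A
        (fun a : ℤ => ∃ b : ℤ, |(a + γ₁) / q - (b + γ₂) / r| < w + w')]
      have h0 : ∑ a ∈ A.filter (fun a : ℤ =>
          ¬ ∃ b : ℤ, |(a + γ₁) / q - (b + γ₂) / r| < w + w'),
          volume (piece γ₁ ρ q a ∩ E γ₂ σ r) = 0 := by
        refine Finset.sum_eq_zero fun a ha => ?_
        have hne := (Finset.mem_filter.mp ha).2
        have : piece γ₁ ρ q a ∩ E γ₂ σ r = ∅ := by
          by_contra hc
          exact hne ((volume_piece_inter_E_le_min (γ₁ := γ₁) (γ₂ := γ₂) hq hr hη' a).2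
            (Set.nonempty_iff_ne_empty.mpr hc))
        rw [this]; simp
      rw [h0, add_zero]
      exact Finset.sum_le_sum fun a _ =>
        (volume_piece_inter_E_le_min (γ₁ := γ₁) (γ₂ := γ₂) hq hr hη' a).1
    refine hsum.trans ?_
    rw [Finset.sum_const, nsmul_eq_mul, ← ENNReal.ofReal_natCast, ← ENNReal.ofReal_mul
      (Nat.cast_nonneg _)]
    apply ENNReal.ofReal_le_ofReal
    have hNc := card_close_le (γ₁ := γ₁) (γ₂ := γ₂) hq hr hρ0 hσ0 hρ hR
    rw [← hlo, ← hhi, ← hA, ← hw, ← hw', ← hη, ← hN] at hNc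
    have hmin : η * min w w' ≤ 2 * ((ρ * σ) / q) := by
      have h1 : (w + w') * min w w' ≤ 2 * (w * w') := by
        rcases le_total w w' with h | h
        · rw [min_eq_left h]; nlinarith
        · rw [min_eq_right h]; nlinarith
      have h2 : (r : ℝ) * (w * w') = (ρ * σ) / q := by
        simp only [hw, hw']; field_simp
      calc η * min w w' = (r : ℝ) * ((w + w') * min w w') := by simp only [hη]; ring
        _ ≤ (r : ℝ) * (2 * (w * w')) := by gcongr
        _ = 2 * ((ρ * σ) / q) := by rw [← h2]; ring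
    have hmin0 : 0 ≤ min w w' := le_min hw0 hw'0
    set g : ℝ := (Nat.gcd q r : ℝ) with hgdef
    calc ((N.card : ℕ) : ℝ) * V
        ≤ ((2 * η * ((q : ℝ) / g) + 1) * ((2 * R + 2) * g)) * V := by gcongr
      _ = (2 * R + 2) * (4 * (η * min w w') * q + 2 * (g * min w w')) := by
          simp only [hV]; push_cast; field_simp; ring
      _ ≤ (2 * R + 2) * (4 * (2 * ((ρ * σ) / q)) * q + 2 * (g * min w w')) := by gcongr
      _ = (2 * R + 2) * (8 * (ρ * σ) + 2 * (g * min w w')) := by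
          congr 2; field_simp; ring
      _ ≤ (2 * R + 2) * (16 * (ρ * σ) + 2 * (g * min w w')) := by
          have : 0 ≤ ρ * σ := by positivity
          gcongr; linarith
  · -- long window: each interval of the first family meets many intervals of the second
    have hcase' : 1 / 2 ≤ η := not_lt.mp hcase
    have hrw : (r : ℝ) * w' = σ := by simp only [hw']; field_simp
    have hww : w' ≤ w := by
      have h1 : (r : ℝ) * w + σ ≥ 1 / 2 := by
        have : η = r * w + r * w' := by simp only [hη]; ring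
        rw [hrw] at this
        linarith
      have h2 : (r : ℝ) * w' ≤ r * w := by
        rw [hrw]; linarith
      exact le_of_mul_le_mul_left h2 hr'
    have hterm : ∀ a ∈ A, volume (piece γ₁ ρ q a ∩ E γ₂ σ r) ≤ ENNReal.ofReal (16 * ((ρ * σ) / q)) := by
      intro a _
      refine (volume_piece_inter_E_le (γ₁ := γ₁) (γ₂ := γ₂) hq hr hρ0 hσ0 a).trans ?_
      apply ENNReal.ofReal_le_ofReal
      rw [← hw, ← hw', ← hη]
      have h2 : (r : ℝ) * (w * w') = (ρ * σ) / q := by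
        simp only [hw, hw']; field_simp
      have h3 : η * w' ≤ 2 * ((ρ * σ) / q) := by
        rw [← h2]
        simp only [hη]
        nlinarith [mul_nonneg hr'.le (mul_nonneg hw'0 (sub_nonneg.mpr hww))]
      have h4 : 2 * η + 1 ≤ 4 * η := by linarith
      have h5 : 0 ≤ w' := hw'0
      calc (2 * η + 1) * (2 * w') ≤ (4 * η) * (2 * w') := by gcongr
        _ = 8 * (η * w') := by ring
        _ ≤ 8 * (2 * ((ρ * σ) / q)) := by gcongr
        _ = _ := by ring
    refine (Finset.sum_le_sum hterm).trans ?_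
    rw [Finset.sum_const, nsmul_eq_mul, ← ENNReal.ofReal_natCast, ← ENNReal.ofReal_mul
      (Nat.cast_nonneg _)]
    apply ENNReal.ofReal_le_ofReal
    have hmin0 : 0 ≤ min w w' := le_min hw0 hw'0
    have hrs : 0 ≤ ρ * σ := by positivity
    have h6 : (A.card : ℝ) ≤ q * (2 * R + 2) := by
      rw [hhl] at hAcard
      nlinarith
    calc (A.card : ℝ) * (16 * ((ρ * σ) / q))
        ≤ (q * (2 * R + 2)) * (16 * ((ρ * σ) / q)) := by gcongr
      _ = (2 * R + 2) * (16 * (ρ * σ)) := by field_simp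
      _ ≤ _ := by
          have : 0 ≤ 2 * ((Nat.gcd q r : ℝ) * min w w') := by positivity
          have h2R : 0 ≤ 2 * R + 2 := by linarith
          gcongr
          linarith

end overlap

end Vale.Agent.P028
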