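import Vale.Agent.P028.Restricted

open MeasureTheory Set Filter Topology
open scoped ENNReal

namespace Vale.Agent.P028

section

variable {γ ρ σ R : ℝ} {A₁ A₂ : ℤ} {B₁ B₂ q r : ℕ}

open scoped Classical in
/-- The finite set of pairs of numerators contributing to an overlap. -/
noncomputable def pairSet (γ ρ σ : ℝ) (A₁ : ℤ) (B₁ q : ℕ) (A₂ : ℤ) (B₂ r : ℕ) (R : ℝ) :
    Finset (ℤ × ℤ) :=
  ((Finset.Icc ⌈(q : ℝ) * (-R) - γ - ρ⌉ ⌊(q : ℝ) * R - γ + ρ⌋) ×ˢ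
    (Finset.Icc ⌈(r : ℝ) * (-R) - γ - σ⌉ ⌊(r : ℝ) * R - γ + σ⌋)).filter fun p =>
      IsCoprime (p.1 * B₁ + A₁) (q : ℤ) ∧ IsCoprime (p.2 * B₂ + A₂) (r : ℤ) ∧
        |((p.1 : ℝ) + γ) / q - ((p.2 : ℝ) + γ) / r| < ρ / q + σ / r

lemma volume_piece_inter_piece_le (hq : 0 < q) (hr : 0 < r) (a b : ℤ) :
    volume (piece γ ρ q a ∩ piece γ σ r b) ≤ ENNReal.ofReal (2 * min (ρ / q) (σ / r)) := by
  rcases le_total (ρ / q) (σ / r) with h | h
  · rw [min_eq_left h]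
    calc volume (piece γ ρ q a ∩ piece γ σ r b) ≤ volume (piece γ ρ q a) :=
          measure_mono inter_subset_left
      _ = _ := volume_piece hq a
  · rw [min_eq_right h]
    calc volume (piece γ ρ q a ∩ piece γ σ r b) ≤ volume (piece γ σ r b) :=
          measure_mono inter_subset_right
      _ = _ := volume_piece hr b

/-- The overlap is controlled by the number of pairs. -/
theorem volume_F_inter_le (hq : 0 < q) (hr : 0 < r) :
    volume (F γ ρ A₁ B₁ q ∩ F γ σ A₂ B₂ r ∩ Icc (-R) R) ≤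
      ENNReal.ofReal (((pairSet γ ρ σ A₁ B₁ q A₂ B₂ r R).card : ℝ) * (2 * min (ρ / q) (σ / r))) := by
  classical
  have hq' : (0 : ℝ) < q := by exact_mod_cast hq
  have hr' : (0 : ℝ) < r := by exact_mod_cast hr
  set T := pairSet γ ρ σ A₁ B₁ q A₂ B₂ r R with hT
  have hcov : F γ ρ A₁ B₁ q ∩ F γ σ A₂ B₂ r ∩ Icc (-R) R ⊆
      ⋃ p ∈ T, piece γ ρ q p.1 ∩ piece γ σ r p.2 := by
    rintro x ⟨⟨⟨a, ha1, ha2⟩, ⟨b, hb1, hb2⟩⟩, hx1, hx2⟩
    simp only [mem_iUnion, exists_prop]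
    refine ⟨(a, b), ?_, ha2, hb2⟩
    rw [hT, pairSet, Finset.mem_filter, Finset.mem_product, Finset.mem_Icc, Finset.mem_Icc]
    obtain ⟨h4, h5⟩ := abs_lt.mp ha2
    obtain ⟨h6, h7⟩ := abs_lt.mp hb2
    have h8 : (q : ℝ) * (-R) ≤ q * x := by gcongr
    have h9 : (q : ℝ) * x ≤ q * R := by gcongr
    have h10 : (r : ℝ) * (-R) ≤ r * x := by gcongr
    have h11 : (r : ℝ) * x ≤ r * R := by gcongr
    refine ⟨⟨⟨?_, ?_⟩, ?_, ?_⟩, ha1, hb1, ?_⟩
    · apply Int.ceil_le.mpr; linarith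
    · apply Int.le_floor.mpr; linarith
    · apply Int.ceil_le.mpr; linarith
    · apply Int.le_floor.mpr; linarith
    · have h12 := (mem_piece_iff hq).mp ha2
      have h13 := (mem_piece_iff hr).mp hb2
      calc |((a : ℝ) + γ) / q - ((b : ℝ) + γ) / r|
          = |(x - ((b : ℝ) + γ) / r) - (x - ((a : ℝ) + γ) / q)| := by congr 1; ring
        _ ≤ |x - ((b : ℝ) + γ) / r| + |x - ((a : ℝ) + γ) / q| := abs_sub _ _
        _ < σ / r + ρ / q := add_lt_add h13 h12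
        _ = _ := add_comm _ _
  calc _ ≤ volume (⋃ p ∈ T, piece γ ρ q p.1 ∩ piece γ σ r p.2) := measure_mono hcov
    _ ≤ ∑ p ∈ T, volume (piece γ ρ q p.1 ∩ piece γ σ r p.2) := measure_biUnion_finset_le _ _
    _ ≤ ∑ _p ∈ T, ENNReal.ofReal (2 * min (ρ / q) (σ / r)) :=
        Finset.sum_le_sum fun p _ => volume_piece_inter_piece_le hq hr p.1 p.2
    _ = _ := by
        rw [Finset.sum_const, nsmul_eq_mul, ENNReal.ofReal_mul (Nat.cast_nonneg _),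
          ENNReal.ofReal_natCast]

/-- Members of the pair set lie in a strip. -/
lemma strip_of_mem_pairSet (hq : 0 < q) (hr : 0 < r) {p : ℤ × ℤ}
    (hp : p ∈ pairSet γ ρ σ A₁ B₁ q A₂ B₂ r R) :
    IsCoprime (p.2 * B₂ + A₂) (r : ℤ) ∧
    |((p.1 : ℝ) + γ) * (r / Nat.gcd q r : ℕ) - ((p.2 : ℝ) + γ) * (q / Nat.gcd q r : ℕ)| <
      ((r : ℝ) * ρ + q * σ) / Nat.gcd q r := by
  classical
  obtain ⟨_, _, h2, h3⟩ := Finset.mem_filter.mp hp
  refine ⟨h2, ?_⟩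
  set g := Nat.gcd q r with hg
  have hgpos : 0 < g := Nat.gcd_pos_of_pos_left _ hq
  have hg' : (0 : ℝ) < g := by exact_mod_cast hgpos
  have hrt : r = g * (r / g) := (Nat.mul_div_cancel' (Nat.gcd_dvd_right q r)).symm
  have hqq : q = g * (q / g) := (Nat.mul_div_cancel' (Nat.gcd_dvd_left q r)).symm
  set t := r / g with ht
  set q' := q / g with hq'
  have hrR : (r : ℝ) = g * t := by exact_mod_cast hrt
  have hqR : (q : ℝ) = g * q' := by exact_mod_cast hqq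
  have htpos : (0 : ℝ) < t := by
    have : (0 : ℝ) < (g : ℝ) * t := by rw [← hrR]; exact_mod_cast hr
    exact (pos_iff_pos_of_mul_pos this).mp hg'
  have hq'pos : (0 : ℝ) < q' := by
    have : (0 : ℝ) < (g : ℝ) * q' := by rw [← hqR]; exact_mod_cast hq
    exact (pos_iff_pos_of_mul_pos this).mp hg'
  have h4 : ((p.1 : ℝ) + γ) / q - ((p.2 : ℝ) + γ) / r =
      (((p.1 : ℝ) + γ) * t - ((p.2 : ℝ) + γ) * q') / (g * q' * t) := by
    rw [hqR, hrR]; field_simp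
  have h5 : ρ / q + σ / r = (((r : ℝ) * ρ + q * σ) / g) / (g * q' * t) := by
    rw [hqR, hrR]; field_simp
  rw [h4, h5, abs_div, abs_of_pos (by positivity : (0 : ℝ) < g * q' * t)] at h3
  exact (div_lt_div_iff_of_pos_right (by positivity)).mp h3

/-- The residue class data for a numerator. -/
lemma isCoprime_emod {x Q B : ℕ} {a A : ℤ} (h : IsCoprime (a * B + A) (Q : ℤ)) :
    IsCoprime ((a % (Q : ℤ)) * B + A) (Q : ℤ) := by
  have h1 : a * B + A = (a % (Q : ℤ)) * B + A + Q * ((a / (Q : ℤ)) * B) := by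
    conv_lhs => rw [← Int.emod_add_mul_ediv a Q]
    ring
  rw [h1] at h
  exact (IsCoprime.add_mul_left_left_iff).mp h

/-- The spread of the first coordinate in the pair set. -/
lemma spread_le (hq : 0 < q) (hρ : ρ ≤ 1 / 4) (hρ0 : 0 ≤ ρ) (hR : 0 ≤ R) :
    (((⌊(q : ℝ) * R - γ + ρ⌋ : ℤ) : ℝ) - (⌈(q : ℝ) * (-R) - γ - ρ⌉ : ℤ)) ≤ (2 * R + 1) * q := by
  have h1 := Int.floor_le ((q : ℝ) * R - γ + ρ)
  have h2 := Int.le_ceil ((q : ℝ) * (-R) - γ - ρ)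
  have hq1 : (1 : ℝ) ≤ q := by exact_mod_cast hq
  nlinarith

/-- Overlap bound when the window is at least of size one half. -/
theorem overlap_crude (hq : 0 < q) (hr : 0 < r) (hρ0 : 0 ≤ ρ) (hσ0 : 0 ≤ σ) (hρ : ρ ≤ 1 / 4)
    (hR : 0 ≤ R) :
    ((pairSet γ ρ σ A₁ B₁ q A₂ B₂ r R).card : ℝ) ≤
      (2 * (((r : ℝ) * ρ + q * σ) / Nat.gcd q r) + 1) * ((2 * R + 2) * Nat.gcd q r) := by
  classical
  set g := Nat.gcd q r with hg
  have hgpos : 0 < g := Nat.gcd_pos_of_pos_left _ hq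
  have hg' : (0 : ℝ) < g := by exact_mod_cast hgpos
  have hg1 : (1 : ℝ) ≤ g := by exact_mod_cast hgpos
  have hrt : r = g * (r / g) := (Nat.mul_div_cancel' (Nat.gcd_dvd_right q r)).symm
  have hqq : q = g * (q / g) := (Nat.mul_div_cancel' (Nat.gcd_dvd_left q r)).symm
  set t := r / g with ht
  set q' := q / g with hq'
  have hcop : Nat.Coprime q' t := Nat.coprime_div_gcd_div_gcd hgpos
  have htpos : 0 < t := Nat.pos_of_ne_zero (by
    intro h0; rw [h0, mul_zero] at hrt; omega)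
  have hq'pos : 0 < q' := Nat.pos_of_ne_zero (by
    intro h0; rw [h0, mul_zero] at hqq; omega)
  have hqR : (q : ℝ) = g * q' := by exact_mod_cast hqq
  have hq'R : (0 : ℝ) < q' := by exact_mod_cast hq'pos
  set W := ((r : ℝ) * ρ + q * σ) / g with hW
  have hW0 : 0 ≤ W := by positivity
  have hmain := pairs_crude hq'pos htpos hcop (v := γ * ((t : ℝ) - q')) hW0
    (spread := (2 * R + 1) * q) (by positivity) (spread_le hq hρ hρ0 hR)
    (pairSet γ ρ σ A₁ B₁ q A₂ B₂ r R) (by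
      intro p hp
      obtain ⟨h1, _⟩ := Finset.mem_filter.mp hp
      obtain ⟨h2, _⟩ := Finset.mem_product.mp h1
      obtain ⟨h3, h4⟩ := Finset.mem_Icc.mp h2
      refine ⟨h3, h4, ?_⟩
      have h5 := (strip_of_mem_pairSet hq hr hp).2
      have h6 : ((p.1 * t - p.2 * q' : ℤ) : ℝ) + γ * ((t : ℝ) - q') =
          ((p.1 : ℝ) + γ) * t - ((p.2 : ℝ) + γ) * q' := by push_cast; ring
      rw [h6]
      exact h5)
  refine hmain.trans ?_
  apply mul_le_mul_of_nonneg_left _ (by positivity)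
  rw [hqR]
  have h7 : (2 * R + 1) * ((g : ℝ) * q') / q' = (2 * R + 1) * g := by field_simp
  rw [h7]
  nlinarith

/-- Bound on the measure with a minimum eliminated. -/
lemma delta_mul_min_le (hq : 0 < q) (hr : 0 < r) (hρ0 : 0 ≤ ρ) (hσ0 : 0 ≤ σ) :
    ((r : ℝ) * ρ + q * σ) * min (ρ / q) (σ / r) ≤ 2 * (ρ * σ) := by
  have hq' : (0 : ℝ) < q := by exact_mod_cast hq
  have hr' : (0 : ℝ) < r := by exact_mod_cast hr
  have h1 : (r : ℝ) * ρ * min (ρ / q) (σ / r) ≤ r * ρ * (σ / r) := by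
    gcongr; exact min_le_right _ _
  have h2 : (q : ℝ) * σ * min (ρ / q) (σ / r) ≤ q * σ * (ρ / q) := by
    gcongr; exact min_le_left _ _
  have h3 : (r : ℝ) * ρ * (σ / r) = ρ * σ := by field_simp
  have h4 : (q : ℝ) * σ * (ρ / q) = ρ * σ := by field_simp
  rw [add_mul]
  linarith

/-- Overlap when the window is large: the bound carries both sieve densities. -/
theorem overlap_sieve (hq : 0 < q) (hr : 0 < r) (hρ0 : 0 ≤ ρ) (hσ0 : 0 ≤ σ) (hρ : ρ ≤ 1 / 4)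
    (hR : 0 ≤ R) {z₁ z₂ : ℕ}
    (hQQ : (Qz q B₁ z₁ : ℝ) * Qz r B₂ z₂ ≤ 2 * (((r : ℝ) * ρ + q * σ) / Nat.gcd q r)) :
    volume (F γ ρ A₁ B₁ q ∩ F γ σ A₂ B₂ r ∩ Icc (-R) R) ≤
      ENNReal.ofReal ((2 * R + 2) * (16 * (ρ * Dz q B₁ z₁ * (σ * Dz r B₂ z₂)))) := by
  classical
  refine (volume_F_inter_le hq hr).trans (ENNReal.ofReal_le_ofReal ?_)
  set g := Nat.gcd q r with hg
  have hgpos : 0 < g := Nat.gcd_pos_of_pos_left _ hq
  have hg' : (0 : ℝ) < g := by exact_mod_cast hgpos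
  have hrt : r = g * (r / g) := (Nat.mul_div_cancel' (Nat.gcd_dvd_right q r)).symm
  have hqq : q = g * (q / g) := (Nat.mul_div_cancel' (Nat.gcd_dvd_left q r)).symm
  set t := r / g with ht
  set q' := q / g with hq'
  have hcop : Nat.Coprime q' t := Nat.coprime_div_gcd_div_gcd hgpos
  have htpos : 0 < t := Nat.pos_of_ne_zero (by
    intro h0; rw [h0, mul_zero] at hrt; omega)
  have hq'pos : 0 < q' := Nat.pos_of_ne_zero (by
    intro h0; rw [h0, mul_zero] at hqq; omega)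
  have hqR : (q : ℝ) = g * q' := by exact_mod_cast hqq
  have hq'R : (0 : ℝ) < q' := by exact_mod_cast hq'pos
  set W := ((r : ℝ) * ρ + q * σ) / g with hW
  set Q₁ := Qz q B₁ z₁ with hQ₁
  set Q₂ := Qz r B₂ z₂ with hQ₂
  have hQ₁0 : 0 < Q₁ := Qz_pos q B₁ z₁
  have hQ₂0 : 0 < Q₂ := Qz_pos r B₂ z₂
  have hQ₁' : (0 : ℝ) < Q₁ := by exact_mod_cast hQ₁0
  have hQ₂' : (0 : ℝ) < Q₂ := by exact_mod_cast hQ₂0
  set G₁ : Finset ℤ := (Finset.Ico 0 ((0 : ℤ) + Q₁)).filter fun α : ℤ =>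
    IsCoprime (α * B₁ + A₁) (Q₁ : ℤ) with hG₁
  set G₂ : Finset ℤ := (Finset.Ico 0 ((0 : ℤ) + Q₂)).filter fun α : ℤ =>
    IsCoprime (α * B₂ + A₂) (Q₂ : ℤ) with hG₂
  have hG₁card : G₁.card = Nat.totient Q₁ :=
    count_coprime_linear hQ₁0 (Qz_coprime q B₁ z₁) A₁ 0
  have hG₂card : G₂.card = Nat.totient Q₂ :=
    count_coprime_linear hQ₂0 (Qz_coprime r B₂ z₂) A₂ 0
  have hN : (0 : ℝ) ≤ 2 * R + 1 := by positivity
  have hspread : (((⌊(q : ℝ) * R - γ + ρ⌋ : ℤ) : ℝ) - (⌈(q : ℝ) * (-R) - γ - ρ⌉ : ℤ)) ≤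
      (2 * R + 1) * g * q' := by
    have := spread_le (γ := γ) hq hρ hρ0 hR
    rw [hqR] at this ⊢
    calc _ ≤ (2 * R + 1) * ((g : ℝ) * q') := this
      _ = _ := by ring
  have hcard := pairs_sieve (g := g) (q' := q') (t := t) (Q₁ := Q₁) (Q₂ := Q₂) hgpos hq'pos htpos hcop
    (Qz_squarefree q B₁ z₁) (Qz_squarefree r B₂ z₂)
    (by rw [← hqq]; exact Qz_dvd q B₁ z₁) (by rw [← hrt]; exact Qz_dvd r B₂ z₂)
    (v := γ * ((t : ℝ) - q')) (W := W) hN hQQ hspread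
    (pairSet γ ρ σ A₁ B₁ q A₂ B₂ r R) (by
      intro p hp
      obtain ⟨h1, _⟩ := Finset.mem_filter.mp hp
      obtain ⟨h2, _⟩ := Finset.mem_product.mp h1
      obtain ⟨h3, h4⟩ := Finset.mem_Icc.mp h2
      refine ⟨h3, h4, ?_⟩
      have h5 := (strip_of_mem_pairSet hq hr hp).2
      have h6 : ((p.1 * t - p.2 * q' : ℤ) : ℝ) + γ * ((t : ℝ) - q') =
          ((p.1 : ℝ) + γ) * t - ((p.2 : ℝ) + γ) * q' := by push_cast; ring
      rw [h6]
      exact h5) G₁ G₂ (by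
      intro p hp
      obtain ⟨_, h2, h3, _⟩ := Finset.mem_filter.mp hp
      have hQ₁z : (0 : ℤ) < Q₁ := by exact_mod_cast hQ₁0
      have hQ₂z : (0 : ℤ) < Q₂ := by exact_mod_cast hQ₂0
      constructor
      · rw [hG₁, Finset.mem_filter, Finset.mem_Ico]
        refine ⟨⟨Int.emod_nonneg _ hQ₁z.ne', ?_⟩, isCoprime_emod (x := 0) (isCoprime_Qz h2)⟩
        rw [zero_add]; exact Int.emod_lt_of_pos _ hQ₁z
      · rw [hG₂, Finset.mem_filter, Finset.mem_Ico]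
        refine ⟨⟨Int.emod_nonneg _ hQ₂z.ne', ?_⟩, isCoprime_emod (x := 0) (isCoprime_Qz h3)⟩
        rw [zero_add]; exact Int.emod_lt_of_pos _ hQ₂z)
  rw [hG₁card, hG₂card] at hcard
  have hΔmin := delta_mul_min_le hq hr hρ0 hσ0
  have hmin0 : 0 ≤ min (ρ / q) (σ / r) := le_min (by positivity) (by positivity)
  have hWg : W * g = (r : ℝ) * ρ + q * σ := by rw [hW]; field_simp
  have hD1 : Dz q B₁ z₁ = (Nat.totient Q₁ : ℝ) / Q₁ := rfl
  have hD2 : Dz r B₂ z₂ = (Nat.totient Q₂ : ℝ) / Q₂ := rfl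
  have hD10 : 0 ≤ Dz q B₁ z₁ := Dz_nonneg _ _ _
  have hD20 : 0 ≤ Dz r B₂ z₂ := Dz_nonneg _ _ _
  calc ((pairSet γ ρ σ A₁ B₁ q A₂ B₂ r R).card : ℝ) * (2 * min (ρ / q) (σ / r))
      ≤ ((Nat.totient Q₁ : ℝ) * Nat.totient Q₂ * (4 * W * g * (2 * R + 1 + 1) / ((Q₁ : ℝ) * Q₂))) *
          (2 * min (ρ / q) (σ / r)) := by gcongr
    _ = (2 * R + 2) * (8 * (Dz q B₁ z₁ * Dz r B₂ z₂)) * (((r : ℝ) * ρ + q * σ) * min (ρ / q) (σ / r)) := by
        rw [hD1, hD2, ← hWg]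
        field_simp
        ring
    _ ≤ (2 * R + 2) * (8 * (Dz q B₁ z₁ * Dz r B₂ z₂)) * (2 * (ρ * σ)) := by gcongr
    _ = _ := by ring

end

end Vale.Agent.P028
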