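import Vale.Agent.P028.Params

open MeasureTheory Set Filter Topology
open scoped ENNReal

namespace Vale.Agent.P028

open scoped Classical in
/-- The radii after discarding the integers with bad anatomy. -/
noncomputable def rho (ψ : ℕ → ℝ) (q₁ q : ℕ) : ℝ := if q₁ ≤ q ∧ Good ψ q then ψ q else 0

/-- The restricted sets. -/
noncomputable def Sq (γ : ℝ) (ψ : ℕ → ℝ) (q₁ q : ℕ) : Set ℝ :=
  F γ (rho ψ q₁ q) (AA γ q) (BB γ q) q

/-- The mass of a restricted set. -/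
noncomputable def Mq (γ : ℝ) (ψ : ℕ → ℝ) (q₁ q : ℕ) : ℝ :=
  rho ψ q₁ q * Dz q (BB γ q) (zz q)

/-- The window of a pair. -/
noncomputable def Wq (ψ : ℕ → ℝ) (q₁ q r : ℕ) : ℝ :=
  ((r : ℝ) * rho ψ q₁ q + q * rho ψ q₁ r) / Nat.gcd q r

/-- Existence of a pair of numerators in the window. -/
def PairEx (γ : ℝ) (ψ : ℕ → ℝ) (q₁ q r : ℕ) : Prop :=
  ∃ a b : ℤ, IsCoprime (b * BB γ r + AA γ r) (r : ℤ) ∧
    |((a : ℝ) + γ) * (r / Nat.gcd q r : ℕ) - ((b : ℝ) + γ) * (q / Nat.gcd q r : ℕ)| < Wq ψ q₁ q r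

section

variable {γ : ℝ} {ψ : ℕ → ℝ} {C₀ : ℝ} {q₁ : ℕ}

lemma rho_nonneg (h0 : ∀ q, 0 ≤ ψ q) (q : ℕ) : 0 ≤ rho ψ q₁ q := by
  unfold rho; split_ifs
  · exact h0 q
  · exact le_refl _

lemma rho_le (h0 : ∀ q, 0 ≤ ψ q) (q : ℕ) : rho ψ q₁ q ≤ ψ q := by
  unfold rho; split_ifs
  · exact le_refl _
  · exact h0 q

lemma rho_spec {q : ℕ} (h : rho ψ q₁ q ≠ 0) : q₁ ≤ q ∧ Good ψ q ∧ rho ψ q₁ q = ψ q := by
  unfold rho at h ⊢
  split_ifs at h ⊢ with h1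
  · exact ⟨h1.1, h1.2, rfl⟩
  · exact absurd rfl h

lemma Mq_nonneg (h0 : ∀ q, 0 ≤ ψ q) (q : ℕ) : 0 ≤ Mq γ ψ q₁ q :=
  mul_nonneg (rho_nonneg h0 q) (Dz_nonneg _ _ _)

lemma Wq_nonneg (h0 : ∀ q, 0 ≤ ψ q) (q r : ℕ) : 0 ≤ Wq ψ q₁ q r := by
  have h1 := rho_nonneg (q₁ := q₁) h0 q
  have h2 := rho_nonneg (q₁ := q₁) h0 r
  unfold Wq
  positivity

lemma isOpen_Sq (q : ℕ) : IsOpen (Sq γ ψ q₁ q) := isOpen_F _ _ _ _ _

lemma Sq_empty {q : ℕ} (h : rho ψ q₁ q = 0) : Sq γ ψ q₁ q = ∅ := by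
  unfold Sq F
  rw [h]
  ext x
  simp only [mem_setOf_eq, mem_empty_iff_false, iff_false]
  rintro ⟨a, _, h2⟩
  exact absurd h2 (not_lt.mpr (abs_nonneg _))

lemma large_quarter {q : ℕ} (hC : 1 ≤ C₀) (h : Large ψ C₀ q) : ψ q ≤ 1 / 4 := by
  obtain ⟨_, h2, h3, h4⟩ := h
  have hq : (0 : ℝ) < q := by nlinarith
  have hl : (1 : ℝ) ≤ ll q := by
    have : 1 ≤ ll q := by omega
    exact_mod_cast this
  refine h4.trans ?_
  rw [div_le_iff₀ (by positivity)]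
  have h5 : (1 : ℝ) ≤ (ll q : ℝ) ^ 3 := one_le_pow₀ hl
  nlinarith

lemma rho_le_quarter (h0 : ∀ q, 0 ≤ ψ q) (hC : 1 ≤ C₀) (hq₁ : ∀ q, q₁ ≤ q → Large ψ C₀ q) (q : ℕ) :
    rho ψ q₁ q ≤ 1 / 4 := by
  by_cases h : rho ψ q₁ q = 0
  · rw [h]; norm_num
  · obtain ⟨h1, _, h3⟩ := rho_spec h
    rw [h3]
    exact large_quarter hC (hq₁ q h1)

/-- Transfer of the cap to the scale of `r`. -/
lemma cap_transfer (hC : 1 ≤ C₀) {q r : ℕ} (hq0 : 0 < q) (hqr : q < r) (hq : Large ψ C₀ q)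
    (hr : Large ψ C₀ r) (hG : Good ψ q)
    (h : (r : ℝ) * ψ q < Nat.gcd q r * 2 ^ (24 * ll r)) :
    ψ q ≤ (8 * C₀ / (ll r : ℝ) ^ 3) / q := by
  have hq' : (0 : ℝ) < q := by exact_mod_cast hq0
  obtain ⟨hq1, hq2, _, hq4⟩ := hq
  obtain ⟨hr1, hr2, _, _⟩ := hr
  have hj : (0 : ℝ) < jj q := by
    have : 0 < jj q := by omega
    exact_mod_cast this
  have hg : (Nat.gcd q r : ℝ) ≤ q := by exact_mod_cast Nat.le_of_dvd hq0 (Nat.gcd_dvd_left _ _)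
  have hlow : 1 / ((q : ℝ) * (jj q : ℝ) ^ 2) ≤ ψ q := hG.1
  have hrq : r < q * q * (jj q) ^ 2 * 2 ^ (24 * ll r) := by
    have h1 : (r : ℝ) * (1 / ((q : ℝ) * (jj q : ℝ) ^ 2)) ≤ r * ψ q := by gcongr
    have h2 : (r : ℝ) * (1 / ((q : ℝ) * (jj q : ℝ) ^ 2)) < q * 2 ^ (24 * ll r) := by
      calc _ ≤ (r : ℝ) * ψ q := h1
        _ < Nat.gcd q r * 2 ^ (24 * ll r) := h
        _ ≤ q * 2 ^ (24 * ll r) := by gcongr
    rw [mul_one_div, div_lt_iff₀ (by positivity)] at h2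
    have h3 : (r : ℝ) < q * q * (jj q : ℝ) ^ 2 * 2 ^ (24 * ll r) := by
      calc (r : ℝ) < (q : ℝ) * 2 ^ (24 * ll r) * ((q : ℝ) * (jj q : ℝ) ^ 2) := h2
        _ = _ := by ring
    exact_mod_cast h3
  have hl := ll_half hq0.ne' hqr.le hr1 hr2 hrq
  have hlq : (0 : ℝ) < ll q := by
    have : 0 < ll q := by omega
    exact_mod_cast this
  have hlr : (0 : ℝ) < ll r := by
    have : 0 < ll r := by omega
    exact_mod_cast this
  have hl' : (ll r : ℝ) ≤ 2 * ll q := by exact_mod_cast hl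
  have hC0 : 0 < C₀ := by linarith
  refine hq4.trans ?_
  have h3 : (ll r : ℝ) ^ 3 ≤ 8 * (ll q : ℝ) ^ 3 := by
    have : (ll r : ℝ) ^ 3 ≤ (2 * (ll q : ℝ)) ^ 3 := by gcongr
    calc _ ≤ _ := this
      _ = _ := by ring
  rw [div_div, div_le_div_iff₀ (by positivity) (by positivity)]
  have hqC : 0 < C₀ * q := by positivity
  calc C₀ * ((ll r : ℝ) ^ 3 * q) = (C₀ * q) * (ll r : ℝ) ^ 3 := by ring
    _ ≤ (C₀ * q) * (8 * (ll q : ℝ) ^ 3) := by gcongr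
    _ = _ := by ring

open scoped Classical in
/-- Extra term for moderately small windows. -/
noncomputable def Ext1 (ψ : ℕ → ℝ) (q₁ q r : ℕ) : ℝ :=
  if rho ψ q₁ q ≠ 0 ∧ rho ψ q₁ r ≠ 0 ∧ 1 / 2 ≤ Wq ψ q₁ q r ∧ Wq ψ q₁ q r < 2 ^ (24 * ll r) then
    16 * (rho ψ q₁ q * rho ψ q₁ r) else 0

open scoped Classical in
/-- Extra term for small windows. -/
noncomputable def Ext2 (γ : ℝ) (ψ : ℕ → ℝ) (q₁ q r : ℕ) : ℝ :=
  if rho ψ q₁ q ≠ 0 ∧ rho ψ q₁ r ≠ 0 ∧ Wq ψ q₁ q r < 1 / 2 ∧ PairEx γ ψ q₁ q r then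
    4 * ((Nat.gcd q r : ℝ) / r) * rho ψ q₁ r else 0

lemma Ext1_nonneg (h0 : ∀ q, 0 ≤ ψ q) (q r : ℕ) : 0 ≤ Ext1 ψ q₁ q r := by
  unfold Ext1
  have h1 := rho_nonneg (q₁ := q₁) h0 q
  have h2 := rho_nonneg (q₁ := q₁) h0 r
  split_ifs
  · positivity
  · exact le_refl _

lemma Ext2_nonneg (h0 : ∀ q, 0 ≤ ψ q) (q r : ℕ) : 0 ≤ Ext2 γ ψ q₁ q r := by
  unfold Ext2
  have h2 := rho_nonneg (q₁ := q₁) h0 r
  split_ifs
  · positivity
  · exact le_refl _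

/-- Bound for a single pair. -/
theorem pair_bound (h0 : ∀ q, 0 ≤ ψ q) (hC : 1 ≤ C₀) (hq₁ : ∀ q, q₁ ≤ q → Large ψ C₀ q)
    (hq₁0 : 0 < q₁) (R : ℕ) {q r : ℕ} (hqr : q < r) :
    volume.real (Sq γ ψ q₁ q ∩ Sq γ ψ q₁ r ∩ Icc (-(R : ℝ)) R) ≤
      (2 * (R : ℝ) + 2) * (16 * (Mq γ ψ q₁ q * Mq γ ψ q₁ r) +
        Ext1 ψ q₁ q r + Ext2 γ ψ q₁ q r) := by
  classical
  have hif1 := Ext1_nonneg (q₁ := q₁) h0 q r
  have hif2 := Ext2_nonneg (γ := γ) (q₁ := q₁) h0 q r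
  set ρ := rho ψ q₁ q with hρ
  set σ := rho ψ q₁ r with hσ
  set W := Wq ψ q₁ q r with hW
  have hρ0 : 0 ≤ ρ := rho_nonneg h0 q
  have hσ0 : 0 ≤ σ := rho_nonneg h0 r
  have hW0 : 0 ≤ W := Wq_nonneg h0 q r
  have hM1 : 0 ≤ Mq γ ψ q₁ q := Mq_nonneg h0 q
  have hM2 : 0 ≤ Mq γ ψ q₁ r := Mq_nonneg h0 r
  have hR' : (0 : ℝ) ≤ (R : ℝ) := Nat.cast_nonneg _
  have hRR : (0 : ℝ) < 2 * (R : ℝ) + 2 := by positivity
  have hnn : 0 ≤ 16 * (Mq γ ψ q₁ q * Mq γ ψ q₁ r) := by positivity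
  -- the trivial case
  by_cases hρne : ρ = 0
  · have h1 : Sq γ ψ q₁ q = ∅ := Sq_empty hρne
    rw [h1]
    simp only [empty_inter, measureReal_empty]
    exact mul_nonneg hRR.le (by linarith)
  by_cases hσne : σ = 0
  · have h1 : Sq γ ψ q₁ r = ∅ := Sq_empty hσne
    rw [h1]
    simp only [inter_empty, empty_inter, measureReal_empty]
    exact mul_nonneg hRR.le (by linarith)
  obtain ⟨hq1, _, _⟩ := rho_spec hρne
  obtain ⟨hr1, _, _⟩ := rho_spec hσne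
  have hqpos : 0 < q := lt_of_lt_of_le hq₁0 hq1
  have hrpos : 0 < r := by omega
  have hq' : (0 : ℝ) < q := by exact_mod_cast hqpos
  have hr' : (0 : ℝ) < r := by exact_mod_cast hrpos
  have hρ14 : ρ ≤ 1 / 4 := rho_le_quarter h0 hC hq₁ q
  have hσ14 : σ ≤ 1 / 4 := rho_le_quarter h0 hC hq₁ r
  set g := Nat.gcd q r with hg
  have hgpos : 0 < g := Nat.gcd_pos_of_pos_left _ hqpos
  have hg' : (0 : ℝ) < g := by exact_mod_cast hgpos
  have hWg : W * g = (r : ℝ) * ρ + q * σ := by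
    rw [hW]; unfold Wq; rw [← hρ, ← hσ, ← hg]; field_simp
  have hmin0 : 0 ≤ min (ρ / q) (σ / r) := le_min (by positivity) (by positivity)
  have hΔmin : ((r : ℝ) * ρ + q * σ) * min (ρ / q) (σ / r) ≤ 2 * (ρ * σ) :=
    delta_mul_min_le hqpos hrpos hρ0 hσ0
  have hbase := volume_F_inter_le (γ := γ) (ρ := ρ) (σ := σ) (R := (R : ℝ)) (A₁ := AA γ q)
    (B₁ := BB γ q) (A₂ := AA γ r) (B₂ := BB γ r) hqpos hrpos
  have hcrude := overlap_crude (γ := γ) (ρ := ρ) (σ := σ) (R := (R : ℝ)) (A₁ := AA γ q)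
    (B₁ := BB γ q) (A₂ := AA γ r) (B₂ := BB γ r) hqpos hrpos hρ0 hσ0 hρ14 hR'
  rw [← hg, ← hWg] at hcrude
  have hWcancel : W * g / g = W := by field_simp
  rw [hWcancel] at hcrude
  rw [← hWg] at hΔmin
  set T := pairSet γ ρ σ (AA γ q) (BB γ q) q (AA γ r) (BB γ r) r (R : ℝ) with hT
  have htoReal : ∀ b : ℝ, 0 ≤ b → volume (F γ ρ (AA γ q) (BB γ q) q ∩ F γ σ (AA γ r) (BB γ r) r ∩
      Icc (-(R : ℝ)) R) ≤ ENNReal.ofReal b →
      volume.real (Sq γ ψ q₁ q ∩ Sq γ ψ q₁ r ∩ Icc (-(R : ℝ)) R) ≤ b := by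
    intro b hb h1
    exact ENNReal.toReal_le_of_le_ofReal hb h1
  by_cases hcase1 : (2 : ℝ) ^ (24 * ll r) ≤ W
  · -- large window
    have hQ1 : (Qz q (BB γ q) (zz q) : ℝ) ≤ 2 ^ (12 * ll r) := by
      have h1 : Qz q (BB γ q) (zz q) ≤ 4 ^ zz q := Qz_le _ _ _
      have h2 : 4 ^ zz q ≤ 2 ^ (12 * ll r) := by
        have h3 : (4 : ℕ) ^ zz q = 2 ^ (12 * ll q) := by
          rw [show (4 : ℕ) = 2 ^ 2 by norm_num, ← pow_mul]
          congr 1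
          unfold zz
          ring
        rw [h3]
        exact Nat.pow_le_pow_right (by norm_num) (by
          have := ll_le_of_le hqr.le
          omega)
      exact_mod_cast h1.trans h2
    have hQ2 : (Qz r (BB γ r) (zz r) : ℝ) ≤ 2 ^ (12 * ll r) := by
      have h1 : Qz r (BB γ r) (zz r) ≤ 4 ^ zz r := Qz_le _ _ _
      have h3 : (4 : ℕ) ^ zz r = 2 ^ (12 * ll r) := by
        rw [show (4 : ℕ) = 2 ^ 2 by norm_num, ← pow_mul]
        congr 1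
        unfold zz
        ring
      rw [h3] at h1
      exact_mod_cast h1
    have hQQ : (Qz q (BB γ q) (zz q) : ℝ) * Qz r (BB γ r) (zz r) ≤
        2 * (((r : ℝ) * ρ + q * σ) / g) := by
      rw [← hWg, hWcancel]
      have h4 : (2 : ℝ) ^ (12 * ll r) * 2 ^ (12 * ll r) = 2 ^ (24 * ll r) := by
        rw [← pow_add]; congr 1; ring
      have h5 : (0 : ℝ) ≤ (Qz r (BB γ r) (zz r) : ℝ) := Nat.cast_nonneg _
      have h6 : (0 : ℝ) ≤ (2 : ℝ) ^ (12 * ll r) := by positivity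
      calc _ ≤ (2 : ℝ) ^ (12 * ll r) * 2 ^ (12 * ll r) := mul_le_mul hQ1 hQ2 h5 h6
        _ = 2 ^ (24 * ll r) := h4
        _ ≤ W := hcase1
        _ ≤ 2 * W := by linarith
    have h1 := overlap_sieve (γ := γ) (A₁ := AA γ q) (B₁ := BB γ q) (A₂ := AA γ r) (B₂ := BB γ r)
      hqpos hrpos hρ0 hσ0 hρ14 hR' hQQ
    have h2 := htoReal _ (by
      have := Dz_nonneg q (BB γ q) (zz q)
      have := Dz_nonneg r (BB γ r) (zz r)
      positivity) h1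
    refine h2.trans ?_
    have h3 : ρ * Dz q (BB γ q) (zz q) * (σ * Dz r (BB γ r) (zz r)) =
        Mq γ ψ q₁ q * Mq γ ψ q₁ r := rfl
    rw [h3]
    apply mul_le_mul_of_nonneg_left _ hRR.le
    linarith
  by_cases hcase2 : 1 / 2 ≤ W
  · -- moderately small window
    have hcase1' : W < 2 ^ (24 * ll r) := not_le.mp hcase1
    have hE : Ext1 ψ q₁ q r = 16 * (ρ * σ) := if_pos ⟨hρne, hσne, hcase2, hcase1'⟩
    have hb : (T.card : ℝ) * (2 * min (ρ / q) (σ / r)) ≤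
        (2 * (R : ℝ) + 2) * (16 * (ρ * σ)) := by
      calc (T.card : ℝ) * (2 * min (ρ / q) (σ / r))
          ≤ ((2 * W + 1) * ((2 * (R : ℝ) + 2) * g)) * (2 * min (ρ / q) (σ / r)) := by gcongr
        _ ≤ ((4 * W) * ((2 * (R : ℝ) + 2) * g)) * (2 * min (ρ / q) (σ / r)) := by
            gcongr
            linarith
        _ = (2 * (R : ℝ) + 2) * (8 * ((W * g) * min (ρ / q) (σ / r))) := by ring
        _ ≤ (2 * (R : ℝ) + 2) * (8 * (2 * (ρ * σ))) := by gcongr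
        _ = _ := by ring
    have h2 := htoReal _ (by positivity) (hbase.trans (ENNReal.ofReal_le_ofReal hb))
    refine h2.trans ?_
    apply mul_le_mul_of_nonneg_left _ hRR.le
    linarith
  · -- small window
    have hcase2' : W < 1 / 2 := not_le.mp hcase2
    by_cases hpair : PairEx γ ψ q₁ q r
    · have hE : Ext2 γ ψ q₁ q r = 4 * ((g : ℝ) / r) * σ := if_pos ⟨hρne, hσne, hcase2', hpair⟩
      have hb : (T.card : ℝ) * (2 * min (ρ / q) (σ / r)) ≤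
          (2 * (R : ℝ) + 2) * (4 * ((g : ℝ) / r) * σ) := by
        calc (T.card : ℝ) * (2 * min (ρ / q) (σ / r))
            ≤ ((2 * W + 1) * ((2 * (R : ℝ) + 2) * g)) * (2 * (σ / r)) := by
              gcongr
              exact min_le_right _ _
          _ ≤ (2 * ((2 * (R : ℝ) + 2) * g)) * (2 * (σ / r)) := by
              gcongr
              linarith
          _ = _ := by ring
      have h2 := htoReal _ (by positivity) (hbase.trans (ENNReal.ofReal_le_ofReal hb))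
      refine h2.trans ?_
      apply mul_le_mul_of_nonneg_left _ hRR.le
      linarith
    · have hempty : T = ∅ := by
        apply Finset.eq_empty_of_forall_notMem
        intro p hp
        apply hpair
        obtain ⟨h1, h2⟩ := strip_of_mem_pairSet hqpos hrpos hp
        refine ⟨p.1, p.2, h1, ?_⟩
        have h3 : ((r : ℝ) * ρ + q * σ) / Nat.gcd q r = W := by
          rw [← hg, ← hWg, hWcancel]
        rw [h3] at h2
        exact h2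
      have h2 := htoReal 0 (le_refl _) (by
        refine hbase.trans ?_
        rw [hempty]
        simp)
      refine h2.trans ?_
      exact mul_nonneg hRR.le (by linarith)

end

end Vale.Agent.P028
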