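import Vale.Agent.P028.Bohr

namespace Vale.Agent.P028

open Finset

/-- A squarefree number, with the gcd against `n` removed, is coprime to `n`. -/
lemma coprime_div_gcd_of_squarefree {Q n : ℕ} (hQ : Squarefree Q) :
    Nat.Coprime (Q / Nat.gcd Q n) n := by
  have hQ0 : Q ≠ 0 := hQ.ne_zero
  have hu : 0 < Nat.gcd Q n := Nat.gcd_pos_of_pos_left _ (Nat.pos_of_ne_zero hQ0)
  apply Nat.coprime_of_dvd
  intro p hp h1 h2
  have hQu : Q = Nat.gcd Q n * (Q / Nat.gcd Q n) :=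
    (Nat.mul_div_cancel' (Nat.gcd_dvd_left Q n)).symm
  have hpQ : p ∣ Q := by
    rw [hQu]; exact Dvd.dvd.mul_left h1 _
  have hpu : p ∣ Nat.gcd Q n := Nat.dvd_gcd hpQ h2
  have hpp : p * p ∣ Q := by
    rw [hQu]; exact mul_dvd_mul hpu h1
  exact (Nat.squarefree_iff_prime_squarefree.mp hQ) p hp hpp

/-- Counting lattice points in a strip, in a fixed residue class. -/
lemma pairs_class_card {g q' t Q₁ Q₂ : ℕ} (hq' : 0 < q') (ht : 0 < t) (hcop : Nat.Coprime q' t)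
    (hQ₁ : Squarefree Q₁) (hQ₂ : Squarefree Q₂) {v W spread : ℝ} (hW : 0 ≤ W) (hs : 0 ≤ spread)
    {lo hi : ℤ} (hspread : ((hi : ℝ) - lo) ≤ spread)
    (T : Finset (ℤ × ℤ))
    (hT : ∀ p ∈ T, lo ≤ p.1 ∧ p.1 ≤ hi ∧ |((p.1 * t - p.2 * q' : ℤ) : ℝ) + v| < W)
    (hcl : ∀ p ∈ T, ∀ p' ∈ T, (Q₁ : ℤ) ∣ p.1 - p'.1 ∧ (Q₂ : ℤ) ∣ p.2 - p'.2) :
    (T.card : ℝ) ≤
      (2 * W / ((Nat.gcd Q₁ q' * Nat.gcd Q₂ t * Nat.gcd (Q₁ / Nat.gcd Q₁ q') (Q₂ / Nat.gcd Q₂ t) : ℕ) : ℝ) + 1) *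
      (spread / ((Nat.lcm (Q₁ / Nat.gcd Q₁ q') (Q₂ / Nat.gcd Q₂ t) * q' : ℕ) : ℝ) + 1) := by
  classical
  set u₁ := Nat.gcd Q₁ q' with hu₁
  set u₂ := Nat.gcd Q₂ t with hu₂
  set v₁ := Q₁ / u₁ with hv₁
  set v₂ := Q₂ / u₂ with hv₂
  set d := Nat.gcd v₁ v₂ with hd
  set κ := Nat.lcm v₁ v₂ with hκ
  have hQ₁0 : 0 < Q₁ := Nat.pos_of_ne_zero hQ₁.ne_zero
  have hQ₂0 : 0 < Q₂ := Nat.pos_of_ne_zero hQ₂.ne_zero
  have hu₁pos : 0 < u₁ := Nat.gcd_pos_of_pos_left _ hQ₁0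
  have hu₂pos : 0 < u₂ := Nat.gcd_pos_of_pos_left _ hQ₂0
  have hQ₁u : Q₁ = u₁ * v₁ := (Nat.mul_div_cancel' (Nat.gcd_dvd_left _ _)).symm
  have hQ₂u : Q₂ = u₂ * v₂ := (Nat.mul_div_cancel' (Nat.gcd_dvd_left _ _)).symm
  have hv₁pos : 0 < v₁ := by
    apply Nat.pos_of_ne_zero
    intro h0
    rw [h0, mul_zero] at hQ₁u
    omega
  have hv₂pos : 0 < v₂ := by
    apply Nat.pos_of_ne_zero
    intro h0
    rw [h0, mul_zero] at hQ₂u
    omega
  have hc₁ : Nat.Coprime v₁ q' := coprime_div_gcd_of_squarefree hQ₁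
  have hc₂ : Nat.Coprime v₂ t := coprime_div_gcd_of_squarefree hQ₂
  have hκpos : 0 < κ := Nat.lcm_pos hv₁pos hv₂pos
  have hdpos : 0 < d := Nat.gcd_pos_of_pos_left _ hv₁pos
  set E := u₁ * u₂ * d with hE
  have hEpos : 0 < E := by positivity
  have hE1 : E ∣ Q₁ * t := by
    rw [hE, hQ₁u]
    have h1 : u₂ ∣ t := Nat.gcd_dvd_right _ _
    have h2 : d ∣ v₁ := Nat.gcd_dvd_left _ _
    calc u₁ * u₂ * d = u₁ * d * u₂ := by ring
      _ ∣ u₁ * v₁ * t := mul_dvd_mul (mul_dvd_mul_left _ h2) h1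
  have hE2 : E ∣ Q₂ * q' := by
    rw [hE, hQ₂u]
    have h1 : u₁ ∣ q' := Nat.gcd_dvd_right _ _
    have h2 : d ∣ v₂ := Nat.gcd_dvd_right _ _
    calc u₁ * u₂ * d = u₂ * d * u₁ := by ring
      _ ∣ u₂ * v₂ * q' := mul_dvd_mul (mul_dvd_mul_left _ h2) h1
  -- values of the linear form
  let k : ℤ × ℤ → ℤ := fun p => p.1 * t - p.2 * q'
  set K : Finset ℤ := T.image k with hK
  have hKcong : ∀ x ∈ K, ∀ y ∈ K, (E : ℤ) ∣ x - y := by
    intro x hx y hy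
    obtain ⟨p, hp, rfl⟩ := Finset.mem_image.mp hx
    obtain ⟨p', hp', rfl⟩ := Finset.mem_image.mp hy
    obtain ⟨h1, h2⟩ := hcl p hp p' hp'
    have h3 : k p - k p' = (p.1 - p'.1) * t - (p.2 - p'.2) * q' := by simp only [k]; ring
    rw [h3]
    apply dvd_sub
    · have h4 : (E : ℤ) ∣ (Q₁ : ℤ) * t := by exact_mod_cast hE1
      obtain ⟨c, hc⟩ := h1
      have : (p.1 - p'.1) * t = c * ((Q₁ : ℤ) * t) := by rw [hc]; ring
      rw [this]
      exact Dvd.dvd.mul_left h4 c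
    · have h4 : (E : ℤ) ∣ (Q₂ : ℤ) * q' := by exact_mod_cast hE2
      obtain ⟨c, hc⟩ := h2
      have : (p.2 - p'.2) * q' = c * ((Q₂ : ℤ) * q') := by rw [hc]; ring
      rw [this]
      exact Dvd.dvd.mul_left h4 c
  have hKspan : ∀ x ∈ K, ∀ y ∈ K, |(x : ℝ) - y| ≤ 2 * W := by
    intro x hx y hy
    obtain ⟨p, hp, rfl⟩ := Finset.mem_image.mp hx
    obtain ⟨p', hp', rfl⟩ := Finset.mem_image.mp hy
    have h1 := (hT p hp).2.2
    have h2 := (hT p' hp').2.2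
    have h3 : ((k p : ℤ) : ℝ) - (k p' : ℤ) =
        (((p.1 * t - p.2 * q' : ℤ) : ℝ) + v) - (((p'.1 * t - p'.2 * q' : ℤ) : ℝ) + v) := by
      simp only [k]; ring
    rw [h3]
    calc _ ≤ |((p.1 * t - p.2 * q' : ℤ) : ℝ) + v| + |((p'.1 * t - p'.2 * q' : ℤ) : ℝ) + v| := abs_sub _ _
      _ ≤ W + W := add_le_add h1.le h2.le
      _ = 2 * W := by ring
  have hKcard := card_le_of_congr_span K E hEpos hKcong (2 * W) (by positivity) hKspan
  -- the fibres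
  have hfib : ∀ x ∈ K, ((T.filter fun p => k p = x).card : ℝ) ≤
      spread / ((κ * q' : ℕ) : ℝ) + 1 := by
    intro x _
    set F := T.filter fun p => k p = x with hF
    have hinj : Set.InjOn (fun p : ℤ × ℤ => p.1) F := by
      intro p hp p' hp' h
      have h1 : k p = x := (Finset.mem_filter.mp hp).2
      have h2 : k p' = x := (Finset.mem_filter.mp hp').2
      have h3 : p.1 = p'.1 := h
      have h4 : p.2 * (q' : ℤ) = p'.2 * q' := by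
        simp only [k] at h1 h2
        rw [h3] at h1
        linarith
      have hq'0 : (q' : ℤ) ≠ 0 := by exact_mod_cast hq'.ne'
      have h5 : p.2 = p'.2 := mul_right_cancel₀ hq'0 h4
      exact Prod.ext h3 h5
    have hcard : F.card = (F.image fun p => p.1).card := (Finset.card_image_of_injOn hinj).symm
    rw [hcard]
    apply card_le_of_congr_span _ (κ * q') (Nat.mul_pos hκpos hq') _ _ hs
    · intro a ha b hb
      obtain ⟨p, hp, rfl⟩ := Finset.mem_image.mp ha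
      obtain ⟨p', hp', rfl⟩ := Finset.mem_image.mp hb
      have h1 := (hT p (Finset.mem_filter.mp hp).1)
      have h2 := (hT p' (Finset.mem_filter.mp hp').1)
      have h3 : ((p.1 : ℝ) - p'.1) ≤ spread := by
        have h4 : (p.1 : ℝ) ≤ hi := by exact_mod_cast h1.2.1
        have h5 : (lo : ℝ) ≤ p'.1 := by exact_mod_cast h2.1
        linarith
      have h6 : ((p'.1 : ℝ) - p.1) ≤ spread := by
        have h4 : (p'.1 : ℝ) ≤ hi := by exact_mod_cast h2.2.1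
        have h5 : (lo : ℝ) ≤ p.1 := by exact_mod_cast h1.1
        linarith
      rw [abs_le]
      constructor <;> linarith
    · intro a ha b hb
      obtain ⟨p, hp, rfl⟩ := Finset.mem_image.mp ha
      obtain ⟨p', hp', rfl⟩ := Finset.mem_image.mp hb
      have h1 : k p = x := (Finset.mem_filter.mp hp).2
      have h2 : k p' = x := (Finset.mem_filter.mp hp').2
      obtain ⟨h3, h4⟩ := hcl p (Finset.mem_filter.mp hp).1 p' (Finset.mem_filter.mp hp').1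
      have h5 : (p.1 - p'.1) * (t : ℤ) = (p.2 - p'.2) * q' := by
        simp only [k] at h1 h2
        linarith
      have hcop' : IsCoprime (q' : ℤ) (t : ℤ) := Nat.isCoprime_iff_coprime.mpr hcop
      have h6 : (q' : ℤ) ∣ p.1 - p'.1 := by
        have : (q' : ℤ) ∣ (p.1 - p'.1) * t := ⟨p.2 - p'.2, by rw [h5]; ring⟩
        exact hcop'.dvd_of_dvd_mul_right this
      obtain ⟨i, hi'⟩ := h6
      have hq'0 : (q' : ℤ) ≠ 0 := by exact_mod_cast hq'.ne'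
      have h7 : p.2 - p'.2 = i * t := by
        have h8 : (p.2 - p'.2) * (q' : ℤ) = (i * t) * q' := by
          rw [← h5, hi']; ring
        exact mul_right_cancel₀ hq'0 h8
      have hv1 : (v₁ : ℤ) ∣ i := by
        have h8 : (v₁ : ℤ) ∣ (Q₁ : ℤ) := by
          rw [hQ₁u]; push_cast; exact Dvd.intro_left _ rfl
        have h9 : (v₁ : ℤ) ∣ (q' : ℤ) * i := by rw [← hi']; exact h8.trans h3
        have hc : IsCoprime (v₁ : ℤ) (q' : ℤ) := Nat.isCoprime_iff_coprime.mpr hc₁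
        exact hc.dvd_of_dvd_mul_left h9
      have hv2 : (v₂ : ℤ) ∣ i := by
        have h8 : (v₂ : ℤ) ∣ (Q₂ : ℤ) := by
          rw [hQ₂u]; push_cast; exact Dvd.intro_left _ rfl
        have h9 : (v₂ : ℤ) ∣ i * (t : ℤ) := by rw [← h7]; exact h8.trans h4
        have hc : IsCoprime (v₂ : ℤ) (t : ℤ) := Nat.isCoprime_iff_coprime.mpr hc₂
        exact hc.dvd_of_dvd_mul_right h9
      have hκi : (κ : ℤ) ∣ i := by
        have h8 : κ ∣ i.natAbs := Nat.lcm_dvd (Int.natCast_dvd.mp hv1) (Int.natCast_dvd.mp hv2)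
        exact Int.natCast_dvd.mpr h8
      obtain ⟨c, hc⟩ := hκi
      refine ⟨c, ?_⟩
      rw [hi', hc]
      push_cast
      ring
  have hTcard : (T.card : ℝ) ≤ (K.card : ℝ) * (spread / ((κ * q' : ℕ) : ℝ) + 1) := by
    have hmaps : ∀ p ∈ T, k p ∈ K := fun p hp => Finset.mem_image_of_mem _ hp
    rw [Finset.card_eq_sum_card_fiberwise (f := k) (t := K) hmaps]
    push_cast
    calc ∑ x ∈ K, ((T.filter fun p => k p = x).card : ℝ)
        ≤ ∑ _x ∈ K, (spread / ((κ * q' : ℕ) : ℝ) + 1) := by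
          refine Finset.sum_le_sum fun x hx => ?_
          have := hfib x hx
          push_cast at this
          push_cast
          exact this
      _ = _ := by rw [Finset.sum_const, nsmul_eq_mul]; push_cast; ring
  refine hTcard.trans ?_
  apply mul_le_mul_of_nonneg_right hKcard
  positivity

/-- Crude count of lattice points in a strip. -/
lemma pairs_crude {q' t : ℕ} (hq' : 0 < q') (ht : 0 < t) (hcop : Nat.Coprime q' t)
    {v W spread : ℝ} (hW : 0 ≤ W) (hs : 0 ≤ spread)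
    {lo hi : ℤ} (hspread : ((hi : ℝ) - lo) ≤ spread) (T : Finset (ℤ × ℤ))
    (hT : ∀ p ∈ T, lo ≤ p.1 ∧ p.1 ≤ hi ∧ |((p.1 * t - p.2 * q' : ℤ) : ℝ) + v| < W) :
    (T.card : ℝ) ≤ (2 * W + 1) * (spread / q' + 1) := by
  have h := pairs_class_card (g := 0) (Q₁ := 1) (Q₂ := 1) hq' ht hcop squarefree_one squarefree_one
    hW hs hspread T hT (fun p _ p' _ => ⟨by simp, by simp⟩)
  simpa using h

/-- Count of lattice points in a strip with prescribed residues, with sieve saving. -/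
theorem pairs_sieve {g q' t Q₁ Q₂ : ℕ} (hg : 0 < g) (hq' : 0 < q') (ht : 0 < t)
    (hcop : Nat.Coprime q' t) (hQ₁ : Squarefree Q₁) (hQ₂ : Squarefree Q₂) (hQ₁d : Q₁ ∣ g * q')
    (hQ₂d : Q₂ ∣ g * t) {v W N : ℝ} (hN : 0 ≤ N) (hW2 : (Q₁ : ℝ) * Q₂ ≤ 2 * W) {lo hi : ℤ}
    (hspread : ((hi : ℝ) - lo) ≤ N * g * q') (T : Finset (ℤ × ℤ))
    (hT : ∀ p ∈ T, lo ≤ p.1 ∧ p.1 ≤ hi ∧ |((p.1 * t - p.2 * q' : ℤ) : ℝ) + v| < W)
    (G₁ G₂ : Finset ℤ) (hG : ∀ p ∈ T, p.1 % (Q₁ : ℤ) ∈ G₁ ∧ p.2 % (Q₂ : ℤ) ∈ G₂) :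
    (T.card : ℝ) ≤ G₁.card * G₂.card * (4 * W * g * (N + 1) / ((Q₁ : ℝ) * Q₂)) := by
  classical
  have hQ₁0 : 0 < Q₁ := Nat.pos_of_ne_zero hQ₁.ne_zero
  have hQ₂0 : 0 < Q₂ := Nat.pos_of_ne_zero hQ₂.ne_zero
  have hQ₁' : (0 : ℝ) < Q₁ := by exact_mod_cast hQ₁0
  have hQ₂' : (0 : ℝ) < Q₂ := by exact_mod_cast hQ₂0
  have hg' : (0 : ℝ) < g := by exact_mod_cast hg
  have hqR : (0 : ℝ) < q' := by exact_mod_cast hq'
  have hW0 : 0 ≤ W := by
    have : (0 : ℝ) < (Q₁ : ℝ) * Q₂ := by positivity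
    linarith
  set u₁ := Nat.gcd Q₁ q' with hu₁
  set u₂ := Nat.gcd Q₂ t with hu₂
  set v₁ := Q₁ / u₁ with hv₁
  set v₂ := Q₂ / u₂ with hv₂
  set d := Nat.gcd v₁ v₂ with hd
  set κ := Nat.lcm v₁ v₂ with hκ
  have hu₁pos : 0 < u₁ := Nat.gcd_pos_of_pos_left _ hQ₁0
  have hu₂pos : 0 < u₂ := Nat.gcd_pos_of_pos_left _ hQ₂0
  have hQ₁u : Q₁ = u₁ * v₁ := (Nat.mul_div_cancel' (Nat.gcd_dvd_left _ _)).symm
  have hQ₂u : Q₂ = u₂ * v₂ := (Nat.mul_div_cancel' (Nat.gcd_dvd_left _ _)).symm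
  have hc₁ : Nat.Coprime v₁ q' := coprime_div_gcd_of_squarefree hQ₁
  have hc₂ : Nat.Coprime v₂ t := coprime_div_gcd_of_squarefree hQ₂
  have hv₁g : v₁ ∣ g := by
    have h1 : v₁ ∣ g * q' := (Dvd.intro_left _ hQ₁u.symm).trans hQ₁d
    exact hc₁.dvd_of_dvd_mul_right h1
  have hv₂g : v₂ ∣ g := by
    have h1 : v₂ ∣ g * t := (Dvd.intro_left _ hQ₂u.symm).trans hQ₂d
    exact hc₂.dvd_of_dvd_mul_right h1
  have hκg : κ ∣ g := Nat.lcm_dvd hv₁g hv₂g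
  have hκpos : 0 < κ := Nat.pos_of_dvd_of_pos hκg hg
  have hκg' : (κ : ℝ) ≤ g := by exact_mod_cast Nat.le_of_dvd hg hκg
  have hκ' : (0 : ℝ) < κ := by exact_mod_cast hκpos
  have hEκ : u₁ * u₂ * d * κ = Q₁ * Q₂ := by
    have h1 : d * κ = v₁ * v₂ := Nat.gcd_mul_lcm _ _
    calc u₁ * u₂ * d * κ = u₁ * u₂ * (d * κ) := by ring
      _ = u₁ * u₂ * (v₁ * v₂) := by rw [h1]
      _ = (u₁ * v₁) * (u₂ * v₂) := by ring
      _ = Q₁ * Q₂ := by rw [← hQ₁u, ← hQ₂u]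
  set E := u₁ * u₂ * d with hE
  have hEpos : 0 < E := Nat.pos_of_ne_zero (by
    intro h0
    rw [h0, zero_mul] at hEκ
    have : 0 < Q₁ * Q₂ := Nat.mul_pos hQ₁0 hQ₂0
    omega)
  have hE' : (0 : ℝ) < E := by exact_mod_cast hEpos
  have hEκR : (E : ℝ) * κ = (Q₁ : ℝ) * Q₂ := by exact_mod_cast hEκ
  have hEle : (E : ℝ) ≤ 2 * W := by
    have h1 : (E : ℝ) ≤ (E : ℝ) * κ := by
      have h2 : (1 : ℝ) ≤ κ := by exact_mod_cast hκpos
      nlinarith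
    linarith
  have hs : 0 ≤ N * g * q' := by positivity
  -- one class
  have hclass : ∀ y ∈ G₁ ×ˢ G₂, ((T.filter fun p => (p.1 % (Q₁ : ℤ), p.2 % (Q₂ : ℤ)) = y).card : ℝ) ≤
      4 * W * g * (N + 1) / ((Q₁ : ℝ) * Q₂) := by
    intro y _
    set F := T.filter fun p => (p.1 % (Q₁ : ℤ), p.2 % (Q₂ : ℤ)) = y with hF
    have h1 := pairs_class_card (g := g) hq' ht hcop hQ₁ hQ₂ hW0 hs hspread F
      (fun p hp => hT p (Finset.mem_filter.mp hp).1)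
      (fun p hp p' hp' => by
        have h2 := (Finset.mem_filter.mp hp).2
        have h3 := (Finset.mem_filter.mp hp').2
        have h4 : (p.1 % (Q₁ : ℤ), p.2 % (Q₂ : ℤ)) = (p'.1 % (Q₁ : ℤ), p'.2 % (Q₂ : ℤ)) := by
          rw [h2, h3]
        obtain ⟨h5, h6⟩ := Prod.mk.inj h4
        exact ⟨Int.ModEq.dvd h5.symm |> fun h => by
            have : (Q₁ : ℤ) ∣ -(p'.1 - p.1) := (dvd_neg).mpr (Int.ModEq.dvd h5)
            simpa using this,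
          by
            have : (Q₂ : ℤ) ∣ -(p'.2 - p.2) := (dvd_neg).mpr (Int.ModEq.dvd h6)
            simpa using this⟩)
    rw [← hu₁, ← hu₂, ← hv₁, ← hv₂, ← hd, ← hκ, ← hE] at h1
    refine h1.trans ?_
    have h2 : 2 * W / (E : ℝ) + 1 ≤ 4 * W / E := by
      have h3 : (1 : ℝ) ≤ 2 * W / E := by rw [le_div_iff₀ hE']; linarith
      have h4 : 4 * W / (E : ℝ) = 2 * (2 * W / E) := by ring
      linarith
    have h3 : N * g * q' / ((κ * q' : ℕ) : ℝ) + 1 ≤ (N + 1) * g / κ := by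
      have h4 : N * g * q' / ((κ * q' : ℕ) : ℝ) = N * g / κ := by
        push_cast; field_simp
      rw [h4]
      have h5 : (1 : ℝ) ≤ g / κ := by rw [le_div_iff₀ hκ']; linarith
      have h6 : (N + 1) * g / κ = N * g / κ + g / κ := by ring
      linarith
    calc (2 * W / (E : ℝ) + 1) * (N * g * q' / ((κ * q' : ℕ) : ℝ) + 1)
        ≤ (4 * W / E) * ((N + 1) * g / κ) := by
          apply mul_le_mul h2 h3 (by positivity) (by positivity)
      _ = 4 * W * g * (N + 1) / ((E : ℝ) * κ) := by field_simp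
      _ = _ := by rw [hEκR]
  have hmaps : ∀ p ∈ T, (p.1 % (Q₁ : ℤ), p.2 % (Q₂ : ℤ)) ∈ G₁ ×ˢ G₂ := by
    intro p hp
    rw [Finset.mem_product]
    exact hG p hp
  rw [Finset.card_eq_sum_card_fiberwise hmaps]
  push_cast
  calc ∑ y ∈ G₁ ×ˢ G₂, ((T.filter fun p => (p.1 % (Q₁ : ℤ), p.2 % (Q₂ : ℤ)) = y).card : ℝ)
      ≤ ∑ _y ∈ G₁ ×ˢ G₂, (4 * W * g * (N + 1) / ((Q₁ : ℝ) * Q₂)) := Finset.sum_le_sum hclass
    _ = _ := by
      rw [Finset.sum_const, nsmul_eq_mul, Finset.card_product]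
      push_cast
      ring

end Vale.Agent.P028
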