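import Vale.Agent.P028.Hyper

namespace Vale.Agent.P028

open Finset in
/-- The contribution of the location-constrained pairs. -/
lemma T4_bound {C Z : ℝ} {B r ℓ K : ℕ} (hC : 0 < C) (hB : 0 < B) (hℓ : 1 ≤ ℓ) (hZ0 : 0 ≤ Z)
    (hZ : Z < 2 ^ (10 * ℓ + 1)) (hr15 : 2 ^ (15 * ℓ) ≤ r) (hτ : (Nat.divisors r).card ≤ 2 ^ (3 * ℓ))
    (hCℓ : 1 ≤ (2 : ℝ) ^ (3 * ℓ) * C) (G : ℕ → Finset ℕ)
    (hG : ∀ k, ∀ g ∈ G k, g ∈ r.divisors ∧ (g : ℝ) < 4 / 3 * Z ∧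
      (∃ n : ℕ, 1 ≤ n ∧ |(g : ℝ) * n - Z| < B * 2 ^ (k + 2) * C + Z / 2 ^ k ∧ (g : ℝ) * n ≤ 2 * Z) ∧
      (B : ℝ) * 2 ^ (k + 2) * C < Z / 3) :
    ∑ k ∈ range K, ∑ g ∈ G k, (min ((1 / 2 : ℝ) / 2 ^ k / B) (8 * C / Z * 2 ^ k) + 2 * g / r) ≤
      20 * Real.sqrt (2 * C) + 260 * ℓ * (5 * ℓ + 2) * C + 78 * ℓ / 2 ^ (2 * ℓ) := by
  have hB' : (0 : ℝ) < B := by exact_mod_cast hB
  have hB1 : (1 : ℝ) ≤ B := by exact_mod_cast hB
  have hℓ' : (1 : ℝ) ≤ ℓ := by exact_mod_cast hℓ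
  have hrpos : 0 < r := lt_of_lt_of_le (by positivity) hr15
  have hr' : (0 : ℝ) < r := by exact_mod_cast hrpos
  have hr15' : (2 : ℝ) ^ (15 * ℓ) ≤ r := by exact_mod_cast hr15
  have hsqrt0 : 0 ≤ Real.sqrt (2 * C) := Real.sqrt_nonneg _
  have hpow5 : (0 : ℝ) < 2 ^ (5 * ℓ) := by positivity
  have hpow2 : (0 : ℝ) < 2 ^ (2 * ℓ) := by positivity
  set F : ℕ → ℝ := fun k => ∑ g ∈ G k, (min ((1 / 2 : ℝ) / 2 ^ k / B) (8 * C / Z * 2 ^ k) + 2 * g / r)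
    with hF
  by_cases hZC : 12 * C < Z
  swap
  · -- then all the sets are empty
    have hempty : ∀ k, G k = ∅ := by
      intro k
      apply Finset.eq_empty_of_forall_notMem
      intro g hg
      obtain ⟨_, _, _, h4⟩ := hG k g hg
      apply hZC
      have h5 : (4 : ℝ) ≤ 2 ^ (k + 2) := by
        rw [pow_add]
        have : (1 : ℝ) ≤ 2 ^ k := one_le_pow₀ (by norm_num)
        linarith
      have h6 : 4 * C ≤ (B : ℝ) * 2 ^ (k + 2) * C := by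
        have : (4 : ℝ) ≤ (B : ℝ) * 2 ^ (k + 2) := by nlinarith
        exact mul_le_mul_of_nonneg_right this hC.le
      linarith
    have h0 : ∀ k, F k = 0 := fun k => by simp [hF, hempty]
    rw [Finset.sum_eq_zero fun k _ => h0 k]
    positivity
  have hZpos : 0 < Z := by linarith
  -- levels
  have hFzero : ∀ k, 13 * ℓ ≤ k → F k = 0 := by
    intro k hk
    have hem : G k = ∅ := by
      apply Finset.eq_empty_of_forall_notMem
      intro g hg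
      obtain ⟨_, _, _, h4⟩ := hG k g hg
      have h5 : (2 : ℝ) ^ (13 * ℓ) ≤ 2 ^ k := pow_le_pow_right₀ (by norm_num) hk
      have h6 : (2 : ℝ) ^ (13 * ℓ) = 2 ^ (10 * ℓ) * 2 ^ (3 * ℓ) := by rw [← pow_add]; congr 1; ring
      have h7 : (2 : ℝ) ^ (10 * ℓ) ≤ 2 ^ (13 * ℓ) * C := by
        rw [h6, mul_assoc]
        have : (0 : ℝ) < 2 ^ (10 * ℓ) := by positivity
        nlinarith
      have h8 : (2 : ℝ) ^ (k + 2) = 2 ^ k * 4 := by rw [pow_add]; norm_num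
      have h9 : (2 : ℝ) ^ (13 * ℓ) * C ≤ 2 ^ k * C := by gcongr
      have h10 : (B : ℝ) * 2 ^ (k + 2) * C ≥ 4 * 2 ^ (10 * ℓ) := by
        rw [h8]
        have : (2 : ℝ) ^ k * C ≥ 2 ^ (10 * ℓ) := by linarith
        have h11 : (0 : ℝ) < 2 ^ k * C := by positivity
        nlinarith
      have h12 : (2 : ℝ) ^ (10 * ℓ + 1) = 2 * 2 ^ (10 * ℓ) := by rw [pow_succ]; ring
      rw [h12] at hZ
      have : (0 : ℝ) < 2 ^ (10 * ℓ) := by positivity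
      linarith
    simp [hF, hem]
  have hF0 : ∀ k, 0 ≤ F k := by
    intro k
    apply Finset.sum_nonneg
    intro g _
    have h1 : 0 ≤ min ((1 / 2 : ℝ) / 2 ^ k / B) (8 * C / Z * 2 ^ k) :=
      le_min (by positivity) (by positivity)
    positivity
  have h1 := sum_range_split F F (fun _ => 0) (13 * ℓ) K hF0 (fun k _ => le_refl _)
    (fun k hk => (hFzero k hk).le)
  simp only [Finset.sum_const_zero, add_zero] at h1
  refine h1.trans ?_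
  -- the harmonic bound
  set s : ℝ := Real.sqrt (2 * Z) with hs
  have hs0 : 0 ≤ s := Real.sqrt_nonneg _
  have hss : s * s = 2 * Z := Real.mul_self_sqrt (by positivity)
  have hsbd : s < 2 ^ (5 * ℓ + 1) := by
    have h2 : (0 : ℝ) < 2 ^ (5 * ℓ + 1) := by positivity
    have h3 : (2 : ℝ) ^ (5 * ℓ + 1) * 2 ^ (5 * ℓ + 1) = 2 * 2 ^ (10 * ℓ + 1) := by
      rw [← pow_add, ← pow_succ']; congr 1; ring
    nlinarith
  have hHarm : ∑ n ∈ Finset.Icc 1 ⌊s⌋₊, (1 : ℝ) / n ≤ 5 * ℓ + 2 := by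
    refine (sum_one_div_Icc_le _).trans ?_
    have h2 : Real.log (⌊s⌋₊ : ℝ) ≤ 5 * ℓ + 1 := by
      rcases Nat.eq_zero_or_pos ⌊s⌋₊ with h0 | h0
      · rw [h0]; simp; positivity
      · have h3 : (0 : ℝ) < ⌊s⌋₊ := by exact_mod_cast h0
        have h4 : ((⌊s⌋₊ : ℕ) : ℝ) ≤ 2 ^ (5 * ℓ + 1) := (Nat.floor_le hs0).trans hsbd.le
        have h5 := Real.log_le_log h3 h4
        rw [Real.log_pow] at h5
        have h6 : Real.log 2 ≤ 1 := by
          have := Real.log_two_lt_d9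
          linarith
        have h7 : (0 : ℝ) ≤ ((5 * ℓ + 1 : ℕ) : ℝ) := by positivity
        have h8 : ((5 * ℓ + 1 : ℕ) : ℝ) * Real.log 2 ≤ ((5 * ℓ + 1 : ℕ) : ℝ) * 1 := by gcongr
        push_cast at h5 h8
        linarith
    linarith
  set m : ℕ → ℝ := fun k => min ((1 / 2 : ℝ) / 2 ^ k / B) (8 * C / Z * 2 ^ k) with hm
  have hm0 : ∀ k, 0 ≤ m k := fun k => le_min (by positivity) (by positivity)
  have hWm : ∀ k, m k * ((B : ℝ) * 2 ^ (k + 2) * C + Z / 2 ^ k) ≤ 10 * C := by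
    intro k
    have h2 : (0 : ℝ) < 2 ^ k := by positivity
    have h3 : m k * ((B : ℝ) * 2 ^ (k + 2) * C) ≤ 2 * C := by
      calc m k * ((B : ℝ) * 2 ^ (k + 2) * C) ≤ ((1 / 2 : ℝ) / 2 ^ k / B) * ((B : ℝ) * 2 ^ (k + 2) * C) := by
            gcongr
            exact min_le_left _ _
        _ = 2 * C := by rw [pow_add]; field_simp
    have h4 : m k * (Z / 2 ^ k) ≤ 8 * C := by
      calc m k * (Z / 2 ^ k) ≤ (8 * C / Z * 2 ^ k) * (Z / 2 ^ k) := by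
            gcongr
            exact min_le_right _ _
        _ = 8 * C := by field_simp
    rw [mul_add]
    linarith
  -- each level
  have hlevel : ∀ k ∈ range (13 * ℓ), F k ≤ 2 * s * m k + 20 * C * (5 * ℓ + 2) + 6 / 2 ^ (2 * ℓ) := by
    intro k _
    have hcard : ((G k).card : ℝ) ≤ 2 * s + 2 * ((B : ℝ) * 2 ^ (k + 2) * C + Z / 2 ^ k) * (5 * ℓ + 2) := by
      have hW0 : 0 ≤ (B : ℝ) * 2 ^ (k + 2) * C + Z / 2 ^ k := by positivity
      have h2 := hyperbola_count (Z := Z) (W := (B : ℝ) * 2 ^ (k + 2) * C + Z / 2 ^ k) hZ0 hW0 (G k)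
        (fun g hg => by
          obtain ⟨h3, _, h5, _⟩ := hG k g hg
          exact ⟨Nat.pos_of_mem_divisors h3, h5⟩)
      refine h2.trans ?_
      rw [← hs]
      have := mul_le_mul_of_nonneg_left hHarm (by positivity :
        0 ≤ 2 * ((B : ℝ) * 2 ^ (k + 2) * C + Z / 2 ^ k))
      linarith
    have hterm : ∀ g ∈ G k, m k + 2 * (g : ℝ) / r ≤ m k + 6 / 2 ^ (5 * ℓ) := by
      intro g hg
      obtain ⟨_, h3, _, _⟩ := hG k g hg
      have h4 : 2 * (g : ℝ) / r ≤ 6 / 2 ^ (5 * ℓ) := by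
        rw [div_le_div_iff₀ hr' hpow5]
        have h5 : (2 : ℝ) ^ (10 * ℓ + 1) * 2 ^ (5 * ℓ) = 2 * 2 ^ (15 * ℓ) := by
          rw [← pow_add, ← pow_succ']; congr 1; ring
        have h6 : (g : ℝ) < 4 / 3 * 2 ^ (10 * ℓ + 1) := by linarith
        have h7 : (g : ℝ) * 2 ^ (5 * ℓ) ≤ 4 / 3 * 2 ^ (10 * ℓ + 1) * 2 ^ (5 * ℓ) := by gcongr
        nlinarith
      linarith
    have hsum : F k ≤ ((G k).card : ℝ) * (m k + 6 / 2 ^ (5 * ℓ)) := by
      calc F k ≤ ∑ _g ∈ G k, (m k + 6 / 2 ^ (5 * ℓ)) := Finset.sum_le_sum hterm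
        _ = _ := by rw [Finset.sum_const, nsmul_eq_mul]
    have hcardτ : ((G k).card : ℝ) ≤ 2 ^ (3 * ℓ) := by
      have h2 : (G k) ⊆ r.divisors := fun g hg => (hG k g hg).1
      have h3 := (Finset.card_le_card h2).trans hτ
      exact_mod_cast h3
    have h6 : ((G k).card : ℝ) * (6 / 2 ^ (5 * ℓ)) ≤ 6 / 2 ^ (2 * ℓ) := by
      calc ((G k).card : ℝ) * (6 / 2 ^ (5 * ℓ)) ≤ 2 ^ (3 * ℓ) * (6 / 2 ^ (5 * ℓ)) := by gcongr
        _ = 6 / 2 ^ (2 * ℓ) := by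
          have : (2 : ℝ) ^ (5 * ℓ) = 2 ^ (3 * ℓ) * 2 ^ (2 * ℓ) := by rw [← pow_add]; congr 1; ring
          rw [this]; field_simp
    have h7 : ((G k).card : ℝ) * m k ≤ 2 * s * m k + 20 * C * (5 * ℓ + 2) := by
      have h8 := hWm k
      have h9 : ((G k).card : ℝ) * m k ≤
          (2 * s + 2 * ((B : ℝ) * 2 ^ (k + 2) * C + Z / 2 ^ k) * (5 * ℓ + 2)) * m k :=
        mul_le_mul_of_nonneg_right hcard (hm0 k)
      have h10 : (2 * s + 2 * ((B : ℝ) * 2 ^ (k + 2) * C + Z / 2 ^ k) * (5 * ℓ + 2)) * m k =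
          2 * s * m k + 2 * (m k * ((B : ℝ) * 2 ^ (k + 2) * C + Z / 2 ^ k)) * (5 * ℓ + 2) := by ring
      have h11 : 2 * (m k * ((B : ℝ) * 2 ^ (k + 2) * C + Z / 2 ^ k)) * (5 * ℓ + 2) ≤
          2 * (10 * C) * (5 * ℓ + 2) := by gcongr
      linarith
    rw [mul_add] at hsum
    linarith
  refine (Finset.sum_le_sum hlevel).trans ?_
  simp only [Finset.sum_add_distrib, Finset.sum_const, Finset.card_range, nsmul_eq_mul]
  rw [← Finset.mul_sum]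
  -- the geometric sum
  have hsZC : 1 ≤ Real.sqrt (Z / C) := by
    rw [Real.one_le_sqrt, one_le_div hC]
    linarith
  obtain ⟨k₀, hk1, hk2⟩ := exists_nat_pow_near hsZC (by norm_num : (1 : ℝ) < 2)
  set τ₀ : ℝ := Real.sqrt (Z / C) with hτ₀
  have hτ₀pos : 0 < τ₀ := by linarith
  have hτ₀sq : τ₀ * τ₀ = Z / C := Real.mul_self_sqrt (by positivity)
  have hgeo : ∑ k ∈ range (13 * ℓ), m k ≤ 10 / τ₀ := by
    have h2 : ∀ k, m k ≤ min ((1 / 2 : ℝ) / 2 ^ k) (8 * C / Z * 2 ^ k) := by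
      intro k
      apply min_le_min _ (le_refl _)
      have : (0 : ℝ) < 2 ^ k := by positivity
      apply div_le_self (by positivity) hB1
    have h3 := sum_min_geom (1 / 2) (8 * C / Z) (by norm_num) (by positivity) (13 * ℓ) k₀
    have h4 : 8 * C / Z * 2 ^ k₀ ≤ 8 / τ₀ := by
      have h5 : 8 * C / Z = 8 / (τ₀ * τ₀) := by rw [hτ₀sq]; field_simp
      rw [h5]
      have : 8 / (τ₀ * τ₀) * 2 ^ k₀ ≤ 8 / (τ₀ * τ₀) * τ₀ := by gcongr
      refine this.trans (le_of_eq ?_)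
      field_simp
    have h5 : 2 * (1 / 2 : ℝ) / 2 ^ k₀ ≤ 2 / τ₀ := by
      have h6 : (0 : ℝ) < 2 ^ k₀ := by positivity
      rw [div_le_div_iff₀ h6 hτ₀pos]
      have h7 : (2 : ℝ) ^ (k₀ + 1) = 2 * 2 ^ k₀ := by rw [pow_succ]; ring
      rw [h7] at hk2
      linarith
    calc ∑ k ∈ range (13 * ℓ), m k
        ≤ ∑ k ∈ range (13 * ℓ), min ((1 / 2 : ℝ) / 2 ^ k) (8 * C / Z * 2 ^ k) :=
          Finset.sum_le_sum fun k _ => h2 k
      _ ≤ _ := h3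
      _ ≤ 8 / τ₀ + 2 / τ₀ := add_le_add h4 h5
      _ = 10 / τ₀ := by ring
  have hsτ : 2 * s * (10 / τ₀) ≤ 20 * Real.sqrt (2 * C) := by
    have h2 : s = Real.sqrt (2 * C) * τ₀ := by
      rw [hs, hτ₀, ← Real.sqrt_mul (by positivity)]
      congr 1
      field_simp
    rw [h2]
    apply le_of_eq
    field_simp
    ring
  have h3 : 2 * s * ∑ k ∈ range (13 * ℓ), m k ≤ 2 * s * (10 / τ₀) := by gcongr
  have h4 : ((13 * ℓ : ℕ) : ℝ) * (20 * C * (5 * ℓ + 2)) = 260 * ℓ * (5 * ℓ + 2) * C := by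
    push_cast; ring
  have h5 : ((13 * ℓ : ℕ) : ℝ) * (6 / 2 ^ (2 * ℓ)) = 78 * ℓ / 2 ^ (2 * ℓ) := by
    push_cast; ring
  rw [h4, h5]
  linarith

end Vale.Agent.P028
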