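import Vale.Agent.P028.PerLevel
import Vale.Agent.P028.SumT4

namespace Vale.Agent.P028

open Finset

/-- The kill: for coprime data the integer `w` cannot vanish. -/
lemma kill_nonzero {γ θ : ℝ} {A : ℤ} {B : ℕ} (hθ : θ = (B : ℝ) * γ - A) {r g t q' : ℕ}
    (hr : r = g * t) (hcop : Nat.Coprime q' t) (ht : 2 ≤ t) {a b : ℤ}
    (hb : IsCoprime (b * B + A) (r : ℤ)) :
    ((a * B + A) * t - (b * B + A) * q' : ℤ) ≠ 0 ∧
    (((a * B + A) * t - (b * B + A) * q' : ℤ) : ℝ) + θ * ((t : ℝ) - q') =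
      B * (((a : ℝ) + γ) * t - ((b : ℝ) + γ) * q') := by
  constructor
  · intro h0
    have h1 : (t : ℤ) ∣ (b * B + A) * q' := ⟨a * B + A, by linarith⟩
    have hc : IsCoprime (t : ℤ) (q' : ℤ) := (Nat.isCoprime_iff_coprime.mpr hcop).symm
    have h2 : (t : ℤ) ∣ b * B + A := hc.dvd_of_dvd_mul_right h1
    have h3 : (t : ℤ) ∣ (r : ℤ) := ⟨(g : ℤ), by rw [hr]; push_cast; ring⟩
    have h4 : IsUnit (t : ℤ) := hb.isUnit_of_dvd' h2 h3
    have h5 : (t : ℤ) = 1 ∨ (t : ℤ) = -1 := Int.isUnit_iff.mp h4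
    omega
  · rw [hθ]; push_cast; ring

/-- Location of the gcd relative to the quantity `Z`. -/
lemma location {θ C Δ : ℝ} {B g t q' r q k : ℕ} (hC : 0 ≤ C) (hr : r = g * t) (hq : q = g * q')
    (hg : 0 < g) (hqr : q < r) (hk : 2 ^ k * q ≤ r) {w : ℤ} (hw : w ≠ 0)
    (hwb : |(w : ℝ) + θ * ((t : ℝ) - q')| < B * (Δ / g)) (hΔ : Δ ≤ 2 ^ (k + 2) * C)
    (hδ : 4 * ((2 : ℝ) ^ (k + 2) * C / g) * B < 1) :
    (g : ℝ) < 4 / 3 * (|θ| * r) ∧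
    (∃ n : ℕ, 1 ≤ n ∧ |(g : ℝ) * n - (|θ| * r)| < B * 2 ^ (k + 2) * C + |θ| * r / 2 ^ k ∧
      (g : ℝ) * n ≤ 2 * (|θ| * r)) ∧
    (B : ℝ) * 2 ^ (k + 2) * C < |θ| * r / 3 := by
  have hg' : (0 : ℝ) < g := by exact_mod_cast hg
  have hrR : (r : ℝ) = g * t := by rw [hr]; push_cast; ring
  have hqR : (q : ℝ) = g * q' := by rw [hq]; push_cast; ring
  have hqr' : (q : ℝ) < r := by exact_mod_cast hqr
  set Z : ℝ := |θ| * r with hZ
  set D : ℝ := (B : ℝ) * 2 ^ (k + 2) * C with hD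
  have hD0 : 0 ≤ D := by positivity
  have hDg : D < g / 4 := by
    have h1 : 4 * ((2 : ℝ) ^ (k + 2) * C / g) * B = 4 * D / g := by rw [hD]; ring
    rw [h1, div_lt_one hg'] at hδ
    linarith
  set y : ℝ := θ * ((r : ℝ) - q) with hy
  have hy1 : (g : ℝ) * ((w : ℝ) + θ * ((t : ℝ) - q')) = g * w + y := by
    rw [hy, hrR, hqR]; ring
  have hBΔ : (B : ℝ) * Δ ≤ D := by
    rw [hD, mul_assoc]
    exact mul_le_mul_of_nonneg_left hΔ (Nat.cast_nonneg _)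
  have h2 : |(g : ℝ) * w + y| < D := by
    rw [← hy1, abs_mul, abs_of_pos hg']
    calc (g : ℝ) * _ < g * (B * (Δ / g)) := mul_lt_mul_of_pos_left hwb hg'
      _ = B * Δ := by field_simp
      _ ≤ D := hBΔ
  have hn1 : 1 ≤ w.natAbs := Nat.pos_of_ne_zero (Int.natAbs_ne_zero.mpr hw)
  have hnR : (w.natAbs : ℝ) = |(w : ℝ)| := by
    rw [Nat.cast_natAbs]; push_cast; rfl
  have hn1R : (1 : ℝ) ≤ (w.natAbs : ℝ) := by exact_mod_cast hn1
  have hgn : (g : ℝ) * w.natAbs = |(g : ℝ) * w| := by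
    rw [abs_mul, abs_of_pos hg', hnR]
  have hyabs : |y| = Z - |θ| * q := by
    rw [hy, abs_mul, abs_of_nonneg (by linarith : (0 : ℝ) ≤ (r : ℝ) - q), hZ]; ring
  have hqk : |θ| * q ≤ Z / 2 ^ k := by
    have h3 : (2 : ℝ) ^ k * q ≤ r := by exact_mod_cast hk
    have h4 : (q : ℝ) ≤ r / 2 ^ k := by
      rw [le_div_iff₀ (by positivity)]; linarith
    calc |θ| * q ≤ |θ| * (r / 2 ^ k) := by gcongr
      _ = Z / 2 ^ k := by rw [hZ]; ring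
  have hqnn : 0 ≤ |θ| * q := by positivity
  have h5 : |(g : ℝ) * w.natAbs - (|y|)| < D := by
    rw [hgn]
    have h6 := abs_abs_sub_abs_le ((g : ℝ) * w) (-y)
    rw [abs_neg, sub_neg_eq_add] at h6
    exact h6.trans_lt h2
  obtain ⟨h6, h7⟩ := abs_lt.mp h5
  have hgle : (g : ℝ) ≤ (g : ℝ) * w.natAbs := by nlinarith
  have h8 : (g : ℝ) * w.natAbs < Z + D := by linarith
  have hgZ : (g : ℝ) < 4 / 3 * Z := by linarith
  have hZpos : 0 < Z := by linarith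
  refine ⟨hgZ, ⟨w.natAbs, hn1, ?_, ?_⟩, ?_⟩
  · rw [abs_lt]
    constructor <;> linarith
  · linarith
  · linarith

/-- All the data attached to a pair `(q, r)` in the small-window case. -/
lemma level_data {γ θ C σ ρ : ℝ} {A : ℤ} {B : ℕ} (hB : 0 < B) (hθ : θ = (B : ℝ) * γ - A) (hC : 0 < C)
    {r q : ℕ} (hq0 : 0 < q) (hqr : q < r) (hρ0 : 0 ≤ ρ) (hρ : ρ ≤ C / q) (hσ0 : 0 ≤ σ)
    (hσ : σ ≤ C / r) (hΔg : 2 * ((r : ℝ) * ρ + q * σ) < Nat.gcd q r)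
    {a b : ℤ} (hb : IsCoprime (b * B + A) (r : ℤ))
    (hab : |((a : ℝ) + γ) * (r / Nat.gcd q r : ℕ) - ((b : ℝ) + γ) * (q / Nat.gcd q r : ℕ)| <
      ((r : ℝ) * ρ + q * σ) / Nat.gcd q r) :
    let g := Nat.gcd q r
    let t := r / g
    let q' := q / g
    let k := Nat.log 2 (r / q)
    let δ := min ((2 : ℝ) ^ (k + 2) * C / g) (1 / 2)
    let h : ℤ := (t : ℤ) - (q' : ℤ)
    ((t : ℤ) - ((t / 2 ^ k : ℕ) : ℤ) ≤ h ∧ h < (t : ℤ) - ((t / 2 ^ (k + 1) : ℕ) : ℤ)) ∧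
    Near γ δ h ∧
    (4 * δ * B < 1 →
      (g : ℝ) < 4 / 3 * (|θ| * r) ∧
      (∃ n : ℕ, 1 ≤ n ∧ |(g : ℝ) * n - (|θ| * r)| < B * 2 ^ (k + 2) * C + |θ| * r / 2 ^ k ∧
        (g : ℝ) * n ≤ 2 * (|θ| * r)) ∧
      (B : ℝ) * 2 ^ (k + 2) * C < |θ| * r / 3) := by
  intro g t q' k δ h
  have hgpos : 0 < g := Nat.gcd_pos_of_pos_left _ hq0
  have hg' : (0 : ℝ) < g := by exact_mod_cast hgpos
  have hrpos : 0 < r := by omega
  have hr' : (0 : ℝ) < r := by exact_mod_cast hrpos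
  have hq' : (0 : ℝ) < q := by exact_mod_cast hq0
  have hrt : r = g * t := (Nat.mul_div_cancel' (Nat.gcd_dvd_right q r)).symm
  have hqq : q = g * q' := (Nat.mul_div_cancel' (Nat.gcd_dvd_left q r)).symm
  have hcop : Nat.Coprime q' t := Nat.coprime_div_gcd_div_gcd hgpos
  have hq'pos : 0 < q' := by
    apply Nat.pos_of_ne_zero
    intro h0
    rw [h0, mul_zero] at hqq
    omega
  have hq't : q' < t := by
    have : g * q' < g * t := by rw [← hqq, ← hrt]; exact hqr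
    exact Nat.lt_of_mul_lt_mul_left this
  have ht2 : 2 ≤ t := by omega
  have hrq1 : 1 ≤ r / q := (Nat.one_le_div_iff hq0).mpr hqr.le
  have hk1 : 2 ^ k ≤ r / q := Nat.pow_log_le_self 2 (by omega)
  have hk2 : r / q < 2 ^ (k + 1) := Nat.lt_pow_succ_log_self (by norm_num) _
  have hk3 : 2 ^ k * q ≤ r := (Nat.le_div_iff_mul_le hq0).mp hk1
  have hk4 : r < 2 ^ (k + 1) * q := (Nat.div_lt_iff_lt_mul hq0).mp hk2
  have hk3' : 2 ^ k * q' ≤ t := by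
    have : g * (2 ^ k * q') ≤ g * t := by
      rw [← hrt, mul_left_comm, ← hqq]; exact hk3
    exact Nat.le_of_mul_le_mul_left this hgpos
  have hk4' : t < 2 ^ (k + 1) * q' := by
    have : g * t < g * (2 ^ (k + 1) * q') := by
      rw [← hrt, mul_left_comm, ← hqq]; exact hk4
    exact Nat.lt_of_mul_lt_mul_left this
  -- bound for the window
  set Δ : ℝ := (r : ℝ) * ρ + q * σ with hΔ
  have hΔ0 : 0 ≤ Δ := by positivity
  have hΔb : Δ ≤ 2 ^ (k + 2) * C := by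
    have h1 : (r : ℝ) * ρ ≤ 2 ^ (k + 1) * C := by
      have h2 : (r : ℝ) < 2 ^ (k + 1) * q := by exact_mod_cast hk4
      calc (r : ℝ) * ρ ≤ r * (C / q) := by gcongr
        _ ≤ (2 ^ (k + 1) * q) * (C / q) := by gcongr
        _ = 2 ^ (k + 1) * C := by field_simp
    have h2 : (q : ℝ) * σ ≤ 2 ^ (k + 1) * C := by
      have h3 : (q : ℝ) ≤ r := by exact_mod_cast hqr.le
      have h4 : (1 : ℝ) ≤ 2 ^ (k + 1) := one_le_pow₀ (by norm_num)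
      calc (q : ℝ) * σ ≤ q * (C / r) := by gcongr
        _ ≤ r * (C / r) := by gcongr
        _ = 1 * C := by field_simp
        _ ≤ _ := by gcongr
    have h3 : (2 : ℝ) ^ (k + 2) = 2 * 2 ^ (k + 1) := by rw [pow_succ (2 : ℝ) (k + 1)]; ring
    rw [h3]
    linarith
  have hδ1 : Δ / g ≤ δ := by
    apply le_min
    · apply div_le_div_of_nonneg_right hΔb hg'.le
    · rw [div_le_iff₀ hg']; linarith
  have heq : ((a : ℝ) + γ) * t - ((b : ℝ) + γ) * q' = ((a * t - b * q' : ℤ) : ℝ) + γ * (h : ℤ) := by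
    simp only [h]; push_cast; ring
  refine ⟨⟨?_, ?_⟩, ⟨a * t - b * q', ?_⟩, ?_⟩
  · have : q' ≤ t / 2 ^ k := by
      rw [Nat.le_div_iff_mul_le (by positivity)]
      rw [mul_comm]; exact hk3'
    simp only [h]
    omega
  · have : t / 2 ^ (k + 1) < q' := by
      rw [Nat.div_lt_iff_lt_mul (by positivity)]
      rw [mul_comm]; exact hk4'
    simp only [h]
    omega
  · rw [← heq]
    exact hab.trans_le hδ1
  · intro hδB
    have hB' : (0 : ℝ) < B := by exact_mod_cast hB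
    have hB1 : (1 : ℝ) ≤ B := by exact_mod_cast hB
    have hδ0 : 0 ≤ δ := le_min (by positivity) (by norm_num)
    have hδlt : δ < 1 / 4 := by
      have : 4 * δ * 1 ≤ 4 * δ * B := by gcongr
      linarith
    have hδeq : δ = (2 : ℝ) ^ (k + 2) * C / g := by
      rcases min_choice ((2 : ℝ) ^ (k + 2) * C / g) (1 / 2) with h1 | h1
      · exact h1
      · have h2 : δ = 1 / 2 := h1
        linarith
    obtain ⟨hw, hweq⟩ := kill_nonzero (a := a) hθ hrt hcop ht2 hb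
    have hwb : |(((a * B + A) * t - (b * B + A) * q' : ℤ) : ℝ) + θ * ((t : ℝ) - q')| <
        B * (Δ / g) := by
      rw [hweq, abs_mul, abs_of_pos hB']
      exact mul_lt_mul_of_pos_left hab hB'
    exact location hC.le hrt hqq hgpos hqr hk3 hw hwb hΔb (by rw [← hδeq]; exact hδB)

/-- Version of `level_data` with named gcd and level. -/
lemma level_data' {γ θ C σ ρ : ℝ} {A : ℤ} {B : ℕ} (hB : 0 < B) (hθ : θ = (B : ℝ) * γ - A)
    (hC : 0 < C) {r q g k : ℕ} (hq0 : 0 < q) (hqr : q < r) (hρ0 : 0 ≤ ρ) (hρ : ρ ≤ C / q)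
    (hσ0 : 0 ≤ σ) (hσ : σ ≤ C / r) (hΔg : 2 * ((r : ℝ) * ρ + q * σ) < Nat.gcd q r)
    {a b : ℤ} (hb : IsCoprime (b * B + A) (r : ℤ))
    (hab : |((a : ℝ) + γ) * (r / Nat.gcd q r : ℕ) - ((b : ℝ) + γ) * (q / Nat.gcd q r : ℕ)| <
      ((r : ℝ) * ρ + q * σ) / Nat.gcd q r) (hg : Nat.gcd q r = g) (hk : Nat.log 2 (r / q) = k) :
    (((r / g : ℕ) : ℤ) - (((r / g) / 2 ^ k : ℕ) : ℤ) ≤ ((r / g : ℕ) : ℤ) - ((q / g : ℕ) : ℤ) ∧
      ((r / g : ℕ) : ℤ) - ((q / g : ℕ) : ℤ) < ((r / g : ℕ) : ℤ) - (((r / g) / 2 ^ (k + 1) : ℕ) : ℤ)) ∧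
    Near γ (min ((2 : ℝ) ^ (k + 2) * C / g) (1 / 2)) (((r / g : ℕ) : ℤ) - ((q / g : ℕ) : ℤ)) ∧
    (4 * min ((2 : ℝ) ^ (k + 2) * C / g) (1 / 2) * B < 1 →
      (g : ℝ) < 4 / 3 * (|θ| * r) ∧
      (∃ n : ℕ, 1 ≤ n ∧ |(g : ℝ) * n - (|θ| * r)| < B * 2 ^ (k + 2) * C + |θ| * r / 2 ^ k ∧
        (g : ℝ) * n ≤ 2 * (|θ| * r)) ∧
      (B : ℝ) * 2 ^ (k + 2) * C < |θ| * r / 3) := by
  subst hg hk
  exact level_data hB hθ hC hq0 hqr hρ0 hρ hσ0 hσ hΔg hb hab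

lemma T1_bound {C : ℝ} (hC : 0 ≤ C) (D : Finset ℕ) (K ℓ : ℕ) :
    ∑ g ∈ D, ∑ k ∈ range K, (80 / 2 ^ k * min ((2 : ℝ) ^ (k + 2) * C / g) (1 / 2)) ≤
      2560 * ℓ * C * ∑ g ∈ D, (1 : ℝ) / g + 80 * D.card / 2 ^ (8 * ℓ) := by
  have h1 : ∀ g ∈ D, ∑ k ∈ range K, (80 / 2 ^ k * min ((2 : ℝ) ^ (k + 2) * C / g) (1 / 2)) ≤
      2560 * ℓ * C * ((1 : ℝ) / g) + 80 / 2 ^ (8 * ℓ) := by
    intro g _
    have h2 : ∀ k, (80 / 2 ^ k * min ((2 : ℝ) ^ (k + 2) * C / g) (1 / 2)) =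
        80 * min (4 * C / g) ((1 / 2) / 2 ^ k) := by
      intro k
      rw [mul_min_of_nonneg _ _ (by positivity), mul_min_of_nonneg _ _ (by norm_num)]
      congr 1
      · rw [pow_add]; field_simp; norm_num; ring
      · field_simp
    simp_rw [h2]
    rw [← Finset.mul_sum]
    have h3 := sum_min_const_geom (4 * C / g) (1 / 2) (by positivity) (by norm_num) K (8 * ℓ)
    have h4 : 80 * ∑ k ∈ range K, min (4 * C / (g : ℝ)) ((1 / 2) / 2 ^ k) ≤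
        80 * (((8 * ℓ : ℕ) : ℝ) * (4 * C / g) + 2 * (1 / 2) / 2 ^ (8 * ℓ)) := by
      gcongr
    refine h4.trans (le_of_eq ?_)
    push_cast
    ring
  refine (Finset.sum_le_sum h1).trans (le_of_eq ?_)
  rw [Finset.sum_add_distrib, Finset.sum_const, nsmul_eq_mul, ← Finset.mul_sum]
  ring

lemma T2_bound {C : ℝ} (hC : 0 ≤ C) {B r ℓ : ℕ} (hr : 0 < r)
    (hBr : (B : ℝ) * 2 ^ (10 * ℓ) ≤ r) (D : Finset ℕ) (K : ℕ) :
    ∑ _g ∈ D, ∑ k ∈ range K, min ((3 / 2 : ℝ) / 2 ^ k) (128 * C * B / r * 2 ^ k) ≤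
      D.card * ((128 * C + 3) / 2 ^ (5 * ℓ)) := by
  have hr' : (0 : ℝ) < r := by exact_mod_cast hr
  rw [Finset.sum_const, nsmul_eq_mul]
  apply mul_le_mul_of_nonneg_left _ (Nat.cast_nonneg _)
  have h3 := sum_min_geom (3 / 2) (128 * C * B / r) (by norm_num) (by positivity) K (5 * ℓ)
  refine h3.trans ?_
  have h4 : 128 * C * B / r * 2 ^ (5 * ℓ) ≤ 128 * C / 2 ^ (5 * ℓ) := by
    have h5 : (0 : ℝ) < 2 ^ (5 * ℓ) := by positivity
    have h6 : (2 : ℝ) ^ (10 * ℓ) = 2 ^ (5 * ℓ) * 2 ^ (5 * ℓ) := by rw [← pow_add]; congr 1; ring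
    rw [div_mul_eq_mul_div, div_le_div_iff₀ hr' h5]
    rw [h6] at hBr
    have h7 : 0 ≤ 128 * C := by positivity
    calc 128 * C * B * 2 ^ (5 * ℓ) * 2 ^ (5 * ℓ) = 128 * C * (B * (2 ^ (5 * ℓ) * 2 ^ (5 * ℓ))) := by ring
      _ ≤ 128 * C * r := by gcongr
  have h5 : 2 * (3 / 2 : ℝ) / 2 ^ (5 * ℓ) = 3 / 2 ^ (5 * ℓ) := by norm_num
  rw [h5]
  have h6 : (128 * C + 3) / 2 ^ (5 * ℓ) = 128 * C / 2 ^ (5 * ℓ) + 3 / 2 ^ (5 * ℓ) := by ring
  rw [h6]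
  linarith

lemma T3_bound {x : ℝ} (hx : 0 ≤ x) (D : Finset ℕ) (K : ℕ) :
    ∑ _g ∈ D, ∑ k ∈ range K, (40 * x / 2 ^ k) ≤ D.card * (80 * x) := by
  rw [Finset.sum_const, nsmul_eq_mul]
  apply mul_le_mul_of_nonneg_left _ (Nat.cast_nonneg _)
  have h1 := sum_inv_two_pow_le 0 K
  simp only [zero_add, pow_zero, div_one] at h1
  have h2 : ∀ k, 40 * x / 2 ^ k = 40 * x * (1 / 2 ^ k) := by intro k; ring
  simp_rw [h2]
  rw [← Finset.mul_sum]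
  calc 40 * x * _ ≤ 40 * x * 2 := by gcongr
    _ = 80 * x := by ring

/-- Main bound for the small-window pairs. -/
theorem T_bound {γ θ C : ℝ} {A : ℤ} {B X r ℓ : ℕ} (hB : 0 < B) (hBX : B ≤ X)
    (hAB : IsCoprime A (B : ℤ)) (hθ : θ = (B : ℝ) * γ - A) (hθX : |θ| ≤ 1 / ((X : ℝ) + 1))
    (hX : 15 ≤ X) (hC : 0 < C) (hℓ : 1 ≤ ℓ) (hrX : X * 2 ^ (10 * ℓ) ≤ r)
    (hrX2 : r < (X + 1) * 2 ^ (10 * ℓ + 1)) (hr15 : 2 ^ (15 * ℓ) ≤ r)
    (hτ : (Nat.divisors r).card ≤ 2 ^ (3 * ℓ)) (hCℓ : 1 ≤ (2 : ℝ) ^ (3 * ℓ) * C)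
    (Q : Finset ℕ) (ρ : ℕ → ℝ) (σ : ℝ) (hσ0 : 0 ≤ σ) (hσ : σ ≤ C / r)
    (hQ : ∀ q ∈ Q, 0 < q ∧ q < r ∧ 0 ≤ ρ q ∧ ρ q ≤ C / q ∧
      2 * ((r : ℝ) * ρ q + q * σ) < Nat.gcd q r ∧
      ∃ a b : ℤ, IsCoprime (b * B + A) (r : ℤ) ∧
        |((a : ℝ) + γ) * (r / Nat.gcd q r : ℕ) - ((b : ℝ) + γ) * (q / Nat.gcd q r : ℕ)| <
          ((r : ℝ) * ρ q + q * σ) / Nat.gcd q r) :
    ∑ q ∈ Q, (Nat.gcd q r : ℝ) / r ≤
      2560 * ℓ * C * ∑ g ∈ r.divisors, (1 : ℝ) / g + 260 * ℓ * (5 * ℓ + 2) * C +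
        20 * Real.sqrt (2 * C) + (243 + 128 * C + 78 * ℓ) / 2 ^ (2 * ℓ) := by
  classical
  have hB' : (0 : ℝ) < B := by exact_mod_cast hB
  have hrpos : 0 < r := lt_of_lt_of_le (by positivity) hr15
  have hr' : (0 : ℝ) < r := by exact_mod_cast hrpos
  set D := r.divisors with hD
  set K := Nat.log 2 r + 1 with hK
  set δ : ℕ → ℕ → ℝ := fun g k => min ((2 : ℝ) ^ (k + 2) * C / g) (1 / 2) with hδ
  set N : ℕ → ℕ → Finset ℕ := fun g k =>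
    Q.filter fun q => Nat.gcd q r = g ∧ Nat.log 2 (r / q) = k with hN
  set cond : ℕ → ℕ → Prop := fun g k => 4 * δ g k * B < 1 ∧ (N g k).Nonempty with hcond
  set E : ℕ → ℕ → ℝ := fun g k =>
    min ((1 / 2 : ℝ) / 2 ^ k / B) (8 * C / (|θ| * r) * 2 ^ k) + 2 * g / r with hE
  set f : ℕ → ℕ → ℝ := fun g k => 80 / 2 ^ k * δ g k +
    min ((3 / 2 : ℝ) / 2 ^ k) (128 * C * B / r * 2 ^ k) + 40 * |θ| / 2 ^ k with hf
  have hE0 : ∀ g k, 0 ≤ E g k := fun g k => by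
    have : 0 ≤ min ((1 / 2 : ℝ) / 2 ^ k / B) (8 * C / (|θ| * r) * 2 ^ k) :=
      le_min (by positivity) (by positivity)
    simp only [hE]
    positivity
  have hf0 : ∀ g k, 0 ≤ f g k := fun g k => by
    have h1 : 0 ≤ min ((3 / 2 : ℝ) / 2 ^ k) (128 * C * B / r * 2 ^ k) :=
      le_min (by positivity) (by positivity)
    have h2 : 0 ≤ δ g k := le_min (by positivity) (by norm_num)
    simp only [hf]
    positivity
  -- data of the elements of `N`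
  have hdata : ∀ g k, ∀ q ∈ N g k,
      (((r / g : ℕ) : ℤ) - (((r / g) / 2 ^ k : ℕ) : ℤ) ≤ ((r / g : ℕ) : ℤ) - ((q / g : ℕ) : ℤ) ∧
      ((r / g : ℕ) : ℤ) - ((q / g : ℕ) : ℤ) < ((r / g : ℕ) : ℤ) - (((r / g) / 2 ^ (k + 1) : ℕ) : ℤ)) ∧
      Near γ (δ g k) (((r / g : ℕ) : ℤ) - ((q / g : ℕ) : ℤ)) ∧
      (4 * δ g k * B < 1 →
        (g : ℝ) < 4 / 3 * (|θ| * r) ∧
        (∃ n : ℕ, 1 ≤ n ∧ |(g : ℝ) * n - (|θ| * r)| < B * 2 ^ (k + 2) * C + |θ| * r / 2 ^ k ∧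
          (g : ℝ) * n ≤ 2 * (|θ| * r)) ∧
        (B : ℝ) * 2 ^ (k + 2) * C < |θ| * r / 3) := by
    intro g k q hq
    obtain ⟨hq1, hg, hk⟩ := Finset.mem_filter.mp hq
    obtain ⟨h1, h2, h3, h4, h5, a, b, hb, hab⟩ := hQ q hq1
    exact level_data' hB hθ hC h1 h2 h3 h4 hσ0 hσ h5 hb hab hg hk
  -- the per-level bound
  have hlevel : ∀ g ∈ D, ∀ k, ((N g k).card : ℝ) * ((g : ℝ) / r) ≤
      f g k + if cond g k then E g k else 0 := by
    intro g hg k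
    have hgpos : 0 < g := Nat.pos_of_mem_divisors hg
    have hg' : (0 : ℝ) < g := by exact_mod_cast hgpos
    have hgr : g ∣ r := Nat.dvd_of_mem_divisors hg
    set t := r / g with ht
    have hrt : r = g * t := (Nat.mul_div_cancel' hgr).symm
    have htpos : 0 < t := by
      apply Nat.pos_of_ne_zero
      intro h0
      rw [h0, mul_zero] at hrt
      omega
    have ht' : (0 : ℝ) < t := by exact_mod_cast htpos
    have hgr' : (g : ℝ) / r = 1 / t := by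
      rw [hrt]; push_cast; field_simp
    set S : Finset ℤ := (N g k).image fun q => ((t : ℕ) : ℤ) - ((q / g : ℕ) : ℤ) with hS
    have hcard : S.card = (N g k).card := by
      apply Finset.card_image_of_injOn
      intro q₁ h₁ q₂ h₂ heq
      have h3 : q₁ / g = q₂ / g := by
        simp only at heq
        omega
      have h4 : g ∣ q₁ := by
        have := (Finset.mem_filter.mp h₁).2.1
        rw [← this]; exact Nat.gcd_dvd_left _ _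
      have h5 : g ∣ q₂ := by
        have := (Finset.mem_filter.mp h₂).2.1
        rw [← this]; exact Nat.gcd_dvd_left _ _
      rw [← Nat.mul_div_cancel' h4, ← Nat.mul_div_cancel' h5, h3]
    have hSint : ∀ h ∈ S, (t : ℤ) - ((t / 2 ^ k : ℕ) : ℤ) ≤ h ∧
        h < (t : ℤ) - ((t / 2 ^ (k + 1) : ℕ) : ℤ) := by
      intro h hh
      obtain ⟨q, hq, rfl⟩ := Finset.mem_image.mp hh
      exact (hdata g k q hq).1
    have hSnear : ∀ h ∈ S, Near γ (δ g k) h := by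
      intro h hh
      obtain ⟨q, hq, rfl⟩ := Finset.mem_image.mp hh
      exact (hdata g k q hq).2.1
    have hmain := bohr_bound hB hBX hAB hθ hθX hX hC.le hrt hgpos htpos hSint hSnear
    rw [hcard] at hmain
    have hLHS : ((N g k).card : ℝ) * ((g : ℝ) / r) = ((N g k).card : ℝ) / t := by
      rw [hgr']; ring
    rw [hLHS]
    have hif0 : (0 : ℝ) ≤ if cond g k then E g k else 0 := by
      split_ifs
      · exact hE0 g k
      · exact le_refl _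
    rcases hmain with hleft | ⟨hcase, hright⟩
    · have : ((N g k).card : ℝ) / t ≤ f g k := hleft
      linarith
    · rcases (N g k).eq_empty_or_nonempty with he | hne
      · have h0 : ((N g k).card : ℝ) = 0 := by rw [he]; simp
        rw [h0, zero_div]
        have := hf0 g k
        linarith
      · have hc : cond g k := ⟨hcase, hne⟩
        rw [if_pos hc]
        obtain ⟨q, hq⟩ := hne
        have h1 := ((hdata g k q hq).2.2 hcase).1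
        have hZpos : 0 < |θ| * r := by linarith
        have hθ0 : θ ≠ 0 := by
          intro h0
          rw [h0] at hZpos
          simp at hZpos
        have h2 := hright hθ0
        have := hf0 g k
        have h3 : ((N g k).card : ℝ) / t ≤ E g k := h2
        linarith
  -- fibre decomposition
  have hmaps : ∀ q ∈ Q, (Nat.gcd q r, Nat.log 2 (r / q)) ∈ D ×ˢ range K := by
    intro q hq
    obtain ⟨h1, h2, _⟩ := hQ q hq
    rw [Finset.mem_product]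
    refine ⟨Nat.mem_divisors.mpr ⟨Nat.gcd_dvd_right _ _, hrpos.ne'⟩, ?_⟩
    rw [Finset.mem_range, hK, Nat.lt_succ_iff]
    show Nat.log 2 (r / q) ≤ Nat.log 2 r
    exact Nat.log_mono_right (Nat.div_le_self _ _)
  have hsplit : ∑ q ∈ Q, (Nat.gcd q r : ℝ) / r =
      ∑ g ∈ D, ∑ k ∈ range K, ((N g k).card : ℝ) * ((g : ℝ) / r) := by
    rw [← Finset.sum_product' (f := fun g k => ((N g k).card : ℝ) * ((g : ℝ) / r))]
    rw [← Finset.sum_fiberwise_of_maps_to hmaps]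
    refine Finset.sum_congr rfl fun y hy => ?_
    obtain ⟨g, k⟩ := y
    have h1 : (Q.filter fun q => (Nat.gcd q r, Nat.log 2 (r / q)) = (g, k)) = N g k := by
      simp only [hN, Prod.mk.injEq]
    rw [h1]
    have h2 : ∀ q ∈ N g k, (Nat.gcd q r : ℝ) / r = (g : ℝ) / r := by
      intro q hq
      have := (Finset.mem_filter.mp hq).2.1
      rw [this]
    rw [Finset.sum_congr rfl h2, Finset.sum_const, nsmul_eq_mul]
  rw [hsplit]
  set G : ℕ → Finset ℕ := fun k => D.filter fun g => cond g k with hG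
  have hswap : ∑ g ∈ D, ∑ k ∈ range K, (if cond g k then E g k else 0) =
      ∑ k ∈ range K, ∑ g ∈ G k, E g k := by
    rw [Finset.sum_comm]
    refine Finset.sum_congr rfl fun k _ => ?_
    rw [hG, Finset.sum_filter]
  have hZ0 : 0 ≤ |θ| * r := by positivity
  have hX1 : (0 : ℝ) < (X : ℝ) + 1 := by positivity
  have hZlt : |θ| * r < 2 ^ (10 * ℓ + 1) := by
    have h1 : (r : ℝ) < ((X : ℝ) + 1) * 2 ^ (10 * ℓ + 1) := by exact_mod_cast hrX2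
    calc |θ| * r ≤ 1 / ((X : ℝ) + 1) * r := by gcongr
      _ < 1 / ((X : ℝ) + 1) * (((X : ℝ) + 1) * 2 ^ (10 * ℓ + 1)) := by
        apply mul_lt_mul_of_pos_left h1; positivity
      _ = 2 ^ (10 * ℓ + 1) := by field_simp
  have hT4 := T4_bound (K := K) hC hB hℓ hZ0 hZlt hr15 hτ hCℓ G (by
    intro k g hg
    obtain ⟨hg1, hc, hne⟩ := Finset.mem_filter.mp hg
    obtain ⟨q, hq⟩ := hne
    obtain ⟨h1, h2, h3⟩ := (hdata g k q hq).2.2 hc
    exact ⟨hg1, h1, h2, h3⟩)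
  have hT1 := T1_bound hC.le D K ℓ
  have hBr : (B : ℝ) * 2 ^ (10 * ℓ) ≤ r := by
    have h1 : B * 2 ^ (10 * ℓ) ≤ r := le_trans (Nat.mul_le_mul_right _ hBX) hrX
    exact_mod_cast h1
  have hT2 := T2_bound hC.le hrpos hBr D K
  have hT3 := T3_bound (abs_nonneg θ) D K
  have hτ' : (D.card : ℝ) ≤ 2 ^ (3 * ℓ) := by exact_mod_cast hτ
  have hr15' : (2 : ℝ) ^ (15 * ℓ) ≤ r := by exact_mod_cast hr15
  have hp2 : (0 : ℝ) < 2 ^ (2 * ℓ) := by positivity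
  have hp3 : (0 : ℝ) < 2 ^ (3 * ℓ) := by positivity
  have hp5 : (0 : ℝ) < 2 ^ (5 * ℓ) := by positivity
  have hp8 : (0 : ℝ) < 2 ^ (8 * ℓ) := by positivity
  have h53 : (2 : ℝ) ^ (5 * ℓ) = 2 ^ (3 * ℓ) * 2 ^ (2 * ℓ) := by rw [← pow_add]; congr 1; ring
  have h83 : (2 : ℝ) ^ (8 * ℓ) = 2 ^ (3 * ℓ) * 2 ^ (5 * ℓ) := by rw [← pow_add]; congr 1; ring
  have hle25 : (2 : ℝ) ^ (2 * ℓ) ≤ 2 ^ (5 * ℓ) := pow_le_pow_right₀ (by norm_num) (by omega)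
  have hsmall1 : 80 * (D.card : ℝ) / 2 ^ (8 * ℓ) ≤ 80 / 2 ^ (2 * ℓ) := by
    have h1 : 80 * (D.card : ℝ) / 2 ^ (8 * ℓ) ≤ 80 * 2 ^ (3 * ℓ) / 2 ^ (8 * ℓ) := by gcongr
    refine h1.trans ?_
    rw [h83, div_le_div_iff₀ (by positivity) hp2]
    nlinarith
  have hsmall2 : (D.card : ℝ) * ((128 * C + 3) / 2 ^ (5 * ℓ)) ≤ (128 * C + 3) / 2 ^ (2 * ℓ) := by
    calc (D.card : ℝ) * ((128 * C + 3) / 2 ^ (5 * ℓ)) ≤ 2 ^ (3 * ℓ) * ((128 * C + 3) / 2 ^ (5 * ℓ)) := by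
          gcongr
      _ = _ := by rw [h53]; field_simp
  have hθsmall : |θ| ≤ 2 / 2 ^ (5 * ℓ) := by
    have h1 : (r : ℝ) < ((X : ℝ) + 1) * 2 ^ (10 * ℓ + 1) := by exact_mod_cast hrX2
    have h2 : (2 : ℝ) ^ (15 * ℓ) < ((X : ℝ) + 1) * 2 ^ (10 * ℓ + 1) := lt_of_le_of_lt hr15' h1
    have h3 : (2 : ℝ) ^ (15 * ℓ) = 2 ^ (10 * ℓ) * 2 ^ (5 * ℓ) := by rw [← pow_add]; congr 1; ring
    have h4 : (2 : ℝ) ^ (10 * ℓ + 1) = 2 * 2 ^ (10 * ℓ) := by rw [pow_succ]; ring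
    have hp10 : (0 : ℝ) < 2 ^ (10 * ℓ) := by positivity
    rw [h3, h4] at h2
    have h5 : (2 : ℝ) ^ (5 * ℓ) < ((X : ℝ) + 1) * 2 := by
      have : 2 ^ (10 * ℓ) * (2 : ℝ) ^ (5 * ℓ) < 2 ^ (10 * ℓ) * (((X : ℝ) + 1) * 2) := by
        calc _ < ((X : ℝ) + 1) * (2 * 2 ^ (10 * ℓ)) := h2
          _ = _ := by ring
      exact lt_of_mul_lt_mul_left this hp10.le
    refine hθX.trans ?_
    rw [div_le_div_iff₀ hX1 hp5]
    linarith
  have hsmall3 : (D.card : ℝ) * (80 * |θ|) ≤ 160 / 2 ^ (2 * ℓ) := by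
    calc (D.card : ℝ) * (80 * |θ|) ≤ 2 ^ (3 * ℓ) * (80 * (2 / 2 ^ (5 * ℓ))) := by gcongr
      _ = _ := by rw [h53]; field_simp; norm_num
  calc ∑ g ∈ D, ∑ k ∈ range K, ((N g k).card : ℝ) * ((g : ℝ) / r)
      ≤ ∑ g ∈ D, ∑ k ∈ range K, (f g k + if cond g k then E g k else 0) :=
        Finset.sum_le_sum fun g hg => Finset.sum_le_sum fun k _ => hlevel g hg k
    _ = ∑ g ∈ D, ∑ k ∈ range K, (80 / 2 ^ k * min ((2 : ℝ) ^ (k + 2) * C / g) (1 / 2)) +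
        ∑ _g ∈ D, ∑ k ∈ range K, min ((3 / 2 : ℝ) / 2 ^ k) (128 * C * B / r * 2 ^ k) +
        ∑ _g ∈ D, ∑ k ∈ range K, (40 * |θ| / 2 ^ k) +
        ∑ k ∈ range K, ∑ g ∈ G k, E g k := by
        rw [← hswap]
        simp only [hf, hδ, Finset.sum_add_distrib]
    _ ≤ _ := by
        have hfin : (243 + 128 * C + 78 * (ℓ : ℝ)) / 2 ^ (2 * ℓ) =
            80 / 2 ^ (2 * ℓ) + (128 * C + 3) / 2 ^ (2 * ℓ) + 160 / 2 ^ (2 * ℓ) +
              78 * (ℓ : ℝ) / 2 ^ (2 * ℓ) := by ring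
        rw [hfin]
        simp only [hE] at hT4 ⊢
        linarith

end Vale.Agent.P028
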