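import Vale.Agent.P028.Hyper

namespace Vale.Agent.P028

open Finset

/-- Bound for the pairs with a moderately small window. -/
theorem U_bound {C J Y : ℝ} (hC : 0 ≤ C) (hJ : 0 < J) (hY : 0 < Y) {r : ℕ} (hr : 0 < r)
    (Q : Finset ℕ) (ρ : ℕ → ℝ)
    (hQ : ∀ q ∈ Q, 0 < q ∧ q < r ∧ 0 ≤ ρ q ∧ ρ q ≤ C / q ∧ 1 / ((q : ℝ) * J) ≤ ρ q ∧
      (r : ℝ) * ρ q < Nat.gcd q r * Y) (e₀ : ℕ) :
    ∑ q ∈ Q, ρ q ≤ C * (3 * e₀ + 4 * (r.divisors.card : ℝ) * J * Y / 2 ^ e₀) := by
  classical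
  have hr' : (0 : ℝ) < r := by exact_mod_cast hr
  set K := Nat.log 2 r + 1 with hK
  let L : ℕ → Finset ℕ := fun k => Q.filter fun q => Nat.log 2 (r / q) = k
  -- data of the levels
  have hlev : ∀ k, ∀ q ∈ L k, 2 ^ k * q ≤ r ∧ r < 2 ^ (k + 1) * q := by
    intro k q hq
    obtain ⟨hq1, hk⟩ := Finset.mem_filter.mp hq
    obtain ⟨h1, h2, _⟩ := hQ q hq1
    have hrq1 : 1 ≤ r / q := (Nat.one_le_div_iff h1).mpr h2.le
    have hk1 : 2 ^ k ≤ r / q := by rw [← hk]; exact Nat.pow_log_le_self 2 (by omega)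
    have hk2 : r / q < 2 ^ (k + 1) := by rw [← hk]; exact Nat.lt_pow_succ_log_self (by norm_num) _
    exact ⟨(Nat.le_div_iff_mul_le h1).mp hk1, (Nat.div_lt_iff_lt_mul h1).mp hk2⟩
  have hinv : ∀ k, ∀ q ∈ L k, (1 : ℝ) / q ≤ 2 ^ (k + 1) / r := by
    intro k q hq
    have h1 := (hlev k q hq).2
    have h2 : 0 < q := (hQ q (Finset.mem_filter.mp hq).1).1
    have h3 : (0 : ℝ) < q := by exact_mod_cast h2
    have h4 : (r : ℝ) < 2 ^ (k + 1) * q := by exact_mod_cast h1
    rw [div_le_div_iff₀ h3 hr']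
    linarith
  -- the near levels
  have hnear : ∀ k, ∑ q ∈ L k, (1 : ℝ) / q ≤ 3 := by
    intro k
    rcases (L k).eq_empty_or_nonempty with he | ⟨q₀, hq₀⟩
    · rw [he]; simp
    have h2k : 2 ^ k ≤ r := by
      have h1 := (hlev k q₀ hq₀).1
      have h2 : 0 < q₀ := (hQ q₀ (Finset.mem_filter.mp hq₀).1).1
      calc 2 ^ k ≤ 2 ^ k * q₀ := Nat.le_mul_of_pos_right _ h2
        _ ≤ r := h1
    have h2kR : (2 : ℝ) ^ k ≤ r := by exact_mod_cast h2k
    set u : ℕ := r / 2 ^ k with hu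
    set v : ℕ := r / 2 ^ (k + 1) with hv
    have hvu : v ≤ u := by
      apply Nat.div_le_div_left (Nat.pow_le_pow_right (by norm_num) (Nat.le_succ k)) (by positivity)
    have hsub : L k ⊆ Finset.Ioc v u := by
      intro q hq
      obtain ⟨h1, h2⟩ := hlev k q hq
      rw [Finset.mem_Ioc]
      constructor
      · rw [hv, Nat.div_lt_iff_lt_mul (by positivity), mul_comm]; exact h2
      · rw [hu, Nat.le_div_iff_mul_le (by positivity), mul_comm]; exact h1
    have hcard : ((L k).card : ℝ) ≤ r / 2 ^ (k + 1) + 1 := by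
      have h1 := Finset.card_le_card hsub
      rw [Nat.card_Ioc] at h1
      have h2 : ((L k).card : ℝ) ≤ (u : ℝ) - v := by
        have h3 : (L k).card + v ≤ u := by
          have h30 : (L k).card + v ≤ (u - v) + v := Nat.add_le_add_right h1 v
          rwa [Nat.sub_add_cancel hvu] at h30
        have h4 : ((L k).card : ℝ) + v ≤ u := by exact_mod_cast h3
        linarith
      have huR : (u : ℝ) ≤ r / 2 ^ k := by
        have := Nat.cast_div_le (α := ℝ) (m := r) (n := 2 ^ k)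
        push_cast at this
        exact this
      have hvR : (r : ℝ) / 2 ^ (k + 1) - 1 < v := by
        have h5 : r < (v + 1) * 2 ^ (k + 1) := by
          rw [hv, mul_comm]
          exact Nat.lt_mul_div_succ r (by positivity)
        have h6 : (r : ℝ) < ((v : ℝ) + 1) * 2 ^ (k + 1) := by exact_mod_cast h5
        have h7 : (r : ℝ) / 2 ^ (k + 1) < (v : ℝ) + 1 := by
          rw [div_lt_iff₀ (by positivity)]; exact h6
        linarith
      have h8 : (r : ℝ) / 2 ^ k = 2 * (r / 2 ^ (k + 1)) := by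
        rw [pow_succ]; field_simp
      linarith
    calc ∑ q ∈ L k, (1 : ℝ) / q ≤ ∑ _q ∈ L k, ((2 : ℝ) ^ (k + 1) / r) :=
          Finset.sum_le_sum (hinv k)
      _ = ((L k).card : ℝ) * (2 ^ (k + 1) / r) := by rw [Finset.sum_const, nsmul_eq_mul]
      _ ≤ (r / 2 ^ (k + 1) + 1) * (2 ^ (k + 1) / r) := by gcongr
      _ = 1 + 2 ^ (k + 1) / r := by field_simp
      _ ≤ 3 := by
        have h3 : (2 : ℝ) ^ (k + 1) / r ≤ 2 := by
          rw [div_le_iff₀ hr', pow_succ]; linarith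
        linarith
  -- the far levels
  have hfar : ∀ k, ∑ q ∈ L k, (1 : ℝ) / q ≤ (r.divisors.card : ℝ) * (2 * J * Y / 2 ^ k) := by
    intro k
    have hmaps : ∀ q ∈ L k, Nat.gcd q r ∈ r.divisors := fun q _ =>
      Nat.mem_divisors.mpr ⟨Nat.gcd_dvd_right _ _, hr.ne'⟩
    rw [← Finset.sum_fiberwise_of_maps_to hmaps]
    have hg : ∀ g ∈ r.divisors, ∑ q ∈ (L k).filter (fun q => Nat.gcd q r = g), (1 : ℝ) / q ≤
        2 * J * Y / 2 ^ k := by
      intro g hg
      have hgpos : 0 < g := Nat.pos_of_mem_divisors hg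
      have hg' : (0 : ℝ) < g := by exact_mod_cast hgpos
      set F := (L k).filter (fun q => Nat.gcd q r = g) with hF
      rcases F.eq_empty_or_nonempty with he | ⟨q₀, hq₀⟩
      · rw [he]; simp; positivity
      -- largeness of the gcd
      have hglarge : (2 : ℝ) ^ k / (J * Y) < g := by
        obtain ⟨hq1, hq2⟩ := Finset.mem_filter.mp hq₀
        obtain ⟨h1, h2, h3, h4, h5, h6⟩ := hQ q₀ (Finset.mem_filter.mp hq1).1
        have hq' : (0 : ℝ) < q₀ := by exact_mod_cast h1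
        rw [hq2] at h6
        have h7 : (r : ℝ) * (1 / ((q₀ : ℝ) * J)) ≤ r * ρ q₀ := by gcongr
        have h8 : (2 : ℝ) ^ k * q₀ ≤ r := by exact_mod_cast (hlev k q₀ hq1).1
        rw [div_lt_iff₀ (by positivity)]
        have h9 : (r : ℝ) * (1 / ((q₀ : ℝ) * J)) < g * Y := lt_of_le_of_lt h7 h6
        have h10 : (2 : ℝ) ^ k * q₀ * (1 / ((q₀ : ℝ) * J)) ≤ r * (1 / ((q₀ : ℝ) * J)) := by gcongr
        have h11 : (2 : ℝ) ^ k * q₀ * (1 / ((q₀ : ℝ) * J)) = 2 ^ k / J := by field_simp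
        rw [h11] at h10
        have h12 : (2 : ℝ) ^ k / J < g * Y := lt_of_le_of_lt h10 h9
        rw [div_lt_iff₀ hJ] at h12
        linarith
      -- count of multiples
      have hcount : (F.card : ℝ) ≤ (r : ℝ) / 2 ^ k / g := by
        have hsub : F ⊆ (Finset.Ioc 0 (r / 2 ^ k)).filter (fun q => g ∣ q) := by
          intro q hq
          obtain ⟨hq1, hq2⟩ := Finset.mem_filter.mp hq
          obtain ⟨h1, _⟩ := hQ q (Finset.mem_filter.mp hq1).1
          rw [Finset.mem_filter, Finset.mem_Ioc]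
          refine ⟨⟨h1, ?_⟩, ?_⟩
          · rw [Nat.le_div_iff_mul_le (by positivity), mul_comm]
            exact (hlev k q hq1).1
          · rw [← hq2]; exact Nat.gcd_dvd_left _ _
        have h1 := Finset.card_le_card hsub
        rw [Nat.Ioc_filter_dvd_card_eq_div] at h1
        have h2 : (F.card : ℝ) ≤ ((r / 2 ^ k / g : ℕ) : ℝ) := by exact_mod_cast h1
        have h3 := Nat.cast_div_le (α := ℝ) (m := r / 2 ^ k) (n := g)
        have h4 := Nat.cast_div_le (α := ℝ) (m := r) (n := 2 ^ k)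
        push_cast at h4
        have h5 : ((r / 2 ^ k : ℕ) : ℝ) / g ≤ (r : ℝ) / 2 ^ k / g := by gcongr
        linarith
      calc ∑ q ∈ F, (1 : ℝ) / q ≤ ∑ _q ∈ F, ((2 : ℝ) ^ (k + 1) / r) :=
            Finset.sum_le_sum fun q hq => hinv k q (Finset.mem_filter.mp hq).1
        _ = (F.card : ℝ) * (2 ^ (k + 1) / r) := by rw [Finset.sum_const, nsmul_eq_mul]
        _ ≤ ((r : ℝ) / 2 ^ k / g) * (2 ^ (k + 1) / r) := by gcongr
        _ = 2 / g := by rw [pow_succ]; field_simp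
        _ ≤ 2 * J * Y / 2 ^ k := by
          rw [div_le_div_iff₀ hg' (by positivity)]
          rw [div_lt_iff₀ (by positivity)] at hglarge
          nlinarith
    calc _ ≤ ∑ _g ∈ r.divisors, (2 * J * Y / 2 ^ k) := Finset.sum_le_sum hg
      _ = _ := by rw [Finset.sum_const, nsmul_eq_mul]
  have hmapsK : ∀ q ∈ Q, Nat.log 2 (r / q) ∈ range K := by
    intro q _
    rw [Finset.mem_range, hK, Nat.lt_succ_iff]
    exact Nat.log_mono_right (Nat.div_le_self _ _)
  have hρbd : ∑ q ∈ Q, ρ q ≤ C * ∑ q ∈ Q, (1 : ℝ) / q := by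
    rw [Finset.mul_sum]
    refine Finset.sum_le_sum fun q hq => ?_
    obtain ⟨_, _, _, h4, _⟩ := hQ q hq
    calc ρ q ≤ C / q := h4
      _ = C * (1 / q) := by ring
  refine hρbd.trans (mul_le_mul_of_nonneg_left ?_ hC)
  rw [← Finset.sum_fiberwise_of_maps_to hmapsK]
  have h1 := sum_range_split (fun k => ∑ q ∈ L k, (1 : ℝ) / q) (fun _ => 3)
    (fun k => (r.divisors.card : ℝ) * (2 * J * Y / 2 ^ k)) e₀ K
    (fun k => Finset.sum_nonneg fun q _ => by positivity) (fun k _ => hnear k) (fun k _ => hfar k)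
  refine h1.trans ?_
  simp only [Finset.sum_const, Finset.card_range, nsmul_eq_mul]
  have h2 : ∑ i ∈ range K, (r.divisors.card : ℝ) * (2 * J * Y / 2 ^ (e₀ + i)) ≤
      (r.divisors.card : ℝ) * (2 * J * Y) * (2 / 2 ^ e₀) := by
    have h3 : ∀ i, (r.divisors.card : ℝ) * (2 * J * Y / 2 ^ (e₀ + i)) =
        (r.divisors.card : ℝ) * (2 * J * Y) * (1 / 2 ^ (e₀ + i)) := by intro i; ring
    simp_rw [h3]
    rw [← Finset.mul_sum]
    exact mul_le_mul_of_nonneg_left (sum_inv_two_pow_le e₀ K) (by positivity)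
  have h4 : (r.divisors.card : ℝ) * (2 * J * Y) * (2 / 2 ^ e₀) =
      4 * (r.divisors.card : ℝ) * J * Y / 2 ^ e₀ := by ring
  rw [h4] at h2
  linarith

end Vale.Agent.P028
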