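import Vale.Agent.P028.ZeroOne

open MeasureTheory Set Filter Topology
open scoped ENNReal

namespace Vale.Agent.P028

/-- The zero-one mechanism for general open sets with prescribed masses: a global second moment
bound plus equidistribution gives full measure. -/
theorem ae_frequently_of_masses (S : ℕ → Set ℝ) (ρ : ℕ → ℝ) (hopen : ∀ q, IsOpen (S q))
    (h0 : ∀ q, 0 ≤ ρ q) (hdiv : ¬ Summable ρ) (c : ℝ) (hc : 0 < c)
    (heq : ∀ N : ℕ, 0 < N → ∃ q₀ : ℕ, ∀ q, q₀ ≤ q → ∀ j : ℤ,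
      ENNReal.ofReal (c * ρ q * (1 / N)) ≤ volume (S q ∩ gridI N j))
    (hO : ∀ R : ℕ, ∃ C : ℝ, ∀ X₀ : ℕ, 1 ≤ X₀ → ∀ M : ℕ, ∃ X : ℕ, M ≤ X ∧
      ∑ q ∈ Finset.Icc X₀ X, ∑ r ∈ Finset.Icc X₀ X,
        volume.real (S q ∩ S r ∩ Icc (-(R : ℝ)) R) ≤
        C * (∑ q ∈ Finset.Icc X₀ X, ρ q) ^ 2) :
    ∀ᵐ x : ℝ, ∃ᶠ q : ℕ in atTop, x ∈ S q := by
  classical
  -- key claim
  have key : ∀ (R X₀ : ℕ),
      volume (Icc (-(R : ℝ)) R \ ⋃ q : ℕ, ⋃ _ : X₀ ≤ q, S q) = 0 := by
    intro R X₀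
    set U : Set ℝ := ⋃ q : ℕ, ⋃ _ : X₀ ≤ q, S q with hU
    have hUopen : IsOpen U := isOpen_iUnion fun q => isOpen_iUnion fun _ => hopen q
    set T : Set ℝ := Icc (-(R : ℝ)) R \ U with hT
    have hTcomp : IsCompact T := isCompact_Icc.diff hUopen
    have hTmeas : MeasurableSet T := hTcomp.measurableSet
    have hTfin : volume T ≠ ⊤ := hTcomp.measure_lt_top.ne
    by_contra hne
    set τ : ℝ := volume.real T with hτ
    have hτpos : 0 < τ := ENNReal.toReal_pos hne hTfin
    obtain ⟨C₀, hC₀⟩ := hO (R + 1)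
    set C : ℝ := max C₀ 1 with hC
    have hCpos : 0 < C := lt_of_lt_of_le one_pos (le_max_right _ _)
    set ε : ℝ := (c * τ) ^ 2 / (2 * C) with hε
    have hεpos : 0 < ε := by positivity
    -- outer regularity
    obtain ⟨G, hTG, hGopen, hGvol⟩ := Set.exists_isOpen_lt_add T hTfin
      (ENNReal.ofReal_ne_zero_iff.mpr hεpos)
    set G₁ : Set ℝ := G ∩ Ioo (-((R : ℝ) + 1)) ((R : ℝ) + 1) with hG₁
    have hG₁open : IsOpen G₁ := hGopen.inter isOpen_Ioo
    have hTsub : T ⊆ Icc (-(R : ℝ)) R := diff_subset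
    have hTG₁ : T ⊆ G₁ := by
      intro x hx
      refine ⟨hTG hx, ?_⟩
      obtain ⟨h1, h2⟩ := hTsub hx
      constructor <;> linarith
    obtain ⟨δ, hδ, hthick⟩ := hTcomp.exists_thickening_subset_open hG₁open hTG₁
    obtain ⟨n, hn⟩ := exists_nat_one_div_lt hδ
    set N : ℕ := n + 1 with hN
    have hNpos : 0 < N := Nat.succ_pos n
    have hN' : (0 : ℝ) < N := by exact_mod_cast hNpos
    have hNδ : (1 : ℝ) / N < δ := by
      simp only [hN]; push_cast; exact hn
    -- grid cover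
    set J : Finset ℤ := (Finset.Icc (-(R * N : ℤ)) (R * N : ℤ)).filter
      (fun j => (gridI N j ∩ T).Nonempty) with hJ
    set G₂ : Set ℝ := ⋃ j ∈ J, gridI N j with hG₂
    have hTG₂ : T ⊆ G₂ := by
      intro x hx
      have hx' := mem_gridI_floor hNpos x
      simp only [hG₂, mem_iUnion, exists_prop]
      refine ⟨⌊x * N⌋, ?_, hx'⟩
      rw [hJ, Finset.mem_filter, Finset.mem_Icc]
      obtain ⟨h1, h2⟩ := hTsub hx
      refine ⟨⟨?_, ?_⟩, ⟨x, hx', hx⟩⟩
      · apply Int.le_floor.mpr; push_cast; nlinarith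
      · have : ((⌊x * N⌋ : ℤ) : ℝ) ≤ (R * N : ℝ) := (Int.floor_le _).trans (by nlinarith)
        exact_mod_cast this
    have hgrid_sub : ∀ j ∈ J, gridI N j ⊆ G₁ := by
      intro j hj y hy
      obtain ⟨x, hxj, hxT⟩ := (Finset.mem_filter.mp hj).2
      apply hthick
      rw [Metric.mem_thickening_iff]
      refine ⟨x, hxT, ?_⟩
      rw [Real.dist_eq, abs_lt]
      obtain ⟨h1, h2⟩ := hxj
      obtain ⟨h3, h4⟩ := hy
      constructor <;> linarith
    have hG₂G₁ : G₂ ⊆ G₁ := by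
      intro y hy
      simp only [hG₂, mem_iUnion, exists_prop] at hy
      obtain ⟨j, hj, hy⟩ := hy
      exact hgrid_sub j hj hy
    have hgridmeas : ∀ j, MeasurableSet (gridI N j) := fun j => measurableSet_Ico
    have hgriddisj : (J : Set ℤ).PairwiseDisjoint (gridI N) := by
      intro a _ b _ hab
      refine Set.disjoint_left.mpr fun z hz hz' => hab ?_
      rw [← gridI_floor hNpos hz, gridI_floor hNpos hz']
    have hG₂meas : MeasurableSet G₂ :=
      Finset.measurableSet_biUnion _ fun j _ => hgridmeas j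
    have hG₂bdd : G₂ ⊆ Icc (-((R : ℝ) + 1)) ((R : ℝ) + 1) := by
      intro y hy
      obtain ⟨_, h1, h2⟩ := hG₂G₁ hy
      exact ⟨h1.le, h2.le⟩
    have hfinB : volume (Icc (-((R : ℝ) + 1)) ((R : ℝ) + 1)) ≠ ⊤ :=
      isCompact_Icc.measure_lt_top.ne
    have hG₂fin : volume G₂ ≠ ⊤ := ne_top_of_le_ne_top hfinB (measure_mono hG₂bdd)
    -- measure of G₂ in terms of J
    have hvolG₂ : volume G₂ = ENNReal.ofReal ((J.card : ℝ) * (1 / N)) := by
      rw [hG₂, measure_biUnion_finset hgriddisj fun j _ => hgridmeas j]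
      have : ∀ j ∈ J, volume (gridI N j) = ENNReal.ofReal (1 / N) := by
        intro j _
        simp only [gridI, Real.volume_Ico]
        congr 1; ring
      rw [Finset.sum_congr rfl this, Finset.sum_const, nsmul_eq_mul,
        ENNReal.ofReal_mul (Nat.cast_nonneg _), ENNReal.ofReal_natCast]
    have hτJ : τ ≤ (J.card : ℝ) * (1 / N) := by
      have h1 : volume T ≤ volume G₂ := measure_mono hTG₂
      have h2 := ENNReal.toReal_mono hG₂fin h1
      rw [hvolG₂, ENNReal.toReal_ofReal (by positivity)] at h2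
      exact h2
    -- measure of the difference
    set Z : Set ℝ := G₂ \ T with hZ
    have hZfin : volume Z ≠ ⊤ := ne_top_of_le_ne_top hG₂fin (measure_mono diff_subset)
    have hZvol : volume.real Z < ε := by
      have h1 : Z ⊆ G \ T := by
        intro y hy
        exact ⟨(hG₂G₁ hy.1).1, hy.2⟩
      have h2 : volume (G \ T) = volume G - volume T :=
        measure_diff hTG hTmeas.nullMeasurableSet hTfin
      have h3 : volume (G \ T) < ENNReal.ofReal ε := by
        rw [h2]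
        exact ENNReal.sub_lt_of_lt_add (measure_mono hTG) (by rw [add_comm]; exact hGvol)
      have h4 : volume Z < ENNReal.ofReal ε := (measure_mono h1).trans_lt h3
      rw [Measure.real]
      exact (ENNReal.toReal_lt_of_lt_ofReal h4)
    -- lower bound for the sets
    obtain ⟨q₀, hq₀⟩ := heq N hNpos
    set Q₀ : ℕ := max (max X₀ q₀) 1 with hQ₀
    have hQ₀X : X₀ ≤ Q₀ := (le_max_left _ _).trans (le_max_left _ _)
    have hQ₀N : q₀ ≤ Q₀ := (le_max_right _ _).trans (le_max_left _ _)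
    have hQ₀1 : 1 ≤ Q₀ := le_max_right _ _
    have hF_low : ∀ q, Q₀ ≤ q → c * ρ q * τ ≤ volume.real (S q ∩ G₂) := by
      intro q hq
      have hfin : volume (S q ∩ G₂) ≠ ⊤ :=
        ne_top_of_le_ne_top hG₂fin (measure_mono inter_subset_right)
      have hpieces : ∀ j ∈ J, ENNReal.ofReal (c * ρ q * (1 / N)) ≤
          volume (S q ∩ gridI N j) := by
        intro j _
        exact hq₀ q (hQ₀N.trans hq) j
      have hdisj2 : (J : Set ℤ).PairwiseDisjoint (fun j => S q ∩ gridI N j) := by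
        intro a ha b hb hab
        exact (hgriddisj ha hb hab).mono inter_subset_right inter_subset_right
      have hEmeas : MeasurableSet (S q) := (hopen q).measurableSet
      have hunion : S q ∩ G₂ = ⋃ j ∈ J, S q ∩ gridI N j := by
        rw [hG₂, inter_iUnion₂]
      have hvol : ENNReal.ofReal ((J.card : ℝ) * (c * ρ q * (1 / N))) ≤
          volume (S q ∩ G₂) := by
        rw [hunion, measure_biUnion_finset hdisj2 fun j _ => hEmeas.inter (hgridmeas j),
          ENNReal.ofReal_mul (Nat.cast_nonneg _), ENNReal.ofReal_natCast, ← nsmul_eq_mul,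
          ← Finset.sum_const]
        exact Finset.sum_le_sum hpieces
      have h3 := (ENNReal.ofReal_le_iff_le_toReal hfin).mp hvol
      calc c * ρ q * τ ≤ c * ρ q * ((J.card : ℝ) * (1 / N)) := by
            have := h0 q
            gcongr
        _ = (J.card : ℝ) * (c * ρ q * (1 / N)) := by ring
        _ ≤ _ := h3
    -- choose the scale
    obtain ⟨M, hM⟩ : ∃ M : ℕ, 0 < ∑ q ∈ Finset.Icc Q₀ M, ρ q := by
      by_contra hcon
      push Not at hcon
      apply hdiv
      have hzero : ∀ q, Q₀ ≤ q → ρ q = 0 := by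
        intro q hq
        have h1 := hcon q
        have h2 : ρ q ≤ ∑ q ∈ Finset.Icc Q₀ q, ρ q :=
          Finset.single_le_sum (f := ρ) (fun i _ => h0 i) (Finset.mem_Icc.mpr ⟨hq, le_refl _⟩)
        exact le_antisymm (h2.trans h1) (h0 q)
      exact summable_of_ne_finset_zero (s := Finset.range Q₀) fun q hq => hzero q (by
        simpa using hq)
    obtain ⟨X, hMX, hbound⟩ := hC₀ Q₀ hQ₀1 M
    set s : Finset ℕ := Finset.Icc Q₀ X with hs
    set A : ℝ := ∑ q ∈ s, ρ q with hA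
    have hApos : 0 < A := by
      have hsub : Finset.Icc Q₀ M ⊆ s := Finset.Icc_subset_Icc (le_refl _) hMX
      have := Finset.sum_le_sum_of_subset_of_nonneg (f := ρ) hsub (fun i _ _ => h0 i)
      linarith
    -- apply Chung-Erdos
    set F : ℕ → Set ℝ := fun q => S q ∩ G₂ with hF
    have hFmeas : ∀ q ∈ s, MeasurableSet (F q) := fun q _ =>
      (hopen q).measurableSet.inter hG₂meas
    have hFZ : ∀ q ∈ s, F q ⊆ Z := by
      intro q hq x hx
      refine ⟨hx.2, fun hxT => ?_⟩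
      have hqX : X₀ ≤ q := hQ₀X.trans (Finset.mem_Icc.mp hq).1
      exact hxT.2 (mem_iUnion.mpr ⟨q, mem_iUnion.mpr ⟨hqX, hx.1⟩⟩)
    have hCE := sq_sum_measureReal_le volume s F hFmeas Z hFZ hZfin
    have hlow : c * τ * A ≤ ∑ q ∈ s, volume.real (F q) := by
      rw [hA, Finset.mul_sum]
      refine Finset.sum_le_sum fun q hq => ?_
      have := hF_low q (Finset.mem_Icc.mp hq).1
      calc c * τ * ρ q = c * ρ q * τ := by ring
        _ ≤ _ := this
    have hpair : ∑ q ∈ s, ∑ r ∈ s, volume.real (F q ∩ F r) ≤ C * A ^ 2 := by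
      have h1 : ∑ q ∈ s, ∑ r ∈ s, volume.real (F q ∩ F r) ≤
          ∑ q ∈ s, ∑ r ∈ s, volume.real (S q ∩ S r ∩
            Icc (-(((R + 1 : ℕ)) : ℝ)) ((R + 1 : ℕ) : ℝ)) := by
        refine Finset.sum_le_sum fun q _ => Finset.sum_le_sum fun r _ => ?_
        apply measureReal_mono
        · rintro x ⟨⟨hx1, hx2⟩, ⟨hx3, _⟩⟩
          refine ⟨⟨hx1, hx3⟩, ?_⟩
          have := hG₂bdd hx2
          push_cast
          exact this
        · have : volume (S q ∩ S r ∩
            Icc (-(((R + 1 : ℕ)) : ℝ)) ((R + 1 : ℕ) : ℝ)) ≤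
              volume (Icc (-(((R + 1 : ℕ)) : ℝ)) ((R + 1 : ℕ) : ℝ)) :=
            measure_mono inter_subset_right
          exact ne_top_of_le_ne_top isCompact_Icc.measure_lt_top.ne this
      have h2 : C₀ * A ^ 2 ≤ C * A ^ 2 := by
        have : C₀ ≤ C := le_max_left _ _
        gcongr
      linarith
    have hsum0 : 0 ≤ ∑ q ∈ s, ∑ r ∈ s, volume.real (F q ∩ F r) :=
      Finset.sum_nonneg fun _ _ => Finset.sum_nonneg fun _ _ => measureReal_nonneg
    have hfinal : (c * τ * A) ^ 2 ≤ ε * (C * A ^ 2) := by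
      calc (c * τ * A) ^ 2 ≤ (∑ q ∈ s, volume.real (F q)) ^ 2 := by
            have : 0 ≤ c * τ * A := by positivity
            gcongr
        _ ≤ volume.real Z * ∑ q ∈ s, ∑ r ∈ s, volume.real (F q ∩ F r) := hCE
        _ ≤ ε * (C * A ^ 2) := by
            have hZ0 : 0 ≤ volume.real Z := measureReal_nonneg
            exact mul_le_mul hZvol.le hpair hsum0 hεpos.le
    have heq' : ε * (C * A ^ 2) = (c * τ * A) ^ 2 / 2 := by
      simp only [hε]; field_simp
    rw [heq'] at hfinal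
    have hpos2 : 0 < (c * τ * A) ^ 2 := by positivity
    nlinarith
  -- conclude
  have hae : ∀ᵐ x : ℝ, ∀ R X₀ : ℕ,
      x ∉ Icc (-(R : ℝ)) R \ ⋃ q : ℕ, ⋃ _ : X₀ ≤ q, S q := by
    rw [ae_all_iff]
    intro R
    rw [ae_all_iff]
    intro X₀
    exact measure_eq_zero_iff_ae_notMem.mp (key R X₀)
  filter_upwards [hae] with x hx
  rw [frequently_atTop]
  intro X₀
  obtain ⟨R, hR⟩ := exists_nat_ge |x|
  have hmem : x ∈ Icc (-(R : ℝ)) R := by
    rw [mem_Icc]; constructor
    · have := neg_abs_le x; linarith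
    · exact (le_abs_self x).trans hR
  have h1 := hx R X₀
  have h2 : x ∈ ⋃ q : ℕ, ⋃ _ : X₀ ≤ q, S q := by
    by_contra h
    exact h1 ⟨hmem, h⟩
  obtain ⟨q, hq⟩ := mem_iUnion.mp h2
  obtain ⟨hq1, hq2⟩ := mem_iUnion.mp hq
  exact ⟨q, hq1, hq2⟩

end Vale.Agent.P028
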