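import Vale.Agent.P028.Anatomy
import Vale.Agent.P028.SumT
import Vale.Agent.P028.SumU
import Vale.Agent.P028.ZeroOne2
import Vale.Agent.P028.Overlap2

open MeasureTheory Set Filter Topology
open scoped ENNReal

namespace Vale.Agent.P028

/-- The dyadic block of `q`. -/
def jj (q : ℕ) : ℕ := Nat.log 2 q

/-- The scale `log log q`, rounded in base two. -/
def ll (q : ℕ) : ℕ := Nat.log 2 (Nat.log 2 q) + 1

/-- The sieve level. -/
def zz (q : ℕ) : ℕ := 6 * ll q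

/-- The level of the rational approximation to the shift. -/
def XX (q : ℕ) : ℕ := 2 ^ (jj q - 10 * ll q)

lemma XX_pos (q : ℕ) : 0 < XX q := by unfold XX; positivity

/-- The rational approximation to the shift used at `q`. -/
noncomputable def apx (γ : ℝ) (q : ℕ) : ℚ :=
  Classical.choose (Real.exists_rat_abs_sub_le_and_den_le γ (XX_pos q))

lemma apx_spec (γ : ℝ) (q : ℕ) :
    |γ - (apx γ q : ℝ)| ≤ 1 / (((XX q : ℝ) + 1) * ((apx γ q).den : ℝ)) ∧ (apx γ q).den ≤ XX q :=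
  Classical.choose_spec (Real.exists_rat_abs_sub_le_and_den_le γ (XX_pos q))

/-- Numerator of the approximation. -/
noncomputable def AA (γ : ℝ) (q : ℕ) : ℤ := (apx γ q).num

/-- Denominator of the approximation. -/
noncomputable def BB (γ : ℝ) (q : ℕ) : ℕ := (apx γ q).den

lemma BB_pos (γ : ℝ) (q : ℕ) : 0 < BB γ q := (apx γ q).den_pos

lemma BB_le (γ : ℝ) (q : ℕ) : BB γ q ≤ XX q := (apx_spec γ q).2

lemma AA_coprime (γ : ℝ) (q : ℕ) : IsCoprime (AA γ q) (BB γ q : ℤ) := by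
  have h := (apx γ q).reduced
  rw [Int.isCoprime_iff_gcd_eq_one]
  simpa [AA, BB, Int.gcd] using h

lemma theta_le (γ : ℝ) (q : ℕ) :
    |(BB γ q : ℝ) * γ - AA γ q| ≤ 1 / ((XX q : ℝ) + 1) := by
  have h := (apx_spec γ q).1
  have hB : (0 : ℝ) < BB γ q := by exact_mod_cast BB_pos γ q
  have hX : (0 : ℝ) < (XX q : ℝ) + 1 := by positivity
  have h1 : (BB γ q : ℝ) * γ - AA γ q = BB γ q * (γ - (apx γ q : ℝ)) := by
    have h2 : ((apx γ q : ℚ) : ℝ) = (AA γ q : ℝ) / (BB γ q : ℝ) := by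
      have := Rat.num_div_den (apx γ q)
      rw [← this]
      simp [AA, BB]
    rw [h2]
    field_simp
  rw [h1, abs_mul, abs_of_pos hB]
  calc (BB γ q : ℝ) * |γ - (apx γ q : ℝ)|
      ≤ BB γ q * (1 / (((XX q : ℝ) + 1) * ((apx γ q).den : ℝ))) := by gcongr
    _ = 1 / ((XX q : ℝ) + 1) := by
      have : ((apx γ q).den : ℝ) = BB γ q := rfl
      rw [this]
      field_simp

/-- Anatomy of a good integer. -/
def Good (ψ : ℕ → ℝ) (q : ℕ) : Prop :=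
  1 / ((q : ℝ) * (jj q : ℝ) ^ 2) ≤ ψ q ∧
  ((q.divisors.card : ℕ) : ℝ) ≤ 2 ^ (3 * ll q) ∧
  ∑ p ∈ q.primeFactors.filter (fun p : ℕ => zz q < p), (1 : ℝ) / p ≤ 1 / 2

/-- Size conditions at `q`. -/
def Large (ψ : ℕ → ℝ) (C₀ : ℝ) (q : ℕ) : Prop :=
  60 * ll q + 60 ≤ jj q ∧ 4 ≤ ll q ∧ 4 * C₀ ≤ q ∧ ψ q ≤ C₀ / ((q : ℝ) * (ll q : ℝ) ^ 3)

lemma exists_jj_large (c : ℕ) : ∃ j₀ : ℕ, ∀ j, j₀ ≤ j → c * (Nat.log 2 j + 1) + c ≤ j := by
  -- exponential beats linear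
  have h1 : ∃ L₀ : ℕ, ∀ L, L₀ ≤ L → c * (L + 2) ≤ 2 ^ L := by
    refine ⟨10 * c + 10, fun L hL => ?_⟩
    set n := L / 2 with hn
    have h2 : n < 2 ^ n := Nat.lt_two_pow_self
    have h3 : n * n ≤ 2 ^ n * 2 ^ n := Nat.mul_le_mul h2.le h2.le
    have h4 : 2 ^ n * 2 ^ n = 2 ^ (2 * n) := by rw [← pow_add]; congr 1; ring
    have h5 : 2 ^ (2 * n) ≤ 2 ^ L := Nat.pow_le_pow_right (by norm_num) (by omega)
    have h6 : c * (L + 2) ≤ n * n := by
      have h7 : 5 * c + 5 ≤ n := by omega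
      have h8 : L + 2 ≤ 5 * n := by omega
      calc c * (L + 2) ≤ c * (5 * n) := Nat.mul_le_mul_left _ h8
        _ = (5 * c) * n := by ring
        _ ≤ n * n := Nat.mul_le_mul_right _ (by omega)
    omega
  obtain ⟨L₀, hL₀⟩ := h1
  refine ⟨2 ^ L₀, fun j hj => ?_⟩
  have hj0 : j ≠ 0 := by
    have : 0 < 2 ^ L₀ := by positivity
    omega
  have hL : L₀ ≤ Nat.log 2 j := by
    apply Nat.le_log_of_pow_le (by norm_num) hj
  have h2 := hL₀ _ hL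
  have h3 : 2 ^ Nat.log 2 j ≤ j := Nat.pow_log_le_self 2 hj0
  have h4 : c * (Nat.log 2 j + 1) + c = c * (Nat.log 2 j + 2) := by ring
  omega

lemma exists_large_threshold {ψ : ℕ → ℝ} {C₀ : ℝ}
    (hcap : ∀ᶠ q in atTop, ψ q ≤ C₀ / ((q : ℝ) * (ll q : ℝ) ^ 3)) :
    ∃ q₁ : ℕ, 0 < q₁ ∧ ∀ q, q₁ ≤ q → Large ψ C₀ q := by
  obtain ⟨j₀, hj₀⟩ := exists_jj_large 60
  obtain ⟨n₁, hn₁⟩ := eventually_atTop.mp hcap
  obtain ⟨n₂, hn₂⟩ := exists_nat_ge (4 * C₀)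
  refine ⟨max (max (2 ^ j₀) (2 ^ (2 ^ 4))) (max n₁ (max n₂ 1)), by positivity, fun q hq => ?_⟩
  have h1 : 2 ^ j₀ ≤ q := (le_max_left _ _).trans ((le_max_left _ _).trans hq)
  have h2 : 2 ^ (2 ^ 4) ≤ q := (le_max_right _ _).trans ((le_max_left _ _).trans hq)
  have h3 : n₁ ≤ q := (le_max_left _ _).trans ((le_max_right _ _).trans hq)
  have h4 : n₂ ≤ q := (le_max_left _ _).trans ((le_max_right _ _).trans ((le_max_right _ _).trans hq))
  have hq0 : q ≠ 0 := by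
    have : 0 < 2 ^ (2 ^ 4) := by positivity
    omega
  refine ⟨?_, ?_, ?_, hn₁ q h3⟩
  · have h5 : j₀ ≤ Nat.log 2 q := Nat.le_log_of_pow_le (by norm_num) h1
    have h6 := hj₀ _ h5
    exact h6
  · have h5 : 2 ^ 4 ≤ Nat.log 2 q := Nat.le_log_of_pow_le (by norm_num) h2
    have h6 : 4 ≤ Nat.log 2 (Nat.log 2 q) := Nat.le_log_of_pow_le (by norm_num) h5
    unfold ll
    omega
  · have : (n₂ : ℝ) ≤ q := by exact_mod_cast h4
    linarith

lemma jj_le_of_le {q r : ℕ} (h : q ≤ r) : jj q ≤ jj r := Nat.log_mono_right h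

lemma ll_le_of_le {q r : ℕ} (h : q ≤ r) : ll q ≤ ll r := by
  unfold ll
  have := Nat.log_mono_right (b := 2) (jj_le_of_le h)
  unfold jj at this
  omega

lemma pow_jj_le {q : ℕ} (hq : q ≠ 0) : 2 ^ jj q ≤ q := Nat.pow_log_le_self 2 hq

lemma lt_pow_jj (q : ℕ) : q < 2 ^ (jj q + 1) := Nat.lt_pow_succ_log_self (by norm_num) q

/-- `jj` is smaller than `2 ^ ll`. -/
lemma jj_lt_pow (q : ℕ) : jj q < 2 ^ ll q := Nat.lt_pow_succ_log_self (by norm_num) _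

/-- Transfer of the size condition along a pair in the small window range. -/
lemma ll_half {q r : ℕ} (hq : q ≠ 0) (hqr : q ≤ r) (hr : 60 * ll r + 60 ≤ jj r) (hr4 : 4 ≤ ll r)
    (hrq : r < q * q * (jj q) ^ 2 * 2 ^ (24 * ll r)) : ll r ≤ 2 * ll q := by
  have hr0 : r ≠ 0 := by omega
  have h1 : 2 ^ jj r ≤ r := pow_jj_le hr0
  have h2 : q < 2 ^ (jj q + 1) := lt_pow_jj q
  have h3 : jj q < 2 ^ ll r := lt_of_lt_of_le (jj_lt_pow q)
    (Nat.pow_le_pow_right (by norm_num) (ll_le_of_le hqr))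
  have h4 : q * q * (jj q) ^ 2 * 2 ^ (24 * ll r) ≤
      2 ^ (jj q + 1) * 2 ^ (jj q + 1) * (2 ^ ll r) ^ 2 * 2 ^ (24 * ll r) := by
    gcongr
  have h5 : 2 ^ (jj q + 1) * 2 ^ (jj q + 1) * (2 ^ ll r) ^ 2 * 2 ^ (24 * ll r) =
      2 ^ (2 * jj q + 2 + 26 * ll r) := by
    rw [← pow_mul, ← pow_add, ← pow_add, ← pow_add]
    congr 1
    ring
  have h6 : 2 ^ jj r < 2 ^ (2 * jj q + 2 + 26 * ll r) := by
    calc 2 ^ jj r ≤ r := h1
      _ < _ := hrq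
      _ ≤ _ := h4
      _ = _ := h5
  have h7 : jj r < 2 * jj q + 2 + 26 * ll r := (Nat.pow_lt_pow_iff_right (by norm_num)).mp h6
  have h8 : jj r / 4 ≤ jj q := by omega
  have h9 : Nat.log 2 (jj r / 4) ≤ Nat.log 2 (jj q) := Nat.log_mono_right h8
  have h10 : Nat.log 2 (jj r / 4) + 2 = Nat.log 2 (jj r) := by
    have h11 : jj r / 4 = jj r / 2 / 2 := by omega
    rw [h11, Nat.log_div_base, Nat.log_div_base]
    have h12 : 2 ≤ Nat.log 2 (jj r) := by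
      have : 4 ≤ ll r := hr4
      unfold ll at this
      show 2 ≤ Nat.log 2 (Nat.log 2 r)
      omega
    omega
  unfold ll at *
  unfold jj at *
  omega

end Vale.Agent.P028
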