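import Vale.Agent.P028.Hyper

namespace Vale.Agent.P028

set_option maxHeartbeats 1000000 in
/-- The count of near-returns at a fixed gcd and a fixed dyadic level. -/
theorem bohr_bound {γ θ C : ℝ} {A : ℤ} {B X : ℕ} (hB : 0 < B) (hBX : B ≤ X)
    (hAB : IsCoprime A (B : ℤ)) (hθ : θ = (B : ℝ) * γ - A) (hθX : |θ| ≤ 1 / ((X : ℝ) + 1))
    (hX : 15 ≤ X) (hC : 0 ≤ C) {r g t k : ℕ} (hrgt : r = g * t) (hg : 0 < g) (ht : 0 < t)
    {S : Finset ℤ}
    (hS : ∀ h ∈ S, (t : ℤ) - ((t / 2 ^ k : ℕ) : ℤ) ≤ h ∧ h < (t : ℤ) - ((t / 2 ^ (k + 1) : ℕ) : ℤ))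
    (hN : ∀ h ∈ S, Near γ (min ((2 : ℝ) ^ (k + 2) * C / g) (1 / 2)) h) :
    (S.card : ℝ) / t ≤ 80 / 2 ^ k * min ((2 : ℝ) ^ (k + 2) * C / g) (1 / 2) +
        min ((3 / 2 : ℝ) / 2 ^ k) (128 * C * B / r * 2 ^ k) + 40 * |θ| / 2 ^ k ∨
    (4 * min ((2 : ℝ) ^ (k + 2) * C / g) (1 / 2) * B < 1 ∧
      (θ ≠ 0 → (S.card : ℝ) / t ≤
        min ((1 / 2 : ℝ) / 2 ^ k / B) (8 * C / (|θ| * r) * 2 ^ k) + 2 * g / r)) := by
  have hB' : (0 : ℝ) < B := by exact_mod_cast hB
  have hB1 : (1 : ℝ) ≤ B := by exact_mod_cast hB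
  have hg' : (0 : ℝ) < g := by exact_mod_cast hg
  have ht' : (0 : ℝ) < t := by exact_mod_cast ht
  have hrR : (r : ℝ) = g * t := by rw [hrgt]; push_cast; ring
  have hr' : (0 : ℝ) < r := by rw [hrR]; positivity
  have h2k : (0 : ℝ) < 2 ^ k := by positivity
  set δ : ℝ := min ((2 : ℝ) ^ (k + 2) * C / g) (1 / 2) with hδ
  have hδ0 : 0 ≤ δ := le_min (by positivity) (by norm_num)
  have hδ1 : δ ≤ (2 : ℝ) ^ (k + 2) * C / g := min_le_left _ _
  have hδ2 : δ ≤ 1 / 2 := min_le_right _ _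
  have hlast0 : 0 ≤ 40 * |θ| / 2 ^ k := by positivity
  have hmid0 : 0 ≤ min ((3 / 2 : ℝ) / 2 ^ k) (128 * C * B / r * (2 : ℝ) ^ k) :=
    le_min (by positivity) (by positivity)
  have hfirst0 : 0 ≤ 80 / 2 ^ k * δ := by positivity
  rcases S.eq_empty_or_nonempty with rfl | hne
  · left
    simp only [Finset.card_empty, Nat.cast_zero, zero_div]
    positivity
  -- the interval
  set u : ℕ := t / 2 ^ k with hu
  set v : ℕ := t / 2 ^ (k + 1) with hv
  have hvu : v ≤ u := by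
    apply Nat.div_le_div_left (Nat.pow_le_pow_right (by norm_num) (Nat.le_succ k)) (by positivity)
  set len : ℕ := u - v with hlen
  set c : ℤ := (t : ℤ) - (u : ℤ) with hc
  have hS' : ∀ h ∈ S, c ≤ h ∧ h < c + len := by
    intro h hh
    obtain ⟨h1, h2⟩ := hS h hh
    refine ⟨h1, ?_⟩
    have : (len : ℤ) = (u : ℤ) - v := by rw [hlen]; omega
    rw [this, hc]
    linarith
  set H : ℝ := (t : ℝ) / 2 ^ k with hH
  have hHt : (1 : ℝ) / 2 ^ k = H / t := by rw [hH]; field_simp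
  have huH : (u : ℝ) ≤ H := by
    have := Nat.cast_div_le (α := ℝ) (m := t) (n := 2 ^ k)
    push_cast at this
    rw [hH, hu]
    exact this
  have hvH : H / 2 - 1 < (v : ℝ) := by
    have h1 : t < (v + 1) * 2 ^ (k + 1) := by
      rw [hv, mul_comm]
      exact Nat.lt_mul_div_succ t (by positivity)
    have h2 : (t : ℝ) < ((v : ℝ) + 1) * 2 ^ (k + 1) := by exact_mod_cast h1
    have h3 : H / 2 = (t : ℝ) / 2 ^ (k + 1) := by rw [hH, pow_succ]; field_simp
    rw [h3]
    have h4 : (t : ℝ) / 2 ^ (k + 1) < (v : ℝ) + 1 := by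
      rw [div_lt_iff₀ (by positivity)]; exact h2
    linarith
  have hlenR : (len : ℝ) = (u : ℝ) - v := by rw [hlen]; push_cast [Nat.cast_sub hvu]; ring
  have hlenH : (len : ℝ) ≤ H / 2 + 1 := by rw [hlenR]; linarith
  -- nonemptiness gives `H ≥ 1`
  have hu1 : 1 ≤ u := by
    obtain ⟨h0, hh0⟩ := hne
    obtain ⟨h1, h2⟩ := hS' h0 hh0
    have h3 : (0 : ℤ) < len := by linarith
    have h4 : 0 < len := by exact_mod_cast h3
    have h5 : 0 < u - v := h4
    exact Nat.succ_le_of_lt (lt_of_le_of_lt (Nat.zero_le v) (Nat.sub_pos_iff_lt.mp h5))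
  have hH1 : (1 : ℝ) ≤ H := le_trans (by exact_mod_cast hu1) huH
  have hlenH2 : (len : ℝ) ≤ 3 / 2 * H := by linarith
  have hcardlen : (S.card : ℝ) ≤ len := by
    have hsub : S ⊆ Finset.Ico c (c + len) := fun h hh =>
      Finset.mem_Ico.mpr (hS' h hh)
    have h1 := Finset.card_le_card hsub
    rw [Int.card_Ico] at h1
    have h2 : (c + len - c).toNat = len := by simp
    rw [h2] at h1
    exact_mod_cast h1
  by_cases hcase : 1 ≤ 4 * δ * B
  · -- sparse case
    left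
    have h1 := near_count_one hB hBX hAB hθ hθX hδ0 hN hS'
    have h2 : (2 * (len : ℝ) / B + 1) * (4 * δ * B + 1) ≤ (2 * (len : ℝ) / B + 1) * (8 * δ * B) := by
      apply mul_le_mul_of_nonneg_left _ (by positivity)
      linarith
    have h3 : (2 * (len : ℝ) / B + 1) * (8 * δ * B) = 16 * δ * len + 8 * δ * B := by
      field_simp; ring
    have h4 : (S.card : ℝ) ≤ 24 * δ * H + 8 * δ * B := by
      have h5 : 16 * δ * (len : ℝ) ≤ 16 * δ * (3 / 2 * H) := by gcongr
      linarith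
    by_cases hHB : (B : ℝ) ≤ H
    · have h5 : (S.card : ℝ) ≤ 32 * δ * H := by nlinarith
      have h6 : (S.card : ℝ) / t ≤ 32 * δ / 2 ^ k := by
        rw [div_le_iff₀ ht']
        calc (S.card : ℝ) ≤ 32 * δ * H := h5
          _ = _ := by rw [hH]; field_simp
      have h7 : 32 * δ / 2 ^ k ≤ 80 / 2 ^ k * δ := by
        have : 32 * δ / 2 ^ k = 32 / 2 ^ k * δ := by ring
        rw [this]
        gcongr
        norm_num
      linarith
    · have hHB' : H < B := not_le.mp hHB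
      have h5 : (S.card : ℝ) ≤ 32 * δ * B := by nlinarith
      have h6 : (S.card : ℝ) / t ≤ (3 / 2) / 2 ^ k := by
        rw [div_le_iff₀ ht']
        calc (S.card : ℝ) ≤ 3 / 2 * H := hcardlen.trans hlenH2
          _ = _ := by rw [hH]; field_simp
      have h7 : (S.card : ℝ) / t ≤ 128 * C * B / r * 2 ^ k := by
        have h8 : (S.card : ℝ) ≤ 32 * ((2 : ℝ) ^ (k + 2) * C / g) * B := by
          refine h5.trans ?_
          gcongr
        rw [div_le_iff₀ ht']
        refine h8.trans (le_of_eq ?_)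
        rw [hrR, pow_add]
        field_simp
        ring
      have h8 := le_min h6 h7
      linarith
  · -- well-approximable case
    have hcase' : 4 * δ * B < 1 := not_le.mp hcase
    by_cases hθ0 : θ = 0
    · right
      exact ⟨hcase', fun h => absurd hθ0 h⟩
    have hε : 0 < |θ| := abs_pos.mpr hθ0
    have hX1 : (16 : ℝ) ≤ (X : ℝ) + 1 := by
      have : (15 : ℝ) ≤ X := by exact_mod_cast hX
      linarith
    have hε16 : |θ| ≤ 1 / 16 := hθX.trans (by
      apply one_div_le_one_div_of_le (by norm_num) hX1)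
    set y : ℝ := 1 / (8 * |θ|) with hy
    have hy2 : 2 ≤ y := by
      rw [hy, le_div_iff₀ (by positivity)]
      linarith
    have hy0 : 0 < y := by linarith
    set ℓ₂ : ℕ := ⌊y⌋₊ with hℓ₂
    have hℓ₂y : (ℓ₂ : ℝ) ≤ y := Nat.floor_le hy0.le
    have hyℓ₂ : y < (ℓ₂ : ℝ) + 1 := Nat.lt_floor_add_one y
    have hℓ₂2 : 2 ≤ ℓ₂ := by
      apply Nat.le_floor
      exact_mod_cast hy2
    have hℓ₂pos : 0 < ℓ₂ := by omega
    have hℓ₂' : (2 : ℝ) ≤ ℓ₂ := by exact_mod_cast hℓ₂2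
    have hℓ₂pos' : (0 : ℝ) < ℓ₂ := by linarith
    have hθℓ : |θ| * ℓ₂ ≤ 1 / 8 := by
      calc |θ| * ℓ₂ ≤ |θ| * y := by gcongr
        _ = 1 / 8 := by rw [hy]; field_simp
    have hδlt : δ < 1 / 4 := by
      have : 4 * δ * 1 ≤ 4 * δ * B := by gcongr
      linarith
    have hδeq : δ = (2 : ℝ) ^ (k + 2) * C / g := by
      rcases min_choice ((2 : ℝ) ^ (k + 2) * C / g) (1 / 2) with h | h
      · exact h
      · have h2 : δ = 1 / 2 := h
        linarith
    by_cases hHℓ : (ℓ₂ : ℝ) ≤ H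
    · left
      have h1 := near_count_two hB hAB hθ hδ0 hcase' hθ0 hℓ₂pos hθℓ hN hS'
      have h2 : (1 : ℝ) / ℓ₂ ≤ 16 * |θ| := by
        rw [div_le_iff₀ hℓ₂pos']
        have h3 : y ≤ 2 * ℓ₂ := by linarith
        have h4 : 8 * |θ| * y = 1 := by rw [hy]; field_simp
        nlinarith
      have h3 : (len : ℝ) / ℓ₂ + 1 ≤ 40 * |θ| * H := by
        have h4 : (len : ℝ) / ℓ₂ = len * (1 / ℓ₂) := by ring
        have h5 : (1 : ℝ) ≤ H * (1 / ℓ₂) := by
          rw [mul_one_div, le_div_iff₀ hℓ₂pos']; linarith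
        have h6 : (0 : ℝ) ≤ 1 / (ℓ₂ : ℝ) := by positivity
        have h7 : (len : ℝ) * (1 / ℓ₂) ≤ 3 / 2 * H * (1 / ℓ₂) := by gcongr
        have h8 : H * (1 / (ℓ₂ : ℝ)) ≤ H * (16 * |θ|) := by gcongr
        rw [h4]
        nlinarith
      have h4 : (S.card : ℝ) ≤ 40 * |θ| * H * (2 * δ / |θ| + 1) :=
        h1.trans (mul_le_mul_of_nonneg_right h3 (by positivity))
      have h5 : 40 * |θ| * H * (2 * δ / |θ| + 1) = 80 * δ * H + 40 * |θ| * H := by
        field_simp
        ring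
      rw [h5] at h4
      have h6 : (S.card : ℝ) / t ≤ 80 / 2 ^ k * δ + 40 * |θ| / 2 ^ k := by
        rw [div_le_iff₀ ht']
        refine h4.trans (le_of_eq ?_)
        rw [hH]; field_simp
      linarith
    · right
      refine ⟨hcase', fun _ => ?_⟩
      have hHℓ' : H < ℓ₂ := not_le.mp hHℓ
      have hlenℓ : (len : ℝ) ≤ ℓ₂ := by linarith
      have hθlen : |θ| * len ≤ 1 / 8 := by
        calc |θ| * len ≤ |θ| * ℓ₂ := by gcongr
          _ ≤ 1 / 8 := hθℓ
      have h1 := near_count_single hB hAB hθ hδ0 hcase' hθ0 hθlen hN hS'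
      have h2 : (len : ℝ) / B ≤ H / 2 / B + 1 := by
        rw [div_le_iff₀ hB']
        have : (H / 2 / B + 1) * B = H / 2 + B := by field_simp
        rw [this]
        linarith
      have h3 : (S.card : ℝ) ≤ min (H / 2 / B) (2 * δ / |θ|) + 2 := by
        refine h1.trans ?_
        rcases le_total (H / 2 / B) (2 * δ / |θ|) with h | h
        · rw [min_eq_left h]
          have := min_le_right (2 * δ / |θ|) ((len : ℝ) / B)
          linarith
        · rw [min_eq_right h]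
          have := min_le_left (2 * δ / |θ|) ((len : ℝ) / B)
          linarith
      rw [div_le_iff₀ ht']
      refine h3.trans (le_of_eq ?_)
      have h4 : min ((1 / 2 : ℝ) / 2 ^ k / B) (8 * C / (|θ| * r) * 2 ^ k) * t =
          min (H / 2 / B) (2 * δ / |θ|) := by
        rw [min_mul_of_nonneg _ _ ht'.le]
        congr 1
        · rw [hH]; field_simp
        · rw [hδeq, hrR, pow_add]
          field_simp
          ring
      have h5 : 2 * (g : ℝ) / r * t = 2 := by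
        rw [hrR]; field_simp
      rw [add_mul, h4, h5]

end Vale.Agent.P028
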