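import Vale.Agent.P028.Pairs
import Vale.Agent.P028.Count

open MeasureTheory Set Filter Topology
open scoped ENNReal

namespace Vale.Agent.P028

/-- The restricted approximation set: numerators are coprime to `q` after a shift
by the rational approximation `A / B` of the inhomogeneous parameter. -/
def F (γ ρ : ℝ) (A : ℤ) (B q : ℕ) : Set ℝ :=
  {x | ∃ a : ℤ, IsCoprime (a * B + A) (q : ℤ) ∧ |(q : ℝ) * x - a - γ| < ρ}

lemma F_subset_E (γ ρ : ℝ) (A : ℤ) (B q : ℕ) : F γ ρ A B q ⊆ E γ ρ q := by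
  rintro x ⟨a, _, h⟩
  exact ⟨a, h⟩

lemma isOpen_F (γ ρ : ℝ) (A : ℤ) (B q : ℕ) : IsOpen (F γ ρ A B q) := by
  have h : F γ ρ A B q = ⋃ a : ℤ, ⋃ _ : IsCoprime (a * B + A) (q : ℤ), piece γ ρ q a := by
    ext x
    simp only [F, piece, mem_setOf_eq, mem_iUnion, exists_prop]
  rw [h]
  exact isOpen_iUnion fun a => isOpen_iUnion fun _ => isOpen_piece γ ρ q a

/-- The density of numerators surviving the sieve at level `z`. -/
noncomputable def Dz (q B z : ℕ) : ℝ := (Nat.totient (Qz q B z) : ℝ) / Qz q B z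

lemma Dz_nonneg (q B z : ℕ) : 0 ≤ Dz q B z := by unfold Dz; positivity

lemma Dz_le_one (q B z : ℕ) : Dz q B z ≤ 1 := by
  unfold Dz
  have h0 : (0 : ℝ) < Qz q B z := by exact_mod_cast Qz_pos q B z
  rw [div_le_one h0]
  exact_mod_cast Nat.totient_le _

/-- Equidistribution lower bound for the restricted sets. -/
theorem le_volume_F_inter_Ico {γ ρ : ℝ} {A : ℤ} {B q z : ℕ} (hq : 0 < q) (hρ0 : 0 ≤ ρ)
    (hρ : ρ ≤ 1 / 4) (hAB : IsCoprime A (B : ℤ))
    (hT : ∑ p ∈ q.primeFactors.filter (fun p => z < p), (1 : ℝ) / p ≤ 1 / 2)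
    {u η : ℝ} (hη : 4 ≤ (q : ℝ) * η)
    (hℓ : 4 * (Qz q B z : ℝ) * (1 + (q.primeFactors.card : ℝ)) ≤ (q : ℝ) * η / 2) :
    ENNReal.ofReal (η * ρ * Dz q B z / 4) ≤ volume (F γ ρ A B q ∩ Ico u (u + η)) := by
  classical
  have hq' : (0 : ℝ) < q := by exact_mod_cast hq
  set x : ℝ := q * u - γ + ρ with hx
  set y : ℝ := q * (u + η) - γ - ρ with hy
  have hyx : y - x = q * η - 2 * ρ := by simp only [hx, hy]; ring
  have hxy : x ≤ y := by linarith
  set c : ℤ := ⌈x⌉ with hc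
  set ℓ : ℕ := (⌊y⌋ + 1 - c).toNat with hℓdef
  have hℓR : (q : ℝ) * η / 2 ≤ ℓ := by
    have h1 : y - 1 < (⌊y⌋ : ℝ) := Int.sub_one_lt_floor y
    have h2 : (c : ℝ) < x + 1 := Int.ceil_lt_add_one x
    have h3 : 0 ≤ ⌊y⌋ + 1 - c := by
      have : ((c : ℤ) : ℝ) < ((⌊y⌋ + 1 : ℤ) : ℝ) + 1 := by push_cast; linarith
      have h4 : c < ⌊y⌋ + 1 + 1 := by exact_mod_cast this
      omega
    have h4 : ((ℓ : ℕ) : ℤ) = ⌊y⌋ + 1 - c := Int.toNat_of_nonneg h3
    have h5 : (ℓ : ℝ) = (⌊y⌋ : ℝ) + 1 - c := by exact_mod_cast h4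
    rw [h5]
    nlinarith
  have hcount := le_count_coprime (z := z) hq hAB hT c ℓ (by
    have : 4 * (Qz q B z : ℝ) * (1 + (q.primeFactors.card : ℝ)) ≤ ℓ := hℓ.trans hℓR
    exact_mod_cast this)
  set S := (Finset.Ico c (c + ℓ)).filter fun a : ℤ => IsCoprime (a * B + A) (q : ℤ) with hS
  have hmem : ∀ a ∈ S, x ≤ a ∧ (a : ℝ) ≤ y := by
    intro a ha
    obtain ⟨h1, h2⟩ := Finset.mem_Ico.mp (Finset.mem_filter.mp ha).1
    constructor
    · exact Int.ceil_le.mp h1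
    · apply Int.le_floor.mp
      have h3 : 0 ≤ ⌊y⌋ + 1 - c ∨ ⌊y⌋ + 1 - c < 0 := le_or_gt _ _
      rcases h3 with h3 | h3
      · have h4 : ((ℓ : ℕ) : ℤ) = ⌊y⌋ + 1 - c := Int.toNat_of_nonneg h3
        omega
      · have h4 : ℓ = 0 := by rw [hℓdef]; omega
        rw [h4] at h2
        simp at h2
        omega
  have hsub : (⋃ a ∈ S, piece γ ρ q a) ⊆ F γ ρ A B q ∩ Ico u (u + η) := by
    intro w hw
    simp only [mem_iUnion, exists_prop] at hw
    obtain ⟨a, ha, hw⟩ := hw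
    have hcop := (Finset.mem_filter.mp ha).2
    refine ⟨⟨a, hcop, hw⟩, ?_⟩
    obtain ⟨h1, h2⟩ := hmem a ha
    have h3 : |(q : ℝ) * w - a - γ| < ρ := hw
    obtain ⟨h4, h5⟩ := abs_lt.mp h3
    simp only [hx] at h1
    simp only [hy] at h2
    constructor
    · have : (q : ℝ) * u ≤ q * w := by linarith
      exact le_of_mul_le_mul_left this hq'
    · have : (q : ℝ) * w < q * (u + η) := by linarith
      exact lt_of_mul_lt_mul_left this hq'.le
  have hdisj : (S : Set ℤ).PairwiseDisjoint (piece γ ρ q) := by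
    intro a _ b _ hab
    refine Set.disjoint_left.mpr fun w hw hw' => hab ?_
    have h3 : |(q : ℝ) * w - a - γ| < ρ := hw
    have h4 : |(q : ℝ) * w - b - γ| < ρ := hw'
    obtain ⟨h5, h6⟩ := abs_lt.mp h3
    obtain ⟨h7, h8⟩ := abs_lt.mp h4
    have h9 : |((a - b : ℤ) : ℝ)| < 1 := by
      rw [abs_lt]; push_cast; constructor <;> linarith
    have h10 : |a - b| < 1 := by exact_mod_cast h9
    have := Int.abs_lt_one_iff.mp h10
    omega
  have hcard : (q : ℝ) * η / 2 * Dz q B z / 4 ≤ (S.card : ℝ) := by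
    refine le_trans ?_ hcount
    have := Dz_nonneg q B z
    unfold Dz at this ⊢
    gcongr
  calc ENNReal.ofReal (η * ρ * Dz q B z / 4)
      ≤ ENNReal.ofReal ((S.card : ℝ) * (2 * (ρ / q))) := by
        apply ENNReal.ofReal_le_ofReal
        have h1 : η * ρ * Dz q B z / 4 = ((q : ℝ) * η / 2 * Dz q B z / 4) * (2 * (ρ / q)) := by
          field_simp
        rw [h1]
        have : 0 ≤ 2 * (ρ / q) := by positivity
        gcongr
    _ = ∑ _a ∈ S, ENNReal.ofReal (2 * (ρ / q)) := by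
        rw [Finset.sum_const, nsmul_eq_mul, ENNReal.ofReal_mul (Nat.cast_nonneg _),
          ENNReal.ofReal_natCast]
    _ = ∑ a ∈ S, volume (piece γ ρ q a) := by
        refine Finset.sum_congr rfl fun a _ => (volume_piece hq a).symm
    _ = volume (⋃ a ∈ S, piece γ ρ q a) := by
        rw [measure_biUnion_finset hdisj fun a _ => (isOpen_piece γ ρ q a).measurableSet]
    _ ≤ _ := measure_mono hsub

/-- Upper bound for the measure of a restricted set. -/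
theorem volume_F_inter_Icc_le {γ ρ R : ℝ} {A : ℤ} {B q z : ℕ} (hq : 0 < q) (hρ0 : 0 ≤ ρ)
    (hρ : ρ ≤ 1 / 4) (hR : 0 ≤ R) :
    volume (F γ ρ A B q ∩ Icc (-R) R) ≤ ENNReal.ofReal ((2 * R + 3) * (2 * (ρ * Dz q B z))) := by
  classical
  have hq' : (0 : ℝ) < q := by exact_mod_cast hq
  have hq1 : (1 : ℝ) ≤ q := by exact_mod_cast hq
  set lo : ℝ := q * (-R) - γ - ρ with hlo
  set hi : ℝ := q * R - γ + ρ with hhi
  have hhl : hi - lo = 2 * q * R + 2 * ρ := by simp only [hlo, hhi]; ring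
  have hlohi : lo ≤ hi := by
    have : 0 ≤ 2 * q * R + 2 * ρ := by positivity
    linarith
  set c : ℤ := ⌈lo⌉ with hc
  set ℓ : ℕ := (⌊hi⌋ + 1 - c).toNat with hℓdef
  have hmemIco : ∀ a : ℤ, c ≤ a → a ≤ ⌊hi⌋ → a ∈ Finset.Ico c (c + ℓ) := by
    intro a h1 h2
    have h3 : 0 ≤ ⌊hi⌋ + 1 - c := by omega
    have h4 : ((ℓ : ℕ) : ℤ) = ⌊hi⌋ + 1 - c := Int.toNat_of_nonneg h3
    rw [Finset.mem_Ico]
    omega
  have hℓR : (ℓ : ℝ) ≤ hi - lo + 1 := by
    have h1 : (⌊hi⌋ : ℝ) ≤ hi := Int.floor_le hi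
    have h2 : lo ≤ (c : ℝ) := Int.le_ceil lo
    by_cases h3 : 0 ≤ ⌊hi⌋ + 1 - c
    · have h4 : ((ℓ : ℕ) : ℤ) = ⌊hi⌋ + 1 - c := Int.toNat_of_nonneg h3
      have h5 : (ℓ : ℝ) = (⌊hi⌋ : ℝ) + 1 - c := by exact_mod_cast h4
      rw [h5]; linarith
    · have h4 : ℓ = 0 := by rw [hℓdef]; omega
      rw [h4]; simp; linarith
  set Q := Qz q B z with hQ
  have hQpos : 0 < Q := Qz_pos q B z
  have hQ' : (0 : ℝ) < Q := by exact_mod_cast hQpos
  have hQq : (Q : ℝ) ≤ q := by exact_mod_cast Nat.le_of_dvd hq (Qz_dvd q B z)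
  set S := (Finset.Ico c (c + ℓ)).filter fun a : ℤ => IsCoprime (a * B + A) (Q : ℤ) with hS
  have hcount := count_coprime_le (q := q) (B := B) (z := z) (A := A) c ℓ
  rw [← hQ, ← hS] at hcount
  have hcov : F γ ρ A B q ∩ Icc (-R) R ⊆ ⋃ a ∈ S, piece γ ρ q a := by
    rintro w ⟨⟨a, hcop, hw⟩, hw1, hw2⟩
    simp only [mem_iUnion, exists_prop]
    refine ⟨a, ?_, hw⟩
    obtain ⟨h4, h5⟩ := abs_lt.mp hw
    have h8 : (q : ℝ) * (-R) ≤ q * w := by gcongr
    have h9 : (q : ℝ) * w ≤ q * R := by gcongr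
    rw [hS, Finset.mem_filter]
    refine ⟨hmemIco a ?_ ?_, isCoprime_Qz hcop⟩
    · apply Int.ceil_le.mpr; simp only [hlo]; linarith
    · apply Int.le_floor.mpr; simp only [hhi]; linarith
  have hT0 : (0 : ℝ) ≤ (Nat.totient Q : ℝ) := Nat.cast_nonneg _
  have hScard : (S.card : ℝ) ≤ (2 * R + 3) * q * Dz q B z := by
    refine hcount.trans ?_
    have h1 : (ℓ : ℝ) / Q + 1 = ((ℓ : ℝ) + Q) / Q := by field_simp
    have h2 : (ℓ : ℝ) + Q ≤ (2 * R + 3) * q := by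
      have h3 : (ℓ : ℝ) ≤ 2 * q * R + 2 * ρ + 1 := by linarith
      nlinarith
    unfold Dz
    rw [h1, ← hQ]
    calc ((ℓ : ℝ) + Q) / Q * (Nat.totient Q : ℝ) = ((ℓ : ℝ) + Q) * ((Nat.totient Q : ℝ) / Q) := by
          ring
      _ ≤ ((2 * R + 3) * q) * ((Nat.totient Q : ℝ) / Q) := by gcongr
  calc volume (F γ ρ A B q ∩ Icc (-R) R) ≤ volume (⋃ a ∈ S, piece γ ρ q a) := measure_mono hcov
    _ ≤ ∑ a ∈ S, volume (piece γ ρ q a) := measure_biUnion_finset_le _ _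
    _ = ∑ _a ∈ S, ENNReal.ofReal (2 * (ρ / q)) := Finset.sum_congr rfl fun a _ => volume_piece hq a
    _ = ENNReal.ofReal ((S.card : ℝ) * (2 * (ρ / q))) := by
        rw [Finset.sum_const, nsmul_eq_mul, ENNReal.ofReal_mul (Nat.cast_nonneg _),
          ENNReal.ofReal_natCast]
    _ ≤ _ := by
        apply ENNReal.ofReal_le_ofReal
        calc (S.card : ℝ) * (2 * (ρ / q)) ≤ ((2 * R + 3) * q * Dz q B z) * (2 * (ρ / q)) := by
              gcongr
          _ = _ := by field_simp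

end Vale.Agent.P028
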