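import Vale.Agent.P028.PairBound

open MeasureTheory Set Filter Topology
open scoped ENNReal

namespace Vale.Agent.P028

section

variable {γ : ℝ} {ψ : ℕ → ℝ} {C₀ : ℝ} {q₁ : ℕ}

lemma rho_div_ll_le (h0 : ∀ q, 0 ≤ ψ q) {r : ℕ} (hℓ : 1 ≤ ll r) :
    rho ψ q₁ r / (ll r : ℝ) ≤ 6 * Mq γ ψ q₁ r := by
  have hρ := rho_nonneg (q₁ := q₁) h0 r
  have h1 : (1 : ℝ) / (zz r : ℕ) ≤ Dz r (BB γ r) (zz r) :=
    one_div_le_Dz (by unfold zz; omega)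
  have h2 : ((zz r : ℕ) : ℝ) = 6 * (ll r : ℝ) := by unfold zz; push_cast; ring
  rw [h2] at h1
  have hl : (0 : ℝ) < ll r := by exact_mod_cast hℓ
  have h3 : (1 : ℝ) / (ll r : ℝ) ≤ 6 * Dz r (BB γ r) (zz r) := by
    have h4 : (1 : ℝ) / (6 * (ll r : ℝ)) = (1 / (ll r : ℝ)) / 6 := by field_simp
    rw [h4] at h1
    linarith
  unfold Mq
  calc rho ψ q₁ r / (ll r : ℝ) = rho ψ q₁ r * (1 / (ll r : ℝ)) := by ring
    _ ≤ rho ψ q₁ r * (6 * Dz r (BB γ r) (zz r)) := by gcongr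
    _ = _ := by ring

/-- Numerical bound for the output of the bound for the small windows. -/
lemma T_arith {C₀ C D : ℝ} {ℓ : ℕ} (hC : 1 ≤ C₀) (hℓ : 1 ≤ ℓ) (hCdef : C = 8 * C₀ / (ℓ : ℝ) ^ 3)
    (hD : D ≤ 12 * (ℓ : ℝ)) :
    2560 * (ℓ : ℝ) * C * D + 260 * (ℓ : ℝ) * (5 * (ℓ : ℝ) + 2) * C +
        20 * Real.sqrt (2 * C) + (243 + 128 * C + 78 * (ℓ : ℝ)) / 2 ^ (2 * ℓ) ≤
      300000 * C₀ / (ℓ : ℝ) := by
  have hl : (1 : ℝ) ≤ ℓ := by exact_mod_cast hℓ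
  have hl0 : (0 : ℝ) < ℓ := by linarith
  have hC0 : (0 : ℝ) < C₀ := by linarith
  have hCpos : 0 < C := by rw [hCdef]; positivity
  have hC8 : C ≤ 8 * C₀ := by
    rw [hCdef]
    apply div_le_self (by positivity)
    exact one_le_pow₀ hl
  have t1 : 2560 * (ℓ : ℝ) * C * D ≤ 245760 * C₀ / (ℓ : ℝ) := by
    calc 2560 * (ℓ : ℝ) * C * D ≤ 2560 * (ℓ : ℝ) * C * (12 * (ℓ : ℝ)) := by gcongr
      _ = 245760 * C₀ / (ℓ : ℝ) := by rw [hCdef]; field_simp; ring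
  have t2 : 260 * (ℓ : ℝ) * (5 * (ℓ : ℝ) + 2) * C ≤ 14560 * C₀ / (ℓ : ℝ) := by
    calc 260 * (ℓ : ℝ) * (5 * (ℓ : ℝ) + 2) * C ≤ 260 * (ℓ : ℝ) * (7 * (ℓ : ℝ)) * C := by
          gcongr
          linarith
      _ = 14560 * C₀ / (ℓ : ℝ) := by rw [hCdef]; field_simp; ring
  have t3 : Real.sqrt (2 * C) ≤ 4 * C₀ / (ℓ : ℝ) := by
    apply Real.sqrt_le_iff.mpr
    refine ⟨by positivity, ?_⟩
    rw [hCdef, div_pow, mul_pow]
    have h1 : 2 * (8 * C₀ / (ℓ : ℝ) ^ 3) = (16 * C₀ / (ℓ : ℝ)) / (ℓ : ℝ) ^ 2 := by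
      field_simp
      ring
    rw [h1]
    apply div_le_div_of_nonneg_right _ (by positivity)
    rw [div_le_iff₀ hl0]
    have h2 : C₀ ≤ C₀ ^ 2 := by nlinarith
    nlinarith
  have t4 : (243 + 128 * C + 78 * (ℓ : ℝ)) / 2 ^ (2 * ℓ) ≤ 1345 * C₀ / (ℓ : ℝ) := by
    have h1 : (ℓ : ℝ) < 2 ^ ℓ := by exact_mod_cast Nat.lt_two_pow_self
    have h2 : (ℓ : ℝ) ^ 2 ≤ 2 ^ (2 * ℓ) := by
      rw [mul_comm, pow_mul]
      gcongr
    have h3 : 243 + 128 * C + 78 * (ℓ : ℝ) ≤ 1345 * C₀ * ℓ := by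
      have h4 : C₀ * ℓ ≥ 1 := by nlinarith
      have h5 : C₀ * ℓ ≥ C₀ := by nlinarith
      have h6 : C₀ * ℓ ≥ ℓ := by nlinarith
      nlinarith
    calc (243 + 128 * C + 78 * (ℓ : ℝ)) / 2 ^ (2 * ℓ)
        ≤ (1345 * C₀ * ℓ) / 2 ^ (2 * ℓ) := by gcongr
      _ ≤ (1345 * C₀ * ℓ) / (ℓ : ℝ) ^ 2 := by gcongr
      _ = 1345 * C₀ / (ℓ : ℝ) := by field_simp
  have h5 : 20 * Real.sqrt (2 * C) ≤ 80 * C₀ / (ℓ : ℝ) := by
    calc 20 * Real.sqrt (2 * C) ≤ 20 * (4 * C₀ / (ℓ : ℝ)) := by gcongr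
      _ = _ := by ring
  have h6 : 300000 * C₀ / (ℓ : ℝ) =
      245760 * C₀ / (ℓ : ℝ) + 14560 * C₀ / (ℓ : ℝ) + 80 * C₀ / (ℓ : ℝ) + 1345 * C₀ / (ℓ : ℝ)
        + 38255 * C₀ / (ℓ : ℝ) := by
    field_simp
    ring
  have h7 : 0 ≤ 38255 * C₀ / (ℓ : ℝ) := by positivity
  linarith

open scoped Classical in
theorem sum_Ext1_le (h0 : ∀ q, 0 ≤ ψ q) (hC : 1 ≤ C₀) (hq₁ : ∀ q, q₁ ≤ q → Large ψ C₀ q)
    (hq₁0 : 0 < q₁) (s : Finset ℕ) (r : ℕ) :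
    ∑ q ∈ s.filter (fun q => q < r), Ext1 ψ q₁ q r ≤ 72192 * C₀ * Mq γ ψ q₁ r := by
  by_cases hσ : rho ψ q₁ r = 0
  · have h1 : Mq γ ψ q₁ r = 0 := by unfold Mq; rw [hσ, zero_mul]
    rw [h1, mul_zero]
    apply le_of_eq
    apply Finset.sum_eq_zero
    intro q _
    unfold Ext1
    rw [if_neg]
    intro h
    exact h.2.1 hσ
  obtain ⟨hr1, hrG, hrE⟩ := rho_spec hσ
  have hLr := hq₁ r hr1
  have hrpos : 0 < r := lt_of_lt_of_le hq₁0 hr1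
  have hr' : (0 : ℝ) < r := by exact_mod_cast hrpos
  have hℓ : 4 ≤ ll r := hLr.2.1
  set ℓ := ll r with hℓdef
  have hl : (1 : ℝ) ≤ ℓ := by
    have : 1 ≤ ℓ := by omega
    exact_mod_cast this
  have hl0 : (0 : ℝ) < ℓ := by linarith
  have hC0 : 0 < C₀ := by linarith
  set C : ℝ := 8 * C₀ / (ℓ : ℝ) ^ 3 with hCdef
  have hCnn : 0 ≤ C := by positivity
  set Q := (s.filter (fun q => q < r)).filter (fun q => rho ψ q₁ q ≠ 0 ∧ rho ψ q₁ r ≠ 0 ∧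
    1 / 2 ≤ Wq ψ q₁ q r ∧ Wq ψ q₁ q r < 2 ^ (24 * ℓ)) with hQ
  have hsum : ∑ q ∈ s.filter (fun q => q < r), Ext1 ψ q₁ q r =
      ∑ q ∈ Q, 16 * (rho ψ q₁ q * rho ψ q₁ r) := by
    rw [hQ]
    exact (Finset.sum_filter (s := s.filter (fun q => q < r))
      (p := fun q => rho ψ q₁ q ≠ 0 ∧ rho ψ q₁ r ≠ 0 ∧
        1 / 2 ≤ Wq ψ q₁ q r ∧ Wq ψ q₁ q r < 2 ^ (24 * ℓ))
      (fun q => 16 * (rho ψ q₁ q * rho ψ q₁ r))).symm
  have hJ : (0 : ℝ) < (jj r : ℝ) ^ 2 := by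
    have h1 : 0 < jj r := by
      have := hLr.1
      omega
    have h2 : (0 : ℝ) < jj r := by exact_mod_cast h1
    positivity
  have hU := U_bound (C := C) (J := (jj r : ℝ) ^ 2) (Y := 2 ^ (24 * ℓ)) hCnn hJ (by positivity)
    hrpos Q (rho ψ q₁) (by
      intro q hq
      obtain ⟨hq1, hρq, -, hW1, hW2⟩ := Finset.mem_filter.mp hq
      have hqr : q < r := (Finset.mem_filter.mp hq1).2
      obtain ⟨hq2, hqG, hqE⟩ := rho_spec hρq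
      have hqpos : 0 < q := lt_of_lt_of_le hq₁0 hq2
      have hq' : (0 : ℝ) < q := by exact_mod_cast hqpos
      have hLq := hq₁ q hq2
      have hg : (0 : ℝ) < Nat.gcd q r := by exact_mod_cast Nat.gcd_pos_of_pos_left _ hqpos
      have hrho : (r : ℝ) * rho ψ q₁ q < Nat.gcd q r * 2 ^ (24 * ℓ) := by
        have h1 : Wq ψ q₁ q r * Nat.gcd q r = (r : ℝ) * rho ψ q₁ q + q * rho ψ q₁ r := by
          unfold Wq; field_simp
        have h2 : 0 ≤ (q : ℝ) * rho ψ q₁ r := mul_nonneg hq'.le (rho_nonneg h0 r)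
        have h3 : Wq ψ q₁ q r * Nat.gcd q r < 2 ^ (24 * ℓ) * Nat.gcd q r := by gcongr
        nlinarith
      refine ⟨hqpos, hqr, rho_nonneg h0 q, ?_, ?_, hrho⟩
      · rw [hqE] at hrho ⊢
        exact cap_transfer hC hqpos hqr hLq hLr hqG hrho
      · rw [hqE]
        have h1 : 0 < jj q := by
          have := hLq.1
          omega
        have h2 : (0 : ℝ) < jj q := by exact_mod_cast h1
        refine le_trans ?_ hqG.1
        apply one_div_le_one_div_of_le (by positivity)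
        have h3 : (jj q : ℝ) ≤ jj r := by exact_mod_cast jj_le_of_le hqr.le
        gcongr) (30 * ℓ)
  rw [hsum]
  have hτ : ((r.divisors.card : ℕ) : ℝ) ≤ 2 ^ (3 * ℓ) := hrG.2.1
  have hjr : (jj r : ℝ) ≤ 2 ^ ℓ := by exact_mod_cast (jj_lt_pow r).le
  have hjr2 : (jj r : ℝ) ^ 2 ≤ 2 ^ (2 * ℓ) := by
    rw [mul_comm, pow_mul]
    have h1 : (0 : ℝ) ≤ jj r := Nat.cast_nonneg _
    gcongr
  have hfrac : 4 * ((r.divisors.card : ℕ) : ℝ) * (jj r : ℝ) ^ 2 * 2 ^ (24 * ℓ) / 2 ^ (30 * ℓ) ≤ 4 := by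
    rw [div_le_iff₀ (by positivity)]
    have h1 : ((r.divisors.card : ℕ) : ℝ) * (jj r : ℝ) ^ 2 * 2 ^ (24 * ℓ) ≤
        2 ^ (3 * ℓ) * 2 ^ (2 * ℓ) * 2 ^ (24 * ℓ) := by gcongr
    have h2 : (2 : ℝ) ^ (3 * ℓ) * 2 ^ (2 * ℓ) * 2 ^ (24 * ℓ) = 2 ^ (29 * ℓ) := by
      rw [← pow_add, ← pow_add]
      congr 1
      ring
    have h3 : (2 : ℝ) ^ (29 * ℓ) ≤ 2 ^ (30 * ℓ) :=
      pow_le_pow_right₀ (by norm_num) (by omega)
    nlinarith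
  have hU2 : ∑ q ∈ Q, rho ψ q₁ q ≤ 752 * C₀ / (ℓ : ℝ) := by
    refine hU.trans ?_
    have h1 : (3 : ℝ) * ((30 * ℓ : ℕ) : ℝ) + 4 * ((r.divisors.card : ℕ) : ℝ) * (jj r : ℝ) ^ 2 *
        2 ^ (24 * ℓ) / 2 ^ (30 * ℓ) ≤ 94 * (ℓ : ℝ) := by
      push_cast
      push_cast at hfrac
      nlinarith
    calc _ ≤ C * (94 * (ℓ : ℝ)) := by gcongr
      _ = 752 * C₀ / ((ℓ : ℝ) ^ 2) := by rw [hCdef]; field_simp; ring
      _ ≤ 752 * C₀ / (ℓ : ℝ) := by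
        apply div_le_div_of_nonneg_left (by positivity) hl0
        nlinarith
  have hσ0 := rho_nonneg (q₁ := q₁) h0 r
  have hlast := rho_div_ll_le (γ := γ) (q₁ := q₁) h0 (r := r) (by omega)
  calc ∑ q ∈ Q, 16 * (rho ψ q₁ q * rho ψ q₁ r)
      = 16 * rho ψ q₁ r * ∑ q ∈ Q, rho ψ q₁ q := by
        rw [Finset.mul_sum]
        apply Finset.sum_congr rfl
        intro q _
        ring
    _ ≤ 16 * rho ψ q₁ r * (752 * C₀ / (ℓ : ℝ)) := by gcongr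
    _ = 12032 * C₀ * (rho ψ q₁ r / (ℓ : ℝ)) := by ring
    _ ≤ 12032 * C₀ * (6 * Mq γ ψ q₁ r) := by gcongr
    _ = _ := by ring

open scoped Classical in
theorem sum_Ext2_le (h0 : ∀ q, 0 ≤ ψ q) (hC : 1 ≤ C₀) (hq₁ : ∀ q, q₁ ≤ q → Large ψ C₀ q)
    (hq₁0 : 0 < q₁) (s : Finset ℕ) (r : ℕ) :
    ∑ q ∈ s.filter (fun q => q < r), Ext2 γ ψ q₁ q r ≤ 7200000 * C₀ * Mq γ ψ q₁ r := by
  by_cases hσ : rho ψ q₁ r = 0
  · have h1 : Mq γ ψ q₁ r = 0 := by unfold Mq; rw [hσ, zero_mul]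
    rw [h1, mul_zero]
    apply le_of_eq
    apply Finset.sum_eq_zero
    intro q _
    unfold Ext2
    rw [if_neg]
    intro h
    exact h.2.1 hσ
  obtain ⟨hr1, hrG, hrE⟩ := rho_spec hσ
  have hLr := hq₁ r hr1
  have hrpos : 0 < r := lt_of_lt_of_le hq₁0 hr1
  have hr' : (0 : ℝ) < r := by exact_mod_cast hrpos
  have hℓ : 4 ≤ ll r := hLr.2.1
  have hj : 60 * ll r + 60 ≤ jj r := hLr.1
  set ℓ := ll r with hℓdef
  have hl : (1 : ℝ) ≤ ℓ := by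
    have : 1 ≤ ℓ := by omega
    exact_mod_cast this
  have hl0 : (0 : ℝ) < ℓ := by linarith
  have hC0 : 0 < C₀ := by linarith
  set C : ℝ := 8 * C₀ / (ℓ : ℝ) ^ 3 with hCdef
  have hCpos : 0 < C := by positivity
  set Q := (s.filter (fun q => q < r)).filter (fun q => rho ψ q₁ q ≠ 0 ∧ rho ψ q₁ r ≠ 0 ∧
    Wq ψ q₁ q r < 1 / 2 ∧ PairEx γ ψ q₁ q r) with hQ
  have hsum : ∑ q ∈ s.filter (fun q => q < r), Ext2 γ ψ q₁ q r =
      ∑ q ∈ Q, 4 * ((Nat.gcd q r : ℝ) / r) * rho ψ q₁ r := by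
    rw [hQ]
    exact (Finset.sum_filter (s := s.filter (fun q => q < r))
      (p := fun q => rho ψ q₁ q ≠ 0 ∧ rho ψ q₁ r ≠ 0 ∧
        Wq ψ q₁ q r < 1 / 2 ∧ PairEx γ ψ q₁ q r)
      (fun q => 4 * ((Nat.gcd q r : ℝ) / r) * rho ψ q₁ r)).symm
  have hpow : (2 : ℕ) ^ jj r ≤ r := pow_jj_le hrpos.ne'
  have hlt : r < (2 : ℕ) ^ (jj r + 1) := lt_pow_jj r
  have hXpow : XX r * 2 ^ (10 * ℓ) = 2 ^ jj r := by
    unfold XX
    rw [← pow_add]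
    congr 1
    omega
  have hσle : rho ψ q₁ r ≤ C / r := by
    rw [hrE]
    refine hLr.2.2.2.trans ?_
    rw [hCdef, div_div]
    apply div_le_div₀ (by positivity) (by linarith) (by positivity)
    nlinarith [show (0:ℝ) < (r:ℝ) * (ℓ:ℝ)^3 by positivity]
  have hT := T_bound (γ := γ) (θ := (BB γ r : ℝ) * γ - AA γ r) (C := C) (A := AA γ r)
    (B := BB γ r) (X := XX r) (r := r) (ℓ := ℓ) (BB_pos γ r) (BB_le γ r) (AA_coprime γ r) rfl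
    (theta_le γ r) (by
      unfold XX
      calc 15 ≤ 2 ^ 4 := by norm_num
        _ ≤ _ := Nat.pow_le_pow_right (by norm_num) (by omega)) hCpos (by omega)
    (by rw [hXpow]; exact hpow)
    (by
      calc r < 2 ^ (jj r + 1) := hlt
        _ = XX r * 2 ^ (10 * ℓ) * 2 := by rw [hXpow, pow_succ]
        _ ≤ (XX r + 1) * 2 ^ (10 * ℓ + 1) := by
          rw [pow_succ, ← mul_assoc]
          gcongr
          omega)
    (by
      calc 2 ^ (15 * ℓ) ≤ 2 ^ jj r := Nat.pow_le_pow_right (by norm_num) (by omega)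
        _ ≤ r := hpow)
    (by exact_mod_cast hrG.2.1)
    (by
      have h1 : (ℓ : ℝ) < 2 ^ ℓ := by exact_mod_cast Nat.lt_two_pow_self
      have h2 : (ℓ : ℝ) ^ 3 ≤ 2 ^ (3 * ℓ) := by
        rw [mul_comm, pow_mul]
        gcongr
      rw [hCdef, mul_div_assoc', le_div_iff₀ (by positivity)]
      nlinarith [show (0:ℝ) < (ℓ:ℝ)^3 by positivity])
    Q (rho ψ q₁) (rho ψ q₁ r) (rho_nonneg h0 r) hσle (by
      intro q hq
      obtain ⟨hq1, hρq, -, hW1, hpair⟩ := Finset.mem_filter.mp hq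
      have hqr : q < r := (Finset.mem_filter.mp hq1).2
      obtain ⟨hq2, hqG, hqE⟩ := rho_spec hρq
      have hqpos : 0 < q := lt_of_lt_of_le hq₁0 hq2
      have hq' : (0 : ℝ) < q := by exact_mod_cast hqpos
      have hLq := hq₁ q hq2
      have hg : (0 : ℝ) < Nat.gcd q r := by exact_mod_cast Nat.gcd_pos_of_pos_left _ hqpos
      have h1 : Wq ψ q₁ q r * Nat.gcd q r = (r : ℝ) * rho ψ q₁ q + q * rho ψ q₁ r := by
        unfold Wq; field_simp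
      have h3 : Wq ψ q₁ q r * Nat.gcd q r < (1 / 2) * Nat.gcd q r := by gcongr
      have h2 : 0 ≤ (q : ℝ) * rho ψ q₁ r := mul_nonneg hq'.le (rho_nonneg h0 r)
      have hrho : (r : ℝ) * rho ψ q₁ q < Nat.gcd q r * 2 ^ (24 * ℓ) := by
        have h4 : (1 : ℝ) ≤ 2 ^ (24 * ℓ) := one_le_pow₀ (by norm_num)
        nlinarith
      refine ⟨hqpos, hqr, rho_nonneg h0 q, ?_, by nlinarith, ?_⟩
      · rw [hqE] at hrho ⊢
        exact cap_transfer hC hqpos hqr hLq hLr hqG hrho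
      · obtain ⟨a, b, h5, h6⟩ := hpair
        exact ⟨a, b, h5, h6⟩)
  rw [hsum]
  have hD : ∑ g ∈ r.divisors, (1 : ℝ) / g ≤ 12 * (ℓ : ℝ) := by
    have h1 := sum_one_div_divisors_le hrpos.ne' (z := zz r) (by unfold zz; omega) hrG.2.2
    have h2 : ((zz r : ℕ) : ℝ) = 6 * (ℓ : ℝ) := by unfold zz; push_cast; ring
    rw [h2] at h1
    linarith
  have hT2 := hT.trans (T_arith (ℓ := ℓ) hC (by omega) hCdef hD)
  have hσ0 := rho_nonneg (q₁ := q₁) h0 r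
  have hlast := rho_div_ll_le (γ := γ) (q₁ := q₁) h0 (r := r) (by omega)
  calc ∑ q ∈ Q, 4 * ((Nat.gcd q r : ℝ) / r) * rho ψ q₁ r
      = 4 * rho ψ q₁ r * ∑ q ∈ Q, (Nat.gcd q r : ℝ) / r := by
        rw [Finset.mul_sum]
        apply Finset.sum_congr rfl
        intro q _
        ring
    _ ≤ 4 * rho ψ q₁ r * (300000 * C₀ / (ℓ : ℝ)) := by gcongr
    _ = 1200000 * C₀ * (rho ψ q₁ r / (ℓ : ℝ)) := by ring
    _ ≤ 1200000 * C₀ * (6 * Mq γ ψ q₁ r) := by gcongr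
    _ = _ := by ring

/-- Sum of the overlaps with a fixed larger denominator. -/
theorem sum_pair (h0 : ∀ q, 0 ≤ ψ q) (hC : 1 ≤ C₀) (hq₁ : ∀ q, q₁ ≤ q → Large ψ C₀ q)
    (hq₁0 : 0 < q₁) (R : ℕ) (s : Finset ℕ) (r : ℕ) :
    ∑ q ∈ s.filter (fun q => q < r), volume.real (Sq γ ψ q₁ q ∩ Sq γ ψ q₁ r ∩ Icc (-(R : ℝ)) R) ≤
      (2 * (R : ℝ) + 2) * (16 * (Mq γ ψ q₁ r * ∑ q ∈ s, Mq γ ψ q₁ q) +
        8000000 * C₀ * Mq γ ψ q₁ r) := by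
  classical
  have hMr := Mq_nonneg (γ := γ) (q₁ := q₁) h0 r
  have hC0 : 0 < C₀ := by linarith
  have hR : (0 : ℝ) ≤ (R : ℝ) := Nat.cast_nonneg _
  have h1 : ∑ q ∈ s.filter (fun q => q < r), volume.real (Sq γ ψ q₁ q ∩ Sq γ ψ q₁ r ∩ Icc (-(R : ℝ)) R) ≤
      ∑ q ∈ s.filter (fun q => q < r), (2 * (R : ℝ) + 2) * (16 * (Mq γ ψ q₁ q * Mq γ ψ q₁ r) +
        Ext1 ψ q₁ q r + Ext2 γ ψ q₁ q r) := by
    apply Finset.sum_le_sum
    intro q hq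
    exact pair_bound h0 hC hq₁ hq₁0 R (Finset.mem_filter.mp hq).2
  refine h1.trans ?_
  rw [← Finset.mul_sum]
  apply mul_le_mul_of_nonneg_left _ (by positivity)
  rw [Finset.sum_add_distrib, Finset.sum_add_distrib]
  have h2 := sum_Ext1_le (γ := γ) h0 hC hq₁ hq₁0 s r
  have h3 := sum_Ext2_le (γ := γ) h0 hC hq₁ hq₁0 s r
  have h4 : ∑ q ∈ s.filter (fun q => q < r), 16 * (Mq γ ψ q₁ q * Mq γ ψ q₁ r) ≤
      16 * (Mq γ ψ q₁ r * ∑ q ∈ s, Mq γ ψ q₁ q) := by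
    rw [← Finset.mul_sum, ← Finset.sum_mul, mul_comm (Mq γ ψ q₁ r)]
    apply mul_le_mul_of_nonneg_left _ (by norm_num)
    apply mul_le_mul_of_nonneg_right _ hMr
    exact Finset.sum_le_sum_of_subset_of_nonneg (Finset.filter_subset _ _)
      (fun q _ _ => Mq_nonneg h0 q)
  have h5 : 0 ≤ C₀ * Mq γ ψ q₁ r := by positivity
  nlinarith

end

end Vale.Agent.P028
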