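import Vale.Agent.P028.VSum2
import Vale.Agent.P028.Core

open MeasureTheory Set Filter Topology
open scoped ENNReal

namespace Vale.Agent.P028

section

variable {γ : ℝ} {ψ : ℕ → ℝ} {C₀ : ℝ} {q₁ : ℕ}

/-- The diagonal. -/
lemma diag_leV (h0 : ∀ q, 0 ≤ ψ q) (hC : 1 ≤ C₀) (hq₁ : ∀ q, q₁ ≤ q → LargeV ψ C₀ q)
    (hq₁0 : 0 < q₁) (R : ℕ) (q : ℕ) :
    volume.real (SqV γ ψ q₁ q ∩ SqV γ ψ q₁ q ∩ Icc (-(R : ℝ)) R) ≤
      (2 * (R : ℝ) + 3) * (2 * MqV γ ψ q₁ q) := by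
  have hR : (0 : ℝ) ≤ (R : ℝ) := Nat.cast_nonneg _
  have hM := MqV_nonneg (γ := γ) (q₁ := q₁) h0 q
  rw [inter_self]
  by_cases hρ : rho ψ q₁ q = 0
  · rw [SqV_empty hρ, empty_inter, measureReal_empty]
    positivity
  · obtain ⟨h1, _, _⟩ := rho_spec hρ
    have hq : 0 < q := lt_of_lt_of_le hq₁0 h1
    exact ENNReal.toReal_le_of_le_ofReal (by positivity)
      (volume_F_inter_Icc_le hq (rho_nonneg h0 q) (rho_le_quarterV hC hq₁ q) hR)

/-- The constant of the off-diagonal terms. -/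
noncomputable def KRV (C : ℝ) : ℝ := 32 * KPsi C + KEV C

/-- Off-diagonal terms. -/
theorem sum_pairV (h0 : ∀ q, 0 ≤ ψ q) (hC : 1 ≤ C₀) (hq₁ : ∀ q, q₁ ≤ q → LargeV ψ C₀ q)
    (hq₁0 : 0 < q₁) (R : ℕ) (s : Finset ℕ) :
    ∑ r ∈ s, ∑ q ∈ s.filter (fun q => q < r),
        volume.real (SqV γ ψ q₁ q ∩ SqV γ ψ q₁ r ∩ Icc (-(R : ℝ)) R) ≤
      (2 * (R : ℝ) + 2) * (64 * (∑ q ∈ s, MqV γ ψ q₁ q) ^ 2 + KRV C₀ * ∑ q ∈ s, MqV γ ψ q₁ q) := by
  have hC0 : 0 < C₀ := by linarith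
  have hR : (0 : ℝ) ≤ (R : ℝ) := Nat.cast_nonneg _
  have hRR : (0 : ℝ) ≤ 2 * (R : ℝ) + 2 := by positivity
  have hM0 := fun q => MqV_nonneg (γ := γ) (q₁ := q₁) h0 q
  have h1 : ∀ r ∈ s, ∑ q ∈ s.filter (fun q => q < r),
      volume.real (SqV γ ψ q₁ q ∩ SqV γ ψ q₁ r ∩ Icc (-(R : ℝ)) R) ≤
      (2 * (R : ℝ) + 2) * (∑ q ∈ s.filter (fun q => q < r), 64 * (MqV γ ψ q₁ q * MqV γ ψ q₁ r) +
        ∑ q ∈ s.filter (fun q => q < r), RestV ψ q₁ q r +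
        ∑ q ∈ s.filter (fun q => q < r), Ext2V γ ψ q₁ q r) := by
    intro r _
    rw [← Finset.sum_add_distrib, ← Finset.sum_add_distrib, Finset.mul_sum]
    exact Finset.sum_le_sum fun q hq =>
      pair_boundV h0 hC hq₁ hq₁0 R (Finset.mem_filter.mp hq).2
  refine (Finset.sum_le_sum h1).trans ?_
  rw [← Finset.mul_sum]
  apply mul_le_mul_of_nonneg_left _ hRR
  rw [Finset.sum_add_distrib, Finset.sum_add_distrib]
  set A := ∑ q ∈ s, MqV γ ψ q₁ q with hA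
  have hA0 : 0 ≤ A := Finset.sum_nonneg fun q _ => hM0 q
  have h2 : ∑ r ∈ s, ∑ q ∈ s.filter (fun q => q < r), 64 * (MqV γ ψ q₁ q * MqV γ ψ q₁ r) ≤
      64 * A ^ 2 := by
    have h3 : ∀ r ∈ s, ∑ q ∈ s.filter (fun q => q < r), 64 * (MqV γ ψ q₁ q * MqV γ ψ q₁ r) ≤
        64 * A * MqV γ ψ q₁ r := by
      intro r _
      have h4 : ∑ q ∈ s.filter (fun q => q < r), MqV γ ψ q₁ q ≤ A :=
        Finset.sum_le_sum_of_subset_of_nonneg (Finset.filter_subset _ _) (fun q _ _ => hM0 q)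
      have h5 : ∑ q ∈ s.filter (fun q => q < r), 64 * (MqV γ ψ q₁ q * MqV γ ψ q₁ r) =
          64 * (∑ q ∈ s.filter (fun q => q < r), MqV γ ψ q₁ q) * MqV γ ψ q₁ r := by
        rw [Finset.mul_sum, Finset.sum_mul]
        apply Finset.sum_congr rfl
        intro q _
        ring
      rw [h5]
      have := hM0 r
      gcongr
    refine (Finset.sum_le_sum h3).trans (le_of_eq ?_)
    rw [← Finset.mul_sum, ← hA]
    ring
  have h3 := sum_RestV_le (q₁ := q₁) h0 hC hq₁ hq₁0 s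
  have h4 : ∑ n ∈ s, rho ψ q₁ n * ((Nat.totient n : ℝ) / n) ≤ A :=
    Finset.sum_le_sum fun n _ => Mq_of_totient (γ := γ) h0 hq₁0 n
  have hKP : 0 ≤ KPsi C₀ := by
    unfold KPsi
    have := Kc_nonneg
    positivity
  have h5 : 32 * KPsi C₀ * ∑ n ∈ s, rho ψ q₁ n * ((Nat.totient n : ℝ) / n) ≤ 32 * KPsi C₀ * A := by
    gcongr
  have h6 := sum_Ext2V_le (γ := γ) (q₁ := q₁) h0 hC hq₁ hq₁0 s
  rw [← hA] at h6
  have h7 : KRV C₀ * A = 32 * KPsi C₀ * A + KEV C₀ * A := by unfold KRV; ring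
  rw [h7]
  linarith

/-- The second moment bound. -/
theorem second_momentV (h0 : ∀ q, 0 ≤ ψ q) (hC : 1 ≤ C₀) (hq₁ : ∀ q, q₁ ≤ q → LargeV ψ C₀ q)
    (hq₁0 : 0 < q₁) (R : ℕ) (s : Finset ℕ) :
    ∑ q ∈ s, ∑ r ∈ s, volume.real (SqV γ ψ q₁ q ∩ SqV γ ψ q₁ r ∩ Icc (-(R : ℝ)) R) ≤
      (2 * (R : ℝ) + 3) * (2 * ∑ q ∈ s, MqV γ ψ q₁ q) + 2 * ((2 * (R : ℝ) + 2) *
        (64 * (∑ q ∈ s, MqV γ ψ q₁ q) ^ 2 + KRV C₀ * ∑ q ∈ s, MqV γ ψ q₁ q)) := by
  rw [sum_symm s (fun q r => volume.real (SqV γ ψ q₁ q ∩ SqV γ ψ q₁ r ∩ Icc (-(R : ℝ)) R))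
    (fun q r => by simp only [inter_comm (SqV γ ψ q₁ q) (SqV γ ψ q₁ r)])]
  apply add_le_add
  · rw [Finset.mul_sum, Finset.mul_sum]
    exact Finset.sum_le_sum fun q _ => diag_leV h0 hC hq₁ hq₁0 R q
  · apply mul_le_mul_of_nonneg_left _ (by norm_num)
    exact sum_pairV h0 hC hq₁ hq₁0 R s

/-- The form of the second moment bound required by the zero-one mechanism. -/
theorem second_moment_existsV (h0 : ∀ q, 0 ≤ ψ q) (hC : 1 ≤ C₀)
    (hq₁ : ∀ q, q₁ ≤ q → LargeV ψ C₀ q) (hq₁0 : 0 < q₁) (hdiv : ¬ Summable (MqV γ ψ q₁)) (R : ℕ) :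
    ∃ C : ℝ, ∀ X₀ : ℕ, 1 ≤ X₀ → ∀ M : ℕ, ∃ X : ℕ, M ≤ X ∧
      ∑ q ∈ Finset.Icc X₀ X, ∑ r ∈ Finset.Icc X₀ X,
        volume.real (SqV γ ψ q₁ q ∩ SqV γ ψ q₁ r ∩ Icc (-(R : ℝ)) R) ≤
        C * (∑ q ∈ Finset.Icc X₀ X, MqV γ ψ q₁ q) ^ 2 := by
  have hR : (0 : ℝ) ≤ (R : ℝ) := Nat.cast_nonneg _
  refine ⟨(2 * (R : ℝ) + 3) * 2 + 2 * ((2 * (R : ℝ) + 2) * (64 + |KRV C₀|)), ?_⟩
  intro X₀ hX₀ M
  have hM0 := fun q => MqV_nonneg (γ := γ) (q₁ := q₁) h0 q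
  have h1 := (not_summable_iff_tendsto_nat_atTop_of_nonneg hM0).mp hdiv
  have h2 : Tendsto (fun X => ∑ q ∈ Finset.range (X + 1), MqV γ ψ q₁ q -
      ∑ q ∈ Finset.range X₀, MqV γ ψ q₁ q) atTop atTop :=
    tendsto_atTop_add_const_right _ _ (h1.comp (tendsto_add_atTop_nat 1))
  obtain ⟨M', hM'⟩ := eventually_atTop.mp (h2.eventually_ge_atTop 1)
  refine ⟨max (max M M') X₀, (le_max_left _ _).trans (le_max_left _ _), ?_⟩
  set X := max (max M M') X₀ with hX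
  have hXX₀ : X₀ ≤ X := le_max_right _ _
  have hXM' : M' ≤ X := (le_max_right _ _).trans (le_max_left _ _)
  have h4 : ∑ q ∈ Finset.range (X + 1), MqV γ ψ q₁ q - ∑ q ∈ Finset.range X₀, MqV γ ψ q₁ q =
      ∑ q ∈ Finset.Icc X₀ X, MqV γ ψ q₁ q := by
    have h5 : Finset.Icc X₀ X = Finset.Ico X₀ (X + 1) := by
      ext q
      simp only [Finset.mem_Icc, Finset.mem_Ico]
      omega
    rw [h5]
    have h6 := Finset.sum_range_add_sum_Ico (fun q => MqV γ ψ q₁ q) (show X₀ ≤ X + 1 by omega)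
    linarith
  set A := ∑ q ∈ Finset.Icc X₀ X, MqV γ ψ q₁ q with hA
  have h5 : 1 ≤ A := by
    rw [← h4]
    exact hM' X hXM'
  refine (second_momentV h0 hC hq₁ hq₁0 R _).trans ?_
  rw [← hA]
  have h6 : A ≤ A ^ 2 := by nlinarith
  have h7 : (2 * (R : ℝ) + 3) * (2 * A) ≤ (2 * (R : ℝ) + 3) * (2 * A ^ 2) := by gcongr
  have h8 : 64 * A ^ 2 + KRV C₀ * A ≤ 64 * A ^ 2 + |KRV C₀| * A ^ 2 := by
    have h9 : KRV C₀ * A ≤ |KRV C₀| * A := by
      have := le_abs_self (KRV C₀)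
      gcongr
    have h10 : |KRV C₀| * A ≤ |KRV C₀| * A ^ 2 := by gcongr
    linarith
  have h9 : 2 * ((2 * (R : ℝ) + 2) * (64 * A ^ 2 + KRV C₀ * A)) ≤
      2 * ((2 * (R : ℝ) + 2) * (64 * A ^ 2 + |KRV C₀| * A ^ 2)) := by gcongr
  calc _ ≤ (2 * (R : ℝ) + 3) * (2 * A ^ 2) + 2 * ((2 * (R : ℝ) + 2) *
        (64 * A ^ 2 + |KRV C₀| * A ^ 2)) := add_le_add h7 h9
    _ = _ := by ring

/-- The integers discarded from the series contribute a convergent sum. -/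
theorem summable_badV (h0 : ∀ q, 0 ≤ ψ q) (hC : 1 ≤ C₀) (hq₁ : ∀ q, q₁ ≤ q → LargeV ψ C₀ q) :
    Summable (fun q => ψ q - rho ψ q₁ q) := by
  classical
  have hC0 : 0 < C₀ := by linarith
  have hc : Summable (fun j : ℕ => (1 + 22 * C₀) * (1 / (j : ℝ) ^ 2)) :=
    (Real.summable_one_div_nat_pow.mpr (by norm_num)).mul_left _
  refine summable_of_dyadic (c := fun j : ℕ => (1 + 22 * C₀) * (1 / (j : ℝ) ^ 2))
    (fun q => by have := rho_le (q₁ := q₁) h0 q; linarith) (fun j => by positivity) hc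
    (jj q₁ + 1) ?_
  intro j hj
  have hjpos : 0 < j := by omega
  have hj' : (0 : ℝ) < j := by exact_mod_cast hjpos
  have hj1 : (1 : ℝ) ≤ j := by exact_mod_cast hjpos
  set ℓ := Nat.log 2 j + 1 with hℓ
  have hjℓ : (j : ℝ) ≤ 2 ^ ℓ := by
    have : j < 2 ^ ℓ := Nat.lt_pow_succ_log_self (by norm_num) j
    exact_mod_cast this.le
  have hj3 : (j : ℝ) ^ 3 ≤ 2 ^ (3 * ℓ) := by
    rw [mul_comm, pow_mul]
    gcongr
  set P : ℝ := (2 : ℝ) ^ j with hP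
  have hPpos : 0 < P := by positivity
  set B2 := (Finset.Ioc 0 (2 ^ (j + 1))).filter
    (fun n : ℕ => (2 : ℝ) ^ (3 * ℓ) < ((Nat.divisors n).card : ℝ)) with hB2
  set B3 := (Finset.Ioc 0 (2 ^ (j + 1))).filter
    (fun n : ℕ => (1 / 2 : ℝ) < ∑ p ∈ n.primeFactors.filter (fun p : ℕ => 6 * ℓ < p), (1 : ℝ) / p)
    with hB3
  -- pointwise bound
  have hpoint : ∀ q ∈ Finset.Ico (2 ^ j) (2 ^ (j + 1)), ψ q - rho ψ q₁ q ≤
      1 / (P * (j : ℝ) ^ 2) + (if q ∈ B2 then C₀ / P else 0) + (if q ∈ B3 then C₀ / P else 0) := by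
    intro q hq
    obtain ⟨hq1, hq2⟩ := Finset.mem_Ico.mp hq
    have hq0 : 0 < q := lt_of_lt_of_le (by positivity) hq1
    have hq' : P ≤ q := by
      rw [hP]
      exact_mod_cast hq1
    have hqpos : (0 : ℝ) < q := by linarith
    have hjq : jj q = j := by
      unfold jj
      exact Nat.log_eq_of_pow_le_of_lt_pow hq1 hq2
    have hlq : ll q = ℓ := by
      unfold ll
      rw [show Nat.log 2 q = j from hjq]
    have hqq₁ : q₁ ≤ q := by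
      have h1 : q₁ < 2 ^ (jj q₁ + 1) := lt_pow_jj q₁
      have h2 : 2 ^ (jj q₁ + 1) ≤ 2 ^ j := Nat.pow_le_pow_right (by norm_num) hj
      omega
    have hL := hq₁ q hqq₁
    have hℓ1 : (1 : ℝ) ≤ ℓ := by
      have : 1 ≤ ℓ := by omega
      exact_mod_cast this
    have hcap : ψ q ≤ C₀ / P := by
      refine hL.2.2.2.trans ?_
      exact div_le_div_of_nonneg_left hC0.le hPpos hq'
    have hif2 : 0 ≤ (if q ∈ B2 then C₀ / P else 0) := by
      split_ifs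
      · positivity
      · exact le_refl _
    have hif3 : 0 ≤ (if q ∈ B3 then C₀ / P else 0) := by
      split_ifs
      · positivity
      · exact le_refl _
    have hfirst : 0 < 1 / (P * (j : ℝ) ^ 2) := by positivity
    by_cases hG : Good ψ q
    · have h1 : rho ψ q₁ q = ψ q := by
        unfold rho
        rw [if_pos ⟨hqq₁, hG⟩]
      rw [h1, sub_self]
      positivity
    · have h1 : rho ψ q₁ q = 0 := by
        unfold rho
        rw [if_neg]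
        exact fun h => hG h.2
      rw [h1, sub_zero]
      unfold Good at hG
      rw [hjq, hlq] at hG
      have hzq : zz q = 6 * ℓ := by unfold zz; rw [hlq]
      rw [hzq] at hG
      by_cases hG1 : 1 / ((q : ℝ) * (j : ℝ) ^ 2) ≤ ψ q
      · by_cases hG2 : ((q.divisors.card : ℕ) : ℝ) ≤ 2 ^ (3 * ℓ)
        · have hG3 : ¬ ∑ p ∈ q.primeFactors.filter (fun p : ℕ => 6 * ℓ < p), (1 : ℝ) / p ≤ 1 / 2 :=
            fun h => hG ⟨hG1, hG2, h⟩
          have hmem : q ∈ B3 := by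
            rw [hB3, Finset.mem_filter, Finset.mem_Ioc]
            exact ⟨⟨hq0, hq2.le⟩, not_le.mp hG3⟩
          rw [if_pos hmem]
          linarith
        · have hmem : q ∈ B2 := by
            rw [hB2, Finset.mem_filter, Finset.mem_Ioc]
            exact ⟨⟨hq0, hq2.le⟩, not_le.mp hG2⟩
          rw [if_pos hmem]
          linarith
      · have h2 : ψ q < 1 / ((q : ℝ) * (j : ℝ) ^ 2) := not_le.mp hG1
        have h3 : 1 / ((q : ℝ) * (j : ℝ) ^ 2) ≤ 1 / (P * (j : ℝ) ^ 2) := by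
          apply one_div_le_one_div_of_le (by positivity)
          gcongr
        linarith
  refine (Finset.sum_le_sum hpoint).trans ?_
  rw [Finset.sum_add_distrib, Finset.sum_add_distrib, Finset.sum_const, Finset.sum_ite_mem,
    Finset.sum_ite_mem, Finset.sum_const, Finset.sum_const, nsmul_eq_mul, nsmul_eq_mul,
    nsmul_eq_mul]
  have hblock : ((Finset.Ico (2 ^ j) (2 ^ (j + 1))).card : ℝ) = P := by
    rw [Nat.card_Ico]
    have : 2 ^ (j + 1) - 2 ^ j = 2 ^ j := by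
      rw [pow_succ]
      omega
    rw [this, hP]
    push_cast
    rfl
  have hs1 : ((Finset.Ico (2 ^ j) (2 ^ (j + 1))).card : ℝ) * (1 / (P * (j : ℝ) ^ 2)) =
      1 / (j : ℝ) ^ 2 := by
    rw [hblock]
    field_simp
  -- the second family
  have hlog : Real.log ((2 ^ (j + 1) : ℕ) : ℝ) ≤ (j : ℝ) + 1 := by
    push_cast
    rw [Real.log_pow]
    have h1 : Real.log 2 ≤ 1 := by
      have := Real.log_two_lt_d9
      linarith
    have h2 : (0 : ℝ) ≤ ((j + 1 : ℕ) : ℝ) := Nat.cast_nonneg _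
    push_cast at h2 ⊢
    nlinarith
  have hB2card : (B2.card : ℝ) * (j : ℝ) ^ 3 ≤ 2 * P * ((j : ℝ) + 2) := by
    have h1 := card_many_divisors_le (2 ^ (j + 1)) (2 ^ (3 * ℓ)) (by positivity)
    have h2 : (B2.card : ℝ) * (2 : ℝ) ^ (3 * ℓ) ≤
        ((2 ^ (j + 1) : ℕ) : ℝ) * (1 + Real.log ((2 ^ (j + 1) : ℕ) : ℝ)) := h1
    have h3 : ((2 ^ (j + 1) : ℕ) : ℝ) = 2 * P := by
      rw [hP]
      push_cast
      ring
    rw [h3] at h2
    rw [h3] at hlog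
    calc (B2.card : ℝ) * (j : ℝ) ^ 3 ≤ (B2.card : ℝ) * (2 : ℝ) ^ (3 * ℓ) := by gcongr
      _ ≤ _ := h2
      _ ≤ 2 * P * ((j : ℝ) + 2) := by
        have : 1 + Real.log (2 * P) ≤ (j : ℝ) + 2 := by linarith
        gcongr
  have hB3card : (B3.card : ℝ) * (j : ℝ) ^ 3 ≤ 16 * P := by
    have h1 := card_large_primes_le (2 ^ (j + 1)) (6 * ℓ) (by omega)
    have h2 : (B3.card : ℝ) * Real.exp (((6 * ℓ : ℕ) : ℝ) / 2) ≤
        ((2 ^ (j + 1) : ℕ) : ℝ) * Real.exp 2 := h1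
    have h3 : ((2 ^ (j + 1) : ℕ) : ℝ) = 2 * P := by
      rw [hP]
      push_cast
      ring
    rw [h3] at h2
    have h4 : (2 : ℝ) ^ (3 * ℓ) ≤ Real.exp (((6 * ℓ : ℕ) : ℝ) / 2) := by
      have h5 : ((6 * ℓ : ℕ) : ℝ) / 2 = ((3 * ℓ : ℕ) : ℝ) := by
        push_cast
        ring
      rw [h5]
      have h6 : Real.exp (((3 * ℓ : ℕ) : ℝ)) = Real.exp 1 ^ (3 * ℓ) := by
        rw [← Real.exp_nat_mul]
        simp
      rw [h6]
      have h7 : (2 : ℝ) ≤ Real.exp 1 := by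
        have := Real.exp_one_gt_d9
        linarith
      gcongr
    have h8 : Real.exp 2 ≤ 8 := by
      have h9 : Real.exp 2 = Real.exp 1 * Real.exp 1 := by
        rw [← Real.exp_add]
        norm_num
      have := Real.exp_one_lt_d9
      have h10 := Real.exp_pos 1
      rw [h9]
      nlinarith
    calc (B3.card : ℝ) * (j : ℝ) ^ 3 ≤ (B3.card : ℝ) * Real.exp (((6 * ℓ : ℕ) : ℝ) / 2) := by
          gcongr
          exact hj3.trans h4
      _ ≤ 2 * P * Real.exp 2 := h2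
      _ ≤ 2 * P * 8 := by gcongr
      _ = _ := by ring
  have hinter2 : (((Finset.Ico (2 ^ j) (2 ^ (j + 1))) ∩ B2).card : ℝ) ≤ B2.card := by
    exact_mod_cast Finset.card_le_card Finset.inter_subset_right
  have hinter3 : (((Finset.Ico (2 ^ j) (2 ^ (j + 1))) ∩ B3).card : ℝ) ≤ B3.card := by
    exact_mod_cast Finset.card_le_card Finset.inter_subset_right
  have hs2 : (((Finset.Ico (2 ^ j) (2 ^ (j + 1))) ∩ B2).card : ℝ) * (C₀ / P) ≤
      6 * C₀ * (1 / (j : ℝ) ^ 2) := by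
    calc _ ≤ (B2.card : ℝ) * (C₀ / P) := by gcongr
      _ ≤ (2 * P * ((j : ℝ) + 2) / (j : ℝ) ^ 3) * (C₀ / P) := by
        gcongr
        rw [le_div_iff₀ (by positivity)]
        exact hB2card
      _ = 2 * ((j : ℝ) + 2) / (j : ℝ) * C₀ * (1 / (j : ℝ) ^ 2) := by
        field_simp
      _ ≤ 6 * C₀ * (1 / (j : ℝ) ^ 2) := by
        have h5 : 2 * ((j : ℝ) + 2) / (j : ℝ) ≤ 6 := by
          rw [div_le_iff₀ hj']
          linarith
        gcongr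
  have hs3 : (((Finset.Ico (2 ^ j) (2 ^ (j + 1))) ∩ B3).card : ℝ) * (C₀ / P) ≤
      16 * C₀ * (1 / (j : ℝ) ^ 2) := by
    calc _ ≤ (B3.card : ℝ) * (C₀ / P) := by gcongr
      _ ≤ (16 * P / (j : ℝ) ^ 3) * (C₀ / P) := by
        gcongr
        rw [le_div_iff₀ (by positivity)]
        exact hB3card
      _ = 16 * (1 / (j : ℝ)) * C₀ * (1 / (j : ℝ) ^ 2) := by
        field_simp
      _ ≤ 16 * 1 * C₀ * (1 / (j : ℝ) ^ 2) := by
        have h5 : 1 / (j : ℝ) ≤ 1 := by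
          rw [div_le_one hj']
          exact hj1
        gcongr
      _ = _ := by ring
  rw [hs1]
  have h6 : (1 + 22 * C₀) * (1 / (j : ℝ) ^ 2) =
      1 / (j : ℝ) ^ 2 + 6 * C₀ * (1 / (j : ℝ) ^ 2) + 16 * C₀ * (1 / (j : ℝ) ^ 2) := by ring
  rw [h6]
  linarith

/-- The divergence survives the restriction to good integers. -/
theorem not_summable_MqV (h0 : ∀ q, 0 ≤ ψ q) (hC : 1 ≤ C₀) (hq₁ : ∀ q, q₁ ≤ q → LargeV ψ C₀ q)
    (hdiv : ¬ Summable fun q : ℕ => (Nat.totient q : ℝ) / q * ψ q) :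
    ¬ Summable (MqV γ ψ q₁) := by
  intro hs
  apply hdiv
  have hb := summable_badV (q₁ := q₁) h0 hC hq₁
  refine Summable.of_nonneg_of_le (fun q => ?_) (fun q => ?_) (hs.add hb)
  · have := h0 q
    positivity
  · have hρ := rho_nonneg (q₁ := q₁) h0 q
    have hρ2 := rho_le (q₁ := q₁) h0 q
    rcases Nat.eq_zero_or_pos q with rfl | hq
    · simp only [Nat.cast_zero, div_zero, zero_mul]
      have := MqV_nonneg (γ := γ) (q₁ := q₁) h0 0
      linarith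
    · have hq' : (0 : ℝ) < q := by exact_mod_cast hq
      have h1 : (Nat.totient q : ℝ) / q ≤ 1 := by
        rw [div_le_one hq']
        exact_mod_cast Nat.totient_le q
      have h2 : (Nat.totient q : ℝ) / q ≤ Dz q (BBV γ (jj q)) (zz q) := totient_div_le_Dz hq.ne' _ _
      have h3 : (0 : ℝ) ≤ (Nat.totient q : ℝ) / q := by positivity
      unfold MqV
      calc (Nat.totient q : ℝ) / q * ψ q
          = (Nat.totient q : ℝ) / q * rho ψ q₁ q + (Nat.totient q : ℝ) / q * (ψ q - rho ψ q₁ q) := by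
            ring
        _ ≤ rho ψ q₁ q * Dz q (BBV γ (jj q)) (zz q) + 1 * (ψ q - rho ψ q₁ q) := by
            have h4 : 0 ≤ ψ q - rho ψ q₁ q := by linarith
            have h5 : (Nat.totient q : ℝ) / q * rho ψ q₁ q ≤ Dz q (BBV γ (jj q)) (zz q) * rho ψ q₁ q := by
              gcongr
            have h6 : (Nat.totient q : ℝ) / q * (ψ q - rho ψ q₁ q) ≤ 1 * (ψ q - rho ψ q₁ q) := by
              gcongr
            linarith
        _ = _ := by ring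

/-- Equidistribution. -/
theorem equidistributionV (h0 : ∀ q, 0 ≤ ψ q) (hC : 1 ≤ C₀) (hq₁ : ∀ q, q₁ ≤ q → LargeV ψ C₀ q)
    (hq₁0 : 0 < q₁) (N : ℕ) (hN : 0 < N) :
    ∃ q₀ : ℕ, ∀ q, q₀ ≤ q → ∀ j : ℤ,
      ENNReal.ofReal ((1 / 4) * MqV γ ψ q₁ q * (1 / N)) ≤ volume (SqV γ ψ q₁ q ∩ gridI N j) := by
  refine ⟨max q₁ (2 ^ N), fun q hq j => ?_⟩
  have hq1 : q₁ ≤ q := (le_max_left _ _).trans hq
  have hq2 : 2 ^ N ≤ q := (le_max_right _ _).trans hq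
  by_cases hρ : rho ψ q₁ q = 0
  · have h1 : MqV γ ψ q₁ q = 0 := by unfold MqV; rw [hρ, zero_mul]
    rw [h1]
    simp
  obtain ⟨_, hG, hE⟩ := rho_spec hρ
  have hL := hq₁ q hq1
  have hqpos : 0 < q := lt_of_lt_of_le hq₁0 hq1
  have hq' : (0 : ℝ) < q := by exact_mod_cast hqpos
  have hN' : (0 : ℝ) < N := by exact_mod_cast hN
  obtain ⟨hj, hℓ4, _, _⟩ := hL
  have hNj : N ≤ jj q := Nat.le_log_of_pow_le (by norm_num) hq2
  have hNℓ : N ≤ 2 ^ ll q := (hNj.trans (jj_lt_pow q).le)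
  have hbig : N * 2 ^ (15 * ll q + 4) ≤ q := by
    calc N * 2 ^ (15 * ll q + 4) ≤ 2 ^ ll q * 2 ^ (15 * ll q + 4) := Nat.mul_le_mul_right _ hNℓ
      _ = 2 ^ (16 * ll q + 4) := by rw [← pow_add]; congr 1; ring
      _ ≤ 2 ^ jj q := Nat.pow_le_pow_right (by norm_num) (by omega)
      _ ≤ q := pow_jj_le hqpos.ne'
  have hbig' : (N : ℝ) * 2 ^ (15 * ll q + 4) ≤ q := by exact_mod_cast hbig
  have hNq : (q : ℝ) * (1 / N) = q / N := by ring
  have hdiv : (2 : ℝ) ^ (15 * ll q + 4) ≤ q / N := by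
    rw [le_div_iff₀ hN']
    linarith
  have hη : 4 ≤ (q : ℝ) * (1 / N) := by
    rw [hNq]
    refine le_trans ?_ hdiv
    have h1 : (2 : ℝ) ^ (15 * ll q + 4) = 2 ^ (15 * ll q) * 16 := by
      rw [pow_add]
      norm_num
    have h2 : (1 : ℝ) ≤ 2 ^ (15 * ll q) := one_le_pow₀ (by norm_num)
    rw [h1]
    linarith
  have hQz : (Qz q (BBV γ (jj q)) (zz q) : ℝ) ≤ 2 ^ (12 * ll q) := by
    have h1 : Qz q (BBV γ (jj q)) (zz q) ≤ 4 ^ zz q := Qz_le _ _ _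
    have h3 : (4 : ℕ) ^ zz q = 2 ^ (12 * ll q) := by
      rw [show (4 : ℕ) = 2 ^ 2 by norm_num, ← pow_mul]
      congr 1
      unfold zz
      ring
    rw [h3] at h1
    exact_mod_cast h1
  have hω : (q.primeFactors.card : ℝ) ≤ 2 ^ (3 * ll q) := by
    refine le_trans ?_ hG.2.1
    exact_mod_cast Finset.card_le_card
      (fun p hp => Nat.mem_divisors.mpr ⟨Nat.dvd_of_mem_primeFactors hp, hqpos.ne'⟩)
  have hbound : 4 * (Qz q (BBV γ (jj q)) (zz q) : ℝ) * (1 + (q.primeFactors.card : ℝ)) ≤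
      (q : ℝ) * (1 / N) / 2 := by
    rw [hNq]
    have h1 : (1 : ℝ) ≤ 2 ^ (3 * ll q) := one_le_pow₀ (by norm_num)
    have h2 : 1 + (q.primeFactors.card : ℝ) ≤ 2 * 2 ^ (3 * ll q) := by linarith
    have h3 : (Qz q (BBV γ (jj q)) (zz q) : ℝ) * (1 + (q.primeFactors.card : ℝ)) ≤
        2 ^ (12 * ll q) * (2 * 2 ^ (3 * ll q)) := by
      have h4 : (0 : ℝ) ≤ 1 + (q.primeFactors.card : ℝ) := by positivity
      have h5 : (0 : ℝ) ≤ 2 ^ (12 * ll q) := by positivity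
      exact mul_le_mul hQz h2 h4 h5
    have h6 : (2 : ℝ) ^ (12 * ll q) * (2 * 2 ^ (3 * ll q)) = 2 * 2 ^ (15 * ll q) := by
      have : (2 : ℝ) ^ (15 * ll q) = 2 ^ (12 * ll q) * 2 ^ (3 * ll q) := by
        rw [← pow_add]; congr 1; ring
      rw [this]
      ring
    have h7 : (2 : ℝ) ^ (15 * ll q + 4) = 16 * 2 ^ (15 * ll q) := by
      rw [pow_add]
      norm_num
      ring
    rw [h6] at h3
    rw [h7] at hdiv
    nlinarith
  have h1 := le_volume_F_inter_Ico (γ := γ) (ρ := rho ψ q₁ q) (A := AAV γ (jj q)) (B := BBV γ (jj q)) (q := q)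
    (z := zz q) (u := (j : ℝ) / N) (η := 1 / N) hqpos (rho_nonneg h0 q)
    (rho_le_quarterV hC hq₁ q) (AAV_coprime γ (jj q)) hG.2.2 hη hbound
  have h2 : (1 / 4) * MqV γ ψ q₁ q * (1 / (N : ℝ)) =
      (1 / (N : ℝ)) * rho ψ q₁ q * Dz q (BBV γ (jj q)) (zz q) / 4 := by
    unfold MqV
    ring
  rw [h2]
  exact h1


/-- The main theorem for radii of size `O(1 / q)`. -/
theorem vaaler_core (h0 : ∀ q, 0 ≤ ψ q) (hC : 1 ≤ C₀) (hcap : ∀ᶠ q : ℕ in atTop, ψ q ≤ C₀ / q)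
    (hdiv : ¬ Summable fun q : ℕ => (Nat.totient q : ℝ) / q * ψ q) :
    ∀ᵐ x : ℝ, ∃ᶠ q : ℕ in atTop, ∃ a : ℤ, |(q : ℝ) * x - a - γ| < ψ q := by
  obtain ⟨q₁, hq₁0, hq₁⟩ := exists_largeV_threshold hcap
  have hM : ¬ Summable (MqV γ ψ q₁) := not_summable_MqV h0 hC hq₁ hdiv
  have h1 := ae_frequently_of_masses (SqV γ ψ q₁) (MqV γ ψ q₁) isOpen_SqV (MqV_nonneg h0) hM (1 / 4)
    (by norm_num) (fun N hN => equidistributionV h0 hC hq₁ hq₁0 N hN)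
    (second_moment_existsV h0 hC hq₁ hq₁0 hM)
  filter_upwards [h1] with x hx
  apply hx.mono
  intro q hq
  obtain ⟨a, _, ha⟩ := hq
  exact ⟨a, ha.trans_le (rho_le h0 q)⟩

end

/-- The inhomogeneous theorem in the range `ψ(q) = O(1 / q)`. -/
theorem vaaler_range (γ : ℝ) (ψ : ℕ → ℝ) (C₀ : ℝ) (h0 : ∀ q, 0 ≤ ψ q)
    (hcap : ∀ᶠ q : ℕ in atTop, ψ q ≤ C₀ / q)
    (hdiv : ¬ Summable fun q : ℕ => (Nat.totient q : ℝ) / q * ψ q) :
    ∀ᵐ x : ℝ, ∃ᶠ q : ℕ in atTop, ∃ a : ℤ, |(q : ℝ) * x - a - γ| < ψ q := by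
  refine vaaler_core (C₀ := max C₀ 1) h0 (le_max_right _ _) ?_ hdiv
  filter_upwards [hcap] with q hq
  refine hq.trans ?_
  apply div_le_div_of_nonneg_right (le_max_left _ _) (Nat.cast_nonneg _)

end Vale.Agent.P028
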