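import Vale.Agent.P028.VWeights

namespace Vale.Agent.P028

open Finset ArithmeticFunction

/-- The weight `∏ (1 + c p^(-1/4))`. -/
noncomputable def Aw (c : ℝ) (n : ℕ) : ℝ := Wt (fun p => 1 + c / fr p) n

lemma Aw_G_ge {c : ℝ} (hc : 0 ≤ c) (p : ℕ) (hp : p.Prime) : 1 ≤ 1 + c / fr p := by
  have hp' : (0 : ℝ) < p := by exact_mod_cast hp.pos
  have := fr_pos hp'
  have : 0 ≤ c / fr p := by positivity
  linarith

lemma one_le_Aw {c : ℝ} (hc : 0 ≤ c) (n : ℕ) : 1 ≤ Aw c n := Wt_one_le (Aw_G_ge hc) n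

lemma Aw_pos {c : ℝ} (hc : 0 ≤ c) (n : ℕ) : 0 < Aw c n := Wt_pos (Aw_G_ge hc) n

/-- First Dirichlet factor. -/
noncomputable def alphaF : ArithmeticFunction ℝ :=
  ⟨fun n => if n = 0 then 0 else 1 / fr n, by simp⟩

/-- Second Dirichlet factor. -/
noncomputable def betaF : ArithmeticFunction ℝ :=
  ⟨fun n => if n = 0 then 0 else 1 / Aw 2 n, by simp⟩

lemma alphaF_apply {n : ℕ} (hn : n ≠ 0) : alphaF n = 1 / fr n := by
  show (if n = 0 then (0 : ℝ) else 1 / fr n) = _
  rw [if_neg hn]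

lemma betaF_apply {n : ℕ} (hn : n ≠ 0) : betaF n = 1 / Aw 2 n := by
  show (if n = 0 then (0 : ℝ) else 1 / Aw 2 n) = _
  rw [if_neg hn]

lemma alphaF_mult : alphaF.IsMultiplicative := by
  refine ⟨?_, ?_⟩
  · rw [alphaF_apply one_ne_zero]
    simp [fr_one]
  · intro m n _
    rcases eq_or_ne m 0 with rfl | hm
    · simp
    rcases eq_or_ne n 0 with rfl | hn
    · simp
    rw [alphaF_apply (mul_ne_zero hm hn), alphaF_apply hm, alphaF_apply hn]
    push_cast
    rw [fr_mul (Nat.cast_nonneg _) (Nat.cast_nonneg _)]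
    rw [one_div_mul_one_div]

lemma betaF_mult : betaF.IsMultiplicative := by
  refine ⟨?_, ?_⟩
  · rw [betaF_apply one_ne_zero]
    simp [Aw, Wt]
  · intro m n hmn
    rcases eq_or_ne m 0 with rfl | hm
    · simp
    rcases eq_or_ne n 0 with rfl | hn
    · simp
    rw [betaF_apply (mul_ne_zero hm hn), betaF_apply hm, betaF_apply hn]
    have h : Aw 2 (m * n) = Aw 2 m * Aw 2 n := by
      unfold Aw Wt
      rw [Nat.Coprime.primeFactors_mul hmn, Finset.prod_union hmn.disjoint_primeFactors]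
    rw [h, one_div_mul_one_div]

/-- The divisor sum in the master lemma. -/
noncomputable def ffM (n : ℕ) : ℝ := ∑ g ∈ n.divisors, (1 / fr g) * (1 / Aw 2 (n / g))

lemma ffM_eq {n : ℕ} (hn : n ≠ 0) : ffM n = (alphaF * betaF) n := by
  rw [ArithmeticFunction.mul_apply,
    Nat.sum_divisorsAntidiagonal (f := fun a b => alphaF a * betaF b)]
  unfold ffM
  apply Finset.sum_congr rfl
  intro g hg
  have hg0 : g ≠ 0 := (Nat.pos_of_mem_divisors hg).ne'
  have hgd := Nat.dvd_of_mem_divisors hg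
  have h1 : n / g ≠ 0 := by
    intro h
    have := Nat.div_eq_zero_iff.mp h
    rcases this with h | h
    · exact hg0 h
    · exact absurd (Nat.le_of_dvd (Nat.pos_of_ne_zero hn) hgd) (by omega)
  rw [alphaF_apply hg0, betaF_apply h1]

lemma ffM_nonneg (n : ℕ) : 0 ≤ ffM n := by
  unfold ffM
  apply Finset.sum_nonneg
  intro g _
  have h1 : (0 : ℝ) ≤ g := Nat.cast_nonneg _
  have h2 := fr_nonneg h1
  have h3 := Aw_pos (show (0 : ℝ) ≤ 2 by norm_num) (n / g)
  positivity

lemma Aw_prime_pow {c : ℝ} {p m : ℕ} (hp : p.Prime) (hm : m ≠ 0) :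
    Aw c (p ^ m) = 1 + c / fr p := by
  unfold Aw Wt
  rw [Nat.primeFactors_prime_pow hm hp, Finset.prod_singleton]

/-- Closed form for the prime powers. -/
lemma ffM_prime_pow {p e : ℕ} (hp : p.Prime) :
    ffM (p ^ e) = ∑ i ∈ range e, (1 / fr p) ^ i * (1 / (1 + 2 * (1 / fr p))) + (1 / fr p) ^ e := by
  unfold ffM
  rw [Nat.sum_divisors_prime_pow hp, Finset.sum_range_succ]
  have hp' : (0 : ℝ) ≤ p := Nat.cast_nonneg _
  congr 1
  · apply Finset.sum_congr rfl
    intro i hi
    have hi' := Finset.mem_range.mp hi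
    have h1 : p ^ e / p ^ i = p ^ (e - i) := Nat.pow_div hi'.le hp.pos
    rw [h1, Aw_prime_pow hp (by omega)]
    push_cast
    rw [fr_pow hp', one_div_pow]
    congr 2
    ring
  · have h1 : p ^ e / p ^ e = 1 := Nat.div_self (pow_pos hp.pos e)
    rw [h1]
    have h2 : Aw 2 1 = 1 := by simp [Aw, Wt]
    rw [h2]
    push_cast
    rw [fr_pow hp', one_div_pow]
    simp

/-- The one-prime inequality for small `x`. -/
lemma one_prime_small {x : ℝ} (hx0 : 0 < x) (hx : x ≤ 2 / 5) (e : ℕ) (he : 1 ≤ e) :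
    ∑ i ∈ range e, x ^ i * (1 / (1 + 2 * x)) + x ^ e ≤ 1 - x ^ 4 := by
  induction e, he using Nat.le_induction with
  | base =>
    simp only [Finset.sum_range_one, pow_zero, one_mul, pow_one]
    have h1 : (0 : ℝ) < 1 + 2 * x := by positivity
    have h2 : 1 / (1 + 2 * x) + x ≤ 1 - x ^ 4 := by
      have h3 : 1 / (1 + 2 * x) + x = (1 + x * (1 + 2 * x)) / (1 + 2 * x) := by field_simp
      rw [h3, div_le_iff₀ h1]
      have h4 : x ^ 3 ≤ (2 / 5) ^ 3 := pow_le_pow_left₀ hx0.le hx 3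
      have h5 : x ^ 4 = x * x ^ 3 := by ring
      have h6 : x ^ 5 = x ^ 2 * x ^ 3 := by ring
      nlinarith [mul_pos hx0 hx0, pow_pos hx0 3]
    exact h2
  | succ e he ih =>
    rw [Finset.sum_range_succ]
    refine le_trans ?_ ih
    have h1 : (0 : ℝ) < 1 + 2 * x := by positivity
    have h2 : x ^ (e + 1) + x ^ e * (1 / (1 + 2 * x)) ≤ x ^ e := by
      have h3 : x ^ (e + 1) + x ^ e * (1 / (1 + 2 * x)) = x ^ e * (x + 1 / (1 + 2 * x)) := by
        rw [pow_succ]; ring
      rw [h3]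
      have h4 : x + 1 / (1 + 2 * x) ≤ 1 := by
        have h5 : x + 1 / (1 + 2 * x) = (x * (1 + 2 * x) + 1) / (1 + 2 * x) := by field_simp
        rw [h5, div_le_one h1]
        nlinarith
      have h5 : 0 < x ^ e := pow_pos hx0 e
      nlinarith
    linarith

/-- The one-prime inequality for general `x`. -/
lemma one_prime_large {x : ℝ} (hx0 : 0 < x) (hx : x ≤ 6 / 7) (e : ℕ) :
    ∑ i ∈ range e, x ^ i * (1 / (1 + 2 * x)) + x ^ e ≤ 7 := by
  have h1 : ∑ i ∈ range e, x ^ i * (1 / (1 + 2 * x)) + x ^ e ≤ ∑ i ∈ range (e + 1), x ^ i := by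
    rw [Finset.sum_range_succ]
    apply add_le_add_left
    apply Finset.sum_le_sum
    intro i _
    have h2 : 1 / (1 + 2 * x) ≤ 1 := by
      rw [div_le_one (by positivity)]
      linarith
    have h3 := pow_pos hx0 i
    nlinarith
  refine h1.trans ?_
  have h2 := sum_geom_le hx0.le (by linarith) (e + 1)
  refine h2.trans ?_
  rw [div_le_iff₀ (by linarith)]
  linarith

/-- The correction factor at a prime. -/
noncomputable def Kp (p : ℕ) : ℝ := if p < 41 then 14 else 1

lemma ffM_prime_pow_le {p e : ℕ} (hp : p.Prime) (he : 1 ≤ e) :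
    ffM (p ^ e) ≤ Kp p * (1 - (1 : ℝ) / p) := by
  rw [ffM_prime_pow hp]
  have hp2 : (2 : ℝ) ≤ p := by exact_mod_cast hp.two_le
  have hp0 : (0 : ℝ) < p := by linarith
  have hfr := fr_pos hp0
  set x : ℝ := 1 / fr p with hx
  have hx0 : 0 < x := by positivity
  have hx4 : x ^ 4 = 1 / p := by
    rw [hx, one_div_pow, fr_pow4 hp0.le]
  have hx' : (1 : ℝ) / p ≤ 1 / 2 := by
    apply one_div_le_one_div_of_le (by norm_num) hp2
  unfold Kp
  split_ifs with h
  · have h1 : x ≤ 6 / 7 := by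
      by_contra hc
      push Not at hc
      have h2 : (6 / 7 : ℝ) ^ 4 ≤ x ^ 4 := pow_le_pow_left₀ (by norm_num) hc.le 4
      rw [hx4] at h2
      norm_num at h2
      have h3 : ((p : ℝ))⁻¹ ≤ 2⁻¹ := by simpa using hx'
      linarith
    have h2 := one_prime_large hx0 h1 e
    have h3 : (14 : ℝ) * (1 - 1 / p) ≥ 7 := by linarith
    linarith
  · have h41 : (41 : ℝ) ≤ p := by
      have : 41 ≤ p := by omega
      exact_mod_cast this
    have h1 : x ≤ 2 / 5 := by
      by_contra hc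
      push Not at hc
      have h2 : (2 / 5 : ℝ) ^ 4 ≤ x ^ 4 := pow_le_pow_left₀ (by norm_num) hc.le 4
      rw [hx4] at h2
      have h3 : (1 : ℝ) / p ≤ 1 / 41 := one_div_le_one_div_of_le (by norm_num) h41
      norm_num at h2 h3
      linarith
    have h2 := one_prime_small hx0 h1 e he
    rw [hx4] at h2
    linarith

lemma Kp_nonneg (p : ℕ) : 0 ≤ Kp p := by unfold Kp; split_ifs <;> norm_num

lemma prod_Kp_le (s : Finset ℕ) : ∏ p ∈ s, Kp p ≤ 14 ^ 41 := by
  classical
  unfold Kp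
  rw [Finset.prod_ite, Finset.prod_const_one, mul_one, Finset.prod_const]
  apply pow_le_pow_right₀ (by norm_num)
  have h1 : s.filter (fun p => p < 41) ⊆ Finset.range 41 := by
    intro p hp
    exact Finset.mem_range.mpr (Finset.mem_filter.mp hp).2
  have h2 := Finset.card_le_card h1
  simpa using h2

/-- The master divisor lemma. -/
theorem master_lemma {n : ℕ} (hn : n ≠ 0) :
    ∑ g ∈ n.divisors, (1 / fr g) * (1 / Aw 2 (n / g)) ≤ 14 ^ 41 * ((Nat.totient n : ℝ) / n) := by
  have hmult : (alphaF * betaF).IsMultiplicative := alphaF_mult.mul betaF_mult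
  have h1 := hmult.multiplicative_factorization (alphaF * betaF) hn
  show ffM n ≤ _
  rw [ffM_eq hn, h1, Nat.prod_factorization_eq_prod_primeFactors, totient_div_eq_prod hn]
  have h2 : ∀ p ∈ n.primeFactors, (alphaF * betaF) (p ^ n.factorization p) ≤
      Kp p * (1 - (1 : ℝ) / p) := by
    intro p hp
    have hpp := Nat.prime_of_mem_primeFactors hp
    have he : 1 ≤ n.factorization p := by
      have := hpp.factorization_pos_of_dvd hn (Nat.dvd_of_mem_primeFactors hp)
      omega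
    rw [← ffM_eq (pow_ne_zero _ hpp.ne_zero)]
    exact ffM_prime_pow_le hpp he
  have h3 : ∀ p ∈ n.primeFactors, 0 ≤ (alphaF * betaF) (p ^ n.factorization p) := by
    intro p hp
    have hpp := Nat.prime_of_mem_primeFactors hp
    rw [← ffM_eq (pow_ne_zero _ hpp.ne_zero)]
    exact ffM_nonneg _
  refine (Finset.prod_le_prod h3 h2).trans ?_
  rw [Finset.prod_mul_distrib]
  apply mul_le_mul_of_nonneg_right (prod_Kp_le _)
  apply Finset.prod_nonneg
  intro p hp
  have hpp := Nat.prime_of_mem_primeFactors hp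
  have hp2 : (2 : ℝ) ≤ p := by exact_mod_cast hpp.two_le
  have : (1 : ℝ) / p ≤ 1 / 2 := one_div_le_one_div_of_le (by norm_num) hp2
  linarith

end Vale.Agent.P028
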