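import Vale.Agent.P028.VRestB

open MeasureTheory Set Filter Topology
open scoped ENNReal

namespace Vale.Agent.P028

/-- The sum of reciprocals of the primes of `n` above `v`. -/
noncomputable def Gv (v n : ℕ) : ℝ := ∑ p ∈ n.primeFactors.filter (fun p => v < p), (1 : ℝ) / p

lemma Dz_eq_prod (q B z : ℕ) :
    Dz q B z = ∏ p ∈ q.primeFactors.filter (fun p => p ≤ z ∧ ¬ p ∣ B), (1 - (1 : ℝ) / p) := by
  unfold Dz
  rw [totient_div_eq_prod (Qz_pos q B z).ne']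
  unfold Qz
  rw [Nat.primeFactors_prod (fun p hp => Nat.prime_of_mem_primeFactors (Finset.mem_of_mem_filter p hp))]

/-- Lowering the sieve level costs at most a factor two when few primes are removed. -/
lemma Dz_min_le {q B v z : ℕ} (hG : Gv v q ≤ 1 / 3) : Dz q B (min v z) ≤ 2 * Dz q B z := by
  classical
  have hD0 := Dz_nonneg q B z
  rcases le_total z v with h | h
  · rw [min_eq_right h]
    linarith
  rw [min_eq_left h]
  have hsub : q.primeFactors.filter (fun p => p ≤ v ∧ ¬ p ∣ B) ⊆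
      q.primeFactors.filter (fun p => p ≤ z ∧ ¬ p ∣ B) := by
    intro p hp
    obtain ⟨h1, h2, h3⟩ := Finset.mem_filter.mp hp
    exact Finset.mem_filter.mpr ⟨h1, by omega, h3⟩
  set E := q.primeFactors.filter (fun p => p ≤ z ∧ ¬ p ∣ B) \
    q.primeFactors.filter (fun p => p ≤ v ∧ ¬ p ∣ B) with hE
  rw [Dz_eq_prod q B z, Dz_eq_prod q B v, ← Finset.prod_sdiff hsub, ← hE]
  have hEprime : ∀ p ∈ E, p.Prime ∧ v < p ∧ p ∈ q.primeFactors := by
    intro p hp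
    obtain ⟨h1, h2⟩ := Finset.mem_sdiff.mp hp
    obtain ⟨h3, h4, h5⟩ := Finset.mem_filter.mp h1
    refine ⟨Nat.prime_of_mem_primeFactors h3, ?_, h3⟩
    by_contra hc
    exact h2 (Finset.mem_filter.mpr ⟨h3, by omega, h5⟩)
  have h1 : 1 - ∑ p ∈ E, (1 : ℝ) / p ≤ ∏ p ∈ E, (1 - (1 : ℝ) / p) :=
    one_sub_sum_le_prod E (fun p => (1 : ℝ) / p) (fun p _ => by positivity) (fun p hp => by
      have h2 := (hEprime p hp).1.one_lt
      have h3 : (1 : ℝ) ≤ p := by exact_mod_cast h2.le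
      rw [div_le_one (by linarith)]
      exact h3)
  have h2 : ∑ p ∈ E, (1 : ℝ) / p ≤ Gv v q := by
    unfold Gv
    apply Finset.sum_le_sum_of_subset_of_nonneg
    · intro p hp
      obtain ⟨_, h3, h4⟩ := hEprime p hp
      exact Finset.mem_filter.mpr ⟨h4, h3⟩
    · intro _ _ _; positivity
  have h3 : (1 / 2 : ℝ) ≤ ∏ p ∈ E, (1 - (1 : ℝ) / p) := by linarith
  set X := ∏ p ∈ q.primeFactors.filter (fun p => p ≤ v ∧ ¬ p ∣ B), (1 - (1 : ℝ) / p) with hX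
  have hX0 : 0 ≤ X := by
    apply Finset.prod_nonneg
    intro p hp
    have h4 := (Nat.prime_of_mem_primeFactors (Finset.mem_of_mem_filter p hp)).one_lt
    have h5 : (1 : ℝ) ≤ p := by exact_mod_cast h4.le
    have h6 : (1 : ℝ) / p ≤ 1 := by
      rw [div_le_one (by linarith)]
      exact h5
    linarith
  nlinarith

open scoped Classical in
/-- Extra term for windows of size at least one half in which the sieve loses. -/
noncomputable def RestV (ψ : ℕ → ℝ) (q₁ q r : ℕ) : ℝ :=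
  if rho ψ q₁ q ≠ 0 ∧ rho ψ q₁ r ≠ 0 ∧ 1 / 2 ≤ Wq ψ q₁ q r ∧
      (1 / 3 < Gv (vv (Wq ψ q₁ q r)) q ∨ 1 / 3 < Gv (vv (Wq ψ q₁ q r)) r) then
    16 * (rho ψ q₁ q * rho ψ q₁ r) else 0

open scoped Classical in
/-- Extra term for small windows. -/
noncomputable def Ext2V (γ : ℝ) (ψ : ℕ → ℝ) (q₁ q r : ℕ) : ℝ :=
  if rho ψ q₁ q ≠ 0 ∧ rho ψ q₁ r ≠ 0 ∧ Wq ψ q₁ q r < 1 / 2 ∧ PairExV γ ψ q₁ q r then
    4 * (Nat.gcd q r : ℝ) * min (rho ψ q₁ q / q) (rho ψ q₁ r / r) else 0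

section

variable {γ : ℝ} {ψ : ℕ → ℝ} {C₀ : ℝ} {q₁ : ℕ}

lemma RestV_nonneg (h0 : ∀ q, 0 ≤ ψ q) (q r : ℕ) : 0 ≤ RestV ψ q₁ q r := by
  unfold RestV
  have h1 := rho_nonneg (q₁ := q₁) h0 q
  have h2 := rho_nonneg (q₁ := q₁) h0 r
  split_ifs
  · positivity
  · exact le_refl _

lemma Ext2V_nonneg (h0 : ∀ q, 0 ≤ ψ q) (q r : ℕ) : 0 ≤ Ext2V γ ψ q₁ q r := by
  unfold Ext2V
  have h1 := rho_nonneg (q₁ := q₁) h0 q
  have h2 := rho_nonneg (q₁ := q₁) h0 r
  split_ifs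
  · have : 0 ≤ min (rho ψ q₁ q / q) (rho ψ q₁ r / r) := le_min (by positivity) (by positivity)
    positivity
  · exact le_refl _

/-- Bound for a single pair. -/
theorem pair_boundV (h0 : ∀ q, 0 ≤ ψ q) (hC : 1 ≤ C₀) (hq₁ : ∀ q, q₁ ≤ q → LargeV ψ C₀ q)
    (hq₁0 : 0 < q₁) (R : ℕ) {q r : ℕ} (hqr : q < r) :
    volume.real (SqV γ ψ q₁ q ∩ SqV γ ψ q₁ r ∩ Icc (-(R : ℝ)) R) ≤
      (2 * (R : ℝ) + 2) * (64 * (MqV γ ψ q₁ q * MqV γ ψ q₁ r) +
        RestV ψ q₁ q r + Ext2V γ ψ q₁ q r) := by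
  classical
  have hif1 := RestV_nonneg (q₁ := q₁) h0 q r
  have hif2 := Ext2V_nonneg (γ := γ) (q₁ := q₁) h0 q r
  set ρ := rho ψ q₁ q with hρ
  set σ := rho ψ q₁ r with hσ
  set W := Wq ψ q₁ q r with hW
  have hρ0 : 0 ≤ ρ := rho_nonneg h0 q
  have hσ0 : 0 ≤ σ := rho_nonneg h0 r
  have hM1 : 0 ≤ MqV γ ψ q₁ q := MqV_nonneg h0 q
  have hM2 : 0 ≤ MqV γ ψ q₁ r := MqV_nonneg h0 r
  have hR' : (0 : ℝ) ≤ (R : ℝ) := Nat.cast_nonneg _
  have hRR : (0 : ℝ) < 2 * (R : ℝ) + 2 := by positivity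
  have hnn : 0 ≤ 64 * (MqV γ ψ q₁ q * MqV γ ψ q₁ r) := by positivity
  by_cases hρne : ρ = 0
  · have h1 : SqV γ ψ q₁ q = ∅ := SqV_empty hρne
    rw [h1]
    simp only [empty_inter, measureReal_empty]
    exact mul_nonneg hRR.le (by linarith)
  by_cases hσne : σ = 0
  · have h1 : SqV γ ψ q₁ r = ∅ := SqV_empty hσne
    rw [h1]
    simp only [inter_empty, empty_inter, measureReal_empty]
    exact mul_nonneg hRR.le (by linarith)
  obtain ⟨hq1, _, _⟩ := rho_spec hρne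
  obtain ⟨hr1, _, _⟩ := rho_spec hσne
  have hqpos : 0 < q := lt_of_lt_of_le hq₁0 hq1
  have hrpos : 0 < r := by omega
  have hq' : (0 : ℝ) < q := by exact_mod_cast hqpos
  have hr' : (0 : ℝ) < r := by exact_mod_cast hrpos
  have hρ14 : ρ ≤ 1 / 4 := rho_le_quarterV hC hq₁ q
  set g := Nat.gcd q r with hg
  have hgpos : 0 < g := Nat.gcd_pos_of_pos_left _ hqpos
  have hg' : (0 : ℝ) < g := by exact_mod_cast hgpos
  have hWg : W * g = (r : ℝ) * ρ + q * σ := by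
    rw [hW]; unfold Wq; rw [← hρ, ← hσ, ← hg]; field_simp
  have hWdef : ((r : ℝ) * ρ + q * σ) / g = W := by
    rw [← hWg]; field_simp
  have hmin0 : 0 ≤ min (ρ / q) (σ / r) := le_min (by positivity) (by positivity)
  have hbase := volume_F_inter_le (γ := γ) (ρ := ρ) (σ := σ) (R := (R : ℝ))
    (A₁ := AAV γ (jj q)) (B₁ := BBV γ (jj q)) (A₂ := AAV γ (jj r)) (B₂ := BBV γ (jj r)) hqpos hrpos
  have hcrude := overlap_crude (γ := γ) (ρ := ρ) (σ := σ) (R := (R : ℝ))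
    (A₁ := AAV γ (jj q)) (B₁ := BBV γ (jj q)) (A₂ := AAV γ (jj r)) (B₂ := BBV γ (jj r))
    hqpos hrpos hρ0 hσ0 hρ14 hR'
  rw [← hg, hWdef] at hcrude
  set T := pairSet γ ρ σ (AAV γ (jj q)) (BBV γ (jj q)) q (AAV γ (jj r)) (BBV γ (jj r)) r (R : ℝ) with hT
  have htoReal : ∀ b : ℝ, 0 ≤ b → volume (F γ ρ (AAV γ (jj q)) (BBV γ (jj q)) q ∩
      F γ σ (AAV γ (jj r)) (BBV γ (jj r)) r ∩ Icc (-(R : ℝ)) R) ≤ ENNReal.ofReal b →
      volume.real (SqV γ ψ q₁ q ∩ SqV γ ψ q₁ r ∩ Icc (-(R : ℝ)) R) ≤ b := by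
    intro b hb h1
    exact ENNReal.toReal_le_of_le_ofReal hb h1
  by_cases hcase : 1 / 2 ≤ W
  · -- windows of size at least one half
    set v := vv W with hv
    set B₁ := BBV γ (jj q) with hB₁
    set B₂ := BBV γ (jj r) with hB₂
    have hspec := vv_spec hcase
    rw [← hv] at hspec
    have hQ1 : (Qz q B₁ (min v (zz q)) : ℝ) ≤ 4 ^ v := by
      have h1 : Qz q B₁ (min v (zz q)) ≤ 4 ^ min v (zz q) := Qz_le _ _ _
      have h2 : 4 ^ min v (zz q) ≤ 4 ^ v := Nat.pow_le_pow_right (by norm_num) (min_le_left _ _)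
      exact_mod_cast h1.trans h2
    have hQ2 : (Qz r B₂ (min v (zz r)) : ℝ) ≤ 4 ^ v := by
      have h1 : Qz r B₂ (min v (zz r)) ≤ 4 ^ min v (zz r) := Qz_le _ _ _
      have h2 : 4 ^ min v (zz r) ≤ 4 ^ v := Nat.pow_le_pow_right (by norm_num) (min_le_left _ _)
      exact_mod_cast h1.trans h2
    have hQQ : (Qz q B₁ (min v (zz q)) : ℝ) * Qz r B₂ (min v (zz r)) ≤
        2 * (((r : ℝ) * ρ + q * σ) / Nat.gcd q r) := by
      rw [← hg, hWdef]
      have h5 : (0 : ℝ) ≤ (Qz r B₂ (min v (zz r)) : ℝ) := Nat.cast_nonneg _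
      have h6 : (0 : ℝ) ≤ (4 : ℝ) ^ v := by positivity
      calc _ ≤ (4 : ℝ) ^ v * 4 ^ v := mul_le_mul hQ1 hQ2 h5 h6
        _ = 16 ^ v := by rw [← mul_pow]; norm_num
        _ ≤ 2 * W := hspec.1
    have h1 := overlap_sieve (γ := γ) (A₁ := AAV γ (jj q)) (B₁ := B₁) (A₂ := AAV γ (jj r)) (B₂ := B₂)
      hqpos hrpos hρ0 hσ0 hρ14 hR' hQQ
    have hD10 := Dz_nonneg q B₁ (min v (zz q))
    have hD20 := Dz_nonneg r B₂ (min v (zz r))
    have h2 := htoReal _ (by positivity) h1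
    refine h2.trans ?_
    apply mul_le_mul_of_nonneg_left _ hRR.le
    by_cases hbad : 1 / 3 < Gv v q ∨ 1 / 3 < Gv v r
    · have hE : RestV ψ q₁ q r = 16 * (ρ * σ) := if_pos ⟨hρne, hσne, hcase, hbad⟩
      rw [hE]
      have h3 := Dz_le_one q B₁ (min v (zz q))
      have h4 := Dz_le_one r B₂ (min v (zz r))
      have h5 : ρ * Dz q B₁ (min v (zz q)) * (σ * Dz r B₂ (min v (zz r))) ≤ ρ * 1 * (σ * 1) :=
        mul_le_mul (mul_le_mul_of_nonneg_left h3 hρ0) (mul_le_mul_of_nonneg_left h4 hσ0)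
          (mul_nonneg hσ0 hD20) (by positivity)
      linarith
    · push Not at hbad
      have h3 := Dz_min_le (B := B₁) (z := zz q) hbad.1
      have h4 := Dz_min_le (B := B₂) (z := zz r) hbad.2
      have h5 : ρ * Dz q B₁ (min v (zz q)) * (σ * Dz r B₂ (min v (zz r))) ≤
          ρ * (2 * Dz q B₁ (zz q)) * (σ * (2 * Dz r B₂ (zz r))) :=
        mul_le_mul (mul_le_mul_of_nonneg_left h3 hρ0) (mul_le_mul_of_nonneg_left h4 hσ0)
          (mul_nonneg hσ0 hD20) (mul_nonneg hρ0 (by linarith [Dz_nonneg q B₁ (zz q)]))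
      have h6 : ρ * (2 * Dz q B₁ (zz q)) * (σ * (2 * Dz r B₂ (zz r))) =
          4 * (MqV γ ψ q₁ q * MqV γ ψ q₁ r) := by
        unfold MqV
        rw [← hρ, ← hσ, ← hB₁, ← hB₂]
        ring
      linarith
  · -- small windows
    have hcase2' : W < 1 / 2 := not_le.mp hcase
    by_cases hpair : PairExV γ ψ q₁ q r
    · have hE : Ext2V γ ψ q₁ q r = 4 * (g : ℝ) * min (ρ / q) (σ / r) :=
        if_pos ⟨hρne, hσne, hcase2', hpair⟩
      have hW0 : 0 ≤ W := by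
        rw [hW]; unfold Wq; rw [← hρ, ← hσ]; positivity
      have hb : (T.card : ℝ) * (2 * min (ρ / q) (σ / r)) ≤
          (2 * (R : ℝ) + 2) * (4 * (g : ℝ) * min (ρ / q) (σ / r)) := by
        calc (T.card : ℝ) * (2 * min (ρ / q) (σ / r))
            ≤ ((2 * W + 1) * ((2 * (R : ℝ) + 2) * g)) * (2 * min (ρ / q) (σ / r)) := by gcongr
          _ ≤ (2 * ((2 * (R : ℝ) + 2) * g)) * (2 * min (ρ / q) (σ / r)) := by
              gcongr
              linarith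
          _ = _ := by ring
      have h2 := htoReal _ (by positivity) (hbase.trans (ENNReal.ofReal_le_ofReal hb))
      refine h2.trans ?_
      apply mul_le_mul_of_nonneg_left _ hRR.le
      linarith
    · have hempty : T = ∅ := by
        apply Finset.eq_empty_of_forall_notMem
        intro p hp
        apply hpair
        obtain ⟨h1, h2⟩ := strip_of_mem_pairSet hqpos hrpos hp
        refine ⟨p.1, p.2, h1, ?_⟩
        rw [← hg, hWdef] at h2
        exact h2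
      have h2 := htoReal 0 (le_refl _) (by
        refine hbase.trans ?_
        rw [hempty]
        simp)
      refine h2.trans ?_
      exact mul_nonneg hRR.le (by linarith)

end

end Vale.Agent.P028
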