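import Vale.Agent.P028.VT2b
import Vale.Agent.P028.PairBound

open MeasureTheory Set Filter Topology
open scoped ENNReal

namespace Vale.Agent.P028

/-- The level of the rational approximation to the shift at the dyadic block `j`. -/
def XVj (j : ℕ) : ℕ := 2 ^ (j - 64 * (Nat.log 2 j + 1))

lemma XVj_pos (j : ℕ) : 0 < XVj j := by unfold XVj; positivity

/-- The rational approximation to the shift used at the dyadic block `j`. -/
noncomputable def apxV (γ : ℝ) (j : ℕ) : ℚ :=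
  Classical.choose (Real.exists_rat_abs_sub_le_and_den_le γ (XVj_pos j))

lemma apxV_spec (γ : ℝ) (j : ℕ) :
    |γ - (apxV γ j : ℝ)| ≤ 1 / (((XVj j : ℝ) + 1) * ((apxV γ j).den : ℝ)) ∧ (apxV γ j).den ≤ XVj j :=
  Classical.choose_spec (Real.exists_rat_abs_sub_le_and_den_le γ (XVj_pos j))

/-- Numerator of the approximation. -/
noncomputable def AAV (γ : ℝ) (j : ℕ) : ℤ := (apxV γ j).num

/-- Denominator of the approximation. -/
noncomputable def BBV (γ : ℝ) (j : ℕ) : ℕ := (apxV γ j).den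

/-- The error of the approximation. -/
noncomputable def thV (γ : ℝ) (j : ℕ) : ℝ := (BBV γ j : ℝ) * γ - AAV γ j

lemma BBV_pos (γ : ℝ) (j : ℕ) : 0 < BBV γ j := (apxV γ j).den_pos

lemma BBV_le (γ : ℝ) (j : ℕ) : BBV γ j ≤ XVj j := (apxV_spec γ j).2

lemma AAV_coprime (γ : ℝ) (j : ℕ) : IsCoprime (AAV γ j) (BBV γ j : ℤ) := by
  have h := (apxV γ j).reduced
  rw [Int.isCoprime_iff_gcd_eq_one]
  simpa [AAV, BBV, Int.gcd] using h

lemma thV_le (γ : ℝ) (j : ℕ) : |thV γ j| ≤ 1 / ((XVj j : ℝ) + 1) := by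
  have h := (apxV_spec γ j).1
  have hB : (0 : ℝ) < BBV γ j := by exact_mod_cast BBV_pos γ j
  have hX : (0 : ℝ) < (XVj j : ℝ) + 1 := by positivity
  have h1 : thV γ j = BBV γ j * (γ - (apxV γ j : ℝ)) := by
    have h2 : ((apxV γ j : ℚ) : ℝ) = (AAV γ j : ℝ) / (BBV γ j : ℝ) := by
      have := Rat.num_div_den (apxV γ j)
      rw [← this]
      simp [AAV, BBV]
    rw [h2]
    unfold thV
    field_simp
  rw [h1, abs_mul, abs_of_pos hB]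
  calc (BBV γ j : ℝ) * |γ - (apxV γ j : ℝ)|
      ≤ BBV γ j * (1 / (((XVj j : ℝ) + 1) * ((apxV γ j).den : ℝ))) := by gcongr
    _ = 1 / ((XVj j : ℝ) + 1) := by
      have : ((apxV γ j).den : ℝ) = BBV γ j := rfl
      rw [this]
      field_simp

/-- Size conditions at `q`. -/
def LargeV (ψ : ℕ → ℝ) (C₀ : ℝ) (q : ℕ) : Prop :=
  200 * ll q + 200 ≤ jj q ∧ 4 ≤ ll q ∧ 4 * C₀ ≤ q ∧ ψ q ≤ C₀ / q

lemma exists_largeV_threshold {ψ : ℕ → ℝ} {C₀ : ℝ} (hcap : ∀ᶠ q : ℕ in atTop, ψ q ≤ C₀ / q) :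
    ∃ q₁ : ℕ, 0 < q₁ ∧ ∀ q, q₁ ≤ q → LargeV ψ C₀ q := by
  obtain ⟨j₀, hj₀⟩ := exists_jj_large 200
  obtain ⟨n₁, hn₁⟩ := eventually_atTop.mp hcap
  obtain ⟨n₂, hn₂⟩ := exists_nat_ge (4 * C₀)
  refine ⟨max (max (2 ^ j₀) (2 ^ (2 ^ 4))) (max n₁ (max n₂ 1)), by positivity, fun q hq => ?_⟩
  have h1 : 2 ^ j₀ ≤ q := (le_max_left _ _).trans ((le_max_left _ _).trans hq)
  have h2 : 2 ^ (2 ^ 4) ≤ q := (le_max_right _ _).trans ((le_max_left _ _).trans hq)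
  have h3 : n₁ ≤ q := (le_max_left _ _).trans ((le_max_right _ _).trans hq)
  have h4 : n₂ ≤ q := (le_max_left _ _).trans ((le_max_right _ _).trans ((le_max_right _ _).trans hq))
  have hq0 : q ≠ 0 := by
    have : 0 < 2 ^ (2 ^ 4) := by positivity
    omega
  refine ⟨?_, ?_, ?_, hn₁ q h3⟩
  · have h5 : j₀ ≤ Nat.log 2 q := Nat.le_log_of_pow_le (by norm_num) h1
    have h6 := hj₀ _ h5
    exact h6
  · have h5 : 2 ^ 4 ≤ Nat.log 2 q := Nat.le_log_of_pow_le (by norm_num) h2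
    have h6 : 4 ≤ Nat.log 2 (Nat.log 2 q) := Nat.le_log_of_pow_le (by norm_num) h5
    unfold ll
    omega
  · have : (n₂ : ℝ) ≤ q := by exact_mod_cast h4
    linarith

/-- The restricted sets. -/
noncomputable def SqV (γ : ℝ) (ψ : ℕ → ℝ) (q₁ q : ℕ) : Set ℝ :=
  F γ (rho ψ q₁ q) (AAV γ (jj q)) (BBV γ (jj q)) q

/-- The mass of a restricted set. -/
noncomputable def MqV (γ : ℝ) (ψ : ℕ → ℝ) (q₁ q : ℕ) : ℝ :=
  rho ψ q₁ q * Dz q (BBV γ (jj q)) (zz q)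

/-- Existence of a pair of numerators in the window. -/
def PairExV (γ : ℝ) (ψ : ℕ → ℝ) (q₁ q r : ℕ) : Prop :=
  ∃ a b : ℤ, IsCoprime (b * BBV γ (jj r) + AAV γ (jj r)) (r : ℤ) ∧
    |((a : ℝ) + γ) * (r / Nat.gcd q r : ℕ) - ((b : ℝ) + γ) * (q / Nat.gcd q r : ℕ)| < Wq ψ q₁ q r

section

variable {γ : ℝ} {ψ : ℕ → ℝ} {C₀ : ℝ} {q₁ : ℕ}

lemma MqV_nonneg (h0 : ∀ q, 0 ≤ ψ q) (q : ℕ) : 0 ≤ MqV γ ψ q₁ q :=
  mul_nonneg (rho_nonneg h0 q) (Dz_nonneg _ _ _)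

lemma isOpen_SqV (q : ℕ) : IsOpen (SqV γ ψ q₁ q) := isOpen_F _ _ _ _ _

lemma SqV_empty {q : ℕ} (h : rho ψ q₁ q = 0) : SqV γ ψ q₁ q = ∅ := by
  unfold SqV F
  rw [h]
  ext x
  simp only [Set.mem_ofPred_eq, mem_empty_iff_false, iff_false]
  rintro ⟨a, _, h2⟩
  exact absurd h2 (not_lt.mpr (abs_nonneg _))

lemma rho_le_cap (hC : 1 ≤ C₀) (hq₁ : ∀ q, q₁ ≤ q → LargeV ψ C₀ q) (q : ℕ) :
    rho ψ q₁ q ≤ C₀ / q := by
  by_cases h : rho ψ q₁ q = 0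
  · rw [h]
    have : 0 < C₀ := by linarith
    positivity
  · obtain ⟨h1, _, h3⟩ := rho_spec h
    rw [h3]
    exact (hq₁ q h1).2.2.2

lemma rho_le_quarterV (hC : 1 ≤ C₀) (hq₁ : ∀ q, q₁ ≤ q → LargeV ψ C₀ q) (q : ℕ) :
    rho ψ q₁ q ≤ 1 / 4 := by
  by_cases h : rho ψ q₁ q = 0
  · rw [h]; norm_num
  · obtain ⟨h1, _, h3⟩ := rho_spec h
    rw [h3]
    obtain ⟨_, _, h4, h5⟩ := hq₁ q h1
    have hq : (0 : ℝ) < q := by nlinarith
    refine h5.trans ?_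
    rw [div_le_iff₀ hq]
    linarith

end

/-- The number of divisors is at least two to the number of prime factors. -/
lemma two_pow_card_le {q : ℕ} (hq : q ≠ 0) : 2 ^ q.primeFactors.card ≤ q.divisors.card := by
  rw [Nat.card_divisors hq, ← Finset.prod_const]
  apply Finset.prod_le_prod'
  intro p hp
  have := (Nat.prime_of_mem_primeFactors hp).factorization_pos_of_dvd hq
    (Nat.dvd_of_mem_primeFactors hp)
  omega

/-- Pointwise bound for the weight on divisors of integers with few divisors. -/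
lemma Aw4_le_of_tau {q ℓ u : ℕ} (hq : q ≠ 0) (hτ : (q.divisors.card : ℝ) ≤ 2 ^ (3 * ℓ)) (hu : u ∣ q) :
    Aw 4 u ≤ 2 ^ (9 * ℓ) := by
  have h1 : Aw 4 u ≤ Aw 4 q := Wt_le_of_dvd (Aw_G_ge (by norm_num)) hu hq
  have h2 : Aw 4 q ≤ 5 ^ q.primeFactors.card := by
    apply Wt_le_pow_card (Aw_G_ge (by norm_num))
    intro p hp
    have h3 := fr_prime_ge hp
    have h4 : 4 / fr (p : ℝ) ≤ 4 := by
      rw [div_le_iff₀ (by linarith)]; linarith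
    linarith
  have h3 : (2 : ℝ) ^ q.primeFactors.card ≤ 2 ^ (3 * ℓ) := by
    refine le_trans ?_ hτ
    exact_mod_cast two_pow_card_le hq
  have h4 : (5 : ℝ) ^ q.primeFactors.card ≤ ((2 : ℝ) ^ q.primeFactors.card) ^ 3 := by
    rw [← pow_mul, mul_comm, pow_mul]
    exact pow_le_pow_left₀ (by norm_num) (by norm_num) _
  have h5 : ((2 : ℝ) ^ q.primeFactors.card) ^ 3 ≤ (2 ^ (3 * ℓ)) ^ 3 :=
    pow_le_pow_left₀ (by positivity) h3 3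
  have h6 : ((2 : ℝ) ^ (3 * ℓ)) ^ 3 = 2 ^ (9 * ℓ) := by
    rw [← pow_mul]; congr 1; ring
  linarith

lemma tu_pow_sixteen_mul (ℓ : ℕ) : tu ^ (64 * ℓ) = 2 ^ (16 * ℓ) := by
  rw [show 64 * ℓ = 4 * (16 * ℓ) by ring, pow_mul, tu_pow4]

/-- The first sum in terms of the sizes. -/
theorem T1_V {γ C : ℝ} (hC : 1 ≤ C) {r : ℕ} (hr : 0 < r) (hj : 200 * ll r + 200 ≤ jj r)
    (hτ : (r.divisors.card : ℝ) ≤ 2 ^ (3 * ll r))
    (Q : Finset ℕ) (ρ : ℕ → ℝ) (σ : ℝ) (hσ0 : 0 ≤ σ) (hσ : σ ≤ C / r)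
    (hQ : ∀ q ∈ Q, 0 < q ∧ q < r ∧ 0 ≤ ρ q ∧ ρ q ≤ C / q ∧
      2 * ((r : ℝ) * ρ q + q * σ) < Nat.gcd q r ∧
      ∃ a b : ℤ, IsCoprime (b * BBV γ (jj r) + AAV γ (jj r)) (r : ℤ) ∧
        |((a : ℝ) + γ) * (r / Nat.gcd q r : ℕ) - ((b : ℝ) + γ) * (q / Nat.gcd q r : ℕ)| <
          ((r : ℝ) * ρ q + q * σ) / Nat.gcd q r)
    (hAm : ∀ q ∈ Q, Aw 4 (q / Nat.gcd q r) ≤ 2 ^ (9 * ll r)) :
    ∑ q ∈ Q, ((Nat.gcd q r : ℝ) / r) * tu ^ Nat.log 2 (r / q) *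
        (Aw 4 (q / Nat.gcd q r) / Aw 4 (r / Nat.gcd q r)) ≤
      13 * K1V C * (14 ^ 41 * ((Nat.totient r : ℝ) / r)) +
        (26 * fr (128 * C) + 536) / 2 ^ (4 * ll r) := by
  set j := jj r with hjdef
  set ℓ := ll r with hℓdef
  have hℓeq : Nat.log 2 j + 1 = ℓ := rfl
  have hXeq : XVj j = 2 ^ (j - 64 * ℓ) := by unfold XVj; rw [hℓeq]
  have hr' : (0 : ℝ) < r := by exact_mod_cast hr
  have hC0 : 0 < C := by linarith
  set B := BBV γ j with hB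
  set X := XVj j with hX
  have hB0 : 0 < B := BBV_pos γ j
  have hBX : B ≤ X := BBV_le γ j
  have hX15 : 15 ≤ X := by
    rw [hXeq]
    have h1 : 2 ^ 4 ≤ 2 ^ (j - 64 * ℓ) := Nat.pow_le_pow_right (by norm_num) (by omega)
    omega
  have hAm1 : (1 : ℝ) ≤ 2 ^ (9 * ℓ) := one_le_pow₀ (by norm_num)
  have hθX := thV_le γ j
  have hmain := T1_total hB0 hBX (AAV_coprime γ j) (θ := thV γ j) rfl hθX hX15 hC hr Q ρ σ hσ0 hσ hQ
    hAm1 hAm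
  refine hmain.trans ?_
  apply add_le_add_right
  -- the sizes
  have hr2 : (2 : ℝ) ^ j ≤ r := by exact_mod_cast pow_jj_le hr.ne'
  have hXR : (X : ℝ) = 2 ^ (j - 64 * ℓ) := by rw [hXeq]; push_cast; rfl
  have hsplit : (2 : ℝ) ^ j = 2 ^ (j - 64 * ℓ) * 2 ^ (64 * ℓ) := by
    rw [← pow_add]; congr 1; omega
  have hB1 : (B : ℝ) ≤ X := by exact_mod_cast hBX
  have hX0 : (0 : ℝ) < X := by rw [hXR]; positivity
  have hp16 : (0 : ℝ) < 2 ^ (16 * ℓ) := by positivity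
  set F := fr (128 * C) with hF
  have hF0 : 0 ≤ F := fr_nonneg (by positivity)
  have hfr : fr (128 * C * B / r) ≤ F / 2 ^ (16 * ℓ) := by
    have h1 : 128 * C * B / r ≤ (128 * C) / 2 ^ (64 * ℓ) := by
      rw [div_le_div_iff₀ hr' (by positivity)]
      have h2 : (B : ℝ) * 2 ^ (64 * ℓ) ≤ r := by
        calc (B : ℝ) * 2 ^ (64 * ℓ) ≤ X * 2 ^ (64 * ℓ) := by gcongr
          _ = 2 ^ j := by rw [hXR, hsplit]
          _ ≤ r := hr2
      have h3 : 0 < 128 * C := by positivity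
      calc 128 * C * B * 2 ^ (64 * ℓ) = 128 * C * (B * 2 ^ (64 * ℓ)) := by ring
        _ ≤ 128 * C * r := by gcongr
    have h2 := fr_le_fr (by positivity) h1
    have h3 : fr ((128 * C) / 2 ^ (64 * ℓ)) = F / 2 ^ (16 * ℓ) := by
      rw [fr_div (by positivity) (by positivity), fr_two_pow, tu_pow_sixteen_mul]
    rw [h3] at h2
    exact h2
  have hθ1 : |thV γ j| ≤ 1 / 2 ^ (j - 64 * ℓ) := by
    refine hθX.trans ?_
    apply one_div_le_one_div_of_le (by positivity)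
    rw [← hXR]
    linarith
  have hθ2 : |thV γ j| ≤ 1 / 2 ^ (16 * ℓ) := by
    refine hθ1.trans ?_
    apply one_div_le_one_div_of_le hp16
    exact pow_le_pow_right₀ (by norm_num) (by omega)
  have hlog : Nat.log 2 r = j := rfl
  have hθ3 : |thV γ j| * tu ^ (Nat.log 2 r + 1) ≤ 1 / 2 ^ (16 * ℓ) := by
    rw [hlog]
    have h1 : tu ^ (j + 1) ≤ 2 ^ (j - 80 * ℓ) := tu_pow_le_two_pow _ _ (by omega)
    have h2 : (2 : ℝ) ^ (j - 64 * ℓ) = 2 ^ (j - 80 * ℓ) * 2 ^ (16 * ℓ) := by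
      rw [← pow_add]; congr 1; omega
    have h3 : (0 : ℝ) < 2 ^ (j - 80 * ℓ) := by positivity
    calc |thV γ j| * tu ^ (j + 1) ≤ (1 / 2 ^ (j - 64 * ℓ)) * 2 ^ (j - 80 * ℓ) := by
          apply mul_le_mul hθ1 h1 (pow_pos tu_pos _).le (by positivity)
      _ = 1 / 2 ^ (16 * ℓ) := by rw [h2]; field_simp
  have hθ0 := abs_nonneg (thV γ j)
  have hbig : 13 * ((2 : ℝ) ^ (9 * ℓ) * (2 * fr (128 * C * B / r) + 40 * |thV γ j|)) +
      2 ^ (9 * ℓ) * (8 / 3 * |thV γ j|) * (6 * tu ^ (Nat.log 2 r + 1)) ≤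
      2 ^ (9 * ℓ) * ((26 * F + 536) / 2 ^ (16 * ℓ)) := by
    have h1 : (2 : ℝ) ^ (9 * ℓ) * (8 / 3 * |thV γ j|) * (6 * tu ^ (Nat.log 2 r + 1)) =
        2 ^ (9 * ℓ) * (16 * (|thV γ j| * tu ^ (Nat.log 2 r + 1))) := by ring
    have h2 : 13 * ((2 : ℝ) ^ (9 * ℓ) * (2 * fr (128 * C * B / r) + 40 * |thV γ j|)) =
        2 ^ (9 * ℓ) * (26 * fr (128 * C * B / r) + 520 * |thV γ j|) := by ring
    rw [h1, h2, ← mul_add]
    apply mul_le_mul_of_nonneg_left _ (by positivity)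
    have h3 : (26 * F + 536) / (2 : ℝ) ^ (16 * ℓ) =
        26 * (F / 2 ^ (16 * ℓ)) + 520 * (1 / 2 ^ (16 * ℓ)) + 16 * (1 / 2 ^ (16 * ℓ)) := by ring
    rw [h3]
    linarith
  have hnn : 0 ≤ (26 * F + 536) / (2 : ℝ) ^ (16 * ℓ) := by positivity
  calc (r.divisors.card : ℝ) * (13 * ((2 : ℝ) ^ (9 * ℓ) * (2 * fr (128 * C * B / r) + 40 * |thV γ j|)) +
      2 ^ (9 * ℓ) * (8 / 3 * |thV γ j|) * (6 * tu ^ (Nat.log 2 r + 1)))
      ≤ 2 ^ (3 * ℓ) * (2 ^ (9 * ℓ) * ((26 * F + 536) / 2 ^ (16 * ℓ))) := by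
        apply mul_le_mul hτ hbig _ (by positivity)
        have : 0 < tu ^ (Nat.log 2 r + 1) := pow_pos tu_pos _
        have hfr0 : 0 ≤ fr (128 * C * B / r) := fr_nonneg (by positivity)
        positivity
    _ = (26 * F + 536) / 2 ^ (4 * ℓ) := by
        have h1 : (2 : ℝ) ^ (16 * ℓ) = 2 ^ (3 * ℓ) * 2 ^ (9 * ℓ) * 2 ^ (4 * ℓ) := by
          rw [← pow_add, ← pow_add]; congr 1; ring
        rw [h1]
        field_simp

end Vale.Agent.P028
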