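import Vale.Agent.P028.VT2c

namespace Vale.Agent.P028

open Finset

/-- The sieve level attached to a window. -/
noncomputable def vv (W : ℝ) : ℕ := Nat.log 16 ⌊2 * W⌋₊

lemma vv_spec {W : ℝ} (hW : 1 / 2 ≤ W) : (16 : ℝ) ^ vv W ≤ 2 * W ∧ 2 * W < 16 ^ (vv W + 1) := by
  have h0 : 0 ≤ 2 * W := by linarith
  have h1 : 1 ≤ ⌊2 * W⌋₊ := Nat.le_floor (by push_cast; linarith)
  have h2 : 16 ^ vv W ≤ ⌊2 * W⌋₊ := Nat.pow_log_le_self 16 (by omega)
  have h3 : ⌊2 * W⌋₊ < 16 ^ (vv W + 1) := Nat.lt_pow_succ_log_self (by norm_num) _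
  have h4 : ((⌊2 * W⌋₊ : ℕ) : ℝ) ≤ 2 * W := Nat.floor_le h0
  have h5 : 2 * W < (⌊2 * W⌋₊ : ℝ) + 1 := Nat.lt_floor_add_one _
  constructor
  · have : ((16 ^ vv W : ℕ) : ℝ) ≤ ((⌊2 * W⌋₊ : ℕ) : ℝ) := by exact_mod_cast h2
    push_cast at this
    linarith
  · have h6 : ⌊2 * W⌋₊ + 1 ≤ 16 ^ (vv W + 1) := h3
    have : ((⌊2 * W⌋₊ + 1 : ℕ) : ℝ) ≤ ((16 ^ (vv W + 1) : ℕ) : ℝ) := by exact_mod_cast h6
    push_cast at this
    linarith

/-- The exponential tilt. -/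
noncomputable def lamv (v : ℕ) : ℝ := Real.sqrt v / 4

lemma lamv_nonneg (v : ℕ) : 0 ≤ lamv v := by unfold lamv; positivity

open scoped Classical in
/-- The tilt at a prime. -/
noncomputable def GY (v p : ℕ) : ℝ := if v < p then Real.exp (lamv v / p) else 1

/-- The tilted multiplicative weight. -/
noncomputable def Yv (v n : ℕ) : ℝ := Wt (GY v) n

/-- The decay at level `v`. -/
noncomputable def cv (v : ℕ) : ℝ := Real.exp (-(Real.sqrt v / 12))

lemma GY_ge (v : ℕ) (p : ℕ) (hp : p.Prime) : 1 ≤ GY v p := by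
  unfold GY
  split_ifs
  · apply Real.one_le_exp
    have hp' : (0 : ℝ) < p := by exact_mod_cast hp.pos
    exact div_nonneg (lamv_nonneg v) hp'.le
  · exact le_refl _

lemma Yv_ge (v n : ℕ) : 1 ≤ Yv v n := Wt_one_le (GY_ge v) n

lemma Yv_pos (v n : ℕ) : 0 < Yv v n := Wt_pos (GY_ge v) n

lemma lam_div_le {v p : ℕ} (hp : p.Prime) (h : v < p) : lamv v / p ≤ (1 / fr p) / 4 := by
  have hp' : (0 : ℝ) < p := by exact_mod_cast hp.pos
  have hf := fr_prime_ge hp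
  have hf0 : 0 < fr (p : ℝ) := by linarith
  have hf4 : fr (p : ℝ) ^ 4 = p := fr_pow4 hp'.le
  have hs0 : 0 ≤ Real.sqrt v := Real.sqrt_nonneg _
  have hs2 : Real.sqrt v ^ 2 ≤ p := by
    rw [Real.sq_sqrt (Nat.cast_nonneg _)]
    exact_mod_cast h.le
  have key : Real.sqrt v * fr p ≤ p := by
    rw [← sq_le_sq₀ (by positivity) hp'.le, mul_pow]
    have h1 : fr (p : ℝ) ^ 2 ≤ p := by
      calc fr (p : ℝ) ^ 2 ≤ fr (p : ℝ) ^ 4 := pow_le_pow_right₀ hf (by norm_num)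
        _ = p := hf4
    have h2 : (0 : ℝ) ≤ fr (p : ℝ) ^ 2 := by positivity
    calc Real.sqrt v ^ 2 * fr (p : ℝ) ^ 2 ≤ (p : ℝ) * p := mul_le_mul hs2 h1 h2 hp'.le
      _ = (p : ℝ) ^ 2 := by ring
  have h1 : Real.sqrt v / p ≤ 1 / fr p := by
    rw [div_le_div_iff₀ hp' hf0]
    linarith
  calc lamv v / p = (Real.sqrt v / p) / 4 := by unfold lamv; ring
    _ ≤ _ := by gcongr

/-- Elementary inequality for the exponential. -/
lemma exp_le_one_add_two_mul {y : ℝ} (h0 : 0 ≤ y) (h1 : y ≤ 1 / 2) : Real.exp y ≤ 1 + 2 * y := by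
  have h2 := Real.exp_bound_div_one_sub_of_interval h0 (by linarith : y < 1)
  refine h2.trans ?_
  rw [div_le_iff₀ (by linarith)]
  nlinarith

lemma GY_le (v : ℕ) (p : ℕ) (hp : p.Prime) : GY v p ≤ 1 + (1 / 2) / fr p := by
  have hf := fr_prime_ge hp
  have hf0 : 0 < fr (p : ℝ) := by linarith
  have hx : 1 / fr (p : ℝ) ≤ 1 := by rw [div_le_one hf0]; exact hf
  have hx0 : 0 < 1 / fr (p : ℝ) := by positivity
  unfold GY
  split_ifs with h
  · have h1 := lam_div_le hp h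
    have hp' : (0 : ℝ) < p := by exact_mod_cast hp.pos
    have h2 : 0 ≤ lamv v / p := div_nonneg (lamv_nonneg v) hp'.le
    have h3 := exp_le_one_add_two_mul h2 (by linarith)
    have h4 : (1 / 2) / fr (p : ℝ) = 2 * ((1 / fr (p : ℝ)) / 4) := by ring
    rw [h4]
    linarith
  · have : 0 < (1 / 2) / fr (p : ℝ) := by positivity
    linarith

/-- The function on primes of the weight `A Y`. -/
noncomputable def GF (v p : ℕ) : ℝ := (1 + 4 / fr p) * GY v p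

/-- The weight `A Y`. -/
noncomputable def Fv (v n : ℕ) : ℝ := Wt (GF v) n

lemma GF_ge (v p : ℕ) (hp : p.Prime) : 1 ≤ GF v p := by
  unfold GF
  have h1 := Aw_G_ge (show (0 : ℝ) ≤ 4 by norm_num) p hp
  have h2 := GY_ge v p hp
  nlinarith

lemma GF_le (v p : ℕ) (hp : p.Prime) : GF v p ≤ 1 + 7 / fr p := by
  unfold GF
  have hf := fr_prime_ge hp
  have hf0 : 0 < fr (p : ℝ) := by linarith
  have hx : 1 / fr (p : ℝ) ≤ 1 := by rw [div_le_one hf0]; exact hf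
  have hx0 : 0 < 1 / fr (p : ℝ) := by positivity
  have h1 := GY_le v p hp
  set x := 1 / fr (p : ℝ) with hxdef
  have e1 : 4 / fr (p : ℝ) = 4 * x := by rw [hxdef]; ring
  have e2 : 7 / fr (p : ℝ) = 7 * x := by rw [hxdef]; ring
  have e3 : (1 / 2) / fr (p : ℝ) = 1 / 2 * x := by rw [hxdef]; ring
  rw [e1, e2]
  rw [e3] at h1
  have h2 : 0 < 1 + 4 * x := by linarith
  calc (1 + 4 * x) * GY v p ≤ (1 + 4 * x) * (1 + 1 / 2 * x) := by gcongr
    _ ≤ _ := by nlinarith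

lemma Fv_eq (v n : ℕ) : Fv v n = Aw 4 n * Yv v n := by
  unfold Fv Aw Yv
  exact Wt_mul_fun _ _ n

lemma Fv_pos (v n : ℕ) : 0 < Fv v n := Wt_pos (GF_ge v) n

/-- Mean value for the weight `A Y`. -/
lemma Fv_mean (v : ℕ) {y : ℝ} (hy : 0 ≤ y) (S : Finset ℕ) (hS : ∀ n ∈ S, 0 < n ∧ (n : ℝ) ≤ y) :
    ∑ n ∈ S, Fv v n ≤ y * Real.exp (4 * 7) :=
  Wt_mean_real (by norm_num) (GF_ge v) (GF_le v) hy hS

/-- Comparison of the two weights and the tilt. -/
lemma Yv_mul_Aw2_le (v n : ℕ) : Yv v n * Aw 2 n ≤ Aw 4 n := by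
  unfold Yv Aw
  rw [← Wt_mul_fun]
  apply Wt_mono
  · intro p hp
    have h1 := Aw_G_ge (show (0 : ℝ) ≤ 2 by norm_num) p hp
    have h2 := GY_ge v p hp
    nlinarith
  · intro p hp
    have hf := fr_prime_ge hp
    have hf0 : 0 < fr (p : ℝ) := by linarith
    have hx : 1 / fr (p : ℝ) ≤ 1 := by rw [div_le_one hf0]; exact hf
    have hx0 : 0 < 1 / fr (p : ℝ) := by positivity
    have h1 := GY_le v p hp
    have h2 := Aw_G_ge (show (0 : ℝ) ≤ 2 by norm_num) p hp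
    set x := 1 / fr (p : ℝ) with hxdef
    have e1 : 4 / fr (p : ℝ) = 4 * x := by rw [hxdef]; ring
    have e2 : 2 / fr (p : ℝ) = 2 * x := by rw [hxdef]; ring
    have e3 : (1 / 2) / fr (p : ℝ) = 1 / 2 * x := by rw [hxdef]; ring
    rw [e1]
    rw [e2] at h2 ⊢
    rw [e3] at h1
    calc GY v p * (1 + 2 * x) ≤ (1 + 1 / 2 * x) * (1 + 2 * x) := by gcongr
      _ ≤ _ := by nlinarith

/-- Two to the number of prime factors is at most the integer. -/
lemma two_pow_card_le_self {g : ℕ} (hg : g ≠ 0) : 2 ^ g.primeFactors.card ≤ g := by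
  have h1 : ∏ p ∈ g.primeFactors, p ≤ g :=
    Nat.le_of_dvd (Nat.pos_of_ne_zero hg) (Nat.prod_primeFactors_dvd g)
  have h2 : ∏ _p ∈ g.primeFactors, 2 ≤ ∏ p ∈ g.primeFactors, p :=
    Finset.prod_le_prod' fun p hp => (Nat.prime_of_mem_primeFactors hp).two_le
  rw [Finset.prod_const] at h2
  omega

/-- The tilt on the gcd is dominated by three quarters of a power. -/
lemma Yv_div_le {v g : ℕ} (hg : 0 < g) : Yv v g / g ≤ 1 / fr g := by
  have hg' : (0 : ℝ) < g := by exact_mod_cast hg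
  have hf := fr_pos hg'
  have hf4 : fr (g : ℝ) ^ 4 = g := fr_pow4 hg'.le
  have hY0 := Yv_pos v g
  rw [div_le_div_iff₀ hg' hf, one_mul]
  -- it is enough to compare fourth powers
  have hY1 : Yv v g ≤ (3 / 2) ^ g.primeFactors.card := by
    apply Wt_le_pow_card (GY_ge v)
    intro p hp
    have h1 := GY_le v p hp
    have hf1 := fr_prime_ge hp
    have hf0 : 0 < fr (p : ℝ) := by linarith
    have h2 : (1 / 2) / fr (p : ℝ) ≤ 1 / 2 := by
      apply div_le_self (by norm_num) hf1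
    linarith
  have hY4 : Yv v g ^ 4 ≤ (8 : ℝ) ^ g.primeFactors.card := by
    calc Yv v g ^ 4 ≤ ((3 / 2 : ℝ) ^ g.primeFactors.card) ^ 4 := pow_le_pow_left₀ hY0.le hY1 4
      _ = ((3 / 2 : ℝ) ^ 4) ^ g.primeFactors.card := by rw [← pow_mul, ← pow_mul, mul_comm]
      _ ≤ _ := pow_le_pow_left₀ (by norm_num) (by norm_num) _
  have h8 : (8 : ℝ) ^ g.primeFactors.card ≤ (g : ℝ) ^ 3 := by
    have h2 : (2 : ℝ) ^ g.primeFactors.card ≤ g := by exact_mod_cast two_pow_card_le_self hg.ne'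
    calc (8 : ℝ) ^ g.primeFactors.card = ((2 : ℝ) ^ g.primeFactors.card) ^ 3 := by
          rw [← pow_mul, mul_comm, pow_mul]; norm_num
      _ ≤ _ := pow_le_pow_left₀ (by positivity) h2 3
  have h3 : Yv v g ≤ fr (g : ℝ) ^ 3 := by
    have h4 : Yv v g ^ 4 ≤ (fr (g : ℝ) ^ 3) ^ 4 := by
      calc Yv v g ^ 4 ≤ (g : ℝ) ^ 3 := hY4.trans h8
        _ = (fr (g : ℝ) ^ 4) ^ 3 := by rw [hf4]
        _ = _ := by rw [← pow_mul, ← pow_mul]
    exact (pow_le_pow_iff_left₀ hY0.le (by positivity) (by norm_num)).mp h4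
  calc Yv v g * fr (g : ℝ) ≤ fr (g : ℝ) ^ 3 * fr (g : ℝ) := by gcongr
    _ = fr (g : ℝ) ^ 4 := by ring
    _ = g := hf4

/-- The exponential form of the tilted weight. -/
lemma Yv_eq_exp (v n : ℕ) :
    Yv v n = Real.exp (lamv v * ∑ p ∈ n.primeFactors.filter (fun p => v < p), (1 : ℝ) / p) := by
  classical
  unfold Yv Wt GY
  rw [Finset.prod_ite, Finset.prod_const_one, mul_one, ← Real.exp_sum, Finset.mul_sum]
  congr 1
  apply Finset.sum_congr rfl
  intro p _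
  ring

/-- A large sum of reciprocals forces a large tilt. -/
lemma one_le_cv_mul_Yv {v n : ℕ}
    (h : 1 / 3 < ∑ p ∈ n.primeFactors.filter (fun p => v < p), (1 : ℝ) / p) :
    1 ≤ cv v * Yv v n := by
  rw [Yv_eq_exp]
  unfold cv
  rw [← Real.exp_add]
  apply Real.one_le_exp
  have h1 : 0 ≤ lamv v := lamv_nonneg v
  have h2 : lamv v * (1 / 3) ≤ lamv v * ∑ p ∈ n.primeFactors.filter (fun p => v < p), (1 : ℝ) / p := by
    gcongr
  have h3 : lamv v * (1 / 3) = Real.sqrt v / 12 := by unfold lamv; ring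
  linarith

lemma cv_pos (v : ℕ) : 0 < cv v := Real.exp_pos _

/-- Summability of the decay. -/
lemma summable_cv : Summable cv := by
  rw [← summable_nat_add_iff 1]
  have h1 : Summable (fun v : ℕ => (497664 : ℝ) * (1 / ((v + 1 : ℕ) : ℝ) ^ 2)) := by
    apply Summable.mul_left
    exact (summable_nat_add_iff 1).mpr (Real.summable_one_div_nat_pow.mpr (by norm_num))
  refine Summable.of_nonneg_of_le (fun v => (cv_pos _).le) (fun v => ?_) h1
  unfold cv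
  have hv : (0 : ℝ) < ((v + 1 : ℕ) : ℝ) := by positivity
  set y : ℝ := Real.sqrt ((v + 1 : ℕ) : ℝ) / 12 with hy
  have hs : 0 < Real.sqrt ((v + 1 : ℕ) : ℝ) := Real.sqrt_pos.mpr hv
  have hy0 : 0 < y := by positivity
  have h2 := Real.pow_div_factorial_le_exp y hy0.le 4
  have h3 : y ^ 4 = ((v + 1 : ℕ) : ℝ) ^ 2 / 20736 := by
    rw [hy, div_pow]
    have : Real.sqrt ((v + 1 : ℕ) : ℝ) ^ 4 = (Real.sqrt ((v + 1 : ℕ) : ℝ) ^ 2) ^ 2 := by ring
    rw [this, Real.sq_sqrt hv.le]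
    norm_num
  have h4 : ((4 : ℕ).factorial : ℝ) = 24 := by norm_num [Nat.factorial]
  rw [h3, h4] at h2
  rw [Real.exp_neg, inv_eq_one_div]
  have h5 : 0 < ((v + 1 : ℕ) : ℝ) ^ 2 / 20736 / 24 := by positivity
  calc 1 / Real.exp y ≤ 1 / (((v + 1 : ℕ) : ℝ) ^ 2 / 20736 / 24) :=
        one_div_le_one_div_of_le h5 h2
    _ = _ := by field_simp; norm_num

/-- The total of the decay. -/
noncomputable def Kc : ℝ := ∑' v, cv v

lemma sum_cv_le (V : ℕ) : ∑ v ∈ range V, cv v ≤ Kc :=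
  summable_cv.sum_le_tsum _ (fun v _ => (cv_pos v).le)

lemma Kc_nonneg : 0 ≤ Kc := tsum_nonneg fun v => (cv_pos v).le

end Vale.Agent.P028
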