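import Vale.Agent.P028.VRestA

namespace Vale.Agent.P028

open Finset

/-- The mass lemma: a sum over one dyadic window. -/
theorem mass_lemma {F : ℕ → ℝ} {M C c s L : ℝ} {g : ℕ} (hF0 : ∀ n, 0 ≤ F n) (hM : 0 ≤ M)
    (hmean : ∀ y : ℝ, 0 ≤ y → ∀ S : Finset ℕ, (∀ n ∈ S, 0 < n ∧ (n : ℝ) ≤ y) → ∑ n ∈ S, F n ≤ y * M)
    (hC : 0 ≤ C) (hg : 0 < g) (hL : 0 < L) (hc : 0 < c) (hs : 0 < s)
    (S : Finset ℕ) (ρ : ℕ → ℝ)
    (hS : ∀ n ∈ S, 0 < n ∧ 0 ≤ ρ n ∧ ρ n ≤ C / (g * n) ∧ L ≤ c * ρ n + n * s ∧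
      c * ρ n + n * s < 16 * L) :
    ∑ n ∈ S, ρ n * F n ≤ 64 * C * M / g := by
  classical
  have hg' : (0 : ℝ) < g := by exact_mod_cast hg
  set S₁ := S.filter fun n => L / 2 ≤ c * ρ n with hS₁
  set S₂ := S.filter fun n => ¬ (L / 2 ≤ c * ρ n) with hS₂
  have hsplit : ∑ n ∈ S, ρ n * F n = ∑ n ∈ S₁, ρ n * F n + ∑ n ∈ S₂, ρ n * F n :=
    (Finset.sum_filter_add_sum_filter_not S _ _).symm
  have hpart1 : ∑ n ∈ S₁, ρ n * F n ≤ 32 * C * M / g := by
    have h1 : ∀ n ∈ S₁, ρ n * F n ≤ (16 * L / c) * F n := by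
      intro n hn
      obtain ⟨hn1, _⟩ := Finset.mem_filter.mp hn
      obtain ⟨h1, h2, h3, h4, h5⟩ := hS n hn1
      apply mul_le_mul_of_nonneg_right _ (hF0 n)
      rw [le_div_iff₀ hc]
      have hn0 : (0 : ℝ) < n := by exact_mod_cast h1
      have : 0 < (n : ℝ) * s := by positivity
      linarith
    refine (Finset.sum_le_sum h1).trans ?_
    rw [← Finset.mul_sum]
    have h2 := hmean (2 * c * C / (g * L)) (by positivity) S₁ (fun n hn => by
      obtain ⟨hn1, hn2⟩ := Finset.mem_filter.mp hn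
      obtain ⟨h1, h2, h3, h4, h5⟩ := hS n hn1
      refine ⟨h1, ?_⟩
      have hn0 : (0 : ℝ) < n := by exact_mod_cast h1
      rw [le_div_iff₀ (by positivity)]
      have h6 : L / 2 ≤ c * (C / (g * n)) := by
        calc L / 2 ≤ c * ρ n := hn2
          _ ≤ _ := by gcongr
      have h7 : c * (C / (g * n)) = c * C / (g * n) := by ring
      rw [h7, le_div_iff₀ (by positivity)] at h6
      nlinarith)
    have h3 : 0 ≤ 16 * L / c := by positivity
    calc 16 * L / c * ∑ n ∈ S₁, F n ≤ 16 * L / c * (2 * c * C / (g * L) * M) := by gcongr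
      _ = _ := by field_simp; ring
  have hpart2 : ∑ n ∈ S₂, ρ n * F n ≤ 32 * C * M / g := by
    have h1 : ∀ n ∈ S₂, ρ n * F n ≤ (2 * s * C / (g * L)) * F n := by
      intro n hn
      obtain ⟨hn1, hn2⟩ := Finset.mem_filter.mp hn
      obtain ⟨h1, h2, h3, h4, h5⟩ := hS n hn1
      apply mul_le_mul_of_nonneg_right _ (hF0 n)
      have hn0 : (0 : ℝ) < n := by exact_mod_cast h1
      push Not at hn2
      have h6 : L / 2 ≤ n * s := by linarith
      refine h3.trans ?_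
      rw [div_le_div_iff₀ (by positivity) (by positivity)]
      have h7 : C * (g * L) = (g : ℝ) * C * (2 * (L / 2)) := by ring
      have h8 : 2 * s * C * (g * n) = (g : ℝ) * C * (2 * (n * s)) := by ring
      rw [h7, h8]
      gcongr
    refine (Finset.sum_le_sum h1).trans ?_
    rw [← Finset.mul_sum]
    have h2 := hmean (16 * L / s) (by positivity) S₂ (fun n hn => by
      obtain ⟨hn1, hn2⟩ := Finset.mem_filter.mp hn
      obtain ⟨h1, h2, h3, h4, h5⟩ := hS n hn1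
      refine ⟨h1, ?_⟩
      rw [le_div_iff₀ hs]
      have : 0 ≤ c * ρ n := by positivity
      linarith)
    have h3 : 0 ≤ 2 * s * C / (g * L) := by positivity
    calc 2 * s * C / (g * L) * ∑ n ∈ S₂, F n ≤ 2 * s * C / (g * L) * (16 * L / s * M) := by gcongr
      _ = _ := by field_simp; ring
  rw [hsplit]
  have h4 : 64 * C * M / g = 32 * C * M / g + 32 * C * M / g := by ring
  rw [h4]
  exact add_le_add hpart1 hpart2

/-- One fibre of the tilted sum. -/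
theorem Psi_level {C ρn : ℝ} {n d v : ℕ} (hC : 0 ≤ C) (hn : 0 < n) (hd0 : 0 < d)
    (ρ : ℕ → ℝ) (hρn : 0 < ρn) (S : Finset ℕ)
    (hS : ∀ m ∈ S, 0 < m ∧ Nat.gcd m n = d ∧ 0 ≤ ρ m ∧ ρ m ≤ C / m ∧
      vv (((n : ℝ) * ρ m + m * ρn) / Nat.gcd m n) = v ∧
      1 / 2 ≤ ((n : ℝ) * ρ m + m * ρn) / Nat.gcd m n) :
    ∑ m ∈ S, ρ m * Fv v (m / d) ≤ 64 * C * Real.exp (4 * 7) / d := by
  classical
  have hd' : (0 : ℝ) < d := by exact_mod_cast hd0
  have hn' : (0 : ℝ) < n := by exact_mod_cast hn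
  have hinj : Set.InjOn (fun m => m / d) (S : Set ℕ) := by
    intro q₁ h₁ q₂ h₂ heq
    have h4 : d ∣ q₁ := by rw [← (hS q₁ h₁).2.1]; exact Nat.gcd_dvd_left _ _
    have h5 : d ∣ q₂ := by rw [← (hS q₂ h₂).2.1]; exact Nat.gcd_dvd_left _ _
    simp only at heq
    rw [← Nat.mul_div_cancel' h4, ← Nat.mul_div_cancel' h5, heq]
  set ρ' : ℕ → ℝ := fun t => ρ (d * t) with hρ'
  have h1 : ∑ m ∈ S, ρ m * Fv v (m / d) = ∑ t ∈ S.image (fun m => m / d), ρ' t * Fv v t := by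
    rw [Finset.sum_image hinj]
    apply Finset.sum_congr rfl
    intro m hm
    have h4 : d ∣ m := by rw [← (hS m hm).2.1]; exact Nat.gcd_dvd_left _ _
    simp only [hρ']
    rw [Nat.mul_div_cancel' h4]
  rw [h1]
  have hL : (0 : ℝ) < 16 ^ v / 2 := by positivity
  apply mass_lemma (F := Fv v) (c := (n : ℝ) / d) (s := ρn) (L := 16 ^ v / 2) (g := d)
    (fun m => (Fv_pos v m).le) (Real.exp_pos _).le
    (fun y hy T hT => Fv_mean v hy T hT) hC hd0 hL (by positivity) hρn _ ρ'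
  intro t ht
  obtain ⟨m, hm, rfl⟩ := Finset.mem_image.mp ht
  obtain ⟨h1m, h2m, h3m, h4m, h5m, h6m⟩ := hS m hm
  have hdm : d ∣ m := by rw [← h2m]; exact Nat.gcd_dvd_left _ _
  have hmeq : d * (m / d) = m := Nat.mul_div_cancel' hdm
  have hmR : (m : ℝ) = d * ((m / d : ℕ) : ℝ) := by exact_mod_cast hmeq.symm
  have ht0 : 0 < m / d := by
    apply Nat.pos_of_ne_zero
    intro h0
    rw [h0, mul_zero] at hmeq
    omega
  have hρ'm : ρ' (m / d) = ρ m := by simp only [hρ']; rw [hmeq]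
  rw [hρ'm]
  have hW : (n : ℝ) / d * ρ m + ((m / d : ℕ) : ℝ) * ρn = ((n : ℝ) * ρ m + m * ρn) / Nat.gcd m n := by
    rw [h2m, hmR]
    field_simp
  rw [hW]
  rw [h2m] at h5m h6m
  have hspec := vv_spec h6m
  rw [h5m] at hspec
  obtain ⟨hs1, hs2⟩ := hspec
  refine ⟨ht0, h3m, ?_, ?_, ?_⟩
  · rw [← hmR]
    exact h4m
  · rw [h2m]; linarith
  · rw [h2m]
    rw [pow_succ] at hs2
    linarith

/-- The tilted sum attached to one modulus. -/
theorem Psi_sum {C ρn : ℝ} {n : ℕ} (hC : 0 ≤ C) (hn : 0 < n) (ρ : ℕ → ℝ) (hρn : 0 < ρn) (S : Finset ℕ)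
    (hS : ∀ m ∈ S, 0 < m ∧ 0 ≤ ρ m ∧ ρ m ≤ C / m ∧
      1 / 2 ≤ ((n : ℝ) * ρ m + m * ρn) / Nat.gcd m n) :
    ∑ m ∈ S, cv (vv (((n : ℝ) * ρ m + m * ρn) / Nat.gcd m n)) *
        (ρ m * Fv (vv (((n : ℝ) * ρ m + m * ρn) / Nat.gcd m n)) (m / Nat.gcd m n)) *
        Yv (vv (((n : ℝ) * ρ m + m * ρn) / Nat.gcd m n)) (Nat.gcd m n) *
        (1 / Aw 2 (n / Nat.gcd m n)) ≤
      64 * C * Real.exp (4 * 7) * Kc * (14 ^ 41 * ((Nat.totient n : ℝ) / n)) := by
  classical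
  set W : ℕ → ℝ := fun m => ((n : ℝ) * ρ m + m * ρn) / Nat.gcd m n with hW
  set D := n.divisors with hD
  set V := S.sup (fun m => vv (W m)) + 1 with hV
  set N : ℕ → ℕ → Finset ℕ := fun d v =>
    S.filter fun m => Nat.gcd m n = d ∧ vv (W m) = v with hN
  set H : ℕ → ℝ := fun m => cv (vv (W m)) * (ρ m * Fv (vv (W m)) (m / Nat.gcd m n)) *
        Yv (vv (W m)) (Nat.gcd m n) * (1 / Aw 2 (n / Nat.gcd m n)) with hH
  have hmaps : ∀ m ∈ S, (Nat.gcd m n, vv (W m)) ∈ D ×ˢ range V := by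
    intro m hm
    rw [Finset.mem_product]
    refine ⟨Nat.mem_divisors.mpr ⟨Nat.gcd_dvd_right _ _, hn.ne'⟩, ?_⟩
    rw [Finset.mem_range, hV, Nat.lt_succ_iff]
    exact Finset.le_sup (f := fun m => vv (W m)) hm
  have hsplit : ∑ m ∈ S, H m = ∑ d ∈ D, ∑ v ∈ range V, ∑ m ∈ N d v, H m := by
    rw [← Finset.sum_product' (f := fun d v => ∑ m ∈ N d v, H m)]
    rw [← Finset.sum_fiberwise_of_maps_to hmaps]
    refine Finset.sum_congr rfl fun y _ => ?_
    obtain ⟨d, v⟩ := y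
    have h1 : (S.filter fun m => (Nat.gcd m n, vv (W m)) = (d, v)) = N d v := by
      simp only [hN, Prod.mk.injEq]
    rw [h1]
  set K : ℝ := 64 * C * Real.exp (4 * 7) with hK
  have hK0 : 0 ≤ K := by positivity
  have hlevel : ∀ d ∈ D, ∀ v ∈ range V, ∑ m ∈ N d v, H m ≤
      K * cv v * ((1 / fr d) * (1 / Aw 2 (n / d))) := by
    intro d hd v _
    have hd0 : 0 < d := Nat.pos_of_mem_divisors hd
    have hdn : d ∣ n := Nat.dvd_of_mem_divisors hd
    have hd' : (0 : ℝ) < d := by exact_mod_cast hd0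
    have h1 : ∑ m ∈ N d v, H m = cv v * Yv v d * (1 / Aw 2 (n / d)) *
        ∑ m ∈ N d v, ρ m * Fv v (m / d) := by
      rw [Finset.mul_sum]
      apply Finset.sum_congr rfl
      intro m hm
      obtain ⟨_, h2, h3⟩ := Finset.mem_filter.mp hm
      simp only [hH]
      rw [h2, h3]
      ring
    have h2 := Psi_level (C := C) (ρn := ρn) (n := n) (d := d) (v := v) hC hn hd0 ρ hρn (N d v)
      (fun m hm => by
        obtain ⟨hm1, h2, h3⟩ := Finset.mem_filter.mp hm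
        obtain ⟨h4, h5, h6, h7⟩ := hS m hm1
        exact ⟨h4, h2, h5, h6, h3, h7⟩)
    rw [h1]
    have h3 := Yv_pos v d
    have h4 := cv_pos v
    have h5 := Aw_pos (show (0 : ℝ) ≤ 2 by norm_num) (n / d)
    have h6 := Yv_div_le (v := v) hd0
    calc cv v * Yv v d * (1 / Aw 2 (n / d)) * ∑ m ∈ N d v, ρ m * Fv v (m / d)
        ≤ cv v * Yv v d * (1 / Aw 2 (n / d)) * (K / d) := by gcongr
      _ = K * cv v * (Yv v d / d * (1 / Aw 2 (n / d))) := by ring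
      _ ≤ K * cv v * ((1 / fr d) * (1 / Aw 2 (n / d))) := by gcongr
  show ∑ m ∈ S, H m ≤ _
  rw [hsplit]
  have hg1 : ∀ d ∈ D, ∑ v ∈ range V, ∑ m ∈ N d v, H m ≤
      K * Kc * ((1 / fr d) * (1 / Aw 2 (n / d))) := by
    intro d hd
    refine (Finset.sum_le_sum (hlevel d hd)).trans ?_
    have h0 : 0 ≤ (1 / fr (d : ℝ)) * (1 / Aw 2 (n / d)) := by
      have h3 := Aw_pos (show (0 : ℝ) ≤ 2 by norm_num) (n / d)
      have h4 := fr_nonneg (Nat.cast_nonneg (α := ℝ) d)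
      positivity
    rw [← Finset.sum_mul, ← Finset.mul_sum]
    apply mul_le_mul_of_nonneg_right _ h0
    apply mul_le_mul_of_nonneg_left (sum_cv_le V) hK0
  refine (Finset.sum_le_sum hg1).trans ?_
  rw [← Finset.mul_sum]
  apply mul_le_mul_of_nonneg_left (master_lemma hn.ne') (mul_nonneg hK0 Kc_nonneg)

end Vale.Agent.P028
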