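import Vale.Agent.P028.VPair

open MeasureTheory Set Filter Topology
open scoped ENNReal

namespace Vale.Agent.P028

/-- Exchange of a triangular sum. -/
lemma sum_swap_lt (s : Finset ℕ) (f : ℕ → ℕ → ℝ) :
    ∑ r ∈ s, ∑ q ∈ s.filter (fun q => q < r), f q r =
      ∑ q ∈ s, ∑ r ∈ s.filter (fun r => q < r), f q r := by
  simp_rw [Finset.sum_filter]
  exact Finset.sum_comm

section

variable {γ : ℝ} {ψ : ℕ → ℝ} {C₀ : ℝ} {q₁ : ℕ}

lemma Wq_comm (q r : ℕ) : Wq ψ q₁ q r = Wq ψ q₁ r q := by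
  unfold Wq
  rw [Nat.gcd_comm]
  ring

open scoped Classical in
/-- The tilted term attached to an ordered pair. -/
noncomputable def PsiA (ψ : ℕ → ℝ) (q₁ m n : ℕ) : ℝ :=
  if rho ψ q₁ m ≠ 0 ∧ rho ψ q₁ n ≠ 0 ∧ 1 / 2 ≤ Wq ψ q₁ m n then
    cv (vv (Wq ψ q₁ m n)) * (rho ψ q₁ m * Fv (vv (Wq ψ q₁ m n)) (m / Nat.gcd m n)) *
      Yv (vv (Wq ψ q₁ m n)) (Nat.gcd m n) * (1 / Aw 2 (n / Nat.gcd m n))
  else 0

lemma PsiA_nonneg (h0 : ∀ q, 0 ≤ ψ q) (m n : ℕ) : 0 ≤ PsiA ψ q₁ m n := by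
  unfold PsiA
  split_ifs
  · have h1 := rho_nonneg (q₁ := q₁) h0 m
    have h2 := cv_pos (vv (Wq ψ q₁ m n))
    have h3 := Fv_pos (vv (Wq ψ q₁ m n)) (m / Nat.gcd m n)
    have h4 := Yv_pos (vv (Wq ψ q₁ m n)) (Nat.gcd m n)
    have h5 := Aw_pos (show (0 : ℝ) ≤ 2 by norm_num) (n / Nat.gcd m n)
    positivity
  · exact le_refl _

/-- Elementary inequality with the weights of the two cofactors. -/
lemma key_amgm {c y a b A₁ A₂ B₁ B₂ : ℝ} (hc : 0 < c) (hy : 0 < y) (ha : 1 ≤ a) (hb : 1 ≤ b)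
    (hA₁ : 0 < A₁) (hA₂ : 0 < A₂) (hB₁ : 0 < B₁) (hB₂ : 0 < B₂)
    (h1 : 1 ≤ c * (y * a) ∨ 1 ≤ c * (y * b)) (h2 : a * B₁ ≤ A₁) (h3 : b * B₂ ≤ A₂) :
    1 ≤ c * y * (A₁ * a * (1 / B₂) + A₂ * b * (1 / B₁)) := by
  have ha0 : 0 < a := by linarith
  have hb0 : 0 < b := by linarith
  have h4 : 1 ≤ c * y * (2 * (a * b)) := by
    rcases h1 with h | h
    · have h5 : c * (y * a) ≤ c * y * (2 * (a * b)) := by
        have h6 : a ≤ 2 * (a * b) := by nlinarith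
        have h7 : 0 < c * y := by positivity
        calc c * (y * a) = c * y * a := by ring
          _ ≤ _ := by gcongr
      linarith
    · have h5 : c * (y * b) ≤ c * y * (2 * (a * b)) := by
        have h6 : b ≤ 2 * (a * b) := by nlinarith
        have h7 : 0 < c * y := by positivity
        calc c * (y * b) = c * y * b := by ring
          _ ≤ _ := by gcongr
      linarith
  have h5 : 2 ≤ A₁ / A₂ + A₂ / A₁ := by
    have h6 : A₁ / A₂ + A₂ / A₁ - 2 = (A₁ - A₂) ^ 2 / (A₁ * A₂) := by field_simp; ring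
    have h7 : 0 ≤ (A₁ - A₂) ^ 2 / (A₁ * A₂) := by positivity
    linarith
  have h6 : a * b * (A₁ / A₂ + A₂ / A₁) ≤ A₁ * a * (1 / B₂) + A₂ * b * (1 / B₁) := by
    have e1 : b / A₂ ≤ 1 / B₂ := by
      rw [div_le_div_iff₀ hA₂ hB₂]; linarith
    have e2 : a / A₁ ≤ 1 / B₁ := by
      rw [div_le_div_iff₀ hA₁ hB₁]; linarith
    have e3 : a * b * (A₁ / A₂ + A₂ / A₁) = A₁ * a * (b / A₂) + A₂ * b * (a / A₁) := by
      field_simp
    rw [e3]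
    gcongr
  have h7 : 0 < c * y := by positivity
  calc 1 ≤ c * y * (2 * (a * b)) := h4
    _ = c * y * (a * b * 2) := by ring
    _ ≤ c * y * (a * b * (A₁ / A₂ + A₂ / A₁)) := by gcongr
    _ ≤ _ := by gcongr

/-- The rest term is dominated by the two tilted terms. -/
lemma RestV_le (h0 : ∀ q, 0 ≤ ψ q) (hq₁ : 0 < q₁) (q r : ℕ) :
    RestV ψ q₁ q r ≤ 16 * rho ψ q₁ r * PsiA ψ q₁ q r + 16 * rho ψ q₁ q * PsiA ψ q₁ r q := by
  classical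
  have hP1 := PsiA_nonneg (q₁ := q₁) h0 q r
  have hP2 := PsiA_nonneg (q₁ := q₁) h0 r q
  have hρ0 := rho_nonneg (q₁ := q₁) h0 q
  have hσ0 := rho_nonneg (q₁ := q₁) h0 r
  unfold RestV
  split_ifs with h
  swap
  · positivity
  obtain ⟨h1, h2, h3, h4⟩ := h
  have hρ : 0 < rho ψ q₁ q := lt_of_le_of_ne hρ0 (Ne.symm h1)
  have hσ : 0 < rho ψ q₁ r := lt_of_le_of_ne hσ0 (Ne.symm h2)
  have hqpos : 0 < q := lt_of_lt_of_le hq₁ (rho_spec h1).1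
  have hrpos : 0 < r := lt_of_lt_of_le hq₁ (rho_spec h2).1
  have hPq : PsiA ψ q₁ q r = cv (vv (Wq ψ q₁ q r)) *
      (rho ψ q₁ q * Fv (vv (Wq ψ q₁ q r)) (q / Nat.gcd q r)) *
      Yv (vv (Wq ψ q₁ q r)) (Nat.gcd q r) * (1 / Aw 2 (r / Nat.gcd q r)) := if_pos ⟨h1, h2, h3⟩
  have hPr : PsiA ψ q₁ r q = cv (vv (Wq ψ q₁ q r)) *
      (rho ψ q₁ r * Fv (vv (Wq ψ q₁ q r)) (r / Nat.gcd q r)) *
      Yv (vv (Wq ψ q₁ q r)) (Nat.gcd q r) * (1 / Aw 2 (q / Nat.gcd q r)) := by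
    have h5 : PsiA ψ q₁ r q = _ := if_pos ⟨h2, h1, by rw [← Wq_comm]; exact h3⟩
    rw [h5, ← Wq_comm, Nat.gcd_comm]
  rw [hPq, hPr]
  set v := vv (Wq ψ q₁ q r) with hv
  set g := Nat.gcd q r with hg
  have hgpos : 0 < g := Nat.gcd_pos_of_pos_left _ hqpos
  have hqg : g * (q / g) = q := Nat.mul_div_cancel' (Nat.gcd_dvd_left _ _)
  have hrg : g * (r / g) = r := Nat.mul_div_cancel' (Nat.gcd_dvd_right _ _)
  have hu0 : q / g ≠ 0 := by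
    intro h0'
    rw [h0', mul_zero] at hqg
    omega
  have hw0 : r / g ≠ 0 := by
    intro h0'
    rw [h0', mul_zero] at hrg
    omega
  have hYq : Yv v q ≤ Yv v g * Yv v (q / g) := by
    have := Wt_mul_le (GY_ge v) hgpos.ne' hu0
    rwa [hqg] at this
  have hYr : Yv v r ≤ Yv v g * Yv v (r / g) := by
    have := Wt_mul_le (GY_ge v) hgpos.ne' hw0
    rwa [hrg] at this
  have hc := cv_pos v
  have hbad : 1 ≤ cv v * (Yv v g * Yv v (q / g)) ∨ 1 ≤ cv v * (Yv v g * Yv v (r / g)) := by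
    rcases h4 with h4 | h4
    · left
      have h5 := one_le_cv_mul_Yv (v := v) (n := q) h4
      calc 1 ≤ cv v * Yv v q := h5
        _ ≤ _ := by gcongr
    · right
      have h5 := one_le_cv_mul_Yv (v := v) (n := r) h4
      calc 1 ≤ cv v * Yv v r := h5
        _ ≤ _ := by gcongr
  have hkey := key_amgm (c := cv v) (y := Yv v g) (a := Yv v (q / g)) (b := Yv v (r / g))
    (A₁ := Aw 4 (q / g)) (A₂ := Aw 4 (r / g)) (B₁ := Aw 2 (q / g)) (B₂ := Aw 2 (r / g))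
    hc (Yv_pos v g) (Yv_ge _ _) (Yv_ge _ _) (Aw_pos (by norm_num) _) (Aw_pos (by norm_num) _)
    (Aw_pos (by norm_num) _) (Aw_pos (by norm_num) _) hbad (Yv_mul_Aw2_le _ _) (Yv_mul_Aw2_le _ _)
  rw [Fv_eq, Fv_eq]
  have hρσ : 0 < rho ψ q₁ q * rho ψ q₁ r := mul_pos hρ hσ
  calc 16 * (rho ψ q₁ q * rho ψ q₁ r) = 16 * (rho ψ q₁ q * rho ψ q₁ r) * 1 := by ring
    _ ≤ 16 * (rho ψ q₁ q * rho ψ q₁ r) * (cv v * Yv v g * (Aw 4 (q / g) * Yv v (q / g) *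
          (1 / Aw 2 (r / g)) + Aw 4 (r / g) * Yv v (r / g) * (1 / Aw 2 (q / g)))) := by gcongr
    _ = _ := by ring

/-- The constant of the tilted sum. -/
noncomputable def KPsi (C : ℝ) : ℝ := 64 * C * Real.exp (4 * 7) * Kc * 14 ^ 41

lemma sum_PsiA_le (h0 : ∀ q, 0 ≤ ψ q) (hC : 1 ≤ C₀) (hq₁ : ∀ q, q₁ ≤ q → LargeV ψ C₀ q)
    (hq₁0 : 0 < q₁) (S : Finset ℕ) (n : ℕ) :
    ∑ m ∈ S, PsiA ψ q₁ m n ≤ KPsi C₀ * ((Nat.totient n : ℝ) / n) := by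
  classical
  have hC0 : 0 < C₀ := by linarith
  have hKP : 0 ≤ KPsi C₀ := by
    unfold KPsi
    have := Kc_nonneg
    positivity
  by_cases hn : rho ψ q₁ n = 0
  · have h1 : ∀ m ∈ S, PsiA ψ q₁ m n = 0 := by
      intro m _
      unfold PsiA
      rw [if_neg]
      rintro ⟨_, h, _⟩
      exact h hn
    rw [Finset.sum_congr rfl h1, Finset.sum_const_zero]
    positivity
  have hρn : 0 < rho ψ q₁ n := lt_of_le_of_ne (rho_nonneg h0 n) (Ne.symm hn)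
  have hnpos : 0 < n := lt_of_lt_of_le hq₁0 (rho_spec hn).1
  set S' := S.filter fun m => rho ψ q₁ m ≠ 0 ∧ rho ψ q₁ n ≠ 0 ∧ 1 / 2 ≤ Wq ψ q₁ m n with hS'
  have h1 : ∑ m ∈ S, PsiA ψ q₁ m n = ∑ m ∈ S',
      (cv (vv (Wq ψ q₁ m n)) * (rho ψ q₁ m * Fv (vv (Wq ψ q₁ m n)) (m / Nat.gcd m n)) *
      Yv (vv (Wq ψ q₁ m n)) (Nat.gcd m n) * (1 / Aw 2 (n / Nat.gcd m n))) := by
    rw [hS', Finset.sum_filter]
    rfl
  rw [h1]
  have h2 := Psi_sum (C := C₀) hC0.le hnpos (rho ψ q₁) hρn S' (fun m hm => by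
    obtain ⟨_, h3, _, h5⟩ := Finset.mem_filter.mp hm
    exact ⟨lt_of_lt_of_le hq₁0 (rho_spec h3).1, rho_nonneg h0 m, rho_le_cap hC hq₁ m, h5⟩)
  refine h2.trans (le_of_eq ?_)
  unfold KPsi
  ring

/-- The sum of the rest terms. -/
theorem sum_RestV_le (h0 : ∀ q, 0 ≤ ψ q) (hC : 1 ≤ C₀) (hq₁ : ∀ q, q₁ ≤ q → LargeV ψ C₀ q)
    (hq₁0 : 0 < q₁) (s : Finset ℕ) :
    ∑ r ∈ s, ∑ q ∈ s.filter (fun q => q < r), RestV ψ q₁ q r ≤
      32 * KPsi C₀ * ∑ n ∈ s, rho ψ q₁ n * ((Nat.totient n : ℝ) / n) := by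
  have h1 : ∀ r ∈ s, ∑ q ∈ s.filter (fun q => q < r), RestV ψ q₁ q r ≤
      ∑ q ∈ s.filter (fun q => q < r), 16 * rho ψ q₁ r * PsiA ψ q₁ q r +
      ∑ q ∈ s.filter (fun q => q < r), 16 * rho ψ q₁ q * PsiA ψ q₁ r q := by
    intro r _
    rw [← Finset.sum_add_distrib]
    exact Finset.sum_le_sum fun q _ => RestV_le h0 hq₁0 q r
  refine (Finset.sum_le_sum h1).trans ?_
  rw [Finset.sum_add_distrib]
  have h2 : ∑ r ∈ s, ∑ q ∈ s.filter (fun q => q < r), 16 * rho ψ q₁ r * PsiA ψ q₁ q r ≤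
      16 * KPsi C₀ * ∑ n ∈ s, rho ψ q₁ n * ((Nat.totient n : ℝ) / n) := by
    rw [Finset.mul_sum]
    apply Finset.sum_le_sum
    intro r _
    rw [← Finset.mul_sum]
    have h3 := sum_PsiA_le h0 hC hq₁ hq₁0 (s.filter (fun q => q < r)) r
    have h4 := rho_nonneg (q₁ := q₁) h0 r
    calc 16 * rho ψ q₁ r * ∑ q ∈ s.filter (fun q => q < r), PsiA ψ q₁ q r
        ≤ 16 * rho ψ q₁ r * (KPsi C₀ * ((Nat.totient r : ℝ) / r)) := by gcongr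
      _ = _ := by ring
  have h3 : ∑ r ∈ s, ∑ q ∈ s.filter (fun q => q < r), 16 * rho ψ q₁ q * PsiA ψ q₁ r q ≤
      16 * KPsi C₀ * ∑ n ∈ s, rho ψ q₁ n * ((Nat.totient n : ℝ) / n) := by
    rw [sum_swap_lt s (fun q r => 16 * rho ψ q₁ q * PsiA ψ q₁ r q), Finset.mul_sum]
    apply Finset.sum_le_sum
    intro q _
    rw [← Finset.mul_sum]
    have h3 := sum_PsiA_le h0 hC hq₁ hq₁0 (s.filter (fun r => q < r)) q
    have h4 := rho_nonneg (q₁ := q₁) h0 q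
    calc 16 * rho ψ q₁ q * ∑ r ∈ s.filter (fun r => q < r), PsiA ψ q₁ r q
        ≤ 16 * rho ψ q₁ q * (KPsi C₀ * ((Nat.totient q : ℝ) / q)) := by gcongr
      _ = _ := by ring
  have h5 : 32 * KPsi C₀ * ∑ n ∈ s, rho ψ q₁ n * ((Nat.totient n : ℝ) / n) =
      16 * KPsi C₀ * ∑ n ∈ s, rho ψ q₁ n * ((Nat.totient n : ℝ) / n) +
      16 * KPsi C₀ * ∑ n ∈ s, rho ψ q₁ n * ((Nat.totient n : ℝ) / n) := by ring
  rw [h5]
  exact add_le_add h2 h3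

end

end Vale.Agent.P028
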