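import Vale.Agent.P028.VSum

open MeasureTheory Set Filter Topology
open scoped ENNReal

namespace Vale.Agent.P028

lemma jj_sub_le_log {q r : ℕ} (hq : 0 < q) (hqr : q < r) :
    jj r - jj q ≤ Nat.log 2 (r / q) + 1 := by
  set e := jj r - jj q with he
  by_cases h1 : e ≤ 1
  · omega
  have hjj : jj q + e = jj r := by omega
  have h2 : q < 2 ^ (jj q + 1) := lt_pow_jj q
  have h3 : 2 ^ jj r ≤ r := pow_jj_le (by omega)
  have h4 : 2 ^ (e - 1) * q ≤ r := by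
    have h5 : 2 ^ (e - 1) * q ≤ 2 ^ (e - 1) * 2 ^ (jj q + 1) := Nat.mul_le_mul_left _ h2.le
    have h6 : 2 ^ (e - 1) * 2 ^ (jj q + 1) = 2 ^ jj r := by
      rw [← pow_add]; congr 1; omega
    omega
  have h5 : 2 ^ (e - 1) ≤ r / q := (Nat.le_div_iff_mul_le hq).mpr h4
  have h6 : e - 1 ≤ Nat.log 2 (r / q) := Nat.le_log_of_pow_le (by norm_num) h5
  omega

section

variable {γ : ℝ} {ψ : ℕ → ℝ} {C₀ : ℝ} {q₁ : ℕ}

/-- The small-window alternative. -/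
def Alive2 (γ : ℝ) (ψ : ℕ → ℝ) (q₁ q r : ℕ) : Prop :=
  rho ψ q₁ q ≠ 0 ∧ rho ψ q₁ r ≠ 0 ∧ Wq ψ q₁ q r < 1 / 2 ∧ PairExV γ ψ q₁ q r

open scoped Classical in
/-- First part of the small-window term. -/
noncomputable def E1V (γ : ℝ) (ψ : ℕ → ℝ) (q₁ q r : ℕ) : ℝ :=
  if Alive2 γ ψ q₁ q r then
    ((Nat.gcd q r : ℝ) / r) * tu ^ Nat.log 2 (r / q) *
      (Aw 4 (q / Nat.gcd q r) / Aw 4 (r / Nat.gcd q r))
  else 0

open scoped Classical in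
/-- Second part of the small-window term. -/
noncomputable def E2V (γ : ℝ) (ψ : ℕ → ℝ) (q₁ q r : ℕ) : ℝ :=
  if Alive2 γ ψ q₁ q r then
    (4 * (Nat.gcd q r : ℝ) * min (rho ψ q₁ q / q) (rho ψ q₁ r / r)) * (1 / tu ^ (jj r - jj q)) *
      (Aw 4 (r / Nat.gcd q r) / Aw 4 (q / Nat.gcd q r))
  else 0

lemma E1V_nonneg (q r : ℕ) : 0 ≤ E1V γ ψ q₁ q r := by
  unfold E1V
  split_ifs
  · have h1 := Aw_pos (show (0 : ℝ) ≤ 4 by norm_num) (q / Nat.gcd q r)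
    have h2 := Aw_pos (show (0 : ℝ) ≤ 4 by norm_num) (r / Nat.gcd q r)
    have h3 := pow_pos tu_pos (Nat.log 2 (r / q))
    positivity
  · exact le_refl _

lemma E2V_nonneg (h0 : ∀ q, 0 ≤ ψ q) (q r : ℕ) : 0 ≤ E2V γ ψ q₁ q r := by
  unfold E2V
  split_ifs
  · have h1 := Aw_pos (show (0 : ℝ) ≤ 4 by norm_num) (q / Nat.gcd q r)
    have h2 := Aw_pos (show (0 : ℝ) ≤ 4 by norm_num) (r / Nat.gcd q r)
    have h3 := pow_pos tu_pos (jj r - jj q)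
    have h4 := rho_nonneg (q₁ := q₁) h0 q
    have h5 := rho_nonneg (q₁ := q₁) h0 r
    have h6 : 0 ≤ min (rho ψ q₁ q / q) (rho ψ q₁ r / r) := le_min (by positivity) (by positivity)
    positivity
  · exact le_refl _

/-- The small-window term is dominated by its two parts. -/
lemma Ext2V_le (h0 : ∀ q, 0 ≤ ψ q) (hq₁ : 0 < q₁) {q r : ℕ} (hqr : q < r) :
    Ext2V γ ψ q₁ q r ≤ 2 * tu * rho ψ q₁ r * E1V γ ψ q₁ q r + (1 / 2) * E2V γ ψ q₁ q r := by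
  classical
  have hE1 := E1V_nonneg (γ := γ) (ψ := ψ) (q₁ := q₁) q r
  have hE2 := E2V_nonneg (γ := γ) (q₁ := q₁) h0 q r
  have hσ0 := rho_nonneg (q₁ := q₁) h0 r
  have htu := tu_pos
  by_cases hA : Alive2 γ ψ q₁ q r
  swap
  · have h1 : Ext2V γ ψ q₁ q r = 0 := if_neg hA
    rw [h1]
    positivity
  have h1 : Ext2V γ ψ q₁ q r = 4 * (Nat.gcd q r : ℝ) * min (rho ψ q₁ q / q) (rho ψ q₁ r / r) :=
    if_pos hA
  have h2 : E1V γ ψ q₁ q r = ((Nat.gcd q r : ℝ) / r) * tu ^ Nat.log 2 (r / q) *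
      (Aw 4 (q / Nat.gcd q r) / Aw 4 (r / Nat.gcd q r)) := if_pos hA
  have h3 : E2V γ ψ q₁ q r = (4 * (Nat.gcd q r : ℝ) * min (rho ψ q₁ q / q) (rho ψ q₁ r / r)) *
      (1 / tu ^ (jj r - jj q)) * (Aw 4 (r / Nat.gcd q r) / Aw 4 (q / Nat.gcd q r)) := if_pos hA
  rw [h1, h2, h3]
  obtain ⟨ha1, ha2, _⟩ := hA
  have hqpos : 0 < q := lt_of_lt_of_le hq₁ (rho_spec ha1).1
  have hrpos : 0 < r := by omega
  have hr' : (0 : ℝ) < r := by exact_mod_cast hrpos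
  have hq' : (0 : ℝ) < q := by exact_mod_cast hqpos
  have hρ0 := rho_nonneg (q₁ := q₁) h0 q
  set g : ℝ := (Nat.gcd q r : ℝ) with hg
  have hg0 : 0 < g := by
    have : 0 < Nat.gcd q r := Nat.gcd_pos_of_pos_left _ hqpos
    rw [hg]
    exact_mod_cast this
  set A₁ := Aw 4 (q / Nat.gcd q r) with hA₁
  set A₂ := Aw 4 (r / Nat.gcd q r) with hA₂
  have hA₁0 : 0 < A₁ := Aw_pos (by norm_num) _
  have hA₂0 : 0 < A₂ := Aw_pos (by norm_num) _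
  set M := min (rho ψ q₁ q / q) (rho ψ q₁ r / r) with hM
  have hM0 : 0 ≤ M := le_min (by positivity) (by positivity)
  have hMr : M ≤ rho ψ q₁ r / r := min_le_right _ _
  set e := jj r - jj q with he
  set k := Nat.log 2 (r / q) with hk
  have hek : e ≤ k + 1 := jj_sub_le_log hqpos hqr
  set T := tu ^ e with hT
  have hT0 : 0 < T := pow_pos tu_pos e
  have hTk : T ≤ tu * tu ^ k := by
    rw [hT, ← pow_succ']
    exact pow_le_pow_right₀ tu_gt.le hek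
  -- the basic inequality `x + 1 / x ≥ 2`
  set x := T * (A₁ / A₂) with hx
  have hx0 : 0 < x := by positivity
  have hinv : (1 / T) * (A₂ / A₁) = 1 / x := by rw [hx]; field_simp
  have hamgm : 2 ≤ x + 1 / x := by
    have h4 : x + 1 / x - 2 = (x - 1) ^ 2 / x := by field_simp; ring
    have h5 : 0 ≤ (x - 1) ^ 2 / x := by positivity
    linarith
  have hK0 : 0 ≤ 4 * g * M := by positivity
  have h6 : 4 * g * M ≤ (1 / 2) * (4 * g * M) * x + (1 / 2) * (4 * g * M) * (1 / x) := by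
    calc 4 * g * M = (1 / 2) * (4 * g * M) * 2 := by ring
      _ ≤ (1 / 2) * (4 * g * M) * (x + 1 / x) := by gcongr
      _ = _ := by ring
  have h7 : (1 / 2) * (4 * g * M) * x ≤ 2 * tu * rho ψ q₁ r * (g / r * tu ^ k * (A₁ / A₂)) := by
    have h8 : 0 < A₁ / A₂ := by positivity
    calc (1 / 2) * (4 * g * M) * x = 2 * g * M * (T * (A₁ / A₂)) := by rw [hx]; ring
      _ ≤ 2 * g * (rho ψ q₁ r / r) * ((tu * tu ^ k) * (A₁ / A₂)) := by gcongr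
      _ = _ := by ring
  have h8 : (1 / 2) * (4 * g * M) * (1 / x) = (1 / 2) * (4 * g * M * (1 / T) * (A₂ / A₁)) := by
    rw [← hinv]; ring
  rw [h8] at h6
  linarith

lemma Mq_of_totient (h0 : ∀ q, 0 ≤ ψ q) (hq₁ : 0 < q₁) (n : ℕ) :
    rho ψ q₁ n * ((Nat.totient n : ℝ) / n) ≤ MqV γ ψ q₁ n := by
  by_cases hn : rho ψ q₁ n = 0
  · rw [hn, zero_mul]
    exact MqV_nonneg h0 n
  have hnpos : 0 < n := lt_of_lt_of_le hq₁ (rho_spec hn).1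
  unfold MqV
  exact mul_le_mul_of_nonneg_left (totient_div_le_Dz hnpos.ne' _ _) (rho_nonneg h0 n)

lemma six_mul_le_pow {ℓ : ℕ} (hℓ : 1 ≤ ℓ) : 6 * ℓ ≤ 2 ^ (4 * ℓ) := by
  have h1 : ℓ < 2 ^ ℓ := Nat.lt_two_pow_self
  have h2 : 2 ^ (ℓ + 3) ≤ 2 ^ (4 * ℓ) := Nat.pow_le_pow_right (by norm_num) (by omega)
  have h3 : 2 ^ (ℓ + 3) = 8 * 2 ^ ℓ := by rw [pow_add]; ring
  omega

lemma Mq_of_pow (h0 : ∀ q, 0 ≤ ψ q) (hq₁ : ∀ q, q₁ ≤ q → LargeV ψ C₀ q) (n : ℕ) :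
    rho ψ q₁ n / 2 ^ (4 * ll n) ≤ MqV γ ψ q₁ n := by
  by_cases hn : rho ψ q₁ n = 0
  · rw [hn, zero_div]
    exact MqV_nonneg h0 n
  have hL := hq₁ n (rho_spec hn).1
  have hℓ : 1 ≤ ll n := by have := hL.2.1; omega
  have hz : 1 ≤ zz n := by unfold zz; omega
  have h1 : (1 : ℝ) / zz n ≤ Dz n (BBV γ (jj n)) (zz n) := one_div_le_Dz hz
  have h2 : (zz n : ℝ) ≤ 2 ^ (4 * ll n) := by
    have : zz n ≤ 2 ^ (4 * ll n) := six_mul_le_pow hℓ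
    exact_mod_cast this
  have hz0 : (0 : ℝ) < zz n := by
    have : 0 < zz n := by omega
    exact_mod_cast this
  have h3 : (1 : ℝ) / 2 ^ (4 * ll n) ≤ Dz n (BBV γ (jj n)) (zz n) :=
    (one_div_le_one_div_of_le hz0 h2).trans h1
  unfold MqV
  rw [div_eq_mul_one_div]
  exact mul_le_mul_of_nonneg_left h3 (rho_nonneg h0 n)

/-- The first part of the small-window terms for a fixed larger modulus. -/
lemma sum_E1V_le (h0 : ∀ q, 0 ≤ ψ q) (hC : 1 ≤ C₀) (hq₁ : ∀ q, q₁ ≤ q → LargeV ψ C₀ q)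
    (hq₁0 : 0 < q₁) (s : Finset ℕ) {r : ℕ} (hr : rho ψ q₁ r ≠ 0) :
    ∑ q ∈ s.filter (fun q => q < r), E1V γ ψ q₁ q r ≤
      13 * K1V C₀ * (14 ^ 41 * ((Nat.totient r : ℝ) / r)) +
        (26 * fr (128 * C₀) + 536) / 2 ^ (4 * ll r) := by
  classical
  obtain ⟨hr1, hrG, _⟩ := rho_spec hr
  have hrpos : 0 < r := lt_of_lt_of_le hq₁0 hr1
  have hLr := hq₁ r hr1
  set Q := (s.filter (fun q => q < r)).filter (fun q => Alive2 γ ψ q₁ q r) with hQ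
  have h1 : ∑ q ∈ s.filter (fun q => q < r), E1V γ ψ q₁ q r = ∑ q ∈ Q,
      ((Nat.gcd q r : ℝ) / r) * tu ^ Nat.log 2 (r / q) *
      (Aw 4 (q / Nat.gcd q r) / Aw 4 (r / Nat.gcd q r)) := by
    rw [hQ, Finset.sum_filter (fun q => Alive2 γ ψ q₁ q r)]
    apply Finset.sum_congr rfl
    intro q _
    unfold E1V
    split_ifs <;> rfl
  rw [h1]
  have hQdata : ∀ q ∈ Q, q < r ∧ Alive2 γ ψ q₁ q r := by
    intro q hq
    obtain ⟨h2, h3⟩ := Finset.mem_filter.mp hq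
    exact ⟨(Finset.mem_filter.mp h2).2, h3⟩
  refine T1_V (γ := γ) hC hrpos hLr.1 hrG.2.1 Q (rho ψ q₁) (rho ψ q₁ r) (rho_nonneg h0 r)
    (rho_le_cap hC hq₁ r) ?_ ?_
  · intro q hq
    obtain ⟨h2, h3, _, h5, a, b, h6, h7⟩ := hQdata q hq
    have hqpos : 0 < q := lt_of_lt_of_le hq₁0 (rho_spec h3).1
    have hg : (0 : ℝ) < Nat.gcd q r := by
      exact_mod_cast Nat.gcd_pos_of_pos_left _ hqpos
    refine ⟨hqpos, h2, rho_nonneg h0 q, rho_le_cap hC hq₁ q, ?_, a, b, h6, h7⟩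
    have h8 : ((r : ℝ) * rho ψ q₁ q + q * rho ψ q₁ r) / Nat.gcd q r < 1 / 2 := h5
    rw [div_lt_iff₀ hg] at h8
    linarith
  · intro q hq
    obtain ⟨h2, h3, _⟩ := hQdata q hq
    obtain ⟨hq1, hqG, _⟩ := rho_spec h3
    have hqpos : 0 < q := lt_of_lt_of_le hq₁0 hq1
    have hg : q / Nat.gcd q r ∣ q := Nat.div_dvd_of_dvd (Nat.gcd_dvd_left _ _)
    have h4 := Aw4_le_of_tau hqpos.ne' hqG.2.1 hg
    refine h4.trans ?_
    apply pow_le_pow_right₀ (by norm_num)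
    have := ll_le_of_le h2.le
    omega

/-- The second part of the small-window terms for a fixed smaller modulus. -/
lemma sum_E2V_le (h0 : ∀ q, 0 ≤ ψ q) (hC : 1 ≤ C₀) (hq₁ : ∀ q, q₁ ≤ q → LargeV ψ C₀ q)
    (hq₁0 : 0 < q₁) (s : Finset ℕ) {q : ℕ} (hq : rho ψ q₁ q ≠ 0) :
    ∑ r ∈ s.filter (fun r => q < r), E2V γ ψ q₁ q r ≤
      13 * (2720 * sg * C₀ + 32 * M9 * C₀) * rho ψ q₁ q * (14 ^ 41 * ((Nat.totient q : ℝ) / q)) +
        5980 * C₀ * rho ψ q₁ q / 2 ^ (4 * ll q) := by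
  classical
  obtain ⟨hq1, hqG, hqe⟩ := rho_spec hq
  have hqpos : 0 < q := lt_of_lt_of_le hq₁0 hq1
  have hLq := hq₁ q hq1
  have hρ0 : 0 < rho ψ q₁ q := lt_of_le_of_ne (rho_nonneg h0 q) (Ne.symm hq)
  set R := (s.filter (fun r => q < r)).filter (fun r => Alive2 γ ψ q₁ q r) with hR
  have h1 : ∑ r ∈ s.filter (fun r => q < r), E2V γ ψ q₁ q r = ∑ r ∈ R,
      (4 * (Nat.gcd q r : ℝ) * min (rho ψ q₁ q / q) (rho ψ q₁ r / r)) * (1 / tu ^ (jj r - jj q)) *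
      (Aw 4 (r / Nat.gcd q r) / Aw 4 (q / Nat.gcd q r)) := by
    rw [hR, Finset.sum_filter (fun r => Alive2 γ ψ q₁ q r)]
    apply Finset.sum_congr rfl
    intro r _
    unfold E2V
    split_ifs <;> rfl
  rw [h1]
  have hRdata : ∀ r ∈ R, q < r ∧ Alive2 γ ψ q₁ q r := by
    intro r hr
    obtain ⟨h2, h3⟩ := Finset.mem_filter.mp hr
    exact ⟨(Finset.mem_filter.mp h2).2, h3⟩
  have hlow : 1 / ((q : ℝ) * (jj q : ℝ) ^ 2) ≤ rho ψ q₁ q := by rw [hqe]; exact hqG.1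
  refine T2_V (γ := γ) hC hqpos (by have := hLq.1; omega) hρ0 hlow hqG.2.1 R (rho ψ q₁) ?_
  intro r hr
  obtain ⟨h2, _, h3, h5, a, b, h6, h7⟩ := hRdata r hr
  obtain ⟨hr1, hrG, _⟩ := rho_spec h3
  have hrpos : 0 < r := lt_of_lt_of_le hq₁0 hr1
  have hg : (0 : ℝ) < Nat.gcd q r := by
    exact_mod_cast Nat.gcd_pos_of_pos_left _ hqpos
  refine ⟨h2, (hq₁ r hr1).1, rho_nonneg h0 r, rho_le_cap hC hq₁ r, ?_, ⟨a, b, h6, h7⟩, ?_⟩
  · have h8 : ((r : ℝ) * rho ψ q₁ q + q * rho ψ q₁ r) / Nat.gcd q r < 1 / 2 := h5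
    rw [div_lt_iff₀ hg] at h8
    linarith
  · exact Aw4_le_of_tau hrpos.ne' hrG.2.1 (Nat.div_dvd_of_dvd (Nat.gcd_dvd_right _ _))

/-- The constant of the small-window terms. -/
noncomputable def KEV (C : ℝ) : ℝ :=
  2 * tu * (13 * K1V C * 14 ^ 41 + (26 * fr (128 * C) + 536)) +
    (1 / 2) * (13 * (2720 * sg * C + 32 * M9 * C) * 14 ^ 41 + 5980 * C)

/-- The sum of the small-window terms. -/
theorem sum_Ext2V_le (h0 : ∀ q, 0 ≤ ψ q) (hC : 1 ≤ C₀) (hq₁ : ∀ q, q₁ ≤ q → LargeV ψ C₀ q)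
    (hq₁0 : 0 < q₁) (s : Finset ℕ) :
    ∑ r ∈ s, ∑ q ∈ s.filter (fun q => q < r), Ext2V γ ψ q₁ q r ≤
      KEV C₀ * ∑ n ∈ s, MqV γ ψ q₁ n := by
  classical
  have hC0 : 0 < C₀ := by linarith
  have hM9 := M9_pos
  have hsg := sg_pos
  have htu := tu_pos
  have hK1 := K1V_nonneg hC0.le
  have hfr : 0 ≤ fr (128 * C₀) := fr_nonneg (by positivity)
  have h1 : ∀ r ∈ s, ∑ q ∈ s.filter (fun q => q < r), Ext2V γ ψ q₁ q r ≤
      ∑ q ∈ s.filter (fun q => q < r), 2 * tu * rho ψ q₁ r * E1V γ ψ q₁ q r +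
      ∑ q ∈ s.filter (fun q => q < r), (1 / 2) * E2V γ ψ q₁ q r := by
    intro r _
    rw [← Finset.sum_add_distrib]
    exact Finset.sum_le_sum fun q hq => Ext2V_le h0 hq₁0 (Finset.mem_filter.mp hq).2
  refine (Finset.sum_le_sum h1).trans ?_
  rw [Finset.sum_add_distrib]
  set KA := 13 * K1V C₀ * 14 ^ 41 + (26 * fr (128 * C₀) + 536) with hKA
  have hKA0 : 0 ≤ KA := by positivity
  set KB := 13 * (2720 * sg * C₀ + 32 * M9 * C₀) * 14 ^ 41 + 5980 * C₀ with hKB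
  have hKB0 : 0 ≤ KB := by positivity
  have h2 : ∑ r ∈ s, ∑ q ∈ s.filter (fun q => q < r), 2 * tu * rho ψ q₁ r * E1V γ ψ q₁ q r ≤
      2 * tu * KA * ∑ n ∈ s, MqV γ ψ q₁ n := by
    rw [Finset.mul_sum]
    apply Finset.sum_le_sum
    intro r _
    rw [← Finset.mul_sum]
    by_cases hr : rho ψ q₁ r = 0
    · rw [hr, mul_zero, zero_mul]
      have := MqV_nonneg (γ := γ) (q₁ := q₁) h0 r
      positivity
    · have h3 := sum_E1V_le (γ := γ) h0 hC hq₁ hq₁0 s hr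
      have h4 := rho_nonneg (q₁ := q₁) h0 r
      have h5 := Mq_of_totient (γ := γ) h0 hq₁0 r
      have h6 := Mq_of_pow (γ := γ) h0 hq₁ r
      calc 2 * tu * rho ψ q₁ r * ∑ q ∈ s.filter (fun q => q < r), E1V γ ψ q₁ q r
          ≤ 2 * tu * rho ψ q₁ r * (13 * K1V C₀ * (14 ^ 41 * ((Nat.totient r : ℝ) / r)) +
            (26 * fr (128 * C₀) + 536) / 2 ^ (4 * ll r)) := by gcongr
        _ = 2 * tu * ((13 * K1V C₀ * 14 ^ 41) * (rho ψ q₁ r * ((Nat.totient r : ℝ) / r)) +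
            (26 * fr (128 * C₀) + 536) * (rho ψ q₁ r / 2 ^ (4 * ll r))) := by ring
        _ ≤ 2 * tu * ((13 * K1V C₀ * 14 ^ 41) * MqV γ ψ q₁ r +
            (26 * fr (128 * C₀) + 536) * MqV γ ψ q₁ r) := by gcongr
        _ = _ := by rw [hKA]; ring
  have h3 : ∑ r ∈ s, ∑ q ∈ s.filter (fun q => q < r), (1 / 2) * E2V γ ψ q₁ q r ≤
      (1 / 2) * KB * ∑ n ∈ s, MqV γ ψ q₁ n := by
    rw [sum_swap_lt s (fun q r => (1 / 2) * E2V γ ψ q₁ q r), Finset.mul_sum]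
    apply Finset.sum_le_sum
    intro q _
    rw [← Finset.mul_sum]
    by_cases hq : rho ψ q₁ q = 0
    · have h4 : ∀ r ∈ s.filter (fun r => q < r), E2V γ ψ q₁ q r = 0 := by
        intro r _
        unfold E2V
        rw [if_neg]
        rintro ⟨h, _⟩
        exact h hq
      rw [Finset.sum_congr rfl h4, Finset.sum_const_zero, mul_zero]
      have := MqV_nonneg (γ := γ) (q₁ := q₁) h0 q
      positivity
    · have h3 := sum_E2V_le (γ := γ) h0 hC hq₁ hq₁0 s hq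
      have h4 := rho_nonneg (q₁ := q₁) h0 q
      have h5 := Mq_of_totient (γ := γ) h0 hq₁0 q
      have h6 := Mq_of_pow (γ := γ) h0 hq₁ q
      calc (1 / 2) * ∑ r ∈ s.filter (fun r => q < r), E2V γ ψ q₁ q r
          ≤ (1 / 2) * (13 * (2720 * sg * C₀ + 32 * M9 * C₀) * rho ψ q₁ q *
              (14 ^ 41 * ((Nat.totient q : ℝ) / q)) + 5980 * C₀ * rho ψ q₁ q / 2 ^ (4 * ll q)) := by
            gcongr
        _ = (1 / 2) * ((13 * (2720 * sg * C₀ + 32 * M9 * C₀) * 14 ^ 41) *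
              (rho ψ q₁ q * ((Nat.totient q : ℝ) / q)) +
              (5980 * C₀) * (rho ψ q₁ q / 2 ^ (4 * ll q))) := by ring
        _ ≤ (1 / 2) * ((13 * (2720 * sg * C₀ + 32 * M9 * C₀) * 14 ^ 41) * MqV γ ψ q₁ q +
              (5980 * C₀) * MqV γ ψ q₁ q) := by gcongr
        _ = _ := by rw [hKB]; ring
  have h4 : KEV C₀ * ∑ n ∈ s, MqV γ ψ q₁ n = 2 * tu * KA * ∑ n ∈ s, MqV γ ψ q₁ n +
      (1 / 2) * KB * ∑ n ∈ s, MqV γ ψ q₁ n := by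
    unfold KEV
    rw [hKA, hKB]
    ring
  rw [h4]
  exact add_le_add h2 h3

end

end Vale.Agent.P028
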