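import Vale.Agent.P028.VMaster
import Vale.Agent.P028.SumT

namespace Vale.Agent.P028

open Finset

/-- Pointwise truncation of a weight. -/
lemma trunc_pointwise {a δ Am : ℝ} (ha : 1 ≤ a) (hδ : 0 < δ) (hAm : a ≤ Am) :
    a ≤ min (r8 (1 / δ)) Am + δ * a ^ 9 := by
  have ha0 : 0 < a := by linarith
  have h9 : 0 < δ * a ^ 9 := by positivity
  rcases min_choice (r8 (1 / δ)) Am with h | h
  · rw [h]
    by_cases hc : a ≤ r8 (1 / δ)
    · linarith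
    · push Not at hc
      have h1 : r8 (1 / δ) ^ 8 ≤ a ^ 8 := pow_le_pow_left₀ (r8_nonneg (by positivity)) hc.le 8
      rw [r8_pow8 (by positivity)] at h1
      have h2 : 1 ≤ δ * a ^ 8 := by
        rw [div_le_iff₀ hδ] at h1
        linarith
      have h3 : δ * a ^ 9 = (δ * a ^ 8) * a := by ring
      have h4 : 0 < r8 (1 / δ) := r8_pos (by positivity)
      rw [h3]
      nlinarith
  · rw [h]
    linarith

lemma tu_pow_eq (k : ℕ) : tu ^ k = (sg ^ k) ^ 2 := by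
  rw [tu_eq, ← pow_mul, ← pow_mul, mul_comm]

lemma two_pow_eq (k : ℕ) : (2 : ℝ) ^ k = (sg ^ k) ^ 8 := by
  rw [← pow_mul, mul_comm, pow_mul, sg_pow8]

lemma one_div_sg_pow (k : ℕ) : (1 / sg) ^ k = 1 / sg ^ k := by rw [one_div_pow]

lemma one_le_sg_pow (k : ℕ) : 1 ≤ sg ^ k := one_le_pow₀ one_lt_sg.le

/-- Bound for the fourth root of the precision. -/
lemma fr_delta_le {C δ : ℝ} {g k : ℕ} (hC : 0 ≤ C) (hg : 0 < g) (hδ0 : 0 ≤ δ)
    (hδ : δ ≤ (2 : ℝ) ^ (k + 2) * C / g) :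
    fr δ ≤ tu ^ k * (fr (4 * C) * (1 / fr g)) := by
  have hg' : (0 : ℝ) < g := by exact_mod_cast hg
  have h1 : (2 : ℝ) ^ (k + 2) * C / g = 2 ^ k * ((4 * C) / g) := by
    rw [pow_add]; ring
  have h2 : fr δ ≤ fr ((2 : ℝ) ^ k * ((4 * C) / g)) := by
    apply fr_le_fr hδ0
    rw [← h1]; exact hδ
  refine h2.trans (le_of_eq ?_)
  rw [fr_mul (by positivity) (by positivity), fr_two_pow, fr_div (by positivity) hg'.le]
  ring

/-- The main term of the first sum. -/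
lemma termA {C δ : ℝ} {g k : ℕ} (hC : 0 ≤ C) (hg : 0 < g) (hδ0 : 0 < δ) (hδ1 : δ ≤ 1)
    (hδ : δ ≤ (2 : ℝ) ^ (k + 2) * C / g) :
    tu ^ k * (r8 (1 / δ) * (δ * (1 / 2 ^ k))) ≤ fr (4 * C) * (1 / fr g) * (1 / sg) ^ k := by
  have hg' : (0 : ℝ) < g := by exact_mod_cast hg
  have hr := r8_pos hδ0
  have hr1 : r8 δ ≤ 1 := r8_le_one hδ0.le hδ1
  have h1 : r8 (1 / δ) * δ ≤ fr δ := by
    rw [r8_div (by norm_num) hδ0.le, r8_one]
    have h2 : δ = r8 δ ^ 8 := (r8_pow8 hδ0.le).symm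
    have h3 : 1 / r8 δ * r8 δ ^ 8 = r8 δ ^ 7 := by field_simp
    calc 1 / r8 δ * δ = 1 / r8 δ * r8 δ ^ 8 := by rw [← h2]
      _ = r8 δ ^ 7 := h3
      _ ≤ r8 δ ^ 2 := pow_le_pow_of_le_one hr.le hr1 (by norm_num)
      _ = fr δ := rfl
  have h2 := fr_delta_le hC hg hδ0.le hδ
  set c := fr (4 * C) * (1 / fr g) with hc
  have hc0 : 0 ≤ c := by
    have : 0 ≤ fr (4 * C) := fr_nonneg (by positivity)
    have : 0 < fr (g : ℝ) := fr_pos hg'
    positivity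
  have h3 : r8 (1 / δ) * δ ≤ tu ^ k * c := h1.trans h2
  set s := sg ^ k with hs
  have hs1 : 1 ≤ s := one_le_sg_pow k
  have hs0 : 0 < s := by linarith
  have h4 : tu ^ k = s ^ 2 := tu_pow_eq k
  have h5 : (2 : ℝ) ^ k = s ^ 8 := two_pow_eq k
  rw [one_div_sg_pow, ← hs, h4, h5]
  rw [h4] at h3
  calc s ^ 2 * (r8 (1 / δ) * (δ * (1 / s ^ 8))) = s ^ 2 * (r8 (1 / δ) * δ) * (1 / s ^ 8) := by ring
    _ ≤ s ^ 2 * (s ^ 2 * c) * (1 / s ^ 8) :=
        mul_le_mul_of_nonneg_right (mul_le_mul_of_nonneg_left h3 (by positivity)) (by positivity)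
    _ = c * (1 / s ^ 4) := by field_simp
    _ ≤ c * (1 / s) := by
        gcongr
        nlinarith [pow_le_pow_right₀ hs1 (show 1 ≤ 4 by norm_num), pow_one s]

/-- The term with the tail of the weight. -/
lemma termF {C δ : ℝ} {g k : ℕ} (hC : 0 ≤ C) (hg : 0 < g) (hδ0 : 0 < δ) (hδ1 : δ ≤ 1)
    (hδ : δ ≤ (2 : ℝ) ^ (k + 2) * C / g) :
    tu ^ k * (δ * (1 / 2 ^ k)) ≤ fr (4 * C) * (1 / fr g) * (1 / sg) ^ k := by
  refine le_trans ?_ (termA hC hg hδ0 hδ1 hδ)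
  have h1 : 1 ≤ r8 (1 / δ) := one_le_r8 (by rw [le_div_iff₀ hδ0]; linarith)
  have h2 : 0 < tu ^ k := pow_pos tu_pos k
  have h3 : 0 ≤ δ * (1 / 2 ^ k) := by positivity
  apply mul_le_mul_of_nonneg_left _ h2.le
  nlinarith

/-- The term for the minimum with the second approximation scale. -/
lemma termB {D : ℝ} (hD : 0 ≤ D) (k : ℕ) :
    tu ^ k * min ((3 / 2 : ℝ) / 2 ^ k) (D * 2 ^ k) ≤ 2 * fr D * (1 / sg) ^ k := by
  have h0 : (0 : ℝ) ≤ (3 / 2 : ℝ) / 2 ^ k := by positivity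
  have h1 : 0 ≤ D * (2 : ℝ) ^ k := by positivity
  have h2 := min_le_r8 h0 h1 6 (by norm_num)
  rw [r8_div (by norm_num) (by positivity), r8_mul hD (by positivity), r8_two_pow] at h2
  set s := sg ^ k with hs
  have hs1 : 1 ≤ s := one_le_sg_pow k
  have hs0 : 0 < s := by linarith
  have h3 : tu ^ k = s ^ 2 := tu_pow_eq k
  have h4 : r8 (3 / 2) ^ 6 ≤ 2 := by
    have h5 : 1 ≤ r8 (3 / 2) := one_le_r8 (by norm_num)
    have h6 : r8 (3 / 2) ^ 8 = 3 / 2 := r8_pow8 (by norm_num)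
    have h7 : r8 (3 / 2) ^ 6 ≤ r8 (3 / 2) ^ 8 := pow_le_pow_right₀ h5 (by norm_num)
    linarith
  have hfr : r8 D ^ 2 = fr D := rfl
  have hfr0 : 0 ≤ fr D := fr_nonneg hD
  rw [h3, one_div_sg_pow, ← hs]
  simp only [Nat.reduceSub] at h2
  calc s ^ 2 * min ((3 / 2 : ℝ) / 2 ^ k) (D * 2 ^ k)
      ≤ s ^ 2 * ((r8 (3 / 2) / s) ^ 6 * (r8 D * s) ^ 2) := by gcongr
    _ = r8 (3 / 2) ^ 6 * fr D * (1 / s ^ 2) := by
        rw [← hfr]; field_simp
    _ ≤ 2 * fr D * (1 / s ^ 2) := by gcongr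
    _ ≤ 2 * fr D * (1 / s) := by
        gcongr
        nlinarith

/-- The term with the small shift. -/
lemma termC {y : ℝ} (hy : 0 ≤ y) (k : ℕ) :
    tu ^ k * (y / 2 ^ k) ≤ y * (1 / sg) ^ k := by
  set s := sg ^ k with hs
  have hs1 : 1 ≤ s := one_le_sg_pow k
  have hs0 : 0 < s := by linarith
  rw [tu_pow_eq, two_pow_eq, one_div_sg_pow, ← hs]
  have : s ^ 2 * (y / s ^ 8) = y * (1 / s ^ 6) := by field_simp
  rw [this]
  gcongr
  nlinarith [pow_le_pow_right₀ hs1 (show 1 ≤ 6 by norm_num), pow_one s]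

/-- The main term in the well-approximable case. -/
lemma termD {C E₁ : ℝ} {g k : ℕ} (hC : 1 ≤ C) (hg : 0 < g) (hE0 : 0 ≤ E₁)
    (hE : E₁ ≤ min ((1 / 2 : ℝ) / 2 ^ k) ((32 / 3) * C / g * 2 ^ k)) :
    tu ^ k * (r8 (1 / ((2 : ℝ) ^ (k + 2) * C / g)) * E₁) ≤
      8 * fr C * (1 / fr g) * (1 / sg) ^ k := by
  have hg' : (0 : ℝ) < g := by exact_mod_cast hg
  have hC0 : 0 < C := by linarith
  have h0 : (0 : ℝ) ≤ (1 / 2 : ℝ) / 2 ^ k := by positivity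
  have h1 : 0 ≤ (32 / 3) * C / g * (2 : ℝ) ^ k := by positivity
  have h2 := min_le_r8 h0 h1 5 (by norm_num)
  set s := sg ^ k with hs
  have hs1 : 1 ≤ s := one_le_sg_pow k
  have hs0 : 0 < s := by linarith
  set h := r8 (g : ℝ) with hh
  have hh0 : 0 < h := r8_pos hg'
  set c := r8 C with hc
  have hc0 : 0 < c := r8_pos hC0
  -- the roots
  have e1 : r8 (1 / ((2 : ℝ) ^ (k + 2) * C / g)) ≤ h / (s * c) := by
    have h3 : 1 / ((2 : ℝ) ^ (k + 2) * C / g) = g / (4 * (2 ^ k * C)) := by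
      rw [pow_add]; field_simp; norm_num
    rw [h3, r8_div hg'.le (by positivity), r8_mul (by norm_num) (by positivity),
      r8_mul (by positivity) hC0.le, r8_two_pow, ← hs, ← hh, ← hc]
    have h4 : 1 ≤ r8 4 := one_le_r8 (by norm_num)
    apply div_le_div_of_nonneg_left hh0.le (by positivity)
    nlinarith [mul_pos hs0 hc0]
  have e2 : r8 ((1 / 2 : ℝ) / 2 ^ k) ≤ 1 / s := by
    rw [r8_div (by norm_num) (by positivity), r8_two_pow, ← hs]
    apply div_le_div_of_nonneg_right _ hs0.le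
    exact r8_le_one (by norm_num) (by norm_num)
  have e3 : r8 ((32 / 3) * C / g * (2 : ℝ) ^ k) ≤ 2 * c * s / h := by
    rw [r8_mul (by positivity) (by positivity), r8_div (by positivity) hg'.le,
      r8_mul (by norm_num) hC0.le, r8_two_pow, ← hs, ← hh, ← hc]
    have h4 : r8 (32 / 3) ≤ 2 := by
      by_contra hcon
      push Not at hcon
      have h5 : (2 : ℝ) ^ 8 ≤ r8 (32 / 3) ^ 8 := pow_le_pow_left₀ (by norm_num) hcon.le 8
      rw [r8_pow8 (by norm_num)] at h5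
      norm_num at h5
    have h5 : r8 (32 / 3) * c / h * s = r8 (32 / 3) * (c * s / h) := by ring
    have h6 : 2 * c * s / h = 2 * (c * s / h) := by ring
    rw [h5, h6]
    gcongr
  have e4 : 0 ≤ r8 ((1 / 2 : ℝ) / 2 ^ k) := r8_nonneg h0
  have e5 : 0 ≤ r8 ((32 / 3) * C / g * (2 : ℝ) ^ k) := r8_nonneg h1
  have e6 : 0 ≤ r8 (1 / ((2 : ℝ) ^ (k + 2) * C / g)) := r8_nonneg (by positivity)
  have hmin : min ((1 / 2 : ℝ) / 2 ^ k) ((32 / 3) * C / g * 2 ^ k) ≤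
      (1 / s) ^ 5 * (2 * c * s / h) ^ 3 := by
    refine h2.trans ?_
    simp only [Nat.reduceSub]
    gcongr
  have hfrC : fr C = c ^ 2 := rfl
  have hfrg : fr (g : ℝ) = h ^ 2 := rfl
  rw [tu_pow_eq, one_div_sg_pow, ← hs, hfrC, hfrg]
  have hE' : E₁ ≤ (1 / s) ^ 5 * (2 * c * s / h) ^ 3 := hE.trans hmin
  calc s ^ 2 * (r8 (1 / ((2 : ℝ) ^ (k + 2) * C / g)) * E₁)
      ≤ s ^ 2 * (h / (s * c) * ((1 / s) ^ 5 * (2 * c * s / h) ^ 3)) := by gcongr
    _ = 8 * c ^ 2 * (1 / h ^ 2) * (1 / s) := by field_simp; ring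

/-- Bound for the sum of the powers of `tu`. -/
lemma sum_tu_pow_le (K : ℕ) : ∑ k ∈ range K, tu ^ k ≤ 6 * tu ^ K := by
  induction K with
  | zero => simp
  | succ n ih =>
    rw [Finset.sum_range_succ, pow_succ]
    have h1 : 7 / 6 < tu := by
      by_contra h
      push Not at h
      have h2 : tu ^ 4 ≤ (7 / 6 : ℝ) ^ 4 := pow_le_pow_left₀ tu_pos.le h 4
      rw [tu_pow4] at h2
      norm_num at h2
    have h2 : 0 < tu ^ n := pow_pos tu_pos n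
    nlinarith

/-- `tu` powers against powers of two. -/
lemma tu_pow_le_two_pow (m n : ℕ) (h : m ≤ 2 * n) : tu ^ m ≤ 2 ^ n := by
  have h1 : tu ^ m ≤ tu ^ (2 * n) := pow_le_pow_right₀ tu_gt.le h
  refine h1.trans ?_
  rw [pow_mul]
  exact pow_le_pow_left₀ (by positivity) tu_sq_le n

end Vale.Agent.P028
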