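import Vale.Agent.P028.VT1a

namespace Vale.Agent.P028

open Finset

/-- Chord bound for powers. -/
lemma pow_sub_one_le {a : ℝ} (h1 : 1 ≤ a) (h5 : a ≤ 5) (n : ℕ) :
    a ^ n - 1 ≤ (((5 : ℝ) ^ n - 1) / 4) * (a - 1) := by
  induction n with
  | zero => simp
  | succ n ih =>
    have h2 : 1 ≤ a ^ n := one_le_pow₀ h1
    have h3 : a ^ (n + 1) - 1 = a * (a ^ n - 1) + (a - 1) := by rw [pow_succ]; ring
    have h4 : a * (a ^ n - 1) ≤ 5 * (a ^ n - 1) := by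
      apply mul_le_mul_of_nonneg_right h5 (by linarith)
    have h5' : ((5 : ℝ) ^ (n + 1) - 1) / 4 * (a - 1) =
        5 * (((5 : ℝ) ^ n - 1) / 4 * (a - 1)) + (a - 1) := by
      rw [pow_succ]; ring
    rw [h3, h5']
    linarith

/-- The mean value constant of the ninth power of the weight. -/
noncomputable def M9 : ℝ := Real.exp (4 * 1953124)

lemma M9_pos : 0 < M9 := Real.exp_pos _

lemma fr_prime_ge {p : ℕ} (hp : p.Prime) : 1 ≤ fr (p : ℝ) := by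
  apply one_le_fr
  exact_mod_cast hp.one_lt.le

/-- Mean value of the ninth power of the weight. -/
lemma Aw4_pow9_mean {y : ℝ} (hy : 0 ≤ y) {S : Finset ℕ} (hS : ∀ n ∈ S, 0 < n ∧ (n : ℝ) ≤ y) :
    ∑ n ∈ S, Aw 4 n ^ 9 ≤ y * M9 := by
  have h := Wt_mean_real (G := fun p => (1 + 4 / fr p) ^ 9) (c := 1953124) (by norm_num)
    (fun p hp => one_le_pow₀ (Aw_G_ge (by norm_num) p hp)) (fun p hp => by
      have h1 := fr_prime_ge hp
      have h2 : 0 < 4 / fr (p : ℝ) := by positivity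
      have h3 : 4 / fr (p : ℝ) ≤ 4 := by
        rw [div_le_iff₀ (by linarith)]; linarith
      have h4 := pow_sub_one_le (a := 1 + 4 / fr (p : ℝ)) (by linarith) (by linarith) 9
      have h5 : 1953124 / fr (p : ℝ) = 488281 * (4 / fr (p : ℝ)) := by ring
      rw [h5]
      norm_num at h4 ⊢
      linarith) hy hS
  have h2 : ∀ n, Wt (fun p => (1 + 4 / fr p) ^ 9) n = Aw 4 n ^ 9 := fun n => Wt_pow_fun _ 9 n
  simp only [h2] at h
  exact h

/-- Level decomposition of the first sum. -/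
theorem level_card {γ θ C : ℝ} {A : ℤ} {B X r : ℕ} (hB : 0 < B) (hBX : B ≤ X)
    (hAB : IsCoprime A (B : ℤ)) (hθ : θ = (B : ℝ) * γ - A) (hθX : |θ| ≤ 1 / ((X : ℝ) + 1))
    (hX : 15 ≤ X) (hC : 0 < C)
    (Q : Finset ℕ) (ρ : ℕ → ℝ) (σ : ℝ) (hσ0 : 0 ≤ σ) (hσ : σ ≤ C / r)
    (hQ : ∀ q ∈ Q, 0 < q ∧ q < r ∧ 0 ≤ ρ q ∧ ρ q ≤ C / q ∧
      2 * ((r : ℝ) * ρ q + q * σ) < Nat.gcd q r ∧
      ∃ a b : ℤ, IsCoprime (b * B + A) (r : ℤ) ∧
        |((a : ℝ) + γ) * (r / Nat.gcd q r : ℕ) - ((b : ℝ) + γ) * (q / Nat.gcd q r : ℕ)| <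
          ((r : ℝ) * ρ q + q * σ) / Nat.gcd q r)
    {g k : ℕ} (hg : g ∈ r.divisors) :
    ((Q.filter fun q => Nat.gcd q r = g ∧ Nat.log 2 (r / q) = k).card : ℝ) * ((g : ℝ) / r) ≤
        80 / 2 ^ k * min ((2 : ℝ) ^ (k + 2) * C / g) (1 / 2) +
        min ((3 / 2 : ℝ) / 2 ^ k) (128 * C * B / r * 2 ^ k) + 40 * |θ| / 2 ^ k ∨
    (4 * min ((2 : ℝ) ^ (k + 2) * C / g) (1 / 2) * B < 1 ∧ (g : ℝ) < 4 / 3 * (|θ| * r) ∧
      ((Q.filter fun q => Nat.gcd q r = g ∧ Nat.log 2 (r / q) = k).card : ℝ) * ((g : ℝ) / r) ≤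
        min ((1 / 2 : ℝ) / 2 ^ k / B) (8 * C / (|θ| * r) * 2 ^ k) + 2 * g / r) := by
  classical
  have hrpos : 0 < r := Nat.pos_of_mem_divisors (Nat.mem_divisors_self _ (by
    intro h0
    simp [h0] at hg))
  have hr' : (0 : ℝ) < r := by exact_mod_cast hrpos
  set δ := min ((2 : ℝ) ^ (k + 2) * C / g) (1 / 2) with hδ
  set N := Q.filter fun q => Nat.gcd q r = g ∧ Nat.log 2 (r / q) = k with hN
  have hdata : ∀ q ∈ N,
      (((r / g : ℕ) : ℤ) - (((r / g) / 2 ^ k : ℕ) : ℤ) ≤ ((r / g : ℕ) : ℤ) - ((q / g : ℕ) : ℤ) ∧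
      ((r / g : ℕ) : ℤ) - ((q / g : ℕ) : ℤ) < ((r / g : ℕ) : ℤ) - (((r / g) / 2 ^ (k + 1) : ℕ) : ℤ)) ∧
      Near γ δ (((r / g : ℕ) : ℤ) - ((q / g : ℕ) : ℤ)) ∧
      (4 * δ * B < 1 →
        (g : ℝ) < 4 / 3 * (|θ| * r) ∧
        (∃ n : ℕ, 1 ≤ n ∧ |(g : ℝ) * n - (|θ| * r)| < B * 2 ^ (k + 2) * C + |θ| * r / 2 ^ k ∧
          (g : ℝ) * n ≤ 2 * (|θ| * r)) ∧
        (B : ℝ) * 2 ^ (k + 2) * C < |θ| * r / 3) := by
    intro q hq
    obtain ⟨hq1, hg, hk⟩ := Finset.mem_filter.mp hq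
    obtain ⟨h1, h2, h3, h4, h5, a, b, hb, hab⟩ := hQ q hq1
    exact level_data' hB hθ hC h1 h2 h3 h4 hσ0 hσ h5 hb hab hg hk
  have hgpos : 0 < g := Nat.pos_of_mem_divisors hg
  have hg' : (0 : ℝ) < g := by exact_mod_cast hgpos
  have hgr : g ∣ r := Nat.dvd_of_mem_divisors hg
  set t := r / g with ht
  have hrt : r = g * t := (Nat.mul_div_cancel' hgr).symm
  have htpos : 0 < t := by
    apply Nat.pos_of_ne_zero
    intro h0
    rw [h0, mul_zero] at hrt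
    omega
  have ht' : (0 : ℝ) < t := by exact_mod_cast htpos
  have hgr' : (g : ℝ) / r = 1 / t := by
    rw [hrt]; push_cast; field_simp
  set S : Finset ℤ := N.image fun q => ((t : ℕ) : ℤ) - ((q / g : ℕ) : ℤ) with hS
  have hcard : S.card = N.card := by
    apply Finset.card_image_of_injOn
    intro q₁ h₁ q₂ h₂ heq
    have h3 : q₁ / g = q₂ / g := by
      simp only at heq
      omega
    have h4 : g ∣ q₁ := by
      have := (Finset.mem_filter.mp h₁).2.1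
      rw [← this]; exact Nat.gcd_dvd_left _ _
    have h5 : g ∣ q₂ := by
      have := (Finset.mem_filter.mp h₂).2.1
      rw [← this]; exact Nat.gcd_dvd_left _ _
    rw [← Nat.mul_div_cancel' h4, ← Nat.mul_div_cancel' h5, h3]
  have hSint : ∀ h ∈ S, (t : ℤ) - ((t / 2 ^ k : ℕ) : ℤ) ≤ h ∧
      h < (t : ℤ) - ((t / 2 ^ (k + 1) : ℕ) : ℤ) := by
    intro h hh
    obtain ⟨q, hq, rfl⟩ := Finset.mem_image.mp hh
    exact (hdata q hq).1
  have hSnear : ∀ h ∈ S, Near γ δ h := by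
    intro h hh
    obtain ⟨q, hq, rfl⟩ := Finset.mem_image.mp hh
    exact (hdata q hq).2.1
  have hmain := bohr_bound hB hBX hAB hθ hθX hX hC.le hrt hgpos htpos hSint hSnear
  rw [hcard] at hmain
  have hLHS : (N.card : ℝ) * ((g : ℝ) / r) = (N.card : ℝ) / t := by
    rw [hgr']; ring
  rw [hLHS]
  have hδ0 : 0 ≤ δ := le_min (by positivity) (by norm_num)
  have hf0 : 0 ≤ 80 / 2 ^ k * δ + min ((3 / 2 : ℝ) / 2 ^ k) (128 * C * B / r * 2 ^ k) +
      40 * |θ| / 2 ^ k := by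
    have h1 : 0 ≤ min ((3 / 2 : ℝ) / 2 ^ k) (128 * C * B / r * 2 ^ k) :=
      le_min (by positivity) (by positivity)
    positivity
  rcases hmain with hleft | ⟨hcase, hright⟩
  · exact Or.inl hleft
  · rcases N.eq_empty_or_nonempty with he | hne
    · left
      rw [he]
      simpa using hf0
    · right
      obtain ⟨q, hq⟩ := hne
      have h1 := ((hdata q hq).2.2 hcase).1
      have hZpos : 0 < |θ| * r := by linarith
      have hθ0 : θ ≠ 0 := by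
        intro h0
        rw [h0] at hZpos
        simp at hZpos
      exact ⟨hcase, h1, hright hθ0⟩

/-- The sum of the weights in a level. -/
lemma sum_level_weight {r g k : ℕ} {N : Finset ℕ} (hg : 0 < g) (hgr : g ∣ r) (hr : 0 < r)
    (hN : ∀ q ∈ N, 0 < q ∧ g ∣ q ∧ 2 ^ k * q ≤ r) {Am δ : ℝ} (hδ : 0 < δ)
    (hAm : ∀ q ∈ N, Aw 4 (q / g) ≤ Am) :
    ∑ q ∈ N, ((g : ℝ) / r) * Aw 4 (q / g) ≤
      min (r8 (1 / δ)) Am * ((N.card : ℝ) * ((g : ℝ) / r)) + δ * (M9 * (1 / 2 ^ k)) := by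
  classical
  have hg' : (0 : ℝ) < g := by exact_mod_cast hg
  have hr' : (0 : ℝ) < r := by exact_mod_cast hr
  set L := min (r8 (1 / δ)) Am with hL
  have h1 : ∀ q ∈ N, ((g : ℝ) / r) * Aw 4 (q / g) ≤
      L * ((g : ℝ) / r) + δ * (((g : ℝ) / r) * Aw 4 (q / g) ^ 9) := by
    intro q hq
    have h2 := trunc_pointwise (one_le_Aw (c := 4) (by norm_num) (q / g)) hδ (hAm q hq)
    have h3 : 0 ≤ (g : ℝ) / r := by positivity
    calc ((g : ℝ) / r) * Aw 4 (q / g) ≤ ((g : ℝ) / r) * (L + δ * Aw 4 (q / g) ^ 9) := by gcongr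
      _ = _ := by ring
  refine (Finset.sum_le_sum h1).trans ?_
  rw [Finset.sum_add_distrib, Finset.sum_const, nsmul_eq_mul, ← Finset.mul_sum, ← Finset.mul_sum]
  have h2 : (N.card : ℝ) * (L * ((g : ℝ) / r)) = L * ((N.card : ℝ) * ((g : ℝ) / r)) := by ring
  rw [h2]
  apply add_le_add_right
  apply mul_le_mul_of_nonneg_left _ hδ.le
  -- change of variables
  set t := r / g with ht
  have hrt : r = g * t := (Nat.mul_div_cancel' hgr).symm
  have htpos : 0 < t := by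
    apply Nat.pos_of_ne_zero
    intro h0
    rw [h0, mul_zero] at hrt
    omega
  have ht' : (0 : ℝ) < t := by exact_mod_cast htpos
  have hgr' : (g : ℝ) / r = 1 / t := by
    rw [hrt]; push_cast; field_simp
  have hinj : Set.InjOn (fun q => q / g) (N : Set ℕ) := by
    intro q₁ h₁ q₂ h₂ heq
    have h4 := (hN q₁ h₁).2.1
    have h5 := (hN q₂ h₂).2.1
    simp only at heq
    rw [← Nat.mul_div_cancel' h4, ← Nat.mul_div_cancel' h5, heq]
  have h3 : ∑ q ∈ N, Aw 4 (q / g) ^ 9 = ∑ u ∈ N.image (fun q => q / g), Aw 4 u ^ 9 :=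
    (Finset.sum_image (f := fun u => Aw 4 u ^ 9) hinj).symm
  have h4 : ∑ u ∈ N.image (fun q => q / g), Aw 4 u ^ 9 ≤ ((t : ℝ) * (1 / 2 ^ k)) * M9 := by
    apply Aw4_pow9_mean (by positivity)
    intro u hu
    obtain ⟨q, hq, rfl⟩ := Finset.mem_image.mp hu
    obtain ⟨hq1, hq2, hq3⟩ := hN q hq
    have hq4 : q = g * (q / g) := (Nat.mul_div_cancel' hq2).symm
    have hu0 : 0 < q / g := by
      apply Nat.pos_of_ne_zero
      intro h0
      rw [h0, mul_zero] at hq4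
      omega
    refine ⟨hu0, ?_⟩
    have h5 : 2 ^ k * (q / g) ≤ t := by
      have h6 : g * (2 ^ k * (q / g)) ≤ g * t := by
        rw [← hrt, mul_left_comm, ← hq4]
        exact hq3
      exact Nat.le_of_mul_le_mul_left h6 hg
    have h6 : (2 : ℝ) ^ k * ((q / g : ℕ) : ℝ) ≤ t := by exact_mod_cast h5
    rw [mul_one_div, le_div_iff₀ (by positivity)]
    linarith
  rw [hgr', h3]
  calc 1 / (t : ℝ) * ∑ u ∈ N.image (fun q => q / g), Aw 4 u ^ 9
      ≤ 1 / (t : ℝ) * (((t : ℝ) * (1 / 2 ^ k)) * M9) := by gcongr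
    _ = _ := by field_simp

/-- The constant of the main term of the first sum. -/
noncomputable def K1V (C : ℝ) : ℝ := (80 + M9) * fr (4 * C) + 8 * fr C

lemma K1V_nonneg {C : ℝ} (hC : 0 ≤ C) : 0 ≤ K1V C := by
  unfold K1V
  have h1 : 0 ≤ fr (4 * C) := fr_nonneg (by positivity)
  have h2 := fr_nonneg hC
  have h3 := M9_pos
  positivity

set_option maxHeartbeats 1000000 in
/-- The weighted bound at one level. -/
theorem level_weighted {γ θ C : ℝ} {A : ℤ} {B X r : ℕ} (hB : 0 < B) (hBX : B ≤ X)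
    (hAB : IsCoprime A (B : ℤ)) (hθ : θ = (B : ℝ) * γ - A) (hθX : |θ| ≤ 1 / ((X : ℝ) + 1))
    (hX : 15 ≤ X) (hC : 1 ≤ C)
    (Q : Finset ℕ) (ρ : ℕ → ℝ) (σ : ℝ) (hσ0 : 0 ≤ σ) (hσ : σ ≤ C / r)
    (hQ : ∀ q ∈ Q, 0 < q ∧ q < r ∧ 0 ≤ ρ q ∧ ρ q ≤ C / q ∧
      2 * ((r : ℝ) * ρ q + q * σ) < Nat.gcd q r ∧
      ∃ a b : ℤ, IsCoprime (b * B + A) (r : ℤ) ∧
        |((a : ℝ) + γ) * (r / Nat.gcd q r : ℕ) - ((b : ℝ) + γ) * (q / Nat.gcd q r : ℕ)| <
          ((r : ℝ) * ρ q + q * σ) / Nat.gcd q r)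
    {Am : ℝ} (hAm1 : 1 ≤ Am) (hAm : ∀ q ∈ Q, Aw 4 (q / Nat.gcd q r) ≤ Am)
    {g k : ℕ} (hg : g ∈ r.divisors) :
    tu ^ k * ∑ q ∈ Q.filter (fun q => Nat.gcd q r = g ∧ Nat.log 2 (r / q) = k),
        ((g : ℝ) / r) * Aw 4 (q / g) ≤
      K1V C * (1 / fr g) * (1 / sg) ^ k +
        Am * (2 * fr (128 * C * B / r) + 40 * |θ|) * (1 / sg) ^ k +
        Am * (8 / 3 * |θ|) * tu ^ k := by
  classical
  have hC0 : 0 < C := by linarith
  have hgpos : 0 < g := Nat.pos_of_mem_divisors hg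
  have hg' : (0 : ℝ) < g := by exact_mod_cast hgpos
  have hgr : g ∣ r := Nat.dvd_of_mem_divisors hg
  have hrpos : 0 < r := Nat.pos_of_mem_divisors (Nat.mem_divisors_self _ (by
    intro h0
    simp [h0] at hg))
  have hr' : (0 : ℝ) < r := by exact_mod_cast hrpos
  have hB' : (0 : ℝ) < B := by exact_mod_cast hB
  have hB1 : (1 : ℝ) ≤ B := by exact_mod_cast hB
  set N := Q.filter fun q => Nat.gcd q r = g ∧ Nat.log 2 (r / q) = k with hN
  set δ := min ((2 : ℝ) ^ (k + 2) * C / g) (1 / 2) with hδ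
  have hδ0 : 0 < δ := lt_min (by positivity) (by norm_num)
  have hδ1 : δ ≤ 1 / 2 := min_le_right _ _
  have hδ2 : δ ≤ (2 : ℝ) ^ (k + 2) * C / g := min_le_left _ _
  have hlev := level_card hB hBX hAB hθ hθX hX hC0 Q ρ σ hσ0 hσ hQ (g := g) (k := k) hg
  rw [← hN, ← hδ] at hlev
  have hNdata : ∀ q ∈ N, 0 < q ∧ g ∣ q ∧ 2 ^ k * q ≤ r := by
    intro q hq
    obtain ⟨hq1, hg1, hk1⟩ := Finset.mem_filter.mp hq
    obtain ⟨h1, h2, _⟩ := hQ q hq1
    refine ⟨h1, by rw [← hg1]; exact Nat.gcd_dvd_left _ _, ?_⟩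
    have h3 : 1 ≤ r / q := (Nat.one_le_div_iff h1).mpr h2.le
    have h4 : 2 ^ k ≤ r / q := by
      rw [← hk1]
      exact Nat.pow_log_le_self 2 (by omega)
    exact (Nat.le_div_iff_mul_le h1).mp h4
  have hAmN : ∀ q ∈ N, Aw 4 (q / g) ≤ Am := by
    intro q hq
    obtain ⟨hq1, hg1, _⟩ := Finset.mem_filter.mp hq
    have := hAm q hq1
    rwa [hg1] at this
  have hsum := sum_level_weight hgpos hgr hrpos hNdata hδ0 hAmN
  set L := min (r8 (1 / δ)) Am with hL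
  have hL0 : 0 ≤ L := le_min (r8_nonneg (by positivity)) (by linarith)
  have hL1 : L ≤ r8 (1 / δ) := min_le_left _ _
  have hL2 : L ≤ Am := min_le_right _ _
  have htu : 0 < tu ^ k := pow_pos tu_pos k
  have hsg : 0 < (1 / sg) ^ k := pow_pos (by have := sg_pos; positivity) k
  have hfrg : 0 < fr (g : ℝ) := fr_pos hg'
  have hfrC4 : 0 ≤ fr (4 * C) := fr_nonneg (by positivity)
  have hfrC : 0 ≤ fr C := fr_nonneg hC0.le
  have hfrD : 0 ≤ fr (128 * C * B / r) := fr_nonneg (by positivity)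
  have hM := M9_pos
  have hAm0 : 0 < Am := by linarith
  have hθ0 : 0 ≤ |θ| := abs_nonneg θ
  -- common term
  have hF := termF hC0.le hgpos hδ0 (by linarith) hδ2
  have hFt : tu ^ k * (δ * (M9 * (1 / 2 ^ k))) ≤
      M9 * fr (4 * C) * (1 / fr g) * (1 / sg) ^ k := by
    calc tu ^ k * (δ * (M9 * (1 / 2 ^ k))) = M9 * (tu ^ k * (δ * (1 / 2 ^ k))) := by ring
      _ ≤ M9 * (fr (4 * C) * (1 / fr g) * (1 / sg) ^ k) := by gcongr
      _ = _ := by ring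
  have hK : K1V C * (1 / fr g) * (1 / sg) ^ k =
      M9 * fr (4 * C) * (1 / fr g) * (1 / sg) ^ k +
      80 * (fr (4 * C) * (1 / fr g) * (1 / sg) ^ k) +
      8 * fr C * (1 / fr g) * (1 / sg) ^ k := by
    unfold K1V; ring
  have hn1 : 0 ≤ 80 * (fr (4 * C) * (1 / fr g) * (1 / sg) ^ k) := by positivity
  have hn2 : 0 ≤ 8 * fr C * (1 / fr g) * (1 / sg) ^ k := by positivity
  have hn3 : 0 ≤ Am * (2 * fr (128 * C * B / r) + 40 * |θ|) * (1 / sg) ^ k := by positivity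
  have hn4 : 0 ≤ Am * (8 / 3 * |θ|) * tu ^ k := by positivity
  have hstart : tu ^ k * ∑ q ∈ N, ((g : ℝ) / r) * Aw 4 (q / g) ≤
      tu ^ k * (L * ((N.card : ℝ) * ((g : ℝ) / r))) + tu ^ k * (δ * (M9 * (1 / 2 ^ k))) := by
    rw [← mul_add]
    exact mul_le_mul_of_nonneg_left hsum htu.le
  refine hstart.trans ?_
  rcases hlev with hleft | ⟨hcase, hgZ, hright⟩
  · -- the generic case
    have h1 : tu ^ k * (L * ((N.card : ℝ) * ((g : ℝ) / r))) ≤
        tu ^ k * (L * (80 / 2 ^ k * δ + min ((3 / 2 : ℝ) / 2 ^ k) (128 * C * B / r * 2 ^ k) +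
          40 * |θ| / 2 ^ k)) := by gcongr
    have hA := termA hC0.le hgpos hδ0 (by linarith) hδ2
    have hB2 := termB (D := 128 * C * B / r) (by positivity) k
    have hC3 := termC (y := 40 * |θ|) (by positivity) k
    have hmin0 : 0 ≤ min ((3 / 2 : ℝ) / 2 ^ k) (128 * C * B / r * 2 ^ k) :=
      le_min (by positivity) (by positivity)
    have h2 : tu ^ k * (L * (80 / 2 ^ k * δ)) ≤ 80 * (fr (4 * C) * (1 / fr g) * (1 / sg) ^ k) := by
      calc tu ^ k * (L * (80 / 2 ^ k * δ)) = 80 * (tu ^ k * (L * (δ * (1 / 2 ^ k)))) := by ring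
        _ ≤ 80 * (tu ^ k * (r8 (1 / δ) * (δ * (1 / 2 ^ k)))) := by gcongr
        _ ≤ _ := by gcongr
    have h3 : tu ^ k * (L * min ((3 / 2 : ℝ) / 2 ^ k) (128 * C * B / r * 2 ^ k)) ≤
        Am * (2 * fr (128 * C * B / r) * (1 / sg) ^ k) := by
      calc _ = L * (tu ^ k * min ((3 / 2 : ℝ) / 2 ^ k) (128 * C * B / r * 2 ^ k)) := by ring
        _ ≤ Am * (tu ^ k * min ((3 / 2 : ℝ) / 2 ^ k) (128 * C * B / r * 2 ^ k)) := by gcongr
        _ ≤ _ := by gcongr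
    have h4 : tu ^ k * (L * (40 * |θ| / 2 ^ k)) ≤ Am * (40 * |θ| * (1 / sg) ^ k) := by
      calc _ = L * (tu ^ k * (40 * |θ| / 2 ^ k)) := by ring
        _ ≤ Am * (tu ^ k * (40 * |θ| / 2 ^ k)) := by gcongr
        _ ≤ _ := by gcongr
    have h5 : tu ^ k * (L * (80 / 2 ^ k * δ + min ((3 / 2 : ℝ) / 2 ^ k) (128 * C * B / r * 2 ^ k) +
          40 * |θ| / 2 ^ k)) = tu ^ k * (L * (80 / 2 ^ k * δ)) +
        tu ^ k * (L * min ((3 / 2 : ℝ) / 2 ^ k) (128 * C * B / r * 2 ^ k)) +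
        tu ^ k * (L * (40 * |θ| / 2 ^ k)) := by ring
    rw [h5] at h1
    have h6 : Am * (2 * fr (128 * C * B / r) + 40 * |θ|) * (1 / sg) ^ k =
        Am * (2 * fr (128 * C * B / r) * (1 / sg) ^ k) + Am * (40 * |θ| * (1 / sg) ^ k) := by ring
    rw [hK, h6]
    linarith
  · -- the well-approximable case
    have hδeq : δ = (2 : ℝ) ^ (k + 2) * C / g := by
      rcases min_choice ((2 : ℝ) ^ (k + 2) * C / g) (1 / 2) with h1 | h1
      · exact h1
      · exfalso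
        have h2 : δ = 1 / 2 := h1
        have h3 : 4 * δ * 1 ≤ 4 * δ * B := by gcongr
        linarith
    have hZ : (3 / 4 : ℝ) * g < |θ| * r := by linarith
    have hZpos : 0 < |θ| * r := by
      have : (0 : ℝ) < (3 / 4 : ℝ) * g := by positivity
      linarith
    set E₁ := min ((1 / 2 : ℝ) / 2 ^ k / B) (8 * C / (|θ| * r) * 2 ^ k) with hE₁
    have hE₁0 : 0 ≤ E₁ := le_min (by positivity) (by positivity)
    have hE₁le : E₁ ≤ min ((1 / 2 : ℝ) / 2 ^ k) ((32 / 3) * C / g * 2 ^ k) := by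
      apply min_le_min
      · apply div_le_self (by positivity) hB1
      · apply mul_le_mul_of_nonneg_right _ (by positivity)
        rw [div_le_div_iff₀ hZpos hg']
        have : 0 ≤ C := hC0.le
        nlinarith
    have hD := termD hC hgpos hE₁0 hE₁le
    rw [← hδeq] at hD
    have h1 : tu ^ k * (L * ((N.card : ℝ) * ((g : ℝ) / r))) ≤
        tu ^ k * (L * (E₁ + 2 * g / r)) := by
      apply mul_le_mul_of_nonneg_left _ htu.le
      apply mul_le_mul_of_nonneg_left hright hL0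
    have h2 : tu ^ k * (L * E₁) ≤ 8 * fr C * (1 / fr g) * (1 / sg) ^ k := by
      refine le_trans ?_ hD
      apply mul_le_mul_of_nonneg_left _ htu.le
      apply mul_le_mul_of_nonneg_right hL1 hE₁0
    have h3 : tu ^ k * (L * (2 * g / r)) ≤ Am * (8 / 3 * |θ|) * tu ^ k := by
      have h4 : 2 * (g : ℝ) / r ≤ 8 / 3 * |θ| := by
        rw [div_le_iff₀ hr']
        have h6 : 8 / 3 * |θ| * (r : ℝ) = 2 * (4 / 3 * (|θ| * r)) := by ring
        rw [h6]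
        linarith
      calc tu ^ k * (L * (2 * g / r)) ≤ tu ^ k * (Am * (8 / 3 * |θ|)) := by gcongr
        _ = _ := by ring
    have h5 : tu ^ k * (L * (E₁ + 2 * g / r)) = tu ^ k * (L * E₁) + tu ^ k * (L * (2 * g / r)) := by
      ring
    rw [h5] at h1
    rw [hK]
    linarith

end Vale.Agent.P028
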