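import Vale.Agent.P028.VT1b

namespace Vale.Agent.P028

open Finset

lemma Aw2_le_Aw4 (n : ℕ) : Aw 2 n ≤ Aw 4 n := by
  unfold Aw
  apply Wt_mono (Aw_G_ge (by norm_num))
  intro p hp
  have h1 := fr_prime_ge hp
  have h2 : 2 / fr (p : ℝ) ≤ 4 / fr (p : ℝ) := by gcongr; norm_num
  linarith

/-- The master lemma with the larger weight. -/
lemma master_lemma' {n : ℕ} (hn : n ≠ 0) :
    ∑ g ∈ n.divisors, (1 / fr g) * (1 / Aw 4 (n / g)) ≤ 14 ^ 41 * ((Nat.totient n : ℝ) / n) := by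
  refine le_trans ?_ (master_lemma hn)
  apply Finset.sum_le_sum
  intro g _
  have h1 : (0 : ℝ) ≤ g := Nat.cast_nonneg _
  have h2 := fr_nonneg h1
  have h3 : 0 ≤ 1 / fr (g : ℝ) := by positivity
  apply mul_le_mul_of_nonneg_left _ h3
  apply one_div_le_one_div_of_le (Aw_pos (by norm_num) _) (Aw2_le_Aw4 _)

/-- The first sum of the small-window pairs, for a fixed larger modulus. -/
theorem T1_total {γ θ C : ℝ} {A : ℤ} {B X r : ℕ} (hB : 0 < B) (hBX : B ≤ X)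
    (hAB : IsCoprime A (B : ℤ)) (hθ : θ = (B : ℝ) * γ - A) (hθX : |θ| ≤ 1 / ((X : ℝ) + 1))
    (hX : 15 ≤ X) (hC : 1 ≤ C) (hr : 0 < r)
    (Q : Finset ℕ) (ρ : ℕ → ℝ) (σ : ℝ) (hσ0 : 0 ≤ σ) (hσ : σ ≤ C / r)
    (hQ : ∀ q ∈ Q, 0 < q ∧ q < r ∧ 0 ≤ ρ q ∧ ρ q ≤ C / q ∧
      2 * ((r : ℝ) * ρ q + q * σ) < Nat.gcd q r ∧
      ∃ a b : ℤ, IsCoprime (b * B + A) (r : ℤ) ∧
        |((a : ℝ) + γ) * (r / Nat.gcd q r : ℕ) - ((b : ℝ) + γ) * (q / Nat.gcd q r : ℕ)| <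
          ((r : ℝ) * ρ q + q * σ) / Nat.gcd q r)
    {Am : ℝ} (hAm1 : 1 ≤ Am) (hAm : ∀ q ∈ Q, Aw 4 (q / Nat.gcd q r) ≤ Am) :
    ∑ q ∈ Q, ((Nat.gcd q r : ℝ) / r) * tu ^ Nat.log 2 (r / q) *
        (Aw 4 (q / Nat.gcd q r) / Aw 4 (r / Nat.gcd q r)) ≤
      13 * K1V C * (14 ^ 41 * ((Nat.totient r : ℝ) / r)) +
        (r.divisors.card : ℝ) * (13 * (Am * (2 * fr (128 * C * B / r) + 40 * |θ|)) +
          Am * (8 / 3 * |θ|) * (6 * tu ^ (Nat.log 2 r + 1))) := by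
  classical
  have hr' : (0 : ℝ) < r := by exact_mod_cast hr
  have hC0 : 0 < C := by linarith
  set D := r.divisors with hD
  set K := Nat.log 2 r + 1 with hK
  set N : ℕ → ℕ → Finset ℕ := fun g k =>
    Q.filter fun q => Nat.gcd q r = g ∧ Nat.log 2 (r / q) = k with hN
  set H : ℕ → ℝ := fun q => ((Nat.gcd q r : ℝ) / r) * tu ^ Nat.log 2 (r / q) *
        (Aw 4 (q / Nat.gcd q r) / Aw 4 (r / Nat.gcd q r)) with hH
  have hmaps : ∀ q ∈ Q, (Nat.gcd q r, Nat.log 2 (r / q)) ∈ D ×ˢ range K := by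
    intro q hq
    obtain ⟨h1, h2, _⟩ := hQ q hq
    rw [Finset.mem_product]
    refine ⟨Nat.mem_divisors.mpr ⟨Nat.gcd_dvd_right _ _, hr.ne'⟩, ?_⟩
    rw [Finset.mem_range, hK, Nat.lt_succ_iff]
    show Nat.log 2 (r / q) ≤ Nat.log 2 r
    exact Nat.log_mono_right (Nat.div_le_self _ _)
  have hsplit : ∑ q ∈ Q, H q = ∑ g ∈ D, ∑ k ∈ range K, ∑ q ∈ N g k, H q := by
    rw [← Finset.sum_product' (f := fun g k => ∑ q ∈ N g k, H q)]
    rw [← Finset.sum_fiberwise_of_maps_to hmaps]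
    refine Finset.sum_congr rfl fun y _ => ?_
    obtain ⟨g, k⟩ := y
    have h1 : (Q.filter fun q => (Nat.gcd q r, Nat.log 2 (r / q)) = (g, k)) = N g k := by
      simp only [hN, Prod.mk.injEq]
    rw [h1]
  have hθ0 : 0 ≤ |θ| := abs_nonneg θ
  have hAm0 : 0 < Am := by linarith
  have hfrD : 0 ≤ fr (128 * C * B / r) := fr_nonneg (by positivity)
  set K2 : ℝ := Am * (2 * fr (128 * C * B / r) + 40 * |θ|) with hK2
  have hK20 : 0 ≤ K2 := by positivity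
  set K3 : ℝ := Am * (8 / 3 * |θ|) with hK3
  have hK30 : 0 ≤ K3 := by positivity
  have hK1 := K1V_nonneg hC0.le
  have hlevel : ∀ g ∈ D, ∀ k ∈ range K, ∑ q ∈ N g k, H q ≤
      (1 / Aw 4 (r / g)) * (K1V C * (1 / fr g) * (1 / sg) ^ k + K2 * (1 / sg) ^ k + K3 * tu ^ k) := by
    intro g hg k _
    have h1 := level_weighted hB hBX hAB hθ hθX hX hC Q ρ σ hσ0 hσ hQ hAm1 hAm (g := g) (k := k) hg
    have h2 : ∑ q ∈ N g k, H q = (1 / Aw 4 (r / g)) * (tu ^ k * ∑ q ∈ N g k,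
        ((g : ℝ) / r) * Aw 4 (q / g)) := by
      rw [Finset.mul_sum, Finset.mul_sum]
      apply Finset.sum_congr rfl
      intro q hq
      obtain ⟨_, hg1, hk1⟩ := Finset.mem_filter.mp hq
      simp only [hH]
      rw [hg1, hk1]
      ring
    rw [h2]
    apply mul_le_mul_of_nonneg_left h1
    have := Aw_pos (show (0 : ℝ) ≤ 4 by norm_num) (r / g)
    positivity
  have hsg0 : 0 < 1 / sg := by have := sg_pos; positivity
  have hgeom : ∑ k ∈ range K, (1 / sg) ^ k ≤ 13 := sum_sg_inv_le K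
  have htug : ∑ k ∈ range K, tu ^ k ≤ 6 * tu ^ K := sum_tu_pow_le K
  have hg1 : ∀ g ∈ D, ∑ k ∈ range K, ∑ q ∈ N g k, H q ≤
      (1 / Aw 4 (r / g)) * (13 * K1V C * (1 / fr g) + 13 * K2 + K3 * (6 * tu ^ K)) := by
    intro g hg
    refine (Finset.sum_le_sum (hlevel g hg)).trans ?_
    rw [← Finset.mul_sum]
    have h0 := Aw_pos (show (0 : ℝ) ≤ 4 by norm_num) (r / g)
    apply mul_le_mul_of_nonneg_left _ (by positivity)
    have hg' : (0 : ℝ) ≤ g := Nat.cast_nonneg _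
    have hfr := fr_nonneg hg'
    rw [Finset.sum_add_distrib, Finset.sum_add_distrib, ← Finset.mul_sum, ← Finset.mul_sum,
      ← Finset.mul_sum]
    have h3 : K1V C * (1 / fr g) * ∑ k ∈ range K, (1 / sg) ^ k ≤ K1V C * (1 / fr g) * 13 := by
      gcongr
    have h4 : K2 * ∑ k ∈ range K, (1 / sg) ^ k ≤ K2 * 13 := by gcongr
    have h5 : K3 * ∑ k ∈ range K, tu ^ k ≤ K3 * (6 * tu ^ K) := by gcongr
    linarith
  show ∑ q ∈ Q, H q ≤ _
  rw [hsplit]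
  refine (Finset.sum_le_sum hg1).trans ?_
  have h6 : ∀ g ∈ D, (1 / Aw 4 (r / g)) * (13 * K1V C * (1 / fr g) + 13 * K2 + K3 * (6 * tu ^ K)) ≤
      13 * K1V C * ((1 / fr g) * (1 / Aw 4 (r / g))) + (13 * K2 + K3 * (6 * tu ^ K)) := by
    intro g _
    have h0 := one_le_Aw (show (0 : ℝ) ≤ 4 by norm_num) (r / g)
    have h1 : 1 / Aw 4 (r / g) ≤ 1 := by
      rw [div_le_one (by linarith)]; exact h0
    have h2 : 0 ≤ 13 * K2 + K3 * (6 * tu ^ K) := by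
      have := pow_pos tu_pos K
      positivity
    have h3 : (1 / Aw 4 (r / g)) * (13 * K2 + K3 * (6 * tu ^ K)) ≤ 1 * (13 * K2 + K3 * (6 * tu ^ K)) := by
      gcongr
    calc _ = 13 * K1V C * ((1 / fr g) * (1 / Aw 4 (r / g))) +
          (1 / Aw 4 (r / g)) * (13 * K2 + K3 * (6 * tu ^ K)) := by ring
      _ ≤ _ := by linarith
  refine (Finset.sum_le_sum h6).trans ?_
  rw [Finset.sum_add_distrib, ← Finset.mul_sum, Finset.sum_const, nsmul_eq_mul]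
  apply add_le_add_left
  apply mul_le_mul_of_nonneg_left (master_lemma' hr.ne') (by positivity)

end Vale.Agent.P028
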