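import Vale.Agent.P028.VT1c

namespace Vale.Agent.P028

open Finset

lemma near_of_pair {γ δ : ℝ} {a b : ℤ} {w u : ℕ}
    (h : |((a : ℝ) + γ) * (w : ℝ) - ((b : ℝ) + γ) * (u : ℝ)| < δ) :
    Near γ δ ((w : ℤ) - (u : ℤ)) := by
  refine ⟨a * (w : ℤ) - b * (u : ℤ), ?_⟩
  have h1 : ((a * (w : ℤ) - b * (u : ℤ) : ℤ) : ℝ) + γ * (((w : ℤ) - (u : ℤ) : ℤ) : ℝ) =
      ((a : ℝ) + γ) * (w : ℝ) - ((b : ℝ) + γ) * (u : ℝ) := by
    push_cast; ring
  rw [h1]
  exact h

/-- Count of the larger moduli at a fixed gcd and dyadic level. -/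
theorem T2_count {γ θ δ : ℝ} {A : ℤ} {B X : ℕ} (hB : 0 < B) (hBX : B ≤ X)
    (hAB : IsCoprime A (B : ℤ)) (hθ : θ = (B : ℝ) * γ - A) (hθX : |θ| ≤ 1 / ((X : ℝ) + 1))
    (hX : 15 ≤ X) (hδ0 : 0 ≤ δ) {q g P : ℕ} (hg : 0 < g) (hgq : g ∣ q) (hq : 0 < q)
    (N : Finset ℕ) (hN : ∀ r ∈ N, P ≤ r ∧ r < 2 * P ∧ q < r ∧ Nat.gcd q r = g ∧
      ∃ a b : ℤ, IsCoprime (b * B + A) (r : ℤ) ∧
        |((a : ℝ) + γ) * (r / g : ℕ) - ((b : ℝ) + γ) * (q / g : ℕ)| < δ) :
    (N.card : ℝ) ≤ 170 * δ * ((P : ℝ) / g) + 8 * δ * B + 83 * |θ| * ((P : ℝ) / g) := by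
  classical
  have hg' : (0 : ℝ) < g := by exact_mod_cast hg
  have hB' : (0 : ℝ) < B := by exact_mod_cast hB
  have hθ0' : 0 ≤ |θ| := abs_nonneg θ
  have hP0 : (0 : ℝ) ≤ P := Nat.cast_nonneg _
  set x : ℝ := (P : ℝ) / g with hx
  have hx0 : 0 ≤ x := by positivity
  rcases N.eq_empty_or_nonempty with rfl | ⟨r₀, hr₀⟩
  · simp only [Finset.card_empty, Nat.cast_zero]
    positivity
  obtain ⟨hr1, hr2, hr3, hr4, a₀, b₀, hb₀, hab₀⟩ := hN r₀ hr₀
  have hgq' : g ≤ q := Nat.le_of_dvd hq hgq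
  have hgP : (g : ℝ) < 2 * P := by
    have : g < 2 * P := by omega
    exact_mod_cast this
  have hx1 : 1 / 2 < x := by
    rw [hx, lt_div_iff₀ hg']
    linarith
  -- the interval
  set w₁ : ℕ := P / g with hw₁
  set w₂ : ℕ := (2 * P) / g + 1 with hw₂
  have hw12 : w₁ ≤ w₂ := by
    have : P / g ≤ (2 * P) / g := Nat.div_le_div_right (by omega)
    omega
  set len : ℕ := w₂ - w₁ with hlen
  set u : ℕ := q / g with hu
  set c : ℤ := (w₁ : ℤ) - (u : ℤ) with hc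
  have hlenR : (len : ℝ) ≤ 5 * x := by
    have h1 : ((2 * P / g : ℕ) : ℝ) ≤ ((2 * P : ℕ) : ℝ) / g := Nat.cast_div_le
    have h2 : x - 1 < (w₁ : ℝ) := by
      have h3 : P < g * (P / g + 1) := Nat.lt_mul_div_succ P hg
      have h4 : (P : ℝ) < g * ((w₁ : ℝ) + 1) := by exact_mod_cast h3
      have h5 : (P : ℝ) / g < (w₁ : ℝ) + 1 := by
        rw [div_lt_iff₀ hg']; linarith
      linarith
    have h5 : (len : ℝ) = (w₂ : ℝ) - w₁ := by
      rw [hlen]; push_cast [Nat.cast_sub hw12]; ring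
    have h6 : (w₂ : ℝ) = ((2 * P / g : ℕ) : ℝ) + 1 := by rw [hw₂]; push_cast; ring
    have h7 : ((2 * P : ℕ) : ℝ) / g = 2 * x := by rw [hx]; push_cast; ring
    rw [h5, h6]
    rw [h7] at h1
    linarith
  set S : Finset ℤ := N.image fun r => ((r / g : ℕ) : ℤ) - (u : ℤ) with hS
  have hcard : S.card = N.card := by
    apply Finset.card_image_of_injOn
    intro r₁ h₁ r₂ h₂ heq
    have h3 : r₁ / g = r₂ / g := by
      simp only at heq
      omega
    have h4 : g ∣ r₁ := by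
      rw [← (hN r₁ h₁).2.2.2.1]; exact Nat.gcd_dvd_right _ _
    have h5 : g ∣ r₂ := by
      rw [← (hN r₂ h₂).2.2.2.1]; exact Nat.gcd_dvd_right _ _
    rw [← Nat.mul_div_cancel' h4, ← Nat.mul_div_cancel' h5, h3]
  have hSint : ∀ h ∈ S, c ≤ h ∧ h < c + len := by
    intro h hh
    obtain ⟨r, hr, rfl⟩ := Finset.mem_image.mp hh
    obtain ⟨h1, h2, _⟩ := hN r hr
    have h3 : P / g ≤ r / g := Nat.div_le_div_right h1
    have h4 : r / g ≤ (2 * P) / g := Nat.div_le_div_right h2.le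
    have h5 : (len : ℤ) = (w₂ : ℤ) - w₁ := by rw [hlen]; omega
    have h6 : (w₂ : ℤ) = ((2 * P / g : ℕ) : ℤ) + 1 := by rw [hw₂, Nat.cast_add, Nat.cast_one]
    have h7 : (w₁ : ℤ) ≤ ((r / g : ℕ) : ℤ) := by exact_mod_cast h3
    have h8 : ((r / g : ℕ) : ℤ) ≤ ((2 * P / g : ℕ) : ℤ) := by exact_mod_cast h4
    constructor
    · rw [hc]; linarith
    · rw [hc, h5, h6]; linarith
  have hSnear : ∀ h ∈ S, Near γ δ h := by
    intro h hh
    obtain ⟨r, hr, rfl⟩ := Finset.mem_image.mp hh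
    obtain ⟨_, _, _, _, a, b, _, hab⟩ := hN r hr
    exact near_of_pair hab
  rw [← hcard]
  by_cases hcase : 1 ≤ 4 * δ * B
  · have h1 := near_count_one hB hBX hAB hθ hθX hδ0 hSnear hSint
    have h2 : (2 * (len : ℝ) / B + 1) * (4 * δ * B + 1) ≤ (2 * (len : ℝ) / B + 1) * (8 * δ * B) := by
      apply mul_le_mul_of_nonneg_left _ (by positivity)
      linarith
    have h3 : (2 * (len : ℝ) / B + 1) * (8 * δ * B) = 16 * δ * len + 8 * δ * B := by
      field_simp; ring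
    have h4 : 16 * δ * (len : ℝ) ≤ 16 * δ * (5 * x) := by gcongr
    have h5 : 0 ≤ δ * x := by positivity
    have h6 : 0 ≤ |θ| * x := by positivity
    nlinarith
  · push Not at hcase
    -- the kill
    have hr₀g : r₀ = g * (r₀ / g) := by
      have h4 : g ∣ r₀ := by rw [← hr4]; exact Nat.gcd_dvd_right _ _
      exact (Nat.mul_div_cancel' h4).symm
    have hqg : q = g * u := (Nat.mul_div_cancel' hgq).symm
    set t := r₀ / g with ht
    have hupos : 0 < u := by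
      apply Nat.pos_of_ne_zero
      intro h0
      rw [h0, mul_zero] at hqg
      omega
    have hut : u < t := by
      have : g * u < g * t := by rw [← hqg, ← hr₀g]; exact hr3
      exact Nat.lt_of_mul_lt_mul_left this
    have ht2 : 2 ≤ t := by omega
    have hcop : Nat.Coprime u t := by
      have := Nat.coprime_div_gcd_div_gcd (m := q) (n := r₀) (by rw [hr4]; exact hg)
      rwa [hr4] at this
    obtain ⟨hJ, hJeq⟩ := kill_nonzero (a := a₀) hθ hr₀g hcop ht2 hb₀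
    set J : ℤ := (a₀ * B + A) * t - (b₀ * B + A) * u with hJdef
    have hJ1 : (1 : ℝ) ≤ |(J : ℝ)| := by
      have : (1 : ℤ) ≤ |J| := Int.one_le_abs hJ
      exact_mod_cast this
    have htR : (t : ℝ) < 2 * x := by
      have h1 : (r₀ : ℝ) < 2 * P := by exact_mod_cast hr2
      have h2 : (r₀ : ℝ) = g * t := by exact_mod_cast hr₀g
      rw [hx]
      rw [h2] at h1
      rw [mul_div_assoc', lt_div_iff₀ hg']
      linarith
    have hutR : (u : ℝ) < t := by exact_mod_cast hut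
    have hu0R : (0 : ℝ) < u := by exact_mod_cast hupos
    have hsmall : |(J : ℝ) + θ * ((t : ℝ) - u)| < 1 / 4 := by
      rw [hJeq, abs_mul, abs_of_pos hB']
      have h1 : (B : ℝ) * |((a₀ : ℝ) + γ) * t - ((b₀ : ℝ) + γ) * u| < B * δ :=
        mul_lt_mul_of_pos_left hab₀ hB'
      nlinarith
    have hθt : 3 / 4 < |θ| * (2 * x) := by
      have h1 : |(J : ℝ)| ≤ |(J : ℝ) + θ * ((t : ℝ) - u)| + |θ * ((t : ℝ) - u)| := by
        have := abs_add_le ((J : ℝ) + θ * ((t : ℝ) - u)) (-(θ * ((t : ℝ) - u)))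
        simpa using this
      have h2 : |θ * ((t : ℝ) - u)| = |θ| * ((t : ℝ) - u) := by
        rw [abs_mul, abs_of_pos (by linarith : (0 : ℝ) < (t : ℝ) - u)]
      have h3 : |θ| * ((t : ℝ) - u) ≤ |θ| * (2 * x) := by
        apply mul_le_mul_of_nonneg_left _ hθ0'
        linarith
      linarith
    have hθpos : 0 < |θ| := by
      by_contra hc
      have h0 : |θ| = 0 := le_antisymm (not_lt.mp hc) hθ0'
      rw [h0] at hθt
      norm_num at hθt
    have hθ0 : θ ≠ 0 := abs_pos.mp hθpos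
    have hX1 : (16 : ℝ) ≤ (X : ℝ) + 1 := by
      have : (15 : ℝ) ≤ X := by exact_mod_cast hX
      linarith
    have hθsmall : |θ| ≤ 1 / 16 := by
      refine hθX.trans ?_
      exact one_div_le_one_div_of_le (by norm_num) hX1
    set y : ℝ := 1 / (8 * |θ|) with hy
    have hy2 : 2 ≤ y := by
      rw [hy, le_div_iff₀ (by positivity)]
      linarith
    set ℓ₂ : ℕ := ⌊y⌋₊ with hℓ₂
    have hℓ₂y : (ℓ₂ : ℝ) ≤ y := Nat.floor_le (by linarith)
    have hℓ₂y2 : y < (ℓ₂ : ℝ) + 1 := Nat.lt_floor_add_one y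
    have hℓ₂1 : (1 : ℝ) < ℓ₂ := by linarith
    have hℓ₂pos : 0 < ℓ₂ := by
      have : (0 : ℝ) < ℓ₂ := by linarith
      exact_mod_cast this
    have hθℓ : |θ| * ℓ₂ ≤ 1 / 8 := by
      calc |θ| * ℓ₂ ≤ |θ| * y := by gcongr
        _ = 1 / 8 := by rw [hy]; field_simp
    have h1 := near_count_two hB hAB hθ hδ0 hcase hθ0 hℓ₂pos hθℓ hSnear hSint
    have hlenℓ : (len : ℝ) / ℓ₂ ≤ 16 * |θ| * len := by
      rw [div_le_iff₀ (by linarith)]
      have h2 : 1 / 16 ≤ |θ| * ℓ₂ := by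
        have h3 : y / 2 ≤ ℓ₂ := by linarith
        have h4 : |θ| * (y / 2) ≤ |θ| * ℓ₂ := by gcongr
        have h5 : |θ| * (y / 2) = 1 / 16 := by rw [hy]; field_simp; norm_num
        linarith
      have hlen0 : (0 : ℝ) ≤ len := Nat.cast_nonneg _
      calc (len : ℝ) = 16 * (1 / 16) * len := by norm_num
        _ ≤ 16 * (|θ| * ℓ₂) * len := by gcongr
        _ = _ := by ring
    have h2 : ((len : ℝ) / ℓ₂ + 1) * (2 * δ / |θ| + 1) ≤ (16 * |θ| * len + 1) * (2 * δ / |θ| + 1) := by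
      gcongr
    have h3 : (16 * |θ| * len + 1) * (2 * δ / |θ| + 1) =
        32 * δ * len + 16 * |θ| * len + 2 * δ / |θ| + 1 := by
      field_simp
      ring
    have h4 : 2 * δ / |θ| ≤ 16 / 3 * (δ * x) := by
      rw [div_le_iff₀ hθpos]
      have h5 : δ * (3 / 4) ≤ δ * (|θ| * (2 * x)) := by gcongr
      have h55 : 16 / 3 * (δ * x) * |θ| = 8 / 3 * (δ * (|θ| * (2 * x))) := by ring
      rw [h55]
      linarith
    have h6 : 32 * δ * (len : ℝ) ≤ 32 * δ * (5 * x) := by gcongr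
    have h7 : 16 * |θ| * (len : ℝ) ≤ 16 * |θ| * (5 * x) := by gcongr
    have h8 : 0 ≤ δ * x := by positivity
    have h9 : (0 : ℝ) ≤ 8 * δ * B := by positivity
    linarith

end Vale.Agent.P028
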