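import Vale.Agent.P028.VT2a

namespace Vale.Agent.P028

open Finset

/-- The sum of the weights over multiples of `g` in a range. -/
lemma sum_weight_generic {g : ℕ} (hg : 0 < g) {N : Finset ℕ} {y : ℝ} (hy : 0 ≤ y)
    (hN : ∀ r ∈ N, 0 < r ∧ g ∣ r ∧ (r : ℝ) ≤ g * y) {Am δ : ℝ} (hδ : 0 < δ)
    (hAm : ∀ r ∈ N, Aw 4 (r / g) ≤ Am) :
    ∑ r ∈ N, Aw 4 (r / g) ≤ min (r8 (1 / δ)) Am * (N.card : ℝ) + δ * (y * M9) := by
  classical
  have hg' : (0 : ℝ) < g := by exact_mod_cast hg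
  set L := min (r8 (1 / δ)) Am with hL
  have h1 : ∀ r ∈ N, Aw 4 (r / g) ≤ L + δ * Aw 4 (r / g) ^ 9 := fun r hr =>
    trunc_pointwise (one_le_Aw (c := 4) (by norm_num) (r / g)) hδ (hAm r hr)
  refine (Finset.sum_le_sum h1).trans ?_
  rw [Finset.sum_add_distrib, Finset.sum_const, nsmul_eq_mul, ← Finset.mul_sum, mul_comm (N.card : ℝ)]
  apply add_le_add_right
  apply mul_le_mul_of_nonneg_left _ hδ.le
  have hinj : Set.InjOn (fun r => r / g) (N : Set ℕ) := by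
    intro q₁ h₁ q₂ h₂ heq
    have h4 := (hN q₁ h₁).2.1
    have h5 := (hN q₂ h₂).2.1
    simp only at heq
    rw [← Nat.mul_div_cancel' h4, ← Nat.mul_div_cancel' h5, heq]
  have h3 : ∑ r ∈ N, Aw 4 (r / g) ^ 9 = ∑ u ∈ N.image (fun r => r / g), Aw 4 u ^ 9 :=
    (Finset.sum_image (f := fun u => Aw 4 u ^ 9) hinj).symm
  rw [h3]
  apply Aw4_pow9_mean hy
  intro u hu
  obtain ⟨r, hr, rfl⟩ := Finset.mem_image.mp hu
  obtain ⟨h4, h5, h6⟩ := hN r hr
  have h7 : r = g * (r / g) := (Nat.mul_div_cancel' h5).symm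
  have hu0 : 0 < r / g := by
    apply Nat.pos_of_ne_zero
    intro h0
    rw [h0, mul_zero] at h7
    omega
  refine ⟨hu0, ?_⟩
  have h8 : (r : ℝ) = g * ((r / g : ℕ) : ℝ) := by exact_mod_cast h7
  rw [h8] at h6
  exact le_of_mul_le_mul_left h6 hg'

set_option maxHeartbeats 1000000 in
/-- One level of the second sum of the small-window pairs. -/
theorem T2_level {γ θ C ρ₀ : ℝ} {A : ℤ} {B X : ℕ} (hB : 0 < B) (hBX : B ≤ X)
    (hAB : IsCoprime A (B : ℤ)) (hθ : θ = (B : ℝ) * γ - A) (hθX : |θ| ≤ 1 / ((X : ℝ) + 1))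
    (hX : 15 ≤ X) (hC : 1 ≤ C) {q g P Y : ℕ} (hg : 0 < g) (hgq : g ∣ q) (hq : 0 < q) (hY : 0 < Y)
    (hqY : q < 2 * Y) (hYP : Y ≤ P) (hρ0 : 0 < ρ₀) {Am : ℝ} (hAm1 : 1 ≤ Am)
    (N : Finset ℕ) (σ : ℕ → ℝ)
    (hN : ∀ r ∈ N, P ≤ r ∧ r < 2 * P ∧ q < r ∧ Nat.gcd q r = g ∧ 0 ≤ σ r ∧ σ r ≤ C / r ∧
      2 * ((r : ℝ) * ρ₀ + q * σ r) < g ∧
      (∃ a b : ℤ, IsCoprime (b * B + A) (r : ℤ) ∧
        |((a : ℝ) + γ) * (r / g : ℕ) - ((b : ℝ) + γ) * (q / g : ℕ)| <
          ((r : ℝ) * ρ₀ + q * σ r) / g) ∧ Aw 4 (r / g) ≤ Am) :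
    4 * g * min (ρ₀ / Y) (C / (P : ℝ) ^ 2) * ∑ r ∈ N, Aw 4 (r / g) ≤
      2720 * C * ρ₀ * (r8 (2 * P * g / Y) / g) + 32 * M9 * C * ρ₀ * (1 / g) +
        128 * Am * C * ρ₀ * B / P + 332 * Am * C * |θ| / P := by
  classical
  have hg' : (0 : ℝ) < g := by exact_mod_cast hg
  have hg1 : (1 : ℝ) ≤ g := by exact_mod_cast hg
  have hY' : (0 : ℝ) < Y := by exact_mod_cast hY
  have hPpos : 0 < P := by omega
  have hP' : (0 : ℝ) < P := by exact_mod_cast hPpos
  have hYP' : (Y : ℝ) ≤ P := by exact_mod_cast hYP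
  have hC0 : 0 < C := by linarith
  have hB' : (0 : ℝ) < B := by exact_mod_cast hB
  have hq' : (q : ℝ) ≤ 2 * Y := by exact_mod_cast hqY.le
  have hθ0 : 0 ≤ |θ| := abs_nonneg θ
  have hM := M9_pos
  set a : ℝ := 2 * P * ρ₀ / g with ha
  set b : ℝ := 2 * Y * C / (g * P) with hb
  have ha0 : 0 < a := by positivity
  have hb0 : 0 < b := by positivity
  set δ : ℝ := min (a + b) (1 / 2) with hδ
  have hδ0 : 0 < δ := lt_min (by linarith) (by norm_num)
  have hδ1 : δ ≤ a + b := min_le_left _ _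
  have hWδ : ∀ r ∈ N, ((r : ℝ) * ρ₀ + q * σ r) / g ≤ δ := by
    intro r hr
    obtain ⟨h1, h2, h3, _, h5, h6, h7, _⟩ := hN r hr
    apply le_min
    · have h8 : (P : ℝ) ≤ r := by exact_mod_cast h1
      have h9 : (r : ℝ) ≤ 2 * P := by exact_mod_cast h2.le
      have hr0 : (0 : ℝ) < r := by linarith
      have h10 : (r : ℝ) * ρ₀ ≤ 2 * P * ρ₀ := by gcongr
      have h11 : (q : ℝ) * σ r ≤ 2 * Y * C / P := by
        calc (q : ℝ) * σ r ≤ (2 * Y) * (C / r) := by gcongr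
          _ ≤ (2 * Y) * (C / P) := by gcongr
          _ = _ := by ring
      have h12 : a + b = (2 * P * ρ₀ + 2 * Y * C / P) / g := by
        rw [ha, hb]; field_simp
      rw [h12]
      apply div_le_div_of_nonneg_right _ hg'.le
      linarith
    · rw [div_le_iff₀ hg']
      linarith
  have hcount := T2_count hB hBX hAB hθ hθX hX hδ0.le hg hgq hq N (fun r hr => by
    obtain ⟨h1, h2, h3, h4, _, _, _, ⟨a', b', h8, h9⟩, _⟩ := hN r hr
    exact ⟨h1, h2, h3, h4, a', b', h8, lt_of_lt_of_le h9 (hWδ r hr)⟩)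
  set x : ℝ := (P : ℝ) / g with hx
  have hx0 : 0 < x := by positivity
  have hsum := sum_weight_generic (y := 2 * x) hg (by positivity) (N := N) (fun r hr => by
    obtain ⟨h1, h2, h3, h4, _⟩ := hN r hr
    refine ⟨by omega, by rw [← h4]; exact Nat.gcd_dvd_right _ _, ?_⟩
    have h9 : (r : ℝ) ≤ 2 * P := by exact_mod_cast h2.le
    have : (g : ℝ) * (2 * x) = 2 * P := by rw [hx]; field_simp
    rw [this]
    exact h9) (Am := Am) hδ0 (fun r hr => (hN r hr).2.2.2.2.2.2.2.2)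
  set L := min (r8 (1 / δ)) Am with hL
  have hL0 : 0 ≤ L := le_min (r8_nonneg (by positivity)) (by linarith)
  have hL1 : L ≤ r8 (1 / δ) := min_le_left _ _
  have hL2 : L ≤ Am := min_le_right _ _
  -- the lower bound for the precision
  have hδlow : 1 / δ ≤ 2 * P * g / Y := by
    rw [div_le_div_iff₀ hδ0 hY', one_mul]
    have h1 : (Y : ℝ) / (2 * P * g) ≤ δ := by
      apply le_min
      · have h2 : (Y : ℝ) / (2 * P * g) ≤ b := by
          rw [hb, div_le_div_iff₀ (by positivity) (by positivity)]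
          have h3 : (1 : ℝ) ≤ 4 * C := by linarith
          have h4 : 0 < (Y : ℝ) * (g * P) := by positivity
          nlinarith
        linarith
      · rw [div_le_iff₀ (by positivity)]
        have : (P : ℝ) * 1 ≤ P * g := by gcongr
        linarith
    rw [div_le_iff₀ (by positivity)] at h1
    linarith
  have hLr : L ≤ r8 (2 * P * g / Y) := hL1.trans (r8_le_r8 (by positivity) hδlow)
  set K : ℝ := 4 * g * min (ρ₀ / Y) (C / (P : ℝ) ^ 2) with hK
  have hK0 : 0 ≤ K := by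
    have : 0 ≤ min (ρ₀ / Y) (C / (P : ℝ) ^ 2) := le_min (by positivity) (by positivity)
    positivity
  have hK1 : K ≤ 4 * g * (ρ₀ / Y) := by
    rw [hK]
    have := min_le_left (ρ₀ / Y) (C / (P : ℝ) ^ 2)
    gcongr
  have hK2 : K ≤ 4 * g * (C / (P : ℝ) ^ 2) := by
    rw [hK]
    have := min_le_right (ρ₀ / Y) (C / (P : ℝ) ^ 2)
    gcongr
  have hKδ : K * δ ≤ 16 * C * ρ₀ / P := by
    have h1 : K * δ ≤ K * (a + b) := by gcongr
    have h2 : K * a ≤ 4 * g * (C / (P : ℝ) ^ 2) * a := by gcongr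
    have h3 : K * b ≤ 4 * g * (ρ₀ / Y) * b := by gcongr
    have h4 : 4 * g * (C / (P : ℝ) ^ 2) * a = 8 * C * ρ₀ / P := by
      rw [ha]; field_simp; ring
    have h5 : 4 * g * (ρ₀ / Y) * b = 8 * C * ρ₀ / P := by
      rw [hb]; field_simp; ring
    have h6 : 16 * C * ρ₀ / P = 8 * C * ρ₀ / P + 8 * C * ρ₀ / P := by ring
    rw [h6]
    rw [mul_add] at h1
    linarith
  have hKx : K * x ≤ 4 * C / P := by
    have h1 : K * x ≤ 4 * g * (C / (P : ℝ) ^ 2) * x := by gcongr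
    refine h1.trans (le_of_eq ?_)
    rw [hx]; field_simp
  have hKδx : K * δ * x ≤ 16 * C * ρ₀ * (1 / g) := by
    have h1 : K * δ * x ≤ 16 * C * ρ₀ / P * x := by gcongr
    refine h1.trans (le_of_eq ?_)
    rw [hx]; field_simp
  have hr8 : 0 ≤ r8 (2 * P * g / Y) := r8_nonneg (by positivity)
  have hδB : 0 ≤ δ * B := by positivity
  calc K * ∑ r ∈ N, Aw 4 (r / g)
      ≤ K * (L * (N.card : ℝ) + δ * (2 * x * M9)) := by gcongr
    _ ≤ K * (L * (170 * δ * x + 8 * δ * B + 83 * |θ| * x) + δ * (2 * x * M9)) := by gcongr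
    _ = 170 * L * (K * δ * x) + 8 * L * (K * δ) * B + 83 * L * |θ| * (K * x) +
          2 * M9 * (K * δ * x) := by ring
    _ ≤ 170 * r8 (2 * P * g / Y) * (16 * C * ρ₀ * (1 / g)) + 8 * Am * (16 * C * ρ₀ / P) * B +
          83 * Am * |θ| * (4 * C / P) + 2 * M9 * (16 * C * ρ₀ * (1 / g)) := by
        have h0 : 0 ≤ K * δ := by positivity
        have h00 : 0 ≤ K * δ * x := by positivity
        have h01 : 0 ≤ K * x := by positivity
        have e1 : 170 * L * (K * δ * x) ≤ 170 * r8 (2 * P * g / Y) * (16 * C * ρ₀ * (1 / g)) := by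
          apply mul_le_mul (by linarith) hKδx h00 (by positivity)
        have e2 : 8 * L * (K * δ) * B ≤ 8 * Am * (16 * C * ρ₀ / P) * B := by
          apply mul_le_mul_of_nonneg_right _ hB'.le
          apply mul_le_mul (by linarith) hKδ h0 (by positivity)
        have e3 : 83 * L * |θ| * (K * x) ≤ 83 * Am * |θ| * (4 * C / P) := by
          apply mul_le_mul _ hKx h01 (by positivity)
          apply mul_le_mul_of_nonneg_right _ hθ0
          linarith
        have e4 : 2 * M9 * (K * δ * x) ≤ 2 * M9 * (16 * C * ρ₀ * (1 / g)) := by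
          apply mul_le_mul_of_nonneg_left hKδx (by positivity)
        linarith
    _ = _ := by ring

end Vale.Agent.P028
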