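import Vale.Agent.P028.VParams

namespace Vale.Agent.P028

open Finset

lemma r8_ge_one_nat {g : ℕ} (hg : 0 < g) : 1 ≤ r8 (g : ℝ) :=
  one_le_r8 (by exact_mod_cast hg)

/-- First weight inequality for the second sum. -/
lemma T2_weight_a {g e Y P : ℕ} (hg : 0 < g) (hY : 0 < Y) (hP : P = Y * 2 ^ e) :
    (1 / tu ^ e) * (r8 (2 * P * g / Y) / g) ≤ sg * (1 / fr g) * (1 / sg) ^ e := by
  have hg' : (0 : ℝ) < g := by exact_mod_cast hg
  have hY' : (0 : ℝ) < Y := by exact_mod_cast hY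
  have h1 : 2 * (P : ℝ) * g / Y = 2 * (2 ^ e * g) := by
    rw [hP]; push_cast; field_simp
  rw [h1, r8_mul (by norm_num) (by positivity), r8_mul (by positivity) hg'.le, r8_two_pow]
  set s := sg ^ e with hs
  have hs1 : 1 ≤ s := one_le_sg_pow e
  have hs0 : 0 < s := by linarith
  set h := r8 (g : ℝ) with hh
  have hh1 : 1 ≤ h := r8_ge_one_nat hg
  have hh0 : 0 < h := by linarith
  have hgh : (g : ℝ) = h ^ 8 := (r8_pow8 hg'.le).symm
  have hfr : fr (g : ℝ) = h ^ 2 := rfl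
  rw [tu_pow_eq, one_div_sg_pow, ← hs, hfr, hgh]
  have hsg := sg_pos
  have h3 : h ^ 3 ≤ h ^ 8 := pow_le_pow_right₀ hh1 (by norm_num)
  have key : 1 / s ^ 2 * (r8 2 * (s * h) / h ^ 8) = sg * (1 / s) * (1 / h ^ 7) := by
    show 1 / s ^ 2 * (sg * (s * h) / h ^ 8) = _
    field_simp
  rw [key]
  have h4 : 1 / h ^ 7 ≤ 1 / h ^ 2 := by
    apply one_div_le_one_div_of_le (by positivity)
    exact pow_le_pow_right₀ hh1 (by norm_num)
  have h5 : 0 ≤ sg * (1 / s) := by positivity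
  calc sg * (1 / s) * (1 / h ^ 7) ≤ sg * (1 / s) * (1 / h ^ 2) := by gcongr
    _ = _ := by ring

/-- Second weight inequality for the second sum. -/
lemma T2_weight_b {g e : ℕ} (hg : 0 < g) :
    (1 / tu ^ e) * (1 / g) ≤ (1 / fr g) * (1 / sg) ^ e := by
  have hg' : (0 : ℝ) < g := by exact_mod_cast hg
  set s := sg ^ e with hs
  have hs1 : 1 ≤ s := one_le_sg_pow e
  have hs0 : 0 < s := by linarith
  set h := r8 (g : ℝ) with hh
  have hh1 : 1 ≤ h := r8_ge_one_nat hg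
  have hh0 : 0 < h := by linarith
  have hgh : (g : ℝ) = h ^ 8 := (r8_pow8 hg'.le).symm
  have hfr : fr (g : ℝ) = h ^ 2 := rfl
  rw [tu_pow_eq, one_div_sg_pow, ← hs, hfr, hgh]
  have h4 : 1 / h ^ 8 ≤ 1 / h ^ 2 :=
    one_div_le_one_div_of_le (by positivity) (pow_le_pow_right₀ hh1 (by norm_num))
  have h5 : 1 / s ^ 2 ≤ 1 / s := by
    apply one_div_le_one_div_of_le hs0
    nlinarith
  calc 1 / s ^ 2 * (1 / h ^ 8) ≤ 1 / s * (1 / h ^ 2) := by gcongr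
    _ = _ := by ring

lemma one_div_tu_le (e : ℕ) : 1 / tu ^ e ≤ (1 / sg) ^ e := by
  set s := sg ^ e with hs
  have hs1 : 1 ≤ s := one_le_sg_pow e
  have hs0 : 0 < s := by linarith
  rw [tu_pow_eq, one_div_sg_pow, ← hs]
  apply one_div_le_one_div_of_le hs0
  nlinarith

set_option maxHeartbeats 1000000 in
/-- Weighted bound for one level of the second sum. -/
theorem T2_level_weighted {γ C ρ₀ : ℝ} (hC : 1 ≤ C) {q g e : ℕ} (hq : 0 < q) (hg : g ∈ q.divisors)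
    (hj0 : 0 < jj q) (hρ0 : 0 < ρ₀) (hlow : 1 / ((q : ℝ) * (jj q : ℝ) ^ 2) ≤ ρ₀)
    (N : Finset ℕ) (σ : ℕ → ℝ)
    (hN : ∀ r ∈ N, q < r ∧ jj r = jj q + e ∧ Nat.gcd q r = g ∧ 200 * ll r + 200 ≤ jj r ∧
      0 ≤ σ r ∧ σ r ≤ C / r ∧ 2 * ((r : ℝ) * ρ₀ + q * σ r) < g ∧
      (∃ a b : ℤ, IsCoprime (b * BBV γ (jj r) + AAV γ (jj r)) (r : ℤ) ∧
        |((a : ℝ) + γ) * (r / g : ℕ) - ((b : ℝ) + γ) * (q / g : ℕ)| <
          ((r : ℝ) * ρ₀ + q * σ r) / g) ∧ Aw 4 (r / g) ≤ 2 ^ (9 * ll r)) :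
    (1 / tu ^ e) * (4 * g * min (ρ₀ / (2 ^ jj q : ℕ)) (C / ((2 ^ (jj q + e) : ℕ) : ℝ) ^ 2) *
        ∑ r ∈ N, Aw 4 (r / g)) ≤
      ((2720 * sg * C + 32 * M9 * C) * ρ₀ * (1 / fr g) + 460 * C * ρ₀ / 2 ^ (55 * ll q)) *
        (1 / sg) ^ e := by
  classical
  have hsg := sg_pos
  have hC0 : 0 < C := by linarith
  have hM := M9_pos
  have hgpos : 0 < g := Nat.pos_of_mem_divisors hg
  have hg' : (0 : ℝ) < g := by exact_mod_cast hgpos
  have hfrg : 0 < fr (g : ℝ) := fr_pos hg'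
  have hgq : g ∣ q := Nat.dvd_of_mem_divisors hg
  rcases N.eq_empty_or_nonempty with rfl | ⟨r₀, hr₀⟩
  · simp only [Finset.sum_empty, mul_zero]
    positivity
  obtain ⟨hr1, hr2, _, hr4, _⟩ := hN r₀ hr₀
  set j₀ := jj q with hj₀
  set j := j₀ + e with hj
  set Y : ℕ := 2 ^ j₀ with hY
  set P : ℕ := 2 ^ j with hP
  have hYpos : 0 < Y := by positivity
  have hPY : P = Y * 2 ^ e := by rw [hP, hY, hj, pow_add]
  have hYP : Y ≤ P := by
    rw [hPY]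
    exact Nat.le_mul_of_pos_right _ (by positivity)
  have hqY : q < 2 * Y := by
    have h1 : q < 2 ^ (j₀ + 1) := lt_pow_jj q
    rw [pow_succ] at h1
    rw [hY]
    omega
  have hYq : Y ≤ q := pow_jj_le hq.ne'
  -- the level data, constant on the block
  have hll : ∀ r ∈ N, ll r = Nat.log 2 j + 1 := by
    intro r hr
    obtain ⟨_, h2, _⟩ := hN r hr
    unfold ll
    show Nat.log 2 (jj r) + 1 = _
    rw [h2]
  set ℓ := Nat.log 2 j + 1 with hℓ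
  have hjj : ∀ r ∈ N, jj r = j := fun r hr => (hN r hr).2.1
  have hj200 : 200 * ℓ + 200 ≤ j := by
    have h1 := hr4
    rw [hll r₀ hr₀, hjj r₀ hr₀] at h1
    exact h1
  set B := BBV γ j with hB
  set X := XVj j with hX
  have hXeq : X = 2 ^ (j - 64 * ℓ) := by rw [hX]; unfold XVj; rw [← hℓ]
  have hB0 : 0 < B := BBV_pos γ j
  have hBX : B ≤ X := BBV_le γ j
  have hX15 : 15 ≤ X := by
    rw [hXeq]
    have h1 : 2 ^ 4 ≤ 2 ^ (j - 64 * ℓ) := Nat.pow_le_pow_right (by norm_num) (by omega)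
    omega
  have hθX := thV_le γ j
  have hAm1 : (1 : ℝ) ≤ 2 ^ (9 * ℓ) := one_le_pow₀ (by norm_num)
  have hlev := T2_level hB0 hBX (AAV_coprime γ j) (θ := thV γ j) rfl hθX hX15 hC hgpos hgq hq
    hYpos hqY hYP hρ0 hAm1 N σ (fun r hr => by
      obtain ⟨h1, h2, h3, _, h5, h6, h7, h8, h9⟩ := hN r hr
      have h10 : 2 ^ jj r ≤ r := pow_jj_le (by omega)
      have h11 : r < 2 ^ (jj r + 1) := lt_pow_jj r
      rw [h2] at h10 h11
      rw [pow_succ] at h11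
      have h12 := hjj r hr
      rw [h12] at h8
      rw [hll r hr] at h9
      exact ⟨h10, by rw [hP]; omega, h1, h3, h5, h6, h7, h8, h9⟩)
  have hYR : ((2 ^ j₀ : ℕ) : ℝ) = (Y : ℝ) := rfl
  have hPR : ((2 ^ j : ℕ) : ℝ) = (P : ℝ) := rfl
  rw [hPR]
  set K : ℝ := 4 * g * min (ρ₀ / Y) (C / (P : ℝ) ^ 2) * ∑ r ∈ N, Aw 4 (r / g) with hK
  set θ := thV γ j with hθ
  have hθ0 : 0 ≤ |θ| := abs_nonneg θ
  set Am : ℝ := 2 ^ (9 * ℓ) with hAm
  set T := (1 / sg) ^ e with hT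
  have hT0 : 0 < T := by positivity
  have htu : 0 < 1 / tu ^ e := by have := pow_pos tu_pos e; positivity
  have hPpos : 0 < P := by positivity
  have hP' : (0 : ℝ) < P := by exact_mod_cast hPpos
  have hY' : (0 : ℝ) < Y := by exact_mod_cast hYpos
  have hPdef : (P : ℝ) = 2 ^ j := by rw [hP]; push_cast; rfl
  -- the four terms
  have ta := T2_weight_a (e := e) hgpos hYpos hPY
  have tb := T2_weight_b (e := e) hgpos
  have hle_tu := one_div_tu_le e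
  have hXR : (X : ℝ) = 2 ^ (j - 64 * ℓ) := by rw [hXeq]; push_cast; rfl
  have hsplit : (2 : ℝ) ^ j = 2 ^ (j - 64 * ℓ) * 2 ^ (64 * ℓ) := by
    rw [← pow_add]; congr 1; omega
  have hBR : (B : ℝ) ≤ X := by exact_mod_cast hBX
  have hℓq : ll q ≤ ℓ := by
    have h1 : ll q ≤ ll r₀ := ll_le_of_le hr1.le
    rwa [hll r₀ hr₀] at h1
  have h55 : (1 : ℝ) / 2 ^ (55 * ℓ) ≤ 1 / 2 ^ (55 * ll q) := by
    apply one_div_le_one_div_of_le (by positivity)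
    apply pow_le_pow_right₀ (by norm_num)
    omega
  have hAmB : Am * B / P ≤ 1 / 2 ^ (55 * ℓ) := by
    have h1 : (2 : ℝ) ^ (64 * ℓ) = 2 ^ (9 * ℓ) * 2 ^ (55 * ℓ) := by
      rw [← pow_add]; congr 1; ring
    rw [div_le_div_iff₀ hP' (by positivity), one_mul, hPdef, hsplit, hAm]
    have hX2 : (0 : ℝ) < 2 ^ (j - 64 * ℓ) := by positivity
    rw [hXR] at hBR
    calc (2 : ℝ) ^ (9 * ℓ) * B * 2 ^ (55 * ℓ) = B * (2 ^ (9 * ℓ) * 2 ^ (55 * ℓ)) := by ring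
      _ ≤ 2 ^ (j - 64 * ℓ) * (2 ^ (9 * ℓ) * 2 ^ (55 * ℓ)) := by gcongr
      _ = _ := by rw [h1]
  have hAmθ : Am * |θ| / P ≤ ρ₀ * (1 / 2 ^ (55 * ℓ)) := by
    have h1 : (jj q : ℝ) ≤ 2 ^ ℓ := by
      have h2 : j₀ ≤ j := by omega
      have h3 : j < 2 ^ ℓ := Nat.lt_pow_succ_log_self (by norm_num) j
      have h4 : j₀ ≤ 2 ^ ℓ := by omega
      exact_mod_cast h4
    have hq' : (0 : ℝ) < q := by exact_mod_cast hq
    have hj0' : (0 : ℝ) < jj q := by exact_mod_cast hj0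
    have h2 : 1 ≤ ρ₀ * ((q : ℝ) * (jj q : ℝ) ^ 2) := by
      rw [div_le_iff₀ (by positivity)] at hlow
      exact hlow
    have h3 : (q : ℝ) ≤ 2 * P := by
      have h4 : q ≤ 2 * P := by omega
      exact_mod_cast h4
    have h4 : (jj q : ℝ) ^ 2 ≤ 2 ^ (2 * ℓ) := by
      rw [mul_comm, pow_mul]
      gcongr
    have h5 : 1 ≤ ρ₀ * (2 * P * 2 ^ (2 * ℓ)) := by
      refine h2.trans ?_
      gcongr
    have h6 : |θ| ≤ 1 / 2 ^ (j - 64 * ℓ) := by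
      refine hθX.trans ?_
      apply one_div_le_one_div_of_le (by positivity)
      rw [← hXR]
      linarith
    have h7 : (2 : ℝ) ^ (j - 64 * ℓ) = 2 ^ (j - 64 * ℓ - (66 * ℓ + 1)) * (2 ^ (66 * ℓ) * 2) := by
      rw [← pow_succ, ← pow_add]; congr 1; omega
    have h8 : (1 : ℝ) ≤ 2 ^ (j - 64 * ℓ - (66 * ℓ + 1)) := one_le_pow₀ (by norm_num)
    have h9 : (1 : ℝ) / 2 ^ (j - 64 * ℓ) ≤ 1 / (2 ^ (66 * ℓ) * 2) := by
      apply one_div_le_one_div_of_le (by positivity)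
      rw [h7]
      have h10 : (0 : ℝ) < 2 ^ (66 * ℓ) * 2 := by positivity
      nlinarith
    have h10 : Am * |θ| / P ≤ Am * (1 / (2 ^ (66 * ℓ) * 2)) / P := by
      have : |θ| ≤ 1 / (2 ^ (66 * ℓ) * 2) := h6.trans h9
      gcongr
    refine h10.trans ?_
    have h11 : Am * (1 / (2 ^ (66 * ℓ) * 2)) / P =
        (Am * (1 / (2 ^ (66 * ℓ) * 2)) / P) * 1 := by ring
    rw [h11]
    have h12 : 0 ≤ Am * (1 / (2 ^ (66 * ℓ) * 2)) / P := by
      rw [hAm]; positivity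
    calc Am * (1 / (2 ^ (66 * ℓ) * 2)) / P * 1
        ≤ Am * (1 / (2 ^ (66 * ℓ) * 2)) / P * (ρ₀ * (2 * P * 2 ^ (2 * ℓ))) := by gcongr
      _ = ρ₀ * (1 / 2 ^ (55 * ℓ)) := by
        have h13 : (2 : ℝ) ^ (66 * ℓ) = 2 ^ (9 * ℓ) * 2 ^ (2 * ℓ) * 2 ^ (55 * ℓ) := by
          rw [← pow_add, ← pow_add]; congr 1; ring
        rw [hAm, h13]
        field_simp
  calc (1 / tu ^ e) * K
      ≤ (1 / tu ^ e) * (2720 * C * ρ₀ * (r8 (2 * P * g / Y) / g) + 32 * M9 * C * ρ₀ * (1 / g) +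
        128 * Am * C * ρ₀ * B / P + 332 * Am * C * |θ| / P) := by gcongr
    _ = 2720 * C * ρ₀ * ((1 / tu ^ e) * (r8 (2 * P * g / Y) / g)) +
        32 * M9 * C * ρ₀ * ((1 / tu ^ e) * (1 / g)) +
        128 * C * ρ₀ * ((1 / tu ^ e) * (Am * B / P)) +
        332 * C * ((1 / tu ^ e) * (Am * |θ| / P)) := by ring
    _ ≤ 2720 * C * ρ₀ * (sg * (1 / fr g) * T) + 32 * M9 * C * ρ₀ * ((1 / fr g) * T) +
        128 * C * ρ₀ * (T * (1 / 2 ^ (55 * ll q))) +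
        332 * C * (T * (ρ₀ * (1 / 2 ^ (55 * ll q)))) := by
        have e1 : (1 / tu ^ e) * (Am * B / P) ≤ T * (1 / 2 ^ (55 * ll q)) := by
          apply mul_le_mul hle_tu (hAmB.trans h55) _ hT0.le
          rw [hAm]; positivity
        have e2 : (1 / tu ^ e) * (Am * |θ| / P) ≤ T * (ρ₀ * (1 / 2 ^ (55 * ll q))) := by
          apply mul_le_mul hle_tu _ _ hT0.le
          · refine hAmθ.trans ?_
            gcongr
          · rw [hAm]; positivity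
        gcongr
    _ = _ := by ring

set_option maxHeartbeats 1000000 in
/-- The second sum of the small-window pairs, for a fixed smaller modulus. -/
theorem T2_V {γ C ρ₀ : ℝ} (hC : 1 ≤ C) {q : ℕ} (hq : 0 < q) (hj0 : 0 < jj q) (hρ0 : 0 < ρ₀)
    (hlow : 1 / ((q : ℝ) * (jj q : ℝ) ^ 2) ≤ ρ₀) (hτ : (q.divisors.card : ℝ) ≤ 2 ^ (3 * ll q))
    (R : Finset ℕ) (σ : ℕ → ℝ)
    (hR : ∀ r ∈ R, q < r ∧ 200 * ll r + 200 ≤ jj r ∧
      0 ≤ σ r ∧ σ r ≤ C / r ∧ 2 * ((r : ℝ) * ρ₀ + q * σ r) < Nat.gcd q r ∧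
      (∃ a b : ℤ, IsCoprime (b * BBV γ (jj r) + AAV γ (jj r)) (r : ℤ) ∧
        |((a : ℝ) + γ) * (r / Nat.gcd q r : ℕ) - ((b : ℝ) + γ) * (q / Nat.gcd q r : ℕ)| <
          ((r : ℝ) * ρ₀ + q * σ r) / Nat.gcd q r) ∧ Aw 4 (r / Nat.gcd q r) ≤ 2 ^ (9 * ll r)) :
    ∑ r ∈ R, (4 * (Nat.gcd q r : ℝ) * min (ρ₀ / q) (σ r / r)) * (1 / tu ^ (jj r - jj q)) *
        (Aw 4 (r / Nat.gcd q r) / Aw 4 (q / Nat.gcd q r)) ≤
      13 * (2720 * sg * C + 32 * M9 * C) * ρ₀ * (14 ^ 41 * ((Nat.totient q : ℝ) / q)) +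
        5980 * C * ρ₀ / 2 ^ (4 * ll q) := by
  classical
  have hq' : (0 : ℝ) < q := by exact_mod_cast hq
  have hC0 : 0 < C := by linarith
  have hsg := sg_pos
  have hM := M9_pos
  set D := q.divisors with hD
  set E := R.sup jj + 1 with hE
  set N : ℕ → ℕ → Finset ℕ := fun g e =>
    R.filter fun r => Nat.gcd q r = g ∧ jj r - jj q = e with hN
  set H : ℕ → ℝ := fun r => (4 * (Nat.gcd q r : ℝ) * min (ρ₀ / q) (σ r / r)) *
    (1 / tu ^ (jj r - jj q)) * (Aw 4 (r / Nat.gcd q r) / Aw 4 (q / Nat.gcd q r)) with hH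
  have hmaps : ∀ r ∈ R, (Nat.gcd q r, jj r - jj q) ∈ D ×ˢ range E := by
    intro r hr
    rw [Finset.mem_product]
    refine ⟨Nat.mem_divisors.mpr ⟨Nat.gcd_dvd_left _ _, hq.ne'⟩, ?_⟩
    rw [Finset.mem_range, hE, Nat.lt_succ_iff]
    show jj r - jj q ≤ _
    exact (Nat.sub_le _ _).trans (Finset.le_sup (f := jj) hr)
  have hsplit : ∑ r ∈ R, H r = ∑ g ∈ D, ∑ e ∈ range E, ∑ r ∈ N g e, H r := by
    rw [← Finset.sum_product' (f := fun g e => ∑ r ∈ N g e, H r)]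
    rw [← Finset.sum_fiberwise_of_maps_to hmaps]
    refine Finset.sum_congr rfl fun y _ => ?_
    obtain ⟨g, e⟩ := y
    have h1 : (R.filter fun r => (Nat.gcd q r, jj r - jj q) = (g, e)) = N g e := by
      simp only [hN, Prod.mk.injEq]
    rw [h1]
  set Z : ℝ := 460 * C * ρ₀ / 2 ^ (55 * ll q) with hZ
  have hZ0 : 0 ≤ Z := by positivity
  set K1 : ℝ := (2720 * sg * C + 32 * M9 * C) * ρ₀ with hK1
  have hK10 : 0 ≤ K1 := by positivity
  have hlevel : ∀ g ∈ D, ∀ e ∈ range E, ∑ r ∈ N g e, H r ≤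
      (1 / Aw 4 (q / g)) * ((K1 * (1 / fr g) + Z) * (1 / sg) ^ e) := by
    intro g hg e _
    have hgpos : 0 < g := Nat.pos_of_mem_divisors hg
    have hg' : (0 : ℝ) < g := by exact_mod_cast hgpos
    have hdata : ∀ r ∈ N g e, q < r ∧ jj r = jj q + e ∧ Nat.gcd q r = g ∧ 200 * ll r + 200 ≤ jj r ∧
        0 ≤ σ r ∧ σ r ≤ C / r ∧ 2 * ((r : ℝ) * ρ₀ + q * σ r) < g ∧
        (∃ a b : ℤ, IsCoprime (b * BBV γ (jj r) + AAV γ (jj r)) (r : ℤ) ∧
          |((a : ℝ) + γ) * (r / g : ℕ) - ((b : ℝ) + γ) * (q / g : ℕ)| <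
            ((r : ℝ) * ρ₀ + q * σ r) / g) ∧ Aw 4 (r / g) ≤ 2 ^ (9 * ll r) := by
      intro r hr
      obtain ⟨hr1, hr2, hr3⟩ := Finset.mem_filter.mp hr
      obtain ⟨h1, h2, h3, h4, h5, h6, h7⟩ := hR r hr1
      have h8 : jj q ≤ jj r := jj_le_of_le h1.le
      rw [hr2] at h5 h6 h7
      exact ⟨h1, by omega, hr2, h2, h3, h4, h5, h6, h7⟩
    have hw := T2_level_weighted (γ := γ) hC hq hg hj0 hρ0 hlow (N g e) σ hdata
    set Y : ℕ := 2 ^ jj q with hY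
    set P : ℕ := 2 ^ (jj q + e) with hP
    have hY' : (0 : ℝ) < Y := by rw [hY]; positivity
    have hP' : (0 : ℝ) < P := by rw [hP]; positivity
    have hYq : (Y : ℝ) ≤ q := by exact_mod_cast pow_jj_le hq.ne'
    have hA0 : 0 < Aw 4 (q / g) := Aw_pos (by norm_num) _
    have hpoint : ∀ r ∈ N g e, H r ≤ (1 / Aw 4 (q / g)) * ((1 / tu ^ e) *
        (4 * g * min (ρ₀ / Y) (C / (P : ℝ) ^ 2) * Aw 4 (r / g))) := by
      intro r hr
      obtain ⟨hr1, hr2, hr3⟩ := Finset.mem_filter.mp hr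
      obtain ⟨h1, h2, h3, h4, h5, h6, h7⟩ := hdata r hr
      have h8 : P ≤ r := by
        rw [hP, ← h2]
        exact pow_jj_le (by omega)
      have h8' : (P : ℝ) ≤ r := by exact_mod_cast h8
      have hr0 : (0 : ℝ) < r := by linarith
      have hmin : min (ρ₀ / q) (σ r / r) ≤ min (ρ₀ / Y) (C / (P : ℝ) ^ 2) := by
        apply min_le_min
        · gcongr
        · have h9 : σ r / r ≤ (C / r) / r := by gcongr
          refine h9.trans ?_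
          rw [div_div, ← pow_two]
          gcongr
      have hAr : 0 < Aw 4 (r / g) := Aw_pos (by norm_num) _
      simp only [hH]
      rw [hr2, hr3]
      have htu : 0 < 1 / tu ^ e := by have := pow_pos tu_pos e; positivity
      have hmin0 : 0 ≤ min (ρ₀ / q) (σ r / r) := le_min (by positivity) (by positivity)
      calc 4 * (g : ℝ) * min (ρ₀ / q) (σ r / r) * (1 / tu ^ e) * (Aw 4 (r / g) / Aw 4 (q / g))
          = (1 / Aw 4 (q / g)) * ((1 / tu ^ e) * (4 * g * min (ρ₀ / q) (σ r / r) * Aw 4 (r / g))) := by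
            ring
        _ ≤ _ := by gcongr
    refine (Finset.sum_le_sum hpoint).trans ?_
    rw [← Finset.mul_sum, ← Finset.mul_sum, ← Finset.mul_sum]
    apply mul_le_mul_of_nonneg_left hw (by positivity)
  have hg1 : ∀ g ∈ D, ∑ e ∈ range E, ∑ r ∈ N g e, H r ≤
      (1 / Aw 4 (q / g)) * (13 * (K1 * (1 / fr g) + Z)) := by
    intro g hg
    refine (Finset.sum_le_sum (hlevel g hg)).trans ?_
    rw [← Finset.mul_sum, ← Finset.mul_sum]
    have hg' : (0 : ℝ) ≤ g := Nat.cast_nonneg _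
    have hfr := fr_nonneg hg'
    have hA0 : 0 < Aw 4 (q / g) := Aw_pos (by norm_num) _
    have h2 : 0 ≤ K1 * (1 / fr g) + Z := by positivity
    apply mul_le_mul_of_nonneg_left _ (by positivity)
    rw [mul_comm]
    exact mul_le_mul_of_nonneg_right (sum_sg_inv_le E) h2
  show ∑ r ∈ R, H r ≤ _
  rw [hsplit]
  refine (Finset.sum_le_sum hg1).trans ?_
  have h6 : ∀ g ∈ D, (1 / Aw 4 (q / g)) * (13 * (K1 * (1 / fr g) + Z)) ≤
      13 * K1 * ((1 / fr g) * (1 / Aw 4 (q / g))) + 13 * Z := by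
    intro g _
    have h0 := one_le_Aw (show (0 : ℝ) ≤ 4 by norm_num) (q / g)
    have h1 : 1 / Aw 4 (q / g) ≤ 1 := by
      rw [div_le_one (by linarith)]; exact h0
    have h3 : (1 / Aw 4 (q / g)) * (13 * Z) ≤ 1 * (13 * Z) := by gcongr
    calc _ = 13 * K1 * ((1 / fr g) * (1 / Aw 4 (q / g))) + (1 / Aw 4 (q / g)) * (13 * Z) := by ring
      _ ≤ _ := by linarith
  refine (Finset.sum_le_sum h6).trans ?_
  rw [Finset.sum_add_distrib, ← Finset.mul_sum, Finset.sum_const, nsmul_eq_mul]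
  have hm := mul_le_mul_of_nonneg_left (master_lemma' hq.ne') (show 0 ≤ 13 * K1 by positivity)
  have h7 : (D.card : ℝ) * (13 * Z) ≤ 5980 * C * ρ₀ / 2 ^ (4 * ll q) := by
    have h8 : (D.card : ℝ) * (13 * Z) ≤ 2 ^ (3 * ll q) * (13 * Z) := by gcongr
    refine h8.trans ?_
    have h9 : (2 : ℝ) ^ (55 * ll q) = 2 ^ (3 * ll q) * 2 ^ (4 * ll q) * 2 ^ (48 * ll q) := by
      rw [← pow_add, ← pow_add]; congr 1; ring
    have h10 : (1 : ℝ) ≤ 2 ^ (48 * ll q) := one_le_pow₀ (by norm_num)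
    rw [hZ, h9]
    have h11 : (2 : ℝ) ^ (3 * ll q) * (13 * (460 * C * ρ₀ / (2 ^ (3 * ll q) * 2 ^ (4 * ll q) * 2 ^ (48 * ll q)))) =
        5980 * C * ρ₀ / (2 ^ (4 * ll q) * 2 ^ (48 * ll q)) := by
      field_simp
      norm_num
    rw [h11]
    apply div_le_div_of_nonneg_left (by positivity) (by positivity)
    have h12 : (0 : ℝ) < 2 ^ (4 * ll q) := by positivity
    nlinarith
  have h13 : 13 * (2720 * sg * C + 32 * M9 * C) * ρ₀ * (14 ^ 41 * ((Nat.totient q : ℝ) / q)) =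
      13 * K1 * (14 ^ 41 * ((Nat.totient q : ℝ) / q)) := by rw [hK1]; ring
  rw [h13]
  linarith

end Vale.Agent.P028
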