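import Vale.Agent.P028.Anatomy

namespace Vale.Agent.P028

open Finset

/-- The eighth root. -/
noncomputable def r8 (x : ℝ) : ℝ := x ^ (((8 : ℕ) : ℝ)⁻¹)

lemma r8_nonneg {x : ℝ} (hx : 0 ≤ x) : 0 ≤ r8 x := Real.rpow_nonneg hx _

lemma r8_pos {x : ℝ} (hx : 0 < x) : 0 < r8 x := Real.rpow_pos_of_pos hx _

lemma r8_pow8 {x : ℝ} (hx : 0 ≤ x) : r8 x ^ 8 = x := Real.rpow_inv_natCast_pow hx (by norm_num)

lemma r8_mul {x y : ℝ} (hx : 0 ≤ x) (hy : 0 ≤ y) : r8 (x * y) = r8 x * r8 y :=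
  Real.mul_rpow hx hy

lemma r8_div {x y : ℝ} (hx : 0 ≤ x) (hy : 0 ≤ y) : r8 (x / y) = r8 x / r8 y :=
  Real.div_rpow hx hy _

lemma r8_le_r8 {x y : ℝ} (hx : 0 ≤ x) (h : x ≤ y) : r8 x ≤ r8 y :=
  Real.rpow_le_rpow hx h (by positivity)

lemma r8_one : r8 1 = 1 := Real.one_rpow _

lemma r8_pow {x : ℝ} (hx : 0 ≤ x) (k : ℕ) : r8 (x ^ k) = r8 x ^ k := by
  induction k with
  | zero => simp [r8_one]
  | succ k ih => rw [pow_succ, pow_succ, r8_mul (pow_nonneg hx k) hx, ih]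

lemma one_le_r8 {x : ℝ} (hx : 1 ≤ x) : 1 ≤ r8 x := by
  rw [← r8_one]; exact r8_le_r8 (by norm_num) hx

lemma r8_le_one {x : ℝ} (hx0 : 0 ≤ x) (hx : x ≤ 1) : r8 x ≤ 1 := by
  rw [← r8_one]; exact r8_le_r8 hx0 hx

/-- The fourth root. -/
noncomputable def fr (x : ℝ) : ℝ := r8 x ^ 2

lemma fr_nonneg {x : ℝ} (hx : 0 ≤ x) : 0 ≤ fr x := pow_nonneg (r8_nonneg hx) _

lemma fr_pos {x : ℝ} (hx : 0 < x) : 0 < fr x := pow_pos (r8_pos hx) _

lemma fr_pow4 {x : ℝ} (hx : 0 ≤ x) : fr x ^ 4 = x := by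
  unfold fr
  rw [← pow_mul]
  exact r8_pow8 hx

lemma fr_mul {x y : ℝ} (hx : 0 ≤ x) (hy : 0 ≤ y) : fr (x * y) = fr x * fr y := by
  unfold fr
  rw [r8_mul hx hy, mul_pow]

lemma fr_div {x y : ℝ} (hx : 0 ≤ x) (hy : 0 ≤ y) : fr (x / y) = fr x / fr y := by
  unfold fr
  rw [r8_div hx hy, div_pow]

lemma fr_le_fr {x y : ℝ} (hx : 0 ≤ x) (h : x ≤ y) : fr x ≤ fr y :=
  pow_le_pow_left₀ (r8_nonneg hx) (r8_le_r8 hx h) 2

lemma fr_one : fr 1 = 1 := by simp [fr, r8_one]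

lemma fr_pow {x : ℝ} (hx : 0 ≤ x) (k : ℕ) : fr (x ^ k) = fr x ^ k := by
  unfold fr
  rw [r8_pow hx, ← pow_mul, ← pow_mul, mul_comm]

lemma one_le_fr {x : ℝ} (hx : 1 ≤ x) : 1 ≤ fr x := by
  rw [← fr_one]; exact fr_le_fr (by norm_num) hx

lemma fr_le_one {x : ℝ} (hx0 : 0 ≤ x) (hx : x ≤ 1) : fr x ≤ 1 := by
  rw [← fr_one]; exact fr_le_fr hx0 hx

/-- The base of the geometric weights: eighth root of two. -/
noncomputable def sg : ℝ := r8 2

/-- The fourth root of two. -/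
noncomputable def tu : ℝ := fr 2

lemma sg_pos : 0 < sg := r8_pos (by norm_num)

lemma sg_pow8 : sg ^ 8 = 2 := r8_pow8 (by norm_num)

lemma tu_eq : tu = sg ^ 2 := rfl

lemma tu_pos : 0 < tu := fr_pos (by norm_num)

lemma tu_pow4 : tu ^ 4 = 2 := fr_pow4 (by norm_num)

lemma sg_gt : 13 / 12 < sg := by
  by_contra h
  push Not at h
  have h1 : sg ^ 8 ≤ (13 / 12 : ℝ) ^ 8 := pow_le_pow_left₀ sg_pos.le h 8
  rw [sg_pow8] at h1
  norm_num at h1

lemma sg_lt : sg < 12 / 11 := by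
  by_contra h
  push Not at h
  have h1 : (12 / 11 : ℝ) ^ 8 ≤ sg ^ 8 := pow_le_pow_left₀ (by norm_num) h 8
  rw [sg_pow8] at h1
  norm_num at h1

lemma one_lt_sg : 1 < sg := by have := sg_gt; linarith

lemma tu_gt : 1 < tu := by
  rw [tu_eq]
  have := one_lt_sg
  nlinarith

lemma tu_lt : tu < 6 / 5 := by
  by_contra h
  push Not at h
  have h1 : (6 / 5 : ℝ) ^ 4 ≤ tu ^ 4 := pow_le_pow_left₀ (by norm_num) h 4
  rw [tu_pow4] at h1
  norm_num at h1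

lemma tu_sq_le : tu ^ 2 ≤ 2 := by
  have := tu_lt
  have := tu_gt
  nlinarith

lemma r8_two_pow (k : ℕ) : r8 ((2 : ℝ) ^ k) = sg ^ k := r8_pow (by norm_num) k

lemma fr_two_pow (k : ℕ) : fr ((2 : ℝ) ^ k) = tu ^ k := fr_pow (by norm_num) k

/-- Minimum bounded by a mixed product of eighth roots. -/
lemma min_le_r8 {a b : ℝ} (ha : 0 ≤ a) (hb : 0 ≤ b) (i : ℕ) (hi : i ≤ 8) :
    min a b ≤ r8 a ^ i * r8 b ^ (8 - i) := by
  have h0a := r8_nonneg ha
  have h0b := r8_nonneg hb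
  have hsplit : i + (8 - i) = 8 := by omega
  rcases le_total a b with h | h
  · rw [min_eq_left h]
    have h1 := r8_le_r8 ha h
    calc a = r8 a ^ 8 := (r8_pow8 ha).symm
      _ = r8 a ^ i * r8 a ^ (8 - i) := by rw [← pow_add, hsplit]
      _ ≤ r8 a ^ i * r8 b ^ (8 - i) := by gcongr
  · rw [min_eq_right h]
    have h1 := r8_le_r8 hb h
    calc b = r8 b ^ 8 := (r8_pow8 hb).symm
      _ = r8 b ^ i * r8 b ^ (8 - i) := by rw [← pow_add, hsplit]
      _ ≤ r8 a ^ i * r8 b ^ (8 - i) := by gcongr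

/-- Geometric series with ratio below one. -/
lemma sum_geom_le {y : ℝ} (h0 : 0 ≤ y) (h1 : y < 1) (K : ℕ) :
    ∑ k ∈ range K, y ^ k ≤ 1 / (1 - y) := by
  have h2 : 0 < 1 - y := by linarith
  rw [le_div_iff₀ h2]
  have h3 : (∑ k ∈ range K, y ^ k) * (1 - y) = 1 - y ^ K := by
    rw [mul_comm]
    exact mul_neg_geom_sum y K
  rw [h3]
  have := pow_nonneg h0 K
  linarith

/-- Sum of the negative powers of the base `sg`. -/
lemma sum_sg_inv_le (K : ℕ) : ∑ k ∈ range K, (1 / sg) ^ k ≤ 13 := by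
  have h0 := sg_pos
  have hgt := sg_gt
  have h1 : 1 / sg < 12 / 13 := by
    rw [div_lt_div_iff₀ h0 (by norm_num)]
    linarith
  have h2 := sum_geom_le (y := 1 / sg) (by positivity) (by linarith) K
  refine h2.trans ?_
  rw [div_le_iff₀ (by linarith)]
  linarith

/-! ### Multiplicative weights -/

lemma one_le_prod_of {ι : Type*} {s : Finset ι} {f : ι → ℝ} (h : ∀ i ∈ s, 1 ≤ f i) :
    1 ≤ ∏ i ∈ s, f i := by
  have h1 := Finset.prod_le_prod (s := s) (f := fun _ => (1 : ℝ)) (g := f)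
    (fun _ _ => zero_le_one) h
  simpa using h1

lemma prod_le_prod_of_subset_one_le {ι : Type*} {s t : Finset ι} {f : ι → ℝ} (hst : s ⊆ t)
    (h : ∀ i ∈ t, 1 ≤ f i) : ∏ i ∈ s, f i ≤ ∏ i ∈ t, f i := by
  classical
  rw [← Finset.prod_sdiff hst]
  have h1 : 1 ≤ ∏ i ∈ t \ s, f i := one_le_prod_of fun i hi => h i (Finset.sdiff_subset hi)
  have h2 : 1 ≤ ∏ i ∈ s, f i := one_le_prod_of fun i hi => h i (hst hi)
  nlinarith

/-- The multiplicative weight attached to a function on primes. -/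
noncomputable def Wt (G : ℕ → ℝ) (n : ℕ) : ℝ := ∏ p ∈ n.primeFactors, G p

lemma Wt_one_le {G : ℕ → ℝ} (hG : ∀ p : ℕ, p.Prime → 1 ≤ G p) (n : ℕ) : 1 ≤ Wt G n := by
  unfold Wt
  apply one_le_prod_of
  intro p hp
  exact hG p (Nat.prime_of_mem_primeFactors hp)

lemma Wt_pos {G : ℕ → ℝ} (hG : ∀ p : ℕ, p.Prime → 1 ≤ G p) (n : ℕ) : 0 < Wt G n :=
  lt_of_lt_of_le one_pos (Wt_one_le hG n)

lemma Wt_mul_le {G : ℕ → ℝ} (hG : ∀ p : ℕ, p.Prime → 1 ≤ G p) {a b : ℕ} (ha : a ≠ 0) (hb : b ≠ 0) :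
    Wt G (a * b) ≤ Wt G a * Wt G b := by
  classical
  unfold Wt
  rw [Nat.primeFactors_mul ha hb]
  have h1 : (∏ p ∈ a.primeFactors ∪ b.primeFactors, G p) * ∏ p ∈ a.primeFactors ∩ b.primeFactors, G p =
      (∏ p ∈ a.primeFactors, G p) * ∏ p ∈ b.primeFactors, G p := Finset.prod_union_inter
  have h2 : 1 ≤ ∏ p ∈ a.primeFactors ∩ b.primeFactors, G p := by
    apply one_le_prod_of
    intro p hp
    exact hG p (Nat.prime_of_mem_primeFactors (Finset.mem_of_mem_inter_left hp))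
  have h3 : 0 < ∏ p ∈ a.primeFactors ∪ b.primeFactors, G p := by
    apply Finset.prod_pos
    intro p hp
    have hp1 : p.Prime := by
      rcases Finset.mem_union.mp hp with h | h <;> exact Nat.prime_of_mem_primeFactors h
    linarith [hG p hp1]
  rw [← h1]
  nlinarith

lemma Wt_le_of_dvd {G : ℕ → ℝ} (hG : ∀ p : ℕ, p.Prime → 1 ≤ G p) {a b : ℕ} (h : a ∣ b) (hb : b ≠ 0) :
    Wt G a ≤ Wt G b := by
  unfold Wt
  exact prod_le_prod_of_subset_one_le (Nat.primeFactors_mono h hb)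
    fun p hp => hG p (Nat.prime_of_mem_primeFactors hp)

lemma Wt_mono {G H : ℕ → ℝ} (hG : ∀ p : ℕ, p.Prime → 1 ≤ G p) (h : ∀ p : ℕ, p.Prime → G p ≤ H p) (n : ℕ) :
    Wt G n ≤ Wt H n := by
  unfold Wt
  apply Finset.prod_le_prod
  · intro p hp
    have := hG p (Nat.prime_of_mem_primeFactors hp)
    linarith
  · intro p hp
    exact h p (Nat.prime_of_mem_primeFactors hp)

lemma Wt_mul_fun (G H : ℕ → ℝ) (n : ℕ) : Wt (fun p => G p * H p) n = Wt G n * Wt H n :=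
  Finset.prod_mul_distrib

lemma Wt_pow_fun (G : ℕ → ℝ) (k n : ℕ) : Wt (fun p => G p ^ k) n = Wt G n ^ k :=
  Finset.prod_pow _ _ _

lemma Wt_le_pow_card {G : ℕ → ℝ} {c : ℝ} (hG : ∀ p : ℕ, p.Prime → 1 ≤ G p)
    (h : ∀ p : ℕ, p.Prime → G p ≤ c) (n : ℕ) : Wt G n ≤ c ^ n.primeFactors.card := by
  unfold Wt
  rw [← Finset.prod_const]
  apply Finset.prod_le_prod
  · intro p hp
    have := hG p (Nat.prime_of_mem_primeFactors hp)
    linarith
  · intro p hp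
    exact h p (Nat.prime_of_mem_primeFactors hp)

/-! ### The series of the fourth-root weights -/

lemma step_telescope {n : ℕ} (hn : 2 ≤ n) :
    (1 : ℝ) / (n * fr n) ≤ 4 * (1 / fr ((n - 1 : ℕ) : ℝ) - 1 / fr n) := by
  have hn1 : (1 : ℝ) ≤ ((n - 1 : ℕ) : ℝ) := by
    have : 1 ≤ n - 1 := by omega
    exact_mod_cast this
  have hn2 : ((n - 1 : ℕ) : ℝ) + 1 = n := by
    have : n - 1 + 1 = n := by omega
    exact_mod_cast this
  set x : ℝ := ((n - 1 : ℕ) : ℝ) with hx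
  have ha := one_le_fr hn1
  have hb := one_le_fr (show (1 : ℝ) ≤ n by linarith)
  have hab : fr x ≤ fr n := fr_le_fr (by linarith) (by linarith)
  have ha4 := fr_pow4 (show (0 : ℝ) ≤ x by linarith)
  have hb4 := fr_pow4 (show (0 : ℝ) ≤ (n : ℝ) by linarith)
  set a := fr x with ha'
  set b := fr (n : ℝ) with hb'
  have ha0 : 0 < a := by linarith
  have hb0 : 0 < b := by linarith
  have hdiff : (b - a) * (b ^ 3 + b ^ 2 * a + b * a ^ 2 + a ^ 3) = 1 := by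
    have : (b - a) * (b ^ 3 + b ^ 2 * a + b * a ^ 2 + a ^ 3) = b ^ 4 - a ^ 4 := by ring
    rw [this, ha4, hb4]
    linarith
  have hba : 0 ≤ b - a := by linarith
  have h1 : 1 ≤ (b - a) * (4 * b ^ 3) := by
    rw [← hdiff]
    apply mul_le_mul_of_nonneg_left _ hba
    have h2 : a ^ 3 ≤ b ^ 3 := pow_le_pow_left₀ ha0.le hab 3
    have h3 : b ^ 2 * a ≤ b ^ 2 * b := by gcongr
    have h4 : b * a ^ 2 ≤ b * b ^ 2 := by gcongr
    nlinarith
  have hnb : (n : ℝ) = b ^ 4 := hb4.symm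
  rw [hnb]
  have key : 1 / (b ^ 4 * b) ≤ 4 * (1 / a - 1 / b) := by
    have h5 : 4 * (1 / a - 1 / b) = 4 * (b - a) / (a * b) := by field_simp
    rw [h5, div_le_div_iff₀ (by positivity) (by positivity)]
    calc 1 * (a * b) ≤ 1 * (b * b) := by gcongr
      _ = 1 * b * b := by ring
      _ ≤ ((b - a) * (4 * b ^ 3)) * b * b := by gcongr
      _ = 4 * (b - a) * (b ^ 4 * b) := by ring
  exact key

lemma sum_weight_le (x : ℕ) : ∑ n ∈ Finset.Ioc 1 x, (1 : ℝ) / (n * fr n) ≤ 4 := by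
  have key : ∀ x : ℕ, 1 ≤ x → ∑ n ∈ Finset.Ioc 1 x, (1 : ℝ) / (n * fr n) ≤ 4 * (1 - 1 / fr x) := by
    intro x hx
    induction x, hx using Nat.le_induction with
    | base => simp [fr_one]
    | succ m hm ih =>
      rw [Finset.sum_Ioc_succ_top (by omega)]
      have h1 := step_telescope (n := m + 1) (by omega)
      simp only [Nat.add_sub_cancel] at h1
      linarith
  rcases Nat.eq_zero_or_pos x with rfl | hx
  · simp
  · have h1 := key x hx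
    have h2 : 0 ≤ 1 / fr (x : ℝ) := by
      have : (0 : ℝ) ≤ x := Nat.cast_nonneg _
      have := fr_nonneg this
      positivity
    linarith

/-- Mean value for multiplicative weights. -/
theorem Wt_mean {G : ℕ → ℝ} {c : ℝ} (hc : 0 ≤ c) (hG1 : ∀ p : ℕ, p.Prime → 1 ≤ G p)
    (hG2 : ∀ p : ℕ, p.Prime → G p ≤ 1 + c / fr p) (x : ℕ) :
    ∑ n ∈ Finset.Ioc 0 x, Wt G n ≤ x * Real.exp (4 * c) := by
  classical
  set P := (Finset.range (x + 1)).filter Nat.Prime with hP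
  have hPp : ∀ p ∈ P, p.Prime := fun p hp => (Finset.mem_filter.mp hp).2
  have h1 := sum_prod_le P hPp G (fun p hp => hG1 p (hPp p hp)) x
  have h2 : ∀ n ∈ Finset.Ioc 0 x, ∏ p ∈ P, (if p ∣ n then G p else 1) = Wt G n := by
    intro n hn
    obtain ⟨hn0, hnx⟩ := Finset.mem_Ioc.mp hn
    unfold Wt
    rw [Finset.prod_ite, Finset.prod_const_one, mul_one]
    apply Finset.prod_congr _ (fun _ _ => rfl)
    ext p
    simp only [hP, Finset.mem_filter, Finset.mem_range, Nat.mem_primeFactors]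
    constructor
    · rintro ⟨⟨_, hp⟩, hd⟩
      exact ⟨hp, hd, hn0.ne'⟩
    · rintro ⟨hp, hd, _⟩
      have := Nat.le_of_dvd hn0 hd
      exact ⟨⟨by omega, hp⟩, hd⟩
  rw [Finset.sum_congr rfl h2] at h1
  refine h1.trans ?_
  apply mul_le_mul_of_nonneg_left _ (Nat.cast_nonneg _)
  have h3 : ∀ p ∈ P, 1 + (G p - 1) / p ≤ Real.exp (c * (1 / (p * fr p))) := by
    intro p hp
    have hpp := hPp p hp
    have hp' : (0 : ℝ) < p := by exact_mod_cast hpp.pos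
    have h4 := hG2 p hpp
    have h5 : (G p - 1) / p ≤ c * (1 / (p * fr p)) := by
      have h6 : c * (1 / (p * fr p)) = (c / fr p) / p := by
        have := fr_pos hp'
        field_simp
      rw [h6]
      apply div_le_div_of_nonneg_right _ hp'.le
      linarith
    have := Real.add_one_le_exp (c * (1 / (p * fr p)))
    linarith
  have h0 : ∀ p ∈ P, 0 ≤ 1 + (G p - 1) / p := by
    intro p hp
    have hpp := hPp p hp
    have hp' : (0 : ℝ) < p := by exact_mod_cast hpp.pos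
    have h4 := hG1 p hpp
    have : 0 ≤ (G p - 1) / p := div_nonneg (by linarith) hp'.le
    linarith
  refine (Finset.prod_le_prod h0 h3).trans ?_
  rw [← Real.exp_sum]
  apply Real.exp_le_exp.mpr
  rw [← Finset.mul_sum]
  have h6 : ∑ p ∈ P, (1 : ℝ) / (p * fr p) ≤ 4 := by
    refine le_trans ?_ (sum_weight_le x)
    apply Finset.sum_le_sum_of_subset_of_nonneg
    · intro p hp
      obtain ⟨h7, h8⟩ := Finset.mem_filter.mp hp
      have := h8.two_le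
      have h9 := Finset.mem_range.mp h7
      exact Finset.mem_Ioc.mpr ⟨by omega, by omega⟩
    · intro n _ _
      have : (0 : ℝ) ≤ n := Nat.cast_nonneg _
      have := fr_nonneg this
      positivity
  calc c * _ ≤ c * 4 := by gcongr
    _ = 4 * c := by ring

/-- Mean value on real intervals. -/
lemma Wt_mean_real {G : ℕ → ℝ} {c : ℝ} (hc : 0 ≤ c) (hG1 : ∀ p : ℕ, p.Prime → 1 ≤ G p)
    (hG2 : ∀ p : ℕ, p.Prime → G p ≤ 1 + c / fr p) {y : ℝ} (hy : 0 ≤ y) {S : Finset ℕ}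
    (hS : ∀ n ∈ S, 0 < n ∧ (n : ℝ) ≤ y) :
    ∑ n ∈ S, Wt G n ≤ y * Real.exp (4 * c) := by
  have h1 : S ⊆ Finset.Ioc 0 ⌊y⌋₊ := by
    intro n hn
    obtain ⟨h2, h3⟩ := hS n hn
    exact Finset.mem_Ioc.mpr ⟨h2, Nat.le_floor h3⟩
  have h2 := Wt_mean hc hG1 hG2 ⌊y⌋₊
  have h3 : ∑ n ∈ S, Wt G n ≤ ∑ n ∈ Finset.Ioc 0 ⌊y⌋₊, Wt G n :=
    Finset.sum_le_sum_of_subset_of_nonneg h1 (fun n _ _ => (Wt_pos hG1 n).le)
  have h4 : (⌊y⌋₊ : ℝ) ≤ y := Nat.floor_le hy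
  calc _ ≤ _ := h3
    _ ≤ _ := h2
    _ ≤ _ := by gcongr

end Vale.Agent.P028
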